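import Crest.Agent.R309.RamD

/-!
# Row 309: RamP
Las Vegas analysis of a program working in rounds.  `W = 2 ^ w`, `p = avgN W [G U ≠ none] ≥ 1/2`.
For a configuration `c` and a horizon `T` put `q T c E = avgL W T fun us => ind (E (step^[T] c))` with the stream `i ↦ us.getD (i - c.drawn) 0`;
`probAfter P w x T E = q T (init ..) E` (tables `Fin T → Fin W` versus tapes).  For `St c`, conditioning on the first word `U` (round length `T_U`,
result `c_U`): for `T ≥ T_U` the inner average is `ind (E c_U)` if `G U = some y` (halted configurations are fixed) and `q (T - T_U) c_U E` if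
`G U = none` (at most `T - T_U` further words are read: a run of `T'` steps only depends on the `T'` words from position `drawn`); for `T < T_U` and
`G U = none` the run is not halted.
* time: by strong induction on `H`: `∑_{T < H} q T c (¬ halted) ≤ 2 * avgN W τ` for all `St c` (`a ≤ avg τ + (1 - p) * 2 avg τ`).
* outputs: strong induction on `T`.
* law: `q T c (halted ∧ output = y) ≤ g y / p` by strong induction, and `≥ g y * (1 + (1-p) + … + (1-p)^(j-1))` for `T ≥ j * max τ`; `ciSup`.
-/

set_option autoImplicit false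

noncomputable section

namespace Crest.Agent.R309

open Finset Crest.WordRAM Crest.Agent.Lib.PolyTime

/-- the stream reading the tape `us` from position `d` on -/
def rpStrm (d : ℕ) (us : List ℕ) : ℕ → ℕ := fun i => us.getD (i - d) 0

theorem rp_step_halted {P : Program} {w : ℕ} (ρ : ℕ → ℕ) {c : Cfg P.numRegs} (h : c.halted = true) :
    step P w ρ c = c := by
  unfold step
  rw [if_pos h]

theorem rp_iter_halted {P : Program} {w : ℕ} (ρ : ℕ → ℕ) {c : Cfg P.numRegs} (h : c.halted = true)
    (T : ℕ) : (step P w ρ)^[T] c = c :=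
  Function.iterate_fixed (rp_step_halted ρ h) T

theorem rp_step_congr {P : Program} {w : ℕ} {ρ ρ' : ℕ → ℕ} {c : Cfg P.numRegs}
    (h : ρ c.drawn = ρ' c.drawn) : step P w ρ c = step P w ρ' c := by
  unfold step
  rw [h]

theorem rp_step_cases (P : Program) (w : ℕ) (c : Cfg P.numRegs) :
    (∃ c₁ : Cfg P.numRegs, c₁.drawn = c.drawn ∧ ∀ ρ, step P w ρ c = c₁) ∨
      ∀ ρ, (step P w ρ c).drawn = c.drawn + 1 := by
  by_cases hh : c.halted = true
  · exact Or.inl ⟨c, rfl, fun ρ => rp_step_halted ρ hh⟩
  · rcases hi : P.code[c.pc]? with _ | i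
    · refine Or.inl ⟨step P w (fun _ => 0) c, ?_, fun ρ => ?_⟩ <;> simp [step, hh, hi]
    · cases i
      case rand d => exact Or.inr fun ρ => by simp [step, hh, hi]
      all_goals
        refine Or.inl ⟨step P w (fun _ => 0) c, ?_, fun ρ => ?_⟩ <;> simp [step, hh, hi]

theorem rp_drawn_le {P : Program} {w : ℕ} (ρ : ℕ → ℕ) (c : Cfg P.numRegs) :
    c.drawn ≤ (step P w ρ c).drawn := by
  rcases rp_step_cases P w c with ⟨c₁, h1, h2⟩ | h
  · rw [h2, h1]
  · rw [h]; omega

theorem rp_iter_congr {P : Program} {w : ℕ} {ρ ρ' : ℕ → ℕ} (T : ℕ) :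
    ∀ c : Cfg P.numRegs, (∀ i, c.drawn ≤ i → ρ i = ρ' i) →
      (step P w ρ)^[T] c = (step P w ρ')^[T] c := by
  induction T with
  | zero => intro c _; rfl
  | succ T ih =>
    intro c h
    rw [Function.iterate_succ_apply, Function.iterate_succ_apply,
      ← rp_step_congr (h _ le_rfl)]
    exact ih _ fun i hi => h i ((rp_drawn_le ρ c).trans hi)

theorem rpStrm_cons_self (d u : ℕ) (us : List ℕ) : rpStrm d (u :: us) d = u := by
  simp [rpStrm]

theorem rpStrm_cons (d u : ℕ) (us : List ℕ) (i : ℕ) (hi : d + 1 ≤ i) :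
    rpStrm d (u :: us) i = rpStrm (d + 1) us i := by
  unfold rpStrm
  rw [show i - d = (i - (d + 1)) + 1 by omega, List.getD_cons_succ]

/-- probability of `E` after `T` steps from `c` -/
def rpQ (P : Program) (w : ℕ) (E : Cfg P.numRegs → Prop) : ℕ → Cfg P.numRegs → ℝ
  | 0, c => ind (E c)
  | T + 1, c => avgN (2 ^ w) fun U => rpQ P w E T (step P w (fun _ => U) c)

theorem rp_avgL_eq {P : Program} {w : ℕ} (E : Cfg P.numRegs → Prop) (T : ℕ) :
    ∀ (n : ℕ) (c : Cfg P.numRegs), T ≤ n →
      (avgL (2 ^ w) n fun us => ind (E ((step P w (rpStrm c.drawn us))^[T] c))) = rpQ P w E T c := by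
  have hW : 0 < 2 ^ w := by positivity
  induction T with
  | zero => intro n c _; exact avgL_const hW n (ind (E c))
  | succ T ih =>
    intro n c hn
    simp only [Function.iterate_succ_apply, rpQ]
    rcases rp_step_cases P w c with ⟨c₁, h1, h2⟩ | h
    · simp only [h2]
      rw [avgN_const hW, ← h1]
      exact ih n c₁ (by omega)
    · obtain ⟨n, rfl⟩ : ∃ m, n = m + 1 := ⟨n - 1, by omega⟩
      show (avgN (2 ^ w) fun u => avgL (2 ^ w) n fun us => _) = _
      refine avgN_congr fun u _ => ?_
      rw [← ih n _ (by omega)]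
      refine avgL_congr fun us _ => ?_
      have e : step P w (rpStrm c.drawn (u :: us)) c = step P w (fun _ => u) c :=
        rp_step_congr (rpStrm_cons_self _ _ _)
      beta_reduce
      rw [e, h]
      congr 2
      exact rp_iter_congr T _ fun i hi => rpStrm_cons _ _ _ _ (by rwa [h] at hi)

theorem rp_sum_tab (W T : ℕ) : ∀ g : List ℕ → ℝ,
    (∑ tab : Fin T → Fin W, g (List.ofFn fun i => (tab i : ℕ))) / (W : ℝ) ^ T = avgL W T g := by
  induction T with
  | zero => intro g; simp [avgL]
  | succ T ih =>
    intro g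
    rw [← (Fin.consEquiv fun _ : Fin (T + 1) => Fin W).sum_comp, Fintype.sum_prod_type]
    simp only [avgL, avgN, ← ih]
    rw [← Fin.sum_univ_eq_sum_range (fun u => (∑ tab : Fin T → Fin W,
      g (u :: List.ofFn fun i => (tab i : ℕ))) / (W : ℝ) ^ T), ← sum_div, div_div, pow_succ]
    congr 1
    refine sum_congr rfl fun u _ => sum_congr rfl fun tab _ => ?_
    simp [Fin.consEquiv, List.ofFn_succ]

theorem rp_probAfter (P : Program) (w : ℕ) (x : List ℕ) (T : ℕ) (E : Cfg P.numRegs → Prop) :
    probAfter P w x T E = rpQ P w E T (init P w x) := by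
  rw [← rp_avgL_eq E T T _ le_rfl, ← rp_sum_tab]
  unfold probAfter Crest.FinProb.uniformProb
  rw [Fintype.card_fun, Fintype.card_fin, Fintype.card_fin, Nat.cast_pow, card_filter]
  congr 1
  rw [Nat.cast_sum]
  refine sum_congr rfl fun tab _ => ?_
  have e : rpStrm (init P w x).drawn (List.ofFn fun i => (tab i : ℕ)) = streamOf tab := by
    funext i
    show (List.ofFn fun i => (tab i : ℕ)).getD (i - 0) 0 = _
    unfold streamOf
    rw [Nat.sub_zero, List.getD_eq_getElem?_getD, List.getElem?_ofFn]
    split_ifs <;> rfl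
  rw [e]
  by_cases hE : E (run P w (streamOf tab) x T)
  · rw [if_pos (by exact hE), ind_of (by exact hE), Nat.cast_one]
  · rw [if_neg (by exact hE), ind_of_not (by exact hE), Nat.cast_zero]

theorem rpQ_halted {P : Program} {w : ℕ} (E : Cfg P.numRegs → Prop) (T : ℕ) {c : Cfg P.numRegs}
    (h : c.halted = true) : rpQ P w E T c = ind (E c) := by
  induction T with
  | zero => rfl
  | succ T ih =>
    simp only [rpQ, rp_step_halted _ h, ih]
    exact avgN_const (by positivity) _

theorem rpQ_nonneg {P : Program} {w : ℕ} (E : Cfg P.numRegs → Prop) (T : ℕ) (c : Cfg P.numRegs) :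
    0 ≤ rpQ P w E T c := by
  rw [← rp_avgL_eq E T T c le_rfl, ← avgL_const (N := 2 ^ w) (by positivity) T 0]
  exact avgL_mono fun _ _ => ind_nonneg _

/-- the conditional probability given the first word -/
def rpI (P : Program) (w : ℕ) (E : Cfg P.numRegs → Prop) (T : ℕ) (c : Cfg P.numRegs) (U : ℕ) : ℝ :=
  avgL (2 ^ w) T fun us => ind (E ((step P w (rpStrm c.drawn (U :: us)))^[T] c))

theorem rpQ_eq_avg {P : Program} {w : ℕ} (E : Cfg P.numRegs → Prop) (T : ℕ) (c : Cfg P.numRegs) :
    rpQ P w E T c = avgN (2 ^ w) (rpI P w E T c) := by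
  rw [← rp_avgL_eq E T (T + 1) c (by omega)]
  rfl

theorem rpI_le_one {P : Program} {w : ℕ} (E : Cfg P.numRegs → Prop) (T : ℕ) (c : Cfg P.numRegs)
    (U : ℕ) : rpI P w E T c U ≤ 1 := by
  rw [← avgL_const (N := 2 ^ w) (by positivity) T 1]
  exact avgL_mono fun _ _ => ind_le_one _

theorem rpI_of_le {P : Program} {w : ℕ} (E : Cfg P.numRegs → Prop) {T T' U : ℕ}
    {c c' : Cfg P.numRegs} (hU : U < 2 ^ w)
    (hc : ∀ ρ : ℕ → ℕ, ρ c.drawn % 2 ^ w = U → (step P w ρ)^[T'] c = c')
    (hd : c'.drawn = c.drawn + 1) (hT : T' ≤ T) : rpI P w E T c U = rpQ P w E (T - T') c' := by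
  rw [← rp_avgL_eq E (T - T') T c' (by omega)]
  refine avgL_congr fun us _ => ?_
  congr 2
  conv_lhs => rw [show T = (T - T') + T' by omega, Function.iterate_add_apply]
  rw [hc _ (by rw [rpStrm_cons_self, Nat.mod_eq_of_lt hU]), hd]
  exact rp_iter_congr _ _ fun i hi => rpStrm_cons _ _ _ _ (by rwa [hd] at hi)

theorem rp_early {P : Program} {w : ℕ} {ρ : ℕ → ℕ} {T T' : ℕ} {c c' : Cfg P.numRegs}
    (hc : (step P w ρ)^[T'] c = c') (hT : T ≤ T') (hh : ((step P w ρ)^[T] c).halted = true) :
    (step P w ρ)^[T] c = c' := by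
  rw [← hc, show T' = (T' - T) + T by omega, Function.iterate_add_apply, rp_iter_halted _ hh]

theorem rp_avg_none {W : ℕ} (hW : 0 < W) (G : ℕ → Option (List ℕ)) :
    (avgN W fun U => ind (G U = none)) = 1 - avgN W fun U => ind (G U ≠ none) := by
  have h : (avgN W fun U => ind (G U = none) + ind (G U ≠ none)) = 1 := by
    rw [← avgN_const hW 1]
    exact avgN_congr fun U _ => by rw [Ne, ind_not]; ring
  rw [avgN_add] at h
  linarith

theorem Rounds.time {P : Program} {w : ℕ} {x : List ℕ} {G : ℕ → Option (List ℕ)} {τ : ℕ → ℕ}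
    (h : Rounds P w x G τ) (hp : 1 / 2 ≤ avgN (2 ^ w) fun U => ind (G U ≠ none)) :
    expectedTime P w x ≤ ENNReal.ofReal (2 * avgN (2 ^ w) fun U => (τ U : ℝ)) := by
  obtain ⟨St, h0, hSt⟩ := h
  have hW : 0 < 2 ^ w := by positivity
  set A := avgN (2 ^ w) fun U => (τ U : ℝ) with hA
  have hA0 : 0 ≤ A := by
    rw [hA, ← avgN_const hW 0]
    exact avgN_mono fun _ _ => Nat.cast_nonneg _
  have key : ∀ H : ℕ, ∀ c, St c →
      ∑ T ∈ range H, rpQ P w (fun c => c.halted = false) T c ≤ 2 * A := by
    intro H
    induction H using Nat.strong_induction_on with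
    | _ H ih =>
      intro c hc
      simp only [rpQ_eq_avg _ _ c]
      rw [← avgN_sum]
      have hb : ∀ U < 2 ^ w, ∑ T ∈ range H, rpI P w (fun c => c.halted = false) T c U ≤
          (τ U : ℝ) + 2 * A * ind (G U = none) := by
        intro U hU
        obtain ⟨T', hT1, hT2, c', hc', hd, hn, hs⟩ := (hSt c hc).2 U hU
        have hτ : (T' : ℝ) ≤ τ U := by exact_mod_cast hT2
        have hi : 0 ≤ 2 * A * ind (G U = none) := mul_nonneg (by positivity) (ind_nonneg _)
        have h1 : ∀ K : ℕ, ∑ T ∈ range K, rpI P w (fun c => c.halted = false) T c U ≤ K := by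
          intro K
          refine (sum_le_sum fun T _ => rpI_le_one _ T c U).trans ?_
          simp
        rcases le_or_gt H T' with hH | hH
        · have : (H : ℝ) ≤ T' := by exact_mod_cast hH
          linarith [h1 H]
        · obtain ⟨K, rfl⟩ : ∃ K, H = T' + K := ⟨H - T', by omega⟩
          rw [sum_range_add]
          have h2 : ∑ T ∈ range K, rpI P w (fun c => c.halted = false) (T' + T) c U =
              ∑ T ∈ range K, rpQ P w (fun c => c.halted = false) T c' :=
            sum_congr rfl fun T _ => by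
              rw [rpI_of_le _ hU hc' hd (Nat.le_add_right _ _), Nat.add_sub_cancel_left]
          rw [h2]
          have h3 : ∑ T ∈ range K, rpQ P w (fun c => c.halted = false) T c' ≤
              2 * A * ind (G U = none) := by
            rcases hG : G U with _ | y
            · rw [ind_of rfl, mul_one]
              exact ih K (by omega) c' (hn hG)
            · have hh := (hs y hG).1
              rw [sum_eq_zero fun T _ => by rw [rpQ_halted _ _ hh, ind_of_not (by simp [hh])]]
              exact mul_nonneg (by positivity) (ind_nonneg _)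
          linarith [h1 T']
      refine (avgN_mono hb).trans ?_
      rw [avgN_add, avgN_mul_left, rp_avg_none hW, ← hA]
      nlinarith
  unfold expectedTime
  rw [ENNReal.tsum_eq_iSup_nat]
  refine iSup_le fun H => ?_
  simp only [rp_probAfter]
  rw [← ENNReal.ofReal_sum_of_nonneg fun T _ => rpQ_nonneg _ _ _]
  exact ENNReal.ofReal_le_ofReal (key H _ h0)

theorem Rounds.out {P : Program} {w : ℕ} {x : List ℕ} {G : ℕ → Option (List ℕ)} {τ : ℕ → ℕ}
    (h : Rounds P w x G τ) (ρ : ℕ → ℕ) (T : ℕ) (out : List ℕ) (ho : HaltsWithin P w ρ x T out) :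
    ∃ U < 2 ^ w, G U = some out := by
  obtain ⟨St, h0, hSt⟩ := h
  have key : ∀ T : ℕ, ∀ c, St c → ((step P w ρ)^[T] c).halted = true →
      ∃ U < 2 ^ w, G U = some ((step P w ρ)^[T] c).output := by
    intro T
    induction T using Nat.strong_induction_on with
    | _ T ih =>
      intro c hc hh
      have hU : ρ c.drawn % 2 ^ w < 2 ^ w := Nat.mod_lt _ (by positivity)
      obtain ⟨T', hT1, -, c', hc', -, hn, hs⟩ := (hSt c hc).2 _ hU
      have hc'' := hc' ρ rfl
      rcases le_or_gt T T' with hT | hT
      · have e := rp_early hc'' hT hh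
        rw [e] at hh ⊢
        rcases hG : G (ρ c.drawn % 2 ^ w) with _ | y
        · rw [(hSt c' (hn hG)).1] at hh
          exact absurd hh (by simp)
        · exact ⟨_, hU, by rw [hG, (hs y hG).2]⟩
      · have e : (step P w ρ)^[T] c = (step P w ρ)^[T - T'] c' := by
          conv_lhs => rw [show T = (T - T') + T' by omega, Function.iterate_add_apply, hc'']
        rw [e] at hh ⊢
        rcases hG : G (ρ c.drawn % 2 ^ w) with _ | y
        · exact ih _ (by omega) c' (hn hG) hh
        · exact ⟨_, hU, by rw [hG, rp_iter_halted _ (hs y hG).1, (hs y hG).2]⟩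
  obtain ⟨h1, h2⟩ := ho
  rw [← h2]
  exact key T _ h0 h1

theorem Rounds.law {P : Program} {w : ℕ} {x : List ℕ} {G : ℕ → Option (List ℕ)} {τ : ℕ → ℕ}
    (h : Rounds P w x G τ) (hp : 1 / 2 ≤ avgN (2 ^ w) fun U => ind (G U ≠ none)) (y : List ℕ) :
    probHaltsWith P w x (fun out => out = y) =
      (avgN (2 ^ w) fun U => ind (G U = some y)) / avgN (2 ^ w) fun U => ind (G U ≠ none) := by
  obtain ⟨St, h0, hSt⟩ := h
  have hW : 0 < 2 ^ w := by positivity
  set p := avgN (2 ^ w) fun U => ind (G U ≠ none) with hpd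
  set g := avgN (2 ^ w) fun U => ind (G U = some y) with hg
  have hp0 : 0 < p := by linarith
  have hp1 : p ≤ 1 := by
    rw [hpd, ← avgN_const hW 1]
    exact avgN_mono fun _ _ => ind_le_one _
  have hg0 : 0 ≤ g := by
    rw [hg, ← avgN_const hW 0]
    exact avgN_mono fun _ _ => ind_nonneg _
  set E : Cfg P.numRegs → Prop := fun c => c.halted = true ∧ c.output = y with hE
  have havg : ∀ a : ℝ, (avgN (2 ^ w) fun U => ind (G U = some y) + a * ind (G U = none)) =
      g + a * (1 - p) := fun a => by
    rw [avgN_add, avgN_mul_left, rp_avg_none hW]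
  have hsome : ∀ {U : ℕ} {c' : Cfg P.numRegs} {y' : List ℕ}, G U = some y' →
      (c'.halted = true ∧ c'.output = y') → ∀ (T : ℕ) (a : ℝ),
      rpQ P w E T c' = ind (G U = some y) + a * ind (G U = none) := by
    intro U c' y' hG hc T a
    rw [rpQ_halted _ _ hc.1, hG, ind_of_not (p := some y' = none) (by simp), mul_zero, add_zero]
    congr 1
    simp [hE, hc.1, hc.2]
  have up : ∀ T : ℕ, ∀ c, St c → rpQ P w E T c ≤ g / p := by
    intro T
    induction T using Nat.strong_induction_on with
    | _ T ih =>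
      intro c hc
      rw [rpQ_eq_avg]
      have hb : ∀ U < 2 ^ w, rpI P w E T c U ≤ ind (G U = some y) + g / p * ind (G U = none) := by
        intro U hU
        obtain ⟨T', hT1, -, c', hc', hd, hn, hs⟩ := (hSt c hc).2 U hU
        rcases le_or_gt T' T with hT | hT
        · rw [rpI_of_le _ hU hc' hd hT]
          rcases hG : G U with _ | y'
          · rw [ind_of (rfl : (none : Option (List ℕ)) = none), mul_one]
            linarith [ih (T - T') (by omega) c' (hn hG), ind_nonneg (none = some y)]
          · rw [hsome hG (hs y' hG) _ (g / p), hG]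
        · have h1 : rpI P w E T c U ≤ ind (G U = some y) := by
            rw [← avgL_const hW T (ind (G U = some y))]
            refine avgL_mono fun us _ => ind_mono fun hh => ?_
            have e := rp_early (hc' (rpStrm c.drawn (U :: us))
              (by rw [rpStrm_cons_self, Nat.mod_eq_of_lt hU])) hT.le hh.1
            rw [e] at hh
            rcases hG : G U with _ | y'
            · have := (hSt c' (hn hG)).1
              rw [hh.1] at this
              exact absurd this (by simp)
            · rw [← (hs y' hG).2, hh.2]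
          have h2 : 0 ≤ g / p * ind (G U = none) := mul_nonneg (by positivity) (ind_nonneg _)
          linarith
      refine (avgN_mono hb).trans (le_of_eq ?_)
      rw [havg]
      field_simp
      ring
  set M := (range (2 ^ w)).sup τ with hM
  have low : ∀ j : ℕ, ∀ T : ℕ, j * M ≤ T → ∀ c, St c →
      g / p * (1 - (1 - p) ^ j) ≤ rpQ P w E T c := by
    intro j
    induction j with
    | zero => intro T _ c _; simpa using rpQ_nonneg E T c
    | succ j ih =>
      intro T hT c hc
      rw [rpQ_eq_avg]
      have hb : ∀ U < 2 ^ w, ind (G U = some y) + g / p * (1 - (1 - p) ^ j) * ind (G U = none) ≤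
          rpI P w E T c U := by
        intro U hU
        obtain ⟨T', hT1, hT2, c', hc', hd, hn, hs⟩ := (hSt c hc).2 U hU
        have hτ : τ U ≤ M := le_sup (f := τ) (mem_range.2 hU)
        rw [Nat.succ_mul] at hT
        rw [rpI_of_le _ hU hc' hd (by omega)]
        rcases hG : G U with _ | y'
        · rw [ind_of (rfl : (none : Option (List ℕ)) = none), mul_one,
            ind_of_not (p := none = some y) (by simp), zero_add]
          exact ih _ (by omega) c' (hn hG)
        · rw [hsome hG (hs y' hG) _ (g / p * (1 - (1 - p) ^ j)), hG]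
      refine le_trans (le_of_eq ?_) (avgN_mono hb)
      rw [havg]
      field_simp
      ring
  unfold probHaltsWith
  simp only [rp_probAfter]
  refine le_antisymm (ciSup_le fun T => up T _ h0) ?_
  have hbd : BddAbove (Set.range fun T => rpQ P w E T (init P w x)) :=
    ⟨g / p, by rintro _ ⟨T, rfl⟩; exact up T _ h0⟩
  have hlim : Filter.Tendsto (fun j : ℕ => g / p * (1 - (1 - p) ^ j)) Filter.atTop
      (nhds (g / p * (1 - 0))) :=
    ((tendsto_pow_atTop_nhds_zero_of_lt_one (by linarith) (by linarith)).const_sub 1).const_mul _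
  rw [sub_zero, mul_one] at hlim
  exact le_of_tendsto' hlim fun j => (low j _ le_rfl _ h0).trans (le_ciSup hbd (j * M))

end Crest.Agent.R309
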