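import Crest.Agent.R309.RamP

/-!
# Row 309: RamF
From `CT` to rounds.  Fix once and for all a `PT` decoder `dec : List Bool → List ℕ × ℕ` with `dec (listCode x ++ natCode U).reverse = (x, U)`
(`Parses.natList.seq Parses.nat`, `exists_decoder`) and `PT outCode`; their exponents (`PT.exists_CT`) do not depend on `G`.
`CT.comp` gives `CT (outCode ∘ G ∘ dec)`; `CT.esize_le` bounds the size of `G (x, U)`; unfold `CT`/`TC`, compose with `runs_inP`, `runs_outP`
(`(enc l).bits = (bitsTr l).bits` for `l : List Bool`), apply `exists_rounds`, and weaken `τ` (`Rounds` is monotone in `τ`).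
-/

set_option autoImplicit false

noncomputable section

namespace Crest.Agent.R309

open Finset Crest.WordRAM Crest.Agent.Lib.PolyTime

theorem ramF_outCode_pt : PT outCode := by
  have h : PT fun o : Option (List ℕ) => Option.casesOn (motive := fun _ => List Bool) o [false]
      (fun y => true :: y.flatMap fun a => (a.bits.reverse.flatMap fun b => [true, b]) ++ [false]) := by
    fun_prop
  exact h.of_eq fun o => by cases o <;> rfl

theorem ramF_decoder : ∃ dec : List Bool → List ℕ × ℕ, PT dec ∧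
    ∀ x U, dec (Crest.Enc.listCode x ++ Crest.Enc.natCode U).reverse = (x, U) := by
  obtain ⟨dec, h1, h2⟩ := ((Parses.natList (ι := Unit)).seq Parses.nat).exists_decoder
  refine ⟨fun s => dec s.reverse, h1.comp (PT.reverse PT.id'), fun x U => ?_⟩
  simp only [List.reverse_reverse]
  exact h2 (x, U) ⟨trivial, trivial⟩

theorem ramF_length {x : List ℕ} {w U : ℕ} (hx : ∀ a ∈ x, a < 2 ^ w) (hU : U < 2 ^ w) :
    (Crest.Enc.listCode x ++ Crest.Enc.natCode U).reverse.length ≤ 4 * ((x.length + 2) * (w + 1)) := by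
  have h1 : ((x.map Crest.Enc.natCode).flatten).length ≤ x.length * (2 * w + 2) := by
    induction x with
    | nil => simp
    | cons a x ih =>
      have := ih fun b hb => hx b (List.mem_cons_of_mem _ hb)
      have h2 := Nat.size_le.2 (hx a List.mem_cons_self)
      rw [List.map_cons, List.flatten_cons, List.length_append, length_natCode, List.length_cons]
      nlinarith
  have h2 := Nat.size_le.2 hU
  have h3 : x.length.size ≤ x.length := Nat.size_le.2 Nat.lt_two_pow_self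
  rw [List.length_reverse, List.length_append, Crest.Enc.listCode, List.length_append, length_natCode,
    length_natCode]
  nlinarith [Nat.zero_le (x.length * w)]

theorem Rounds.ramF_mono {P : Program} {w : ℕ} {x : List ℕ} {G : ℕ → Option (List ℕ)} {τ τ' : ℕ → ℕ}
    (h : Rounds P w x G τ) (hτ : ∀ U < 2 ^ w, τ U ≤ τ' U) : Rounds P w x G τ' := by
  obtain ⟨St, h0, h⟩ := h
  refine ⟨St, h0, fun c hc => ⟨(h c hc).1, fun U hU => ?_⟩⟩
  obtain ⟨T, h1, h2, h3⟩ := (h c hc).2 U hU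
  exact ⟨T, h1, h2.trans (hτ U hU), h3⟩

/-- the total time, in terms of the time `t` of `G` and the size parameter `m` -/
def ramFT (k₁ k₂ t m : ℕ) : ℕ :=
  28 * m + 3 + ((16 * m + 2) ^ k₁ + t + (16 * m + 1 + (16 * m + 2) ^ k₁ + t + 1) ^ k₂ +
    (9 * (16 * m + 1 + (16 * m + 2) ^ k₁ + t + (16 * m + 1 + (16 * m + 2) ^ k₁ + t + 1) ^ k₂) + 4))

theorem ramF_poly (k₁ k₂ : ℕ) :
    ∃ k, ∀ t m, 2 ≤ m → ramFT k₁ k₂ t m + m ≤ 2 ^ k * (t + m) ^ k := by
  have b1 : PolyIn (fun p : ℕ × ℕ => p.1 + p.2) fun p => p.1 := .of_le fun a => by omega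
  have b2 : PolyIn (fun p : ℕ × ℕ => p.1 + p.2) fun p => p.2 := .of_le fun a => by omega
  obtain ⟨k, hk⟩ : PolyIn (fun p : ℕ × ℕ => p.1 + p.2) fun p => ramFT k₁ k₂ p.1 p.2 + p.2 := by
    unfold ramFT
    poly_in
  refine ⟨k, fun t m hm => (hk (t, m)).trans ?_⟩
  rw [← mul_pow]
  exact Nat.pow_le_pow_left (by simp only; omega) k

theorem exists_ram : ∃ c : ℕ, ∀ (G : List ℕ × ℕ → Option (List ℕ)) (t : List ℕ × ℕ → ℕ), CT G t →
    ∃ (P : Program) (C : ℕ), ∀ (x : List ℕ) (w : ℕ), (∀ a ∈ x, a < 2 ^ w) →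
    (∀ U < 2 ^ w, ∀ y, G (x, U) = some y → ∀ a ∈ y, a < 2 ^ w) →
    (∀ U < 2 ^ w, C * (t (x, U) + (x.length + 2) * (w + 1)) ^ c < 2 ^ w) →
    Rounds P w x (fun U => G (x, U)) fun U => C * (t (x, U) + (x.length + 2) * (w + 1)) ^ c := by
  obtain ⟨dec, hdec, hdec'⟩ := ramF_decoder
  obtain ⟨k₁, h₁⟩ := hdec.exists_CT
  obtain ⟨k₂, h₂⟩ := ramF_outCode_pt.exists_CT
  obtain ⟨k, hk⟩ := ramF_poly k₁ k₂
  refine ⟨k, fun G t hG => ?_⟩
  obtain ⟨p, n, hp⟩ := h₂.comp (hG.comp h₁)
  obtain ⟨P, C, hP⟩ := exists_rounds (.seq inP (.seq p outP)) (max n 2)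
  refine ⟨P, C * 2 ^ k, fun x w hx hy hC => ?_⟩
  have hm : 2 ≤ (x.length + 2) * (w + 1) := by nlinarith [Nat.zero_le (x.length * w)]
  have hle : ∀ U, C * (ramFT k₁ k₂ (t (x, U)) ((x.length + 2) * (w + 1)) + (x.length + 2) * (w + 1)) ≤
      C * 2 ^ k * (t (x, U) + (x.length + 2) * (w + 1)) ^ k := fun U => by
    rw [mul_assoc]; exact Nat.mul_le_mul_left _ (hk _ _ hm)
  refine (hP x w (fun U => G (x, U)) (fun U => ramFT k₁ k₂ (t (x, U)) ((x.length + 2) * (w + 1)))
    (fun U hU => ?_) hx hy fun U hU => (hle U).trans_lt (hC U hU)).ramF_mono fun U _ => hle U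
  have hL := ramF_length hx hU
  have hd := hdec' x U
  generalize (Crest.Enc.listCode x ++ Crest.Enc.natCode U).reverse = s at hL hd
  generalize (x.length + 2) * (w + 1) = m at hL
  have r := hp s
  have e1 := h₁.esize_le s
  have e2 := hG.esize_le (x, U)
  have e3 := h₂.esize_le (G (x, U))
  have e4 := length_lt_esize (outCode (G (x, U)))
  have e0 := esize_boolList_le s
  simp only [hd] at r e1
  have a1 : (esize s + 1) ^ k₁ ≤ (16 * m + 2) ^ k₁ := Nat.pow_le_pow_left (by omega) _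
  have a2 : (esize (G (x, U)) + 1) ^ k₂ ≤ (16 * m + 1 + (16 * m + 2) ^ k₁ + t (x, U) + 1) ^ k₂ :=
    Nat.pow_le_pow_left (by omega) _
  refine (((runs_inP s).mono (le_max_right n 2) le_rfl).seq ((r.mono (le_max_left n 2) le_rfl).seq
    ((runs_outP (outCode (G (x, U)))).mono (le_max_right n 2) le_rfl))).mono le_rfl ?_
  unfold ramFT
  omega

end Crest.Agent.R309
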