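import Crest.Agent.R309.Prob

/-!
# Row 309: Exact
Exact sampling from an almost uniform sampler with a small state space.  `N = 2 ^ r a`, `T = M.T a`, `c y = #{tapes with output y}`, `∑ c y = N ^ T`.
`G (a, U)`: if `U % 2 ^ k ≠ 0` output `run (digs N T (U / 2 ^ k))`.  Otherwise (pad of length `2 ^ (B + 1 + r)`) compute the exact law of the state by dynamic
programming: a list of pairs (state, count) with distinct states; one step maps every pair and every `u < N`, then merges equal states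
(`dedup` of the keys; there are at most `2 ^ (B + 1)` values of `esize ≤ B`, since `(enc a).bits` is injective).  Truncate `range N` and the key list by the pad
length to get `PT` unconditionally (`PT.foldl_inv`; counts stay below `(pad + 1) ^ (2 τ)`..., or cap them by `min · (N ^ T)`).
From the final law get the list `ys` of outputs with their counts `c y > 0`, `cmax`; with `V = U / 2 ^ k % N ^ T` output the `y` whose interval of length
`(2 ^ k - 1) * (cmax - c y)` (cumulative sums) contains `V`, or `none`.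
All `y ∈ 𝒯` have `c y > 0` (otherwise `1 ≤ (|𝒯| - 1)(1 + 2⁻ᵏ)/|𝒯| < 1`); the intervals fit since `cmax |𝒯| ≤ (1 + 2⁻ᵏ) N ^ T`; every `y ∈ 𝒯` gets probability
`κ = (1 - 2⁻ᵏ) cmax / N ^ T` and `κ |𝒯| ≥ 1/2`.  Time: `PT.exists_CT_of_pad` with `N (a, U) = if U % 2 ^ k = 0 then 2 ^ (B + 1 + r) else 0`.
Suggested split: (1) `law` and its correctness (count of `st` = `N ^ τ * avgL N τ [runM .. = st]`), (2) `PT`, (3) the probability computation.
-/

set_option autoImplicit false

noncomputable section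

namespace Crest.Agent.R309

open Finset Crest.Agent.Lib.PolyTime

/-- a randomized machine: `T a` steps, `r a` random bits per step, states of size `≤ B a` -/
structure Mach (α σ β : Type) where
  ini : α → σ
  step : α → ℕ → σ → ℕ → σ
  out : α → σ → β
  T : α → ℕ
  r : α → ℕ
  B : α → ℕ

/-- the output on a tape -/
def Mach.run {α σ β : Type} (M : Mach α σ β) (a : α) (us : List ℕ) : β :=
  M.out a (runM (M.step a) 0 (M.ini a) us)

structure Mach.Poly {α σ β : Type} [Enc α] [Enc σ] [Enc β] (M : Mach α σ β) : Prop where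
  ini : PT M.ini
  step : PT fun p : α × ℕ × σ × ℕ => M.step p.1 p.2.1 p.2.2.1 p.2.2.2
  out : PT fun p : α × σ => M.out p.1 p.2
  T : PT M.T
  T' : PB M.T
  r : PT M.r
  r' : PB M.r
  B : PT M.B
  B' : PB M.B
  ini_le : ∀ a, esize (M.ini a) ≤ M.B a
  step_le : ∀ a τ st u, esize (M.step a τ st u) ≤ M.B a

theorem Mach.Poly.run {α σ β : Type} [Enc α] [Enc σ] [Enc β] {M : Mach α σ β} (h : M.Poly) :
    PT fun p : α × List ℕ => M.run p.1 p.2 := by
  have h1 : PT fun p : α × List ℕ => runM (M.step p.1) 0 (M.ini p.1) p.2 := by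
    unfold runM
    refine PT.foldl_inv (f := fun (p : α × List ℕ) st (q : ℕ × ℕ) => M.step p.1 q.2 st q.1)
      (fun p => M.B p.1) (fun p st => esize st ≤ M.B p.1) (by fun_prop) (h.ini.comp PT.fst')
      (h.step.comp (g := fun x : (α × List ℕ) × σ × ℕ × ℕ => (x.1.1, x.2.2.2, x.2.1, x.2.2.1))
        (by fun_prop)) (h.B'.comp PT.fst') (fun p => h.ini_le _) (fun p c x _ _ => h.step_le _ _ _ _)
      fun _ _ hc => hc
  exact h.out.comp (g := fun p : α × List ℕ => (p.1, runM (M.step p.1) 0 (M.ini p.1) p.2))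
    (PT.fst'.prodMk h1)

theorem Mach.Poly.run_digs {α σ β : Type} [Enc α] [Enc σ] [Enc β] {M : Mach α σ β} (h : M.Poly) :
    PT fun p : α × ℕ => M.run p.1 (digs (2 ^ M.r p.1) (M.T p.1) p.2) := by
  have hN : PT fun a => 2 ^ M.r a := (PT.const 2).nat_pow h.r h.r'
  have hT := h.T
  have hT' := h.T'
  have h1 : PT fun p : α × ℕ => digs (2 ^ M.r p.1) (M.T p.1) p.2 := by
    have h2 : PT fun p : α × ℕ => (List.range (M.T p.1)).map fun τ =>
        p.2 / (2 ^ M.r p.1) ^ (min τ (M.T p.1)) % 2 ^ M.r p.1 := by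
      refine PT.map (PT.range (hT.comp PT.fst') (hT'.comp PT.fst')) ?_
      have hN' : PT fun x : (α × ℕ) × ℕ => 2 ^ M.r x.1.1 := hN.comp (by fun_prop)
      have hT2 : PT fun x : (α × ℕ) × ℕ => M.T x.1.1 := hT.comp (by fun_prop)
      have hT3 : PB fun x : (α × ℕ) × ℕ => M.T x.1.1 := hT'.comp (by fun_prop)
      exact ((PT.fst'.snd).nat_div (hN'.nat_pow (PT.snd'.nat_min hT2) hT3.min_right)).nat_mod hN'
    refine h2.of_eq fun p => List.map_congr_left fun τ hτ => ?_
    rw [min_eq_left (List.mem_range.1 hτ).le]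
  exact h.run.comp (g := fun p : α × ℕ => (p.1, digs (2 ^ M.r p.1) (M.T p.1) p.2))
    (PT.fst'.prodMk h1)

namespace Exact

section Weighted

variable {σ : Type}

/-- integral against a weighted list -/
def ev (L : List (σ × ℕ)) (g : σ → ℝ) : ℝ := (L.map fun p => (p.2 : ℝ) * g p.1).sum

@[simp] theorem ev_nil (g : σ → ℝ) : ev [] g = 0 := rfl

@[simp] theorem ev_cons (p : σ × ℕ) (L : List (σ × ℕ)) (g : σ → ℝ) :
    ev (p :: L) g = p.2 * g p.1 + ev L g := by simp [ev]

theorem ev_append (L L' : List (σ × ℕ)) (g : σ → ℝ) : ev (L ++ L') g = ev L g + ev L' g := by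
  simp [ev]

theorem ev_map {β : Type} (f : σ → β) (L : List (σ × ℕ)) (g : β → ℝ) :
    ev (L.map fun p => (f p.1, p.2)) g = ev L fun s => g (f s) := by
  simp [ev, Function.comp_def]

theorem le_ev_one {L : List (σ × ℕ)} {p : σ × ℕ} (hp : p ∈ L) : (p.2 : ℝ) ≤ ev L fun _ => 1 := by
  induction L with
  | nil => simp at hp
  | cons q L ih =>
    have h0 : 0 ≤ ev L fun _ => (1 : ℝ) :=
      List.sum_nonneg fun x hx => by
        obtain ⟨y, _, rfl⟩ := List.mem_map.1 hx
        positivity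
    rcases List.mem_cons.1 hp with rfl | hp
    · rw [ev_cons]; linarith
    · have := ih hp
      have h1 : (0 : ℝ) ≤ q.2 := by positivity
      rw [ev_cons]; linarith

variable [DecidableEq σ]

/-- total weight of a key -/
def cnt (L : List (σ × ℕ)) (s : σ) : ℕ := (L.map fun p => if p.1 = s then p.2 else 0).sum

/-- the keys -/
def keys (L : List (σ × ℕ)) : List σ := (L.map Prod.fst).dedup

/-- merge equal keys -/
def merge (L : List (σ × ℕ)) : List (σ × ℕ) := (keys L).map fun s => (s, cnt L s)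

theorem cnt_eq (L : List (σ × ℕ)) (s : σ) : (cnt L s : ℝ) = ev L fun t => ind (t = s) := by
  induction L with
  | nil => simp [cnt]
  | cons p L ih =>
    rw [ev_cons, ← ih]
    by_cases h : p.1 = s
    · simp [cnt, h, ind_of]
    · rw [ind_of_not h]; simp [cnt, h]

theorem sum_cnt (K : Finset σ) (g : σ → ℝ) (L : List (σ × ℕ)) (h : ∀ p ∈ L, p.1 ∈ K) :
    ∑ s ∈ K, (cnt L s : ℝ) * g s = ev L g := by
  induction L with
  | nil => simp [cnt]
  | cons p L ih =>
    rw [ev_cons, ← ih fun q hq => h q (List.mem_cons_of_mem _ hq)]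
    have : ∀ s, (cnt (p :: L) s : ℝ) * g s =
        (if p.1 = s then (p.2 : ℝ) * g s else 0) + (cnt L s : ℝ) * g s := fun s => by
      simp only [cnt, List.map_cons, List.sum_cons]
      split_ifs <;> push_cast <;> ring
    simp only [this, Finset.sum_add_distrib, Finset.sum_ite_eq, if_pos (h p List.mem_cons_self)]

theorem nodup_keys (L : List (σ × ℕ)) : (keys L).Nodup := List.nodup_dedup _

theorem mem_keys {L : List (σ × ℕ)} {s : σ} : s ∈ keys L ↔ ∃ p ∈ L, p.1 = s := by
  simp only [keys, List.mem_dedup, List.mem_map]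

theorem ev_keys {ks : List σ} (hks : ks.Nodup) (c : σ → ℕ) (g : σ → ℝ) :
    ev (ks.map fun s => (s, c s)) g = ∑ s ∈ ks.toFinset, (c s : ℝ) * g s := by
  rw [List.sum_toFinset _ hks]
  simp [ev, Function.comp_def]

theorem ev_merge (L : List (σ × ℕ)) (g : σ → ℝ) : ev (merge L) g = ev L g := by
  rw [merge, ev_keys (nodup_keys L), sum_cnt]
  exact fun p hp => List.mem_toFinset.2 (mem_keys.2 ⟨p, hp, rfl⟩)

theorem mem_keys_of_cnt {L : List (σ × ℕ)} {s : σ} (h : cnt L s ≠ 0) : s ∈ keys L := by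
  by_contra hs
  apply h
  refine List.sum_eq_zero fun x hx => ?_
  obtain ⟨p, hp, rfl⟩ := List.mem_map.1 hx
  exact if_neg fun e => hs (mem_keys.2 ⟨p, hp, e⟩)

theorem PT_cnt {α : Type} [Enc α] [Enc σ] {L : α → List (σ × ℕ)} {s : α → σ} (hL : PT L)
    (hs : PT s) : PT fun a => cnt (L a) (s a) := by
  unfold cnt
  refine PT.nat_sum (PT.map hL ?_)
  exact PT.ite (PT.eq PT.snd'.fst (hs.comp PT.fst')) PT.snd'.snd (PT.const 0)

theorem PT_keys {α : Type} [Enc α] [Enc σ] {L : α → List (σ × ℕ)} (hL : PT L) :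
    PT fun a => keys (L a) := by
  unfold keys
  exact PT.dedup (PT.map (f := fun _ p => p.1) hL PT.snd'.fst)

theorem PT_merge {α : Type} [Enc α] [Enc σ] {L : α → List (σ × ℕ)} (hL : PT L) :
    PT fun a => merge (L a) := by
  unfold merge
  exact PT.map (PT_keys hL) (PT.snd'.prodMk (PT_cnt (hL.comp PT.fst') PT.snd'))

/-- one step of all states with all random numbers -/
def expand (N : ℕ) (f : σ → ℕ → σ) (L : List (σ × ℕ)) : List (σ × ℕ) :=
  L.flatMap fun p => (List.range N).map fun u => (f p.1 u, p.2)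

omit [DecidableEq σ] in
theorem ev_expand {N : ℕ} (hN : 0 < N) (f : σ → ℕ → σ) (L : List (σ × ℕ)) (g : σ → ℝ) :
    ev (expand N f L) g = N * ev L fun s => avgN N fun u => g (f s u) := by
  induction L with
  | nil => simp [expand]
  | cons p L ih =>
    rw [expand, List.flatMap_cons, ev_append, ← expand, ih, ev_cons, mul_add]
    congr 1
    have hN' : (N : ℝ) ≠ 0 := by positivity
    rw [avgN, ev, List.map_map, ← PT.sum_range_eq]
    simp only [Function.comp_def, ← Finset.mul_sum]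
    field_simp

/-- the exact law of the state after `τ` steps -/
def law (N : ℕ) (step : ℕ → σ → ℕ → σ) (ini : σ) : ℕ → List (σ × ℕ)
  | 0 => [(ini, 1)]
  | τ + 1 => merge (expand N (step τ) (law N step ini τ))

omit [DecidableEq σ] in
theorem runM_concat (step : ℕ → σ → ℕ → σ) (ini : σ) (us : List ℕ) (u : ℕ) :
    runM step 0 ini (us ++ [u]) = step us.length (runM step 0 ini us) u := by
  rw [runM_append, runM_cons, runM_nil, zero_add]

theorem ev_law {N : ℕ} (hN : 0 < N) (step : ℕ → σ → ℕ → σ) (ini : σ) (τ : ℕ) : ∀ g : σ → ℝ,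
    ev (law N step ini τ) g = N ^ τ * avgL N τ fun us => g (runM step 0 ini us) := by
  induction τ with
  | zero => intro g; simp [law, avgL, runM_nil]
  | succ τ ih =>
    intro g
    rw [law, ev_merge, ev_expand hN, ih, avgL_append, pow_succ', mul_assoc]
    congr 2
    refine avgL_congr fun us hus => ?_
    rw [avgL_one]
    simp only [runM_concat, hus.1]

theorem law_reach {N : ℕ} (step : ℕ → σ → ℕ → σ) (ini : σ) (τ : ℕ) :
    ∀ p ∈ law N step ini τ, ∃ us, Tape N τ us ∧ p.1 = runM step 0 ini us := by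
  induction τ with
  | zero =>
    intro p hp
    obtain rfl : p = (ini, 1) := by simpa [law] using hp
    exact ⟨[], ⟨rfl, by simp⟩, rfl⟩
  | succ τ ih =>
    intro p hp
    obtain ⟨s, hs, rfl⟩ := List.mem_map.1 hp
    obtain ⟨q, hq, rfl⟩ := mem_keys.1 hs
    obtain ⟨q', hq', hq⟩ := List.mem_flatMap.1 hq
    obtain ⟨u, hu, rfl⟩ := List.mem_map.1 hq
    obtain ⟨us, hus, e⟩ := ih q' hq'
    refine ⟨us ++ [u], ⟨by simp [hus.1], fun v hv => ?_⟩, ?_⟩
    · rcases List.mem_append.1 hv with hv | hv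
      · exact hus.2 v hv
      · rw [List.mem_singleton.1 hv]; exact List.mem_range.1 hu
    · rw [runM_concat, hus.1, ← e]

theorem law_nodup (N : ℕ) (step : ℕ → σ → ℕ → σ) (ini : σ) (τ : ℕ) :
    ((law N step ini τ).map Prod.fst).Nodup := by
  cases τ with
  | zero => simp [law]
  | succ τ =>
    rw [law, merge, List.map_map]
    simpa [Function.comp_def] using nodup_keys _

theorem law_le {N : ℕ} (hN : 0 < N) (step : ℕ → σ → ℕ → σ) (ini : σ) (τ : ℕ) :
    ∀ p ∈ law N step ini τ, p.2 ≤ N ^ τ := by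
  intro p hp
  have := le_ev_one hp
  rw [ev_law hN, avgL_const hN, mul_one] at this
  exact_mod_cast this

theorem length_le_two_pow [Enc σ] {l : List σ} (hl : l.Nodup) {B : ℕ} (h : ∀ s ∈ l, esize s ≤ B) :
    l.length ≤ 2 ^ B := by
  rw [← List.toFinset_card_of_nodup hl]
  have hc : ((Finset.univ : Finset (List.Vector Bool B)).image List.Vector.toList).card = 2 ^ B := by
    rw [Finset.card_image_of_injective _ List.Vector.toList_injective, Finset.card_univ, card_vector,
      Fintype.card_bool]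
  rw [← hc]
  refine Finset.card_le_card_of_injOn
    (fun s => (enc s).bits ++ List.replicate (B - esize s) false) (fun s hs => ?_)
    fun s _ t _ e => Enc.inj (Tr.bits_append_inj _ _ _ _ e).1
  have := h s (List.mem_toFinset.1 hs)
  have e : ((enc s).bits ++ List.replicate (B - esize s) false).length = B := by
    rw [List.length_append, Tr.length_bits, List.length_replicate]
    unfold esize at this ⊢
    omega
  exact Finset.mem_coe.2 (Finset.mem_image.2 ⟨⟨_, e⟩, Finset.mem_univ _, rfl⟩)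

omit [DecidableEq σ] in
theorem esize_runM [Enc σ] {step : ℕ → σ → ℕ → σ} {B : ℕ} (hs : ∀ τ st u, esize (step τ st u) ≤ B)
    (us : List ℕ) : ∀ (τ : ℕ) (ini : σ), esize ini ≤ B → esize (runM step τ ini us) ≤ B := by
  induction us with
  | nil => intro τ ini h; exact h
  | cons u us ih => intro τ ini _; rw [runM_cons]; exact ih _ _ (hs _ _ _)

theorem esize_law [Enc σ] {r B : ℕ} {step : ℕ → σ → ℕ → σ} {ini : σ} (hi : esize ini ≤ B)
    (hs : ∀ τ st u, esize (step τ st u) ≤ B) {τ T : ℕ} (hτ : τ ≤ T) :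
    esize (law (2 ^ r) step ini τ) ≤ 2 ^ B * (B + (6 * (r * T) + 7) + 1 + 1) + 1 := by
  have h1 : ∀ p ∈ law (2 ^ r) step ini τ, esize p.1 ≤ B := fun p hp => by
    obtain ⟨us, _, e⟩ := law_reach step ini τ p hp
    rw [e]; exact esize_runM hs us 0 ini hi
  have h2 : (law (2 ^ r) step ini τ).length ≤ 2 ^ B := by
    have := length_le_two_pow (law_nodup (2 ^ r) step ini τ) (B := B) fun s hs => by
      obtain ⟨p, hp, rfl⟩ := List.mem_map.1 hs
      exact h1 p hp
    simpa using this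
  refine (esize_list_le (B := B + (6 * (r * T) + 7) + 1) fun p hp => ?_).trans (by gcongr)
  have h3 := law_le (by positivity) step ini τ p hp
  have h4 : p.2 ≤ 2 ^ (r * T) := by
    refine h3.trans ?_
    rw [← pow_mul]
    exact Nat.pow_le_pow_right (by norm_num) (Nat.mul_le_mul_left _ hτ)
  have h5 := esize_nat_le_of_le_two_pow h4
  have h6 := h1 p hp
  rw [esize_prod]; omega

/-- total weight -/
def tot (F : List (σ × ℕ)) : ℕ := (F.map Prod.snd).sum

/-- the key whose interval contains `V` -/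
def pick (V : ℕ) : List (σ × ℕ) → Option σ
  | [] => none
  | x :: xs => if V < tot xs then pick V xs else if V < tot xs + x.2 then some x.1 else none

omit [DecidableEq σ] in
theorem tot_cons (x : σ × ℕ) (xs : List (σ × ℕ)) : tot (x :: xs) = tot xs + x.2 := by
  simp [tot, add_comm]

omit [DecidableEq σ] in
theorem pick_of_le {V : ℕ} {F : List (σ × ℕ)} (h : tot F ≤ V) : pick V F = none := by
  cases F with
  | nil => rfl
  | cons x xs =>
    rw [tot_cons] at h
    rw [pick, if_neg (by omega), if_neg (by omega)]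

omit [DecidableEq σ] in
theorem pick_mem {V : ℕ} {F : List (σ × ℕ)} {y : σ} (h : pick V F = some y) :
    ∃ p ∈ F, p.1 = y := by
  induction F with
  | nil => simp [pick] at h
  | cons x xs ih =>
    rw [pick] at h
    split_ifs at h with h1 h2
    · obtain ⟨p, hp, e⟩ := ih h
      exact ⟨p, List.mem_cons_of_mem _ hp, e⟩
    · exact ⟨x, List.mem_cons_self, by simpa using h⟩

omit [DecidableEq σ] in
theorem avg_pick {S : ℕ} (y : σ) (F : List (σ × ℕ)) (h : tot F ≤ S) :
    avgN S (fun V => ind (pick V F = some y)) = (ev F fun t => ind (t = y)) / S := by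
  induction F with
  | nil => simp [pick, ind_of_not, avgN]
  | cons x xs ih =>
    rw [tot_cons] at h
    have e : ∀ V, ind (pick V (x :: xs) = some y) = ind (pick V xs = some y) +
        (ind (x.1 = y) * ind (V < tot xs + x.2) + (-ind (x.1 = y)) * ind (V < tot xs)) := by
      intro V
      rw [pick]
      split_ifs with h1 h2
      · rw [ind_of h1, ind_of (show V < tot xs + x.2 by omega)]; ring
      · rw [ind_of_not h1, ind_of h2, pick_of_le (not_lt.1 h1), ind_of_not (p := none = some y) (by simp)]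
        simp
      · rw [ind_of_not h1, ind_of_not h2, pick_of_le (not_lt.1 h1),
          ind_of_not (p := none = some y) (by simp), ind_of_not (p := False) id]; ring
    simp only [e]
    rw [avgN_add, avgN_add, avgN_mul_left, avgN_mul_left, ih (by omega), avgN_lt h,
      avgN_lt (by omega), ev_cons]
    push_cast
    ring

omit [DecidableEq σ] in
theorem PT_tot {α : Type} [Enc α] [Enc σ] {L : α → List (σ × ℕ)} (hL : PT L) :
    PT fun a => tot (L a) := by
  unfold tot
  exact PT.nat_sum (PT.map (f := fun _ p => p.2) hL PT.snd'.snd)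

omit [DecidableEq σ] in
theorem PT_pick {α : Type} [Enc α] [Enc σ] {L : α → List (σ × ℕ)} {V : α → ℕ} (hL : PT L)
    (hV : PT V) : PT fun a => pick (V a) (L a) := by
  refine PT.of_list_rec (F := fun a m => pick (V a) m)
    (g := fun a x xs c => if V a < tot xs then c else if V a < tot xs + x.2 then some x.1 else none)
    (fun a => esize (L a) + 2) hL (PT.const none) ?_ (fun _ _ _ => rfl)
    ((PB.esize hL).add (PB.const 2)) fun a m hm => ?_
  · have h1 : PT fun p : α × (σ × ℕ) × List (σ × ℕ) × Option σ => V p.1 := hV.comp PT.fst'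
    have h2 : PT fun p : α × (σ × ℕ) × List (σ × ℕ) × Option σ => tot p.2.2.1 :=
      PT_tot (by fun_prop)
    exact PT.ite (h1.nat_lt h2) (by fun_prop)
      (PT.ite (h1.nat_lt (h2.nat_add (by fun_prop))) (by fun_prop) (PT.const none))
  · cases e : pick (V a) m with
    | none => simp
    | some y =>
      obtain ⟨p, hp, rfl⟩ := pick_mem e
      have h1 := esize_lt_of_mem (hm.subset hp)
      rw [esize_prod] at h1
      rw [esize_some]; omega

/-- the largest weight -/
def cmax (L : List (σ × ℕ)) : ℕ := ((keys L).map (cnt L)).foldr max 0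

/-- the correction intervals -/
def corr (K : ℕ) (L : List (σ × ℕ)) : List (σ × ℕ) :=
  (keys L).map fun y => (y, (K - 1) * (cmax L - cnt L y))

theorem PT_corr {α : Type} [Enc α] [Enc σ] {L : α → List (σ × ℕ)} {K : α → ℕ} (hK : PT K)
    (hL : PT L) : PT fun a => corr (K a) (L a) := by
  have h1 : PT fun a => cmax (L a) := by
    unfold cmax
    exact PT.foldr_max_nat (PT.map (PT_keys hL) (PT_cnt (hL.comp PT.fst') PT.snd')) (PT.const 0)
  unfold corr
  exact PT.map (PT_keys hL) (PT.snd'.prodMk (((hK.comp PT.fst').nat_sub (PT.const 1)).nat_mul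
    ((h1.comp PT.fst').nat_sub (PT_cnt (hL.comp PT.fst') PT.snd'))))

theorem le_foldr_max {l : List ℕ} {x : ℕ} (h : x ∈ l) : x ≤ l.foldr max 0 := by
  induction l with
  | nil => simp at h
  | cons a l ih =>
    rcases List.mem_cons.1 h with rfl | h
    · exact le_max_left _ _
    · exact (ih h).trans (le_max_right _ _)

theorem foldr_max_le {l : List ℕ} {c : ℝ} (hc : 0 ≤ c) (h : ∀ x ∈ l, (x : ℝ) ≤ c) :
    ((l.foldr max 0 : ℕ) : ℝ) ≤ c := by
  induction l with
  | nil => simpa using hc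
  | cons a l ih =>
    rw [List.foldr_cons, Nat.cast_max]
    exact max_le (h a List.mem_cons_self) (ih fun x hx => h x (List.mem_cons_of_mem _ hx))

/-- The correction step. -/
theorem corr_spec {L : List (σ × ℕ)} {𝒯 : Finset σ} {K S : ℕ} (hK : 2 ≤ K) (hS : 0 < S)
    (hc : 𝒯.card ≤ K) (hL : ∀ p ∈ L, p.1 ∈ 𝒯) (htot : (ev L fun _ => 1) = S)
    (hle : ∀ y ∈ 𝒯, (cnt L y : ℝ) ≤ S * ((1 + (K : ℝ)⁻¹) / 𝒯.card)) :
    (∀ V y, pick V (corr K L) = some y → y ∈ 𝒯) ∧ (S : ℝ) ≤ 𝒯.card * cmax L ∧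
      ∀ y ∈ 𝒯, avgN S (fun V => ind (pick V (corr K L) = some y)) =
        (K - 1) * (cmax L - cnt L y) / S := by
  have hsum : ∑ y ∈ 𝒯, (cnt L y : ℝ) = S := by
    rw [← htot, ← sum_cnt 𝒯 _ L hL]; simp
  have hS' : (0 : ℝ) < S := by exact_mod_cast hS
  have hK' : (2 : ℝ) ≤ K := by exact_mod_cast hK
  have hne : 𝒯.Nonempty := by
    rw [Finset.nonempty_iff_ne_empty]
    rintro rfl
    rw [Finset.sum_empty] at hsum
    exact hS'.ne hsum
  have hcard : (0 : ℝ) < 𝒯.card := by exact_mod_cast hne.card_pos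
  have hc' : (𝒯.card : ℝ) ≤ K := by exact_mod_cast hc
  have hsub : ∀ y ∈ keys L, y ∈ 𝒯 := fun y hy => by
    obtain ⟨p, hp, rfl⟩ := mem_keys.1 hy
    exact hL p hp
  have hsup : ∀ y ∈ 𝒯, y ∈ keys L := fun y hy => by
    refine mem_keys_of_cnt fun h0 => ?_
    rw [← Finset.add_sum_erase _ _ hy, h0] at hsum
    have h1 : ∑ x ∈ 𝒯.erase y, (cnt L x : ℝ) ≤
        (𝒯.erase y).card • (S * ((1 + (K : ℝ)⁻¹) / 𝒯.card)) :=
      Finset.sum_le_card_nsmul _ _ _ fun x hx => hle x (Finset.mem_of_mem_erase hx)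
    rw [Finset.card_erase_of_mem hy, nsmul_eq_mul, Nat.cast_sub hne.card_pos] at h1
    have h2 : ((𝒯.card : ℝ) - (1 : ℕ)) * (S * ((1 + (K : ℝ)⁻¹) / 𝒯.card)) < S := by
      rw [mul_left_comm]
      refine mul_lt_of_lt_one_right hS' ?_
      rw [← mul_div_assoc, div_lt_one hcard]
      have : ((𝒯.card : ℝ) - 1) * (K : ℝ)⁻¹ < 1 := by
        rw [← div_eq_mul_inv, div_lt_one (by linarith)]; linarith
      push_cast
      nlinarith
    push_cast at hsum h1 h2
    linarith
  have hT : (keys L).toFinset = 𝒯 :=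
    Finset.ext fun y => by rw [List.mem_toFinset]; exact ⟨hsub y, hsup y⟩
  have hmax : ∀ y ∈ 𝒯, cnt L y ≤ cmax L := fun y hy =>
    le_foldr_max (List.mem_map_of_mem (hsup y hy))
  have hmax' : (cmax L : ℝ) ≤ S * ((1 + (K : ℝ)⁻¹) / 𝒯.card) :=
    foldr_max_le (by positivity) fun x hx => by
      obtain ⟨y, hy, rfl⟩ := List.mem_map.1 hx
      exact hle y (hsub y hy)
  have hcast : ∀ y ∈ 𝒯, (((K - 1) * (cmax L - cnt L y) : ℕ) : ℝ) =
      ((K : ℝ) - 1) * (cmax L - cnt L y) := fun y hy => by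
    rw [Nat.cast_mul, Nat.cast_sub (hmax y hy), Nat.cast_sub (by omega), Nat.cast_one]
  have hfit : tot (corr K L) ≤ S := by
    have e1 : (tot (corr K L) : ℝ) = ev (corr K L) fun _ => 1 := by
      simp [tot, ev, Function.comp_def]
    have e2 : (tot (corr K L) : ℝ) = ((K : ℝ) - 1) * (𝒯.card * cmax L - S) := by
      rw [e1, corr, ev_keys (nodup_keys L), hT, Finset.sum_congr rfl fun y hy => by
        rw [hcast y hy, mul_one], ← Finset.mul_sum, Finset.sum_sub_distrib, hsum]
      simp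
    have e3 : (𝒯.card : ℝ) * cmax L ≤ S * (1 + (K : ℝ)⁻¹) := by
      refine (mul_le_mul_of_nonneg_left hmax' hcard.le).trans (le_of_eq ?_)
      field_simp
    have e4 : ((K : ℝ) - 1) * (𝒯.card * cmax L - S) ≤ ((K : ℝ) - 1) * (S * (K : ℝ)⁻¹) :=
      mul_le_mul_of_nonneg_left (by linarith) (by linarith)
    have e5 : ((K : ℝ) - 1) * (S * (K : ℝ)⁻¹) ≤ S := by
      rw [mul_left_comm]
      refine mul_le_of_le_one_right hS'.le ?_
      rw [← div_eq_mul_inv, div_le_one (by linarith)]; linarith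
    exact_mod_cast (e2 ▸ e4.trans e5 : (tot (corr K L) : ℝ) ≤ S)
  refine ⟨fun V y h => ?_, ?_, fun y hy => ?_⟩
  · obtain ⟨p, hp, rfl⟩ := pick_mem h
    obtain ⟨z, hz, rfl⟩ := List.mem_map.1 hp
    exact hsub z hz
  · rw [← hsum, ← nsmul_eq_mul]
    exact Finset.sum_le_card_nsmul _ _ _ fun y hy => by exact_mod_cast hmax y hy
  · rw [avg_pick y _ hfit, corr, ev_keys (nodup_keys L), hT, Finset.sum_eq_single y, hcast y hy,
      ind_of rfl, mul_one]
    · intro z _ hz; rw [ind_of_not hz, mul_zero]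
    · intro h; exact absurd hy h

end Weighted

section Machine

variable {α σ β : Type} [DecidableEq σ] [DecidableEq β]

/-- the exact law of the output -/
def outLaw (M : Mach α σ β) (a : α) : List (β × ℕ) :=
  (law (2 ^ M.r a) (M.step a) (M.ini a) (M.T a)).map fun p => (M.out a p.1, p.2)

/-- the exact sampler -/
def G (M : Mach α σ β) (k : α → ℕ) (p : α × ℕ) : Option β :=
  if p.2 % 2 ^ k p.1 = 0 then
    pick (p.2 / 2 ^ k p.1 % (2 ^ M.r p.1) ^ M.T p.1) (corr (2 ^ k p.1) (outLaw M p.1))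
  else some (M.run p.1 (digs (2 ^ M.r p.1) (M.T p.1) (p.2 / 2 ^ k p.1)))

variable [Enc α] [Enc σ] [Enc β] {M : Mach α σ β}

omit [DecidableEq β] in
theorem PT_outLaw (h : M.Poly) {ι : Type} [Enc ι] {a : ι → α} (ha : PT a) {P : ι → ℕ} (hP : PB P)
    (hle : ∀ x, 2 ^ (M.B (a x) + 1 + M.r (a x)) ≤ P x) : PT fun x => outLaw M (a x) := by
  have hN : PT fun x => 2 ^ M.r (a x) := ((PT.const 2).nat_pow h.r h.r').comp ha
  have hN' : PB fun x => 2 ^ M.r (a x) :=
    hP.mono fun x => (Nat.pow_le_pow_right (by norm_num) (by omega)).trans (hle x)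
  have hB' : PB fun x => 2 ^ M.B (a x) :=
    hP.mono fun x => (Nat.pow_le_pow_right (by norm_num) (by omega)).trans (hle x)
  have hB := h.B'.comp ha
  have hr := h.r'.comp ha
  have hT := h.T'.comp ha
  have h1 : PT fun x => law (2 ^ M.r (a x)) (M.step (a x)) (M.ini (a x)) (M.T (a x)) := by
    refine PT.of_nat_rec (F := fun x τ => law (2 ^ M.r (a x)) (M.step (a x)) (M.ini (a x)) τ)
      (g := fun x τ L => merge (expand (2 ^ M.r (a x)) (M.step (a x) τ) L))
      (fun x => 2 ^ M.B (a x) * (M.B (a x) + (6 * (M.r (a x) * M.T (a x)) + 7) + 1 + 1) + 1)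
      (h.T.comp ha) hT (PT.cons ((h.ini.comp ha).prodMk (PT.const 1)) (PT.const [])) ?_
      (fun _ _ => rfl) ?_ fun x τ hτ => esize_law (h.ini_le _) (h.step_le _) hτ
    · refine PT_merge ?_
      unfold expand
      refine PT.flatMap PT.snd'.snd (PT.map (PT.range (hN.comp PT.fst'.fst)
        (hN'.comp PT.fst'.fst)) (PT.prodMk ?_ PT.fst'.snd.snd))
      exact h.step.comp (g := fun x : ((ι × ℕ × List (σ × ℕ)) × σ × ℕ) × ℕ =>
        (a x.1.1.1, x.1.1.2.1, x.1.2.1, x.2)) (PT.prodMk (ha.comp (by fun_prop)) (by fun_prop))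
    · exact (hB'.mul (((hB.add (((PB.const 6).mul (hr.mul hT)).add (PB.const 7))).add
        (PB.const 1)).add (PB.const 1))).add (PB.const 1)
  unfold outLaw
  refine PT.map h1 (PT.prodMk ?_ PT.snd'.snd)
  exact h.out.comp (g := fun x : ι × σ × ℕ => (a x.1, x.2.1))
    (PT.prodMk (ha.comp PT.fst') PT.snd'.fst)

theorem CT_G (h : M.Poly) {k : α → ℕ} (hk : PT k) (hk' : PB k) : ∃ d : ℕ, CT (G M k)
    (fun p => (esize p + (if p.2 % 2 ^ k p.1 = 0 then 2 ^ (M.B p.1 + 1 + M.r p.1) else 0) + 2) ^ d) := by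
  have hK : PT fun a => 2 ^ k a := (PT.const 2).nat_pow hk hk'
  have hP : PT fun a => 2 ^ (M.B a + 1 + M.r a) :=
    (PT.const 2).nat_pow ((h.B.nat_add (PT.const 1)).nat_add h.r)
      ((h.B'.add (PB.const 1)).add h.r')
  have hS : PT fun a => (2 ^ M.r a) ^ M.T a := ((PT.const 2).nat_pow h.r h.r').nat_pow h.T h.T'
  have hc : PT fun p : α × ℕ => p.2 % 2 ^ k p.1 = 0 :=
    (PT.snd'.nat_mod (hK.comp PT.fst')).eq (PT.const 0)
  have hd : PT fun p : α × ℕ => p.2 / 2 ^ k p.1 := PT.snd'.nat_div (hK.comp PT.fst')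
  let g : (α × ℕ) × List Unit → Option β := fun x =>
    if x.1.2 % 2 ^ k x.1.1 = 0 then
      (if 2 ^ (M.B x.1.1 + 1 + M.r x.1.1) ≤ x.2.length then G M k x.1 else none)
    else some (M.run x.1.1 (digs (2 ^ M.r x.1.1) (M.T x.1.1) (x.1.2 / 2 ^ k x.1.1)))
  have hrun : PT fun p : α × ℕ => some (M.run p.1 (digs (2 ^ M.r p.1) (M.T p.1) (p.2 / 2 ^ k p.1))) :=
    PT.some (h.run_digs.comp (g := fun p : α × ℕ => (p.1, p.2 / 2 ^ k p.1)) (PT.fst'.prodMk hd))
  have hg : PT g := by
    refine PT.ite (hc.comp PT.fst') ?_ (hrun.comp PT.fst')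
    refine PT.cases_sub (c := fun x : (α × ℕ) × List Unit =>
      2 ^ (M.B x.1.1 + 1 + M.r x.1.1) ≤ x.2.length)
      ((hP.comp PT.fst'.fst).nat_le PT.snd'.length) ?_
      ((PT.const none).of_eq fun x => (if_neg x.2).symm)
    have hv : PT fun x : {x : (α × ℕ) × List Unit //
        2 ^ (M.B x.1.1 + 1 + M.r x.1.1) ≤ x.2.length} => x.1 := PT.subtypeVal PT.id'
    have hL := PT_outLaw h hv.fst.fst (PB.length hv.snd) fun x => x.2
    refine (PT.ite (hc.comp hv.fst) (PT_pick (PT_corr (hK.comp hv.fst.fst) hL)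
      ((hd.comp hv.fst).nat_mod (hS.comp hv.fst.fst))) (hrun.comp hv.fst)).of_eq fun x => ?_
    rw [if_pos x.2]; rfl
  obtain ⟨d, hd⟩ := PT.exists_CT_of_pad
    (N := fun p : α × ℕ => if p.2 % 2 ^ k p.1 = 0 then 2 ^ (M.B p.1 + 1 + M.r p.1) else 0)
    (PT.ite hc (hP.comp PT.fst') (PT.const 0)) hg
  refine ⟨d, hd.of_eq fun p => ?_⟩
  by_cases e : p.2 % 2 ^ k p.1 = 0
  · simp [g, e]
  · simp [g, G, e]

end Machine

theorem avgN_split {K : ℕ} (hK : 0 < K) (A B : ℝ) :
    avgN K (fun x => if x = 0 then A else B) = (A + (K - 1) * B) / K := by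
  obtain ⟨K, rfl⟩ : ∃ K', K = K' + 1 := ⟨K - 1, by omega⟩
  rw [avgN, Finset.sum_range_succ']
  simp [add_comm]

end Exact

open Exact in
theorem Mach.Poly.exact {α σ β : Type} [Enc α] [Enc σ] [Enc β] {M : Mach α σ β} (h : M.Poly)
    {k : α → ℕ} (hk : PT k) (hk' : PB k) :
    ∃ (G : α × ℕ → Option β) (d : ℕ),
      CT G (fun p => (esize p + (if p.2 % 2 ^ k p.1 = 0 then 2 ^ (M.B p.1 + 1 + M.r p.1) else 0) + 2) ^ d) ∧
      ∀ (a : α) (𝒯 : Finset β) (w : ℕ), k a + M.T a * M.r a ≤ w → 1 ≤ k a → 𝒯.card ≤ 2 ^ k a →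
        (∀ us, Tape (2 ^ M.r a) (M.T a) us → M.run a us ∈ 𝒯) →
        (∀ y ∈ 𝒯, avgL (2 ^ M.r a) (M.T a) (fun us => ind (M.run a us = y)) ≤ (1 + 2⁻¹ ^ k a) / 𝒯.card) →
        (∀ U y, G (a, U) = some y → y ∈ 𝒯) ∧ (1 / 2 ≤ avgN (2 ^ w) fun U => ind (G (a, U) ≠ none)) ∧
          ∀ y ∈ 𝒯, (avgN (2 ^ w) fun U => ind (G (a, U) = some y)) /
            (avgN (2 ^ w) fun U => ind (G (a, U) ≠ none)) = 1 / 𝒯.card := by
  classical
  obtain ⟨d, hd⟩ := CT_G h hk hk'
  refine ⟨G M k, d, hd, fun a 𝒯 w hw hk1 hc hrun hle => ?_⟩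
  set N := 2 ^ M.r a with hN
  set T := M.T a with hT
  set K := 2 ^ k a with hK
  have hN0 : 0 < N := by positivity
  have hS0 : 0 < N ^ T := by positivity
  have hK2 : 2 ≤ K := by
    calc 2 = 2 ^ 1 := rfl
      _ ≤ K := Nat.pow_le_pow_right (by norm_num) hk1
  have hK2' : (2 : ℝ) ≤ K := by exact_mod_cast hK2
  have hS' : (0 : ℝ) < (N ^ T : ℕ) := by exact_mod_cast hS0
  have hev : ∀ g : β → ℝ, ev (outLaw M a) g = (N ^ T : ℕ) * avgL N T fun us => g (M.run a us) :=
    fun g => by rw [outLaw, ev_map, ev_law hN0, Nat.cast_pow N T]; rfl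
  have hcnt : ∀ y, (cnt (outLaw M a) y : ℝ) =
      (N ^ T : ℕ) * avgL N T fun us => ind (M.run a us = y) := fun y => by rw [cnt_eq, hev]
  obtain ⟨c1, c2, c3⟩ := corr_spec (L := outLaw M a) (𝒯 := 𝒯) hK2 hS0 hc (fun p hp => by
      obtain ⟨q, hq, rfl⟩ := List.mem_map.1 hp
      obtain ⟨us, hus, e⟩ := law_reach _ _ _ q hq
      have := hrun us hus
      rwa [Mach.run, ← e] at this)
    (by rw [hev, avgL_const hN0, mul_one])
    (fun y hy => by
      rw [hcnt]
      refine mul_le_mul_of_nonneg_left ((hle y hy).trans (le_of_eq ?_)) hS'.le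
      rw [hK, Nat.cast_pow, Nat.cast_ofNat, inv_pow])
  have hmem : ∀ U y, G M k (a, U) = some y → y ∈ 𝒯 := fun U y e => by
    rw [G] at e
    split_ifs at e with h0
    · exact c1 _ _ e
    · rw [← Option.some.inj e]; exact hrun _ (tape_digs hN0 _ _)
  obtain ⟨c, hc0, hw'⟩ : ∃ c, 0 < c ∧ 2 ^ w = K * (N ^ T * c) := by
    refine ⟨2 ^ (w - (k a + T * M.r a)), by positivity, ?_⟩
    rw [hK, hN, ← pow_mul, ← pow_add, ← pow_add]
    congr 1
    rw [mul_comm (M.r a)]
    omega
  have hP : ∀ y ∈ 𝒯, (avgN (2 ^ w) fun U => ind (G M k (a, U) = some y)) =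
      (K - 1) * cmax (outLaw M a) / (K * (N ^ T : ℕ)) := fun y hy => by
    have e1 := avgN_mul K (N ^ T * c) fun x v => if x = 0 then
      ind (pick (v % N ^ T) (corr K (outLaw M a)) = some y) else ind (M.run a (digs N T v) = y)
    have e2 : ∀ U, ind (G M k (a, U) = some y) = if U % K = 0 then
        ind (pick (U / K % N ^ T) (corr K (outLaw M a)) = some y)
        else ind (M.run a (digs N T (U / K)) = y) := fun U => by
      rw [G]
      split_ifs with h0
      · rfl
      · simp only [Option.some.injEq]; rfl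
    have e3 : ∀ x : ℕ, (avgN (N ^ T * c) fun v => if x = 0 then
        ind (pick (v % N ^ T) (corr K (outLaw M a)) = some y)
        else ind (M.run a (digs N T v) = y)) = if x = 0 then
        ((K : ℝ) - 1) * (cmax (outLaw M a) - cnt (outLaw M a) y) / (N ^ T : ℕ)
        else avgL N T fun us => ind (M.run a us = y) := fun x => by
      split_ifs with h0
      · rw [← c3 y hy]
        exact avgN_mod (by positivity) (dvd_mul_right _ _)
          fun V => ind (pick V (corr K (outLaw M a)) = some y)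
      · exact avgN_digs hN0 hc0 T fun us => ind (M.run a us = y)
    simp only [e2]
    rw [hw', e1]
    simp only [e3]
    rw [avgN_split (by omega), hcnt]
    field_simp
    ring
  have hQ : (avgN (2 ^ w) fun U => ind (G M k (a, U) ≠ none)) =
      𝒯.card * ((K - 1) * cmax (outLaw M a) / (K * (N ^ T : ℕ))) := by
    rw [← nsmul_eq_mul, ← Finset.sum_const, ← Finset.sum_congr rfl hP, ← avgN_sum]
    refine avgN_congr fun U _ => ?_
    cases e : G M k (a, U) with
    | none =>
      rw [ind_of_not (by simp)]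
      exact (Finset.sum_eq_zero fun y _ => ind_of_not (by simp)).symm
    | some z =>
      rw [ind_of (by simp), Finset.sum_eq_single z, ind_of rfl]
      · intro y _ hy; exact ind_of_not fun e' => hy (Option.some.inj e').symm
      · intro hz; exact absurd (hmem U z e) hz
  have hhalf : 1 / 2 ≤ 𝒯.card * (((K : ℝ) - 1) * cmax (outLaw M a) / (K * (N ^ T : ℕ))) := by
    rw [← mul_div_assoc, le_div_iff₀ (by positivity), mul_left_comm]
    nlinarith [mul_le_mul_of_nonneg_left c2 (show (0 : ℝ) ≤ K - 1 by linarith)]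
  refine ⟨hmem, hQ ▸ hhalf, fun y hy => ?_⟩
  rw [hP y hy, hQ]
  have h1 : ((K : ℝ) - 1) * cmax (outLaw M a) / (K * (N ^ T : ℕ)) ≠ 0 := by
    intro h0
    rw [h0, mul_zero] at hhalf
    norm_num at hhalf
  rw [mul_comm (𝒯.card : ℝ), div_mul_eq_div_div, div_self h1]

end Crest.Agent.R309
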