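import Crest.Agent.R309.Defs
import Crest.Agent.R309.Exact

/-!
# Row 309: Alg
The annealing algorithm on lists, and its link to the theory (`mkSt`).  Parameters are functions of `s` (size) and `k` (confidence), `20 ≤ s`, `k ≤ 2 ^ s`.
An instance is a multigraph on the vertices `< n` whose edges carry a window `[-lo, hi]`, a scale `R`, a type
(`0` small, `1` big non-tree, `2` tree, `3` virtual) and the composite move `chi`.  The algorithm counts and samples the *good* circulations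
(`div = 0`, in the windows, zero on virtual edges).  Stage `i ≤ pI s` has the weights `θ ^ kTot i`, `θ = 1 - 1 / pJ s`, and hole weights `θ ^ hs[key]`;
it draws `pKs` samples (each `pmix` Metropolis steps from `0`, then one recording step), updates the hole weights and the ratio `num / den`.
-/

set_option autoImplicit false

noncomputable section

namespace Crest.Agent.R309

open Finset Crest.Agent.Lib.PolyTime

/-! ## Parameters -/

def pj (s : ℕ) : ℕ := Nat.log 2 s + 7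
def pJ (s : ℕ) : ℕ := 2 ^ pj s
def pL0 (s : ℕ) : ℕ := pJ s * (Nat.log 2 s + 4)
def pLm (s : ℕ) : ℕ := pJ s * (10 * s ^ 2 + 3)
def pQ (s : ℕ) : ℕ := 1000 * s ^ 2
def pI (s : ℕ) : ℕ := 4000 * s ^ 3
def pP (s : ℕ) : ℕ := pJ s * (34000 * s ^ 5)
def pM (s : ℕ) : ℕ := 10 ^ 6 * s ^ 6
def pL (s k : ℕ) : ℕ := 2 * k + 100 * s ^ 2
def pA (s : ℕ) : ℕ := 10 ^ 4 * s ^ 3
def pK (s : ℕ) : ℕ := 10 ^ 6 * s ^ 3
def pG (s k : ℕ) : ℕ := 32 * s ^ 2 * (2 * pL s k + 2 + 34000 * s ^ 5)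
def pC (s k : ℕ) : ℕ := 10 ^ 6 * pA s ^ 3 * (s ^ 2 + 1) ^ 3 * pK s * (s + 1) ^ 2 * pG s k ^ 2
def pM2 (s : ℕ) : ℕ := 2 ^ (Nat.log 2 s + 1)
def pmix (s k : ℕ) : ℕ := 8 * s * pC s k * (2 * k + 34 * s ^ 2)
def pDn (s : ℕ) : ℕ := 64 * s * (pI s + 1) * (s ^ 2 + 1) * pA s
def pKs (s k : ℕ) : ℕ := pDn s ^ 2 * (8 * k + 80 * s ^ 2)
def pD (s : ℕ) : ℕ := 10 ^ 6 * s ^ 4
/-- steps per sample -/
def pb (s k : ℕ) : ℕ := pmix s k + 1
/-- steps per stage -/
def pS (s k : ℕ) : ℕ := pKs s k * pb s k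
/-- total number of steps -/
def pT (s k : ℕ) : ℕ := (pI s + 1) * pS s k
/-- random bits per step -/
def pr (s : ℕ) : ℕ := 10 * s + pj s * pD s
/-- size bound of the state -/
def pB (s : ℕ) : ℕ := 10 ^ 6 * s ^ 4 + 100

/-! ## Data -/

structure Edge where
  src : ℕ
  tgt : ℕ
  lo : ℕ
  hi : ℕ
  R : ℕ
  ty : ℕ
  chi : List ℤ

instance : Enc Edge := Enc.ofInj (fun e => (e.src, e.tgt, e.lo, e.hi, e.R, e.ty, e.chi))
  (fun a b h => by cases a; cases b; simp_all)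

structure Inst where
  n : ℕ
  es : List Edge

instance : Enc Inst := Enc.ofInj (fun I => (I.n, I.es)) (fun a b h => by cases a; cases b; simp_all)

/-- state of the machine -/
structure MS where
  Z : List ℤ
  hs : List ℤ
  cnt : List ℕ
  cA : ℕ
  cB : ℕ
  num : ℕ
  den : ℕ
  res : Option (List ℤ)

instance : Enc MS := Enc.ofInj (fun x => (x.Z, x.hs, x.cnt, x.cA, x.cB, x.num, x.den, x.res))
  (fun a b h => by cases a; cases b; simp_all)

/-- number of edges -/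
abbrev Inst.m (I : Inst) : ℕ := I.es.length

def Inst.ed (I : Inst) (e : ℕ) : Edge := I.es.getD e ⟨0, 0, 0, 0, 0, 0, []⟩

/-! ## The chain -/

/-- distance from the window -/
def Edge.out (d : Edge) (t : ℤ) : ℕ := (t - d.hi).toNat + (-t - d.lo).toNat

/-- integer potential at stage `i` -/
def Edge.ke (d : Edge) (s i : ℕ) (t : ℤ) : ℕ :=
  if d.ty = 3 then min (pL0 s + i) (pLm s) * t.natAbs
  else (if d.ty = 2 then 0 else pL0 s * (pQ s - 1) ^ i * t.natAbs / pQ s ^ i) +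
    (if d.ty = 0 then 0 else pP s * d.out t / d.R)

/-- extension of the window -/
def Edge.ext (d : Edge) (s k : ℕ) : ℕ := if d.ty = 1 ∨ d.ty = 2 then d.R * (pL s k + 2) else 0

/-- step size -/
def Edge.stp (d : Edge) (s i : ℕ) : ℕ :=
  if d.ty = 1 then 2 ^ Nat.log 2 (pJ s * pQ s ^ i * d.R /
    (8 * s ^ 2 * (pL0 s * (pQ s - 1) ^ i * d.R + pP s * pQ s ^ i))) else 1

namespace Inst

variable (I : Inst)

def zeros : List ℤ := List.replicate I.m 0

def kTot (s i : ℕ) (Z : List ℤ) : ℕ := ((List.range I.m).map fun e => (I.ed e).ke s i (Z.getD e 0)).sum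

def inBox (s k : ℕ) (Z : List ℤ) : Bool := (List.range I.m).all fun e =>
  decide (-(((I.ed e).lo + (I.ed e).ext s k : ℕ) : ℤ) ≤ Z.getD e 0) &&
    decide (Z.getD e 0 ≤ (((I.ed e).hi + (I.ed e).ext s k : ℕ) : ℤ))

def divL (Z : List ℤ) : List ℤ := (List.range I.n).map fun v => ((List.range I.m).map fun e =>
  (if (I.ed e).src = v then Z.getD e 0 else 0) - (if (I.ed e).tgt = v then Z.getD e 0 else 0)).sum

/-- index of a defect: `0` for none, `w * n + v` for `uv w v` -/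
def keyL (γ : List ℤ) : ℕ := if γ.all (fun x => x == 0) then 0 else γ.idxOf 1 * I.n + γ.idxOf (-1)

def key (Z : List ℤ) : ℕ := I.keyL (I.divL Z)

def okDef (Z : List ℤ) : Bool := decide (((I.divL Z).map Int.natAbs).sum ≤ 2)

/-- energy in units of `κ` -/
def enH (s i : ℕ) (hs Z : List ℤ) : ℤ := (I.kTot s i Z : ℤ) + hs.getD (I.key Z) 0

/-- a coin of bias `θ ^ Δ` (for `Δ ≤ pD s`), read off the random number `u < 2 ^ pr s` -/
def _root_.Crest.Agent.R309.coin (s Δ u : ℕ) : Bool :=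
  decide (u / 2 ^ (10 * s) < (pJ s - 1) ^ min Δ (pD s) * pJ s ^ (pD s - Δ))

/-- one Metropolis step -/
def mstep (s k i : ℕ) (hs Z : List ℤ) (u : ℕ) : List ℤ :=
  if u % 2 = 0 ∨ I.m ≤ u / 4 % pM2 s then Z else
    let d := I.ed (u / 4 % pM2 s)
    let jz : ℤ := (if u / 2 % 2 = 0 then 1 else -1) * ((u / (4 * pM2 s) % d.stp s i + 1 : ℕ) : ℤ)
    let Y := (List.range I.m).map fun t => Z.getD t 0 + jz * d.chi.getD t 0
    if I.inBox s k Y && I.okDef Y && coin s (I.enH s i hs Y - I.enH s i hs Z).toNat u then Y else Z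

/-- good circulations -/
def goodL (Z : List ℤ) : Bool := (I.divL Z).all (fun x => x == 0) && (List.range I.m).all fun e =>
  if (I.ed e).ty = 3 then decide (Z.getD e 0 = 0)
  else decide (-((I.ed e).lo : ℤ) ≤ Z.getD e 0) && decide (Z.getD e 0 ≤ ((I.ed e).hi : ℤ))

/-- overlap coin between the stages `i` and `i'` -/
def ovl (s i i' : ℕ) (Z : List ℤ) (u : ℕ) : Bool :=
  (I.divL Z).all (fun x => x == 0) && decide (I.kTot s i Z ≤ I.kTot s i' Z + pD s) &&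
    decide (I.kTot s i' Z ≤ I.kTot s i Z + pD s) && coin s (I.kTot s i' Z - I.kTot s i Z) u

def alpha (s i : ℕ) (Z : List ℤ) (u : ℕ) : Bool := if i = pI s then I.goodL Z else I.ovl s i (i + 1) Z u

def beta (s i : ℕ) (Z : List ℤ) (u : ℕ) : Bool :=
  if i = 0 then Z.all (fun x => x == 0) else I.ovl s i (i - 1) Z u

def cnt0 : List ℕ := List.replicate (I.n * I.n) 0

def hs0 (s : ℕ) : List ℤ := (List.range (I.n * I.n)).map fun q => if q = 0 then 0 else -(pL0 s : ℤ)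

/-- update of the hole weights -/
def upd (s : ℕ) (hs : List ℤ) (cnt : List ℕ) : List ℤ := (List.range (I.n * I.n)).map fun q =>
  if q = 0 then 0 else hs.getD q 0 + (if cnt.getD 0 0 ≤ cnt.getD q 0 then 1 else -1) * ((pJ s / 2 : ℕ) : ℤ)

/-- record a sample -/
def record (s i : ℕ) (x : MS) (u : ℕ) : MS :=
  ⟨I.zeros, x.hs, x.cnt.set (I.key x.Z) (x.cnt.getD (I.key x.Z) 0 + 1),
    x.cA + (I.alpha s i x.Z u).toNat, x.cB + (I.beta s i x.Z u).toNat, x.num, x.den,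
    if i = pI s ∧ x.res = none ∧ I.goodL x.Z = true then some x.Z else x.res⟩

/-- end of a stage -/
def finish (s : ℕ) (x : MS) : MS :=
  ⟨x.Z, I.upd s x.hs x.cnt, I.cnt0, 0, 0, x.num * x.cA, x.den * x.cB, x.res⟩

/-- one step of the machine at time `τ` -/
def step0 (s k τ : ℕ) (x : MS) (u : ℕ) : MS :=
  let i := min (τ / pS s k) (pI s)
  if τ % pb s k < pmix s k then ⟨I.mstep s k i x.hs x.Z u, x.hs, x.cnt, x.cA, x.cB, x.num, x.den, x.res⟩
  else if (τ + 1) % pS s k = 0 then I.finish s (I.record s i x u) else I.record s i x u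

/-- cap on the size of the state -/
def _root_.Crest.Agent.R309.cap (s : ℕ) (x : MS) : MS :=
  if esize x ≤ pB s then x else ⟨[], [], [], 0, 0, 0, 0, none⟩

def step (s k τ : ℕ) (x : MS) (u : ℕ) : MS := cap s (I.step0 s k τ x u)

/-- state at the start of a stage -/
def clean (hs : List ℤ) (num den : ℕ) (res : Option (List ℤ)) : MS := ⟨I.zeros, hs, I.cnt0, 0, 0, num, den, res⟩

def ini (s : ℕ) : MS := cap s (I.clean (I.hs0 s) 1 1 none)

/-- the final state -/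
def fin (s k : ℕ) (us : List ℕ) : MS := runM (I.step s k) 0 (I.ini s) us

def outZ (x : MS) : List ℤ := x.res.getD I.zeros

/-! ## Structured description -/

/-- one sample: final point and the random number of the recording step -/
def sample (s k i : ℕ) (hs : List ℤ) (us : List ℕ) : List ℤ × ℕ :=
  ((us.take (pmix s k)).foldl (I.mstep s k i hs) I.zeros, us.getD (pmix s k) 0)

def samples (s k i : ℕ) (hs : List ℤ) (us : List ℕ) : List (List ℤ × ℕ) :=
  (List.range (pKs s k)).map fun j => I.sample s k i hs (blk (pb s k) j us)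

def cntOf (l : List (List ℤ × ℕ)) : List ℕ :=
  (List.range (I.n * I.n)).map fun q => l.countP fun p => I.key p.1 == q

def newHs (s k i : ℕ) (hs : List ℤ) (us : List ℕ) : List ℤ := I.upd s hs (I.cntOf (I.samples s k i hs us))
def cntA (s k i : ℕ) (hs : List ℤ) (us : List ℕ) : ℕ :=
  (I.samples s k i hs us).countP fun p => I.alpha s i p.1 p.2
def cntB (s k i : ℕ) (hs : List ℤ) (us : List ℕ) : ℕ :=
  (I.samples s k i hs us).countP fun p => I.beta s i p.1 p.2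
def first (s k i : ℕ) (hs : List ℤ) (us : List ℕ) : Option (List ℤ) :=
  ((List.range (pKs s k)).map fun j => (I.sample s k i hs (blk (pb s k) j us)).1).find? I.goodL

/-! ## Link to the theory -/

def gr : Gr (Fin I.m) ℕ := ⟨fun e => (I.ed e).src, fun e => (I.ed e).tgt⟩

def toF (Z : List ℤ) : Fin I.m → ℤ := fun e => Z.getD e 0

def keyF (γ : ℕ → ℤ) : ℕ := I.keyL ((List.range I.n).map γ)

end Inst

def th (s : ℕ) : ℝ := 1 - 1 / (pJ s : ℝ)
def ka (s : ℕ) : ℝ := -Real.log (th s)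
/-- the inverse temperature -/
def bet (s i : ℕ) : ℝ := pL0 s * ((pQ s - 1 : ℝ) / pQ s) ^ i

/-- ideal potential -/
def Edge.psi (d : Edge) (s i : ℕ) (t : ℤ) : ℝ :=
  ka s * if d.ty = 3 then (min (pL0 s + i) (pLm s) : ℕ) * |(t : ℝ)|
    else (if d.ty = 2 then 0 else bet s i * |(t : ℝ)|) + (if d.ty = 0 then 0 else (pP s : ℝ) * d.out t / d.R)

namespace Inst

variable (I : Inst)

def mkSt (s k i : ℕ) (rt : ℕ → ℕ) (P : ℕ → Fin I.m → ℤ) (hs : List ℤ) : St (Fin I.m) ℕ where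
  G := I.gr
  vs := range I.n
  rt := rt
  P := P
  s e := (I.ed e).stp s i
  bl e := -(((I.ed e).lo + (I.ed e).ext s k : ℕ) : ℤ)
  bu e := (((I.ed e).hi + (I.ed e).ext s k : ℕ) : ℤ)
  ψ e := (I.ed e).psi s i
  φ e t := ka s * (I.ed e).ke s i t
  hh γ := ka s * hs.getD (I.keyF γ) 0

def chiF (P : ℕ → Fin I.m → ℤ) (e : Fin I.m) : Fin I.m → ℤ := one e - P (I.ed e).src + P (I.ed e).tgt

/-- valid instances, with the forest data `rt`, `P` -/
structure Valid (s k : ℕ) (rt : ℕ → ℕ) (P : ℕ → Fin I.m → ℤ) : Prop where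
  s_ge : 20 ≤ s
  k_le : k ≤ 2 ^ s
  n_pos : 0 < I.n
  n_le : I.n ≤ s
  nn_le : I.n * I.n ≤ I.m
  m_le : I.m ≤ s
  src_lt : ∀ e : Fin I.m, (I.ed e).src < I.n
  tgt_lt : ∀ e : Fin I.m, (I.ed e).tgt < I.n
  lo_le : ∀ e : Fin I.m, (I.ed e).lo ≤ (I.ed e).R
  hi_le : ∀ e : Fin I.m, (I.ed e).hi ≤ (I.ed e).R
  R_le : ∀ e : Fin I.m, (I.ed e).R ≤ 2 ^ (2 * s + 1)
  ty_le : ∀ e : Fin I.m, (I.ed e).ty ≤ 3
  small : ∀ e : Fin I.m, (I.ed e).ty = 0 → (I.ed e).R ≤ pM s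
  big : ∀ e : Fin I.m, (I.ed e).ty = 1 ∨ (I.ed e).ty = 2 →
    pM s ≤ (I.ed e).R ∧ (I.ed e).R ≤ 24 * s ^ 2 * (I.ed e).lo ∧ (I.ed e).R ≤ 24 * s ^ 2 * (I.ed e).hi
  virt : ∀ e : Fin I.m, (I.ed e).ty = 3 → (I.ed e).lo = 0 ∧ (I.ed e).hi = 1
  virt_ex : ∀ w < I.n, ∀ v < I.n, ∃ e : Fin I.m, (I.ed e).ty = 3 ∧ (I.ed e).src = w ∧ (I.ed e).tgt = v
  rt_lt : ∀ v < I.n, rt v < I.n
  rt_rt : ∀ v < I.n, rt (rt v) = rt v
  div_P : ∀ v < I.n, I.gr.div (P v) = uv v (rt v)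
  P_rt : ∀ v < I.n, P (rt v) = 0
  P_le : ∀ v < I.n, ∀ e, |P v e| ≤ 1
  P_tree : ∀ v < I.n, ∀ e : Fin I.m, P v e ≠ 0 → (I.ed e).ty = 2
  tree : ∀ e : Fin I.m, (I.ed e).ty = 2 → I.chiF P e = 0
  same : ∀ e : Fin I.m, (I.ed e).ty = 1 → rt (I.ed e).src = rt (I.ed e).tgt
  order : ∀ e t : Fin I.m, (I.ed e).ty = 1 → I.chiF P e t ≠ 0 → (I.ed e).R ≤ (I.ed t).R
  chi : ∀ e t : Fin I.m, (I.ed e).chi.getD t 0 = I.chiF P e t

def boxF (s k : ℕ) : Finset (Fin I.m → ℤ) := Fintype.piFinset fun e =>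
  Finset.Icc (-(((I.ed e).lo + (I.ed e).ext s k : ℕ) : ℤ)) (((I.ed e).hi + (I.ed e).ext s k : ℕ) : ℤ)

def kF (s i : ℕ) (X : Fin I.m → ℤ) : ℕ := ∑ e : Fin I.m, (I.ed e).ke s i (X e)

open Classical in
/-- partition function of stage `i` -/
def ZZ (s k i : ℕ) (γ : ℕ → ℤ) : ℝ := ∑ X ∈ (I.boxF s k).filter (fun X => I.gr.div X = γ), th s ^ I.kF s i X

open Classical in
/-- the good circulations -/
def GS : Finset (Fin I.m → ℤ) :=
  (Fintype.piFinset fun e : Fin I.m => if (I.ed e).ty = 3 then {0}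
    else Finset.Icc (-((I.ed e).lo : ℤ)) ((I.ed e).hi : ℤ)).filter fun X => I.gr.div X = 0

open Classical in
/-- overlaps: `Ov 0 = 1`, `Ov (i+1)` between the stages `i` and `i + 1`, `Ov (pI s + 1) = |GS|` -/
def Ov (s k : ℕ) : ℕ → ℝ
  | 0 => 1
  | i + 1 => if i = pI s then I.GS.card else
      ∑ X ∈ (I.boxF s k).filter (fun X => I.gr.div X = 0 ∧ I.kF s i X ≤ I.kF s (i + 1) X + pD s ∧
        I.kF s (i + 1) X ≤ I.kF s i X + pD s), th s ^ max (I.kF s i X) (I.kF s (i + 1) X)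

/-- syntactic bounds on the hole weights -/
def HB (s i : ℕ) (hs : List ℤ) : Prop :=
  hs.length = I.n * I.n ∧ hs.getD 0 0 = 0 ∧ ∀ q, |hs.getD q 0| ≤ (pL0 s + i * (pJ s / 2) : ℕ)

/-- the hole weights are accurate up to the factor `pA s` -/
def HW (s k i : ℕ) (rt : ℕ → ℕ) (hs : List ℤ) : Prop :=
  I.HB s i hs ∧ ∀ w < I.n, ∀ v < I.n, rt w = w → rt v = v →
    I.ZZ s k i 0 ≤ pA s * (Real.exp (-(ka s * hs.getD (I.keyF (uv w v)) 0)) * I.ZZ s k i (uv w v)) ∧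
    Real.exp (-(ka s * hs.getD (I.keyF (uv w v)) 0)) * I.ZZ s k i (uv w v) ≤ pA s * I.ZZ s k i 0

end Inst

end Crest.Agent.R309
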