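import Crest.Agent.R309.Stage

/-!
# Row 309: Anneal
The whole run.  `y = 3 / (16 s (pI + 1))`, `b = exp (-(2 k + 19 s²))`.  For `i ≤ pI`, after `i * pS` steps of `step0` the state is always `clean hs num den none` (`stage_eq`), and
with probability `≥ 1 - i b` it satisfies `HW i hs`, `0 < den`, `(1 - y) ^ i Ov i * den ≤ num ≤ (1 + y) ^ i Ov i * den` (induction on `i`: `avgL_append`,
`runM_append`, `stage_ok`, `HW0`).  One more stage gives the three results (`run_eq`, `(1 + y) ^ (pI + 1) ≤ exp (3 / (16 s)) ≤ 1 + 1 / s`, Bernoulli;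
`outZ = D` forces a bad stage, or `first = some D` after a good start; `(pI + 1) b |GS| ≤ exp (-2 k - 15 s²)`).
-/

set_option autoImplicit false

noncomputable section

namespace Crest.Agent.R309

open Finset Crest.Agent.Lib.PolyTime

namespace Inst

variable {I : Inst} {s k i : ℕ} {rt : ℕ → ℕ} {P : ℕ → Fin I.m → ℤ} {hs : List ℤ}

/-- the uncapped run -/
def run0 (I : Inst) (s k : ℕ) (us : List ℕ) : MS := runM (I.step0 s k) 0 (I.clean (I.hs0 s) 1 1 none) us

/-- the relative error of one stage -/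
def yy (s : ℕ) : ℝ := 3 / (16 * s * (pI s + 1) : ℝ)

/-- the invariant at the start of stage `i` -/
def GoodAt (I : Inst) (s k i : ℕ) (rt : ℕ → ℕ) (x : MS) : Prop :=
  (i ≤ pI s → I.HW s k i rt x.hs) ∧ 0 < x.den ∧
    (1 - yy s) ^ i * I.Ov s k i * x.den ≤ x.num ∧ x.num ≤ (1 + yy s) ^ i * I.Ov s k i * x.den

theorem run0_append (hK : 0 < pKs s k) (hi : i ≤ pI s) {us us' : List ℕ} (hus : us.length = i * pS s k)
    (hus' : us'.length = pS s k)
    (hc : I.run0 s k us = I.clean (I.run0 s k us).hs (I.run0 s k us).num (I.run0 s k us).den none) :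
    I.run0 s k (us ++ us') = I.clean (I.newHs s k i (I.run0 s k us).hs us')
      ((I.run0 s k us).num * I.cntA s k i (I.run0 s k us).hs us')
      ((I.run0 s k us).den * I.cntB s k i (I.run0 s k us).hs us')
      (if i = pI s then I.first s k i (I.run0 s k us).hs us' else none) := by
  rw [← stage_eq hK hi _ _ _ hus', ← hc, run0, runM_append, zero_add, hus]
  rfl

theorem run0_clean (hK : 0 < pKs s k) (hi : i ≤ pI s) {us : List ℕ} (hus : us.length = i * pS s k) :
    I.run0 s k us = I.clean (I.run0 s k us).hs (I.run0 s k us).num (I.run0 s k us).den none := by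
  induction i generalizing us with
  | zero =>
    rw [zero_mul, List.length_eq_zero_iff] at hus
    subst hus
    rfl
  | succ i ih =>
    have h1 : (us.take (i * pS s k)).length = i * pS s k := by
      rw [List.length_take, hus, Nat.succ_mul]; omega
    have h2 : (us.drop (i * pS s k)).length = pS s k := by
      rw [List.length_drop, hus, Nat.succ_mul]; omega
    have h3 := run0_append (I := I) hK (by omega : i ≤ pI s) h1 h2 (ih (by omega) h1)
    rw [List.take_append_drop, if_neg (by omega)] at h3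
    rw [h3]
    rfl

theorem run0_step (hK : 0 < pKs s k) (hi : i ≤ pI s) {us us' : List ℕ} (hus : us.length = i * pS s k)
    (hus' : us'.length = pS s k) :
    I.run0 s k (us ++ us') = I.clean (I.newHs s k i (I.run0 s k us).hs us')
      ((I.run0 s k us).num * I.cntA s k i (I.run0 s k us).hs us')
      ((I.run0 s k us).den * I.cntB s k i (I.run0 s k us).hs us')
      (if i = pI s then I.first s k i (I.run0 s k us).hs us' else none) :=
  run0_append hK hi hus hus' (run0_clean hK hi hus)

theorem yy_bounds (hs : 20 ≤ s) : 0 ≤ yy s ∧ yy s ≤ 1 ∧ ((pI s : ℝ) + 1) * yy s = 3 / (16 * s) := by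
  have h1 : (20 : ℝ) ≤ s := by exact_mod_cast hs
  have h2 : (0 : ℝ) ≤ pI s := Nat.cast_nonneg _
  unfold yy
  refine ⟨by positivity, ?_, by field_simp⟩
  rw [div_le_one (by positivity)]
  nlinarith

theorem good_step (hs : 20 ≤ s) (hi : i ≤ pI s) {us us' : List ℕ} (hus : us.length = i * pS s k)
    (hus' : us'.length = pS s k) (hg : I.GoodAt s k i rt (I.run0 s k us))
    (hok : I.StageOK s k i rt (I.run0 s k us).hs us') : I.GoodAt s k (i + 1) rt (I.run0 s k (us ++ us')) := by
  rw [run0_step (pKs_pos hs) hi hus hus']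
  obtain ⟨-, g2, g3, g4⟩ := hg
  obtain ⟨o1, -, o3, o4, o5⟩ := hok
  obtain ⟨y0, y1, -⟩ := yy_bounds hs
  change (1 - yy s) * _ ≤ _ at o4
  change _ ≤ (1 + yy s) * _ at o5
  set a : ℕ := I.cntA s k i (I.run0 s k us).hs us'
  set c : ℕ := I.cntB s k i (I.run0 s k us).hs us'
  set num : ℕ := (I.run0 s k us).num
  set den : ℕ := (I.run0 s k us).den
  refine ⟨fun h => o1 h, Nat.mul_pos g2 o3, ?_, ?_⟩
  · change _ * ((den * c : ℕ) : ℝ) ≤ ((num * a : ℕ) : ℝ)
    push_cast
    have h1 := mul_le_mul_of_nonneg_right g3 (Nat.cast_nonneg a : (0 : ℝ) ≤ a)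
    have h2 := mul_le_mul_of_nonneg_left o4
      (mul_nonneg (pow_nonneg (sub_nonneg.2 y1) i) (Nat.cast_nonneg den : (0 : ℝ) ≤ den))
    calc _ = (1 - yy s) ^ i * den * ((1 - yy s) * (I.Ov s k (i + 1) * c)) := by ring
      _ ≤ _ := h2
      _ = (1 - yy s) ^ i * I.Ov s k i * den * a := by ring
      _ ≤ _ := h1
  · change ((num * a : ℕ) : ℝ) ≤ _ * ((den * c : ℕ) : ℝ)
    push_cast
    have h1 := mul_le_mul_of_nonneg_right g4 (Nat.cast_nonneg a : (0 : ℝ) ≤ a)
    have h2 := mul_le_mul_of_nonneg_left o5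
      (mul_nonneg (pow_nonneg (by linarith : 0 ≤ 1 + yy s) i) (Nat.cast_nonneg den : (0 : ℝ) ≤ den))
    calc _ ≤ _ := h1
      _ = (1 + yy s) ^ i * den * (a * I.Ov s k i) := by ring
      _ ≤ _ := h2
      _ = _ := by ring

theorem Valid.bad_le (h : I.Valid s k rt P) (hi : i ≤ pI s + 1) :
    avgL (2 ^ pr s) (i * pS s k) (fun us => ind (¬ I.GoodAt s k i rt (I.run0 s k us))) ≤
      i * Real.exp (-(2 * k + 19 * s ^ 2)) := by
  have hN : 0 < 2 ^ pr s := by positivity
  induction i with
  | zero =>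
    rw [zero_mul, Nat.cast_zero, zero_mul]
    refine (ind_of_not (not_not.2 ⟨fun _ => h.HW0, Nat.one_pos, ?_, ?_⟩)).le
    · change (1 - yy s) ^ 0 * 1 * ((1 : ℕ) : ℝ) ≤ ((1 : ℕ) : ℝ)
      simp
    · change ((1 : ℕ) : ℝ) ≤ (1 + yy s) ^ 0 * 1 * ((1 : ℕ) : ℝ)
      simp
  | succ i ih =>
    have hi' : i ≤ pI s := by omega
    rw [Nat.succ_mul, avgL_append]
    calc _ ≤ avgL (2 ^ pr s) (i * pS s k) (fun us => ind (¬ I.GoodAt s k i rt (I.run0 s k us)) +
          Real.exp (-(2 * k + 19 * s ^ 2))) := by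
          refine avgL_mono fun us hus => ?_
          by_cases hg : I.GoodAt s k i rt (I.run0 s k us)
          · rw [ind_of_not (not_not.2 hg), zero_add]
            refine le_trans ?_ (h.stage_ok hi' (hg.1 hi'))
            exact avgL_mono fun us' hus' => ind_mono fun hb hok =>
              hb (good_step h.s_ge hi' hus.1 hus'.1 hg hok)
          · rw [ind_of hg]
            refine ((avgL_mono fun us' _ => ind_le_one _).trans (avgL_const hN _ 1).le).trans ?_
            linarith [Real.exp_pos (-(2 * k + 19 * s ^ 2 : ℝ))]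
      _ ≤ _ := by
          rw [avgL_add, avgL_const hN]
          have := ih (by omega)
          push_cast
          linarith

theorem exp_neg_sq_le (hs : 20 ≤ s) {c : ℝ} (hc : 1 ≤ c) : Real.exp (-(c * s ^ 2)) ≤ 1 / 4 := by
  have h1 : (20 : ℝ) ≤ s := by exact_mod_cast hs
  have h2 := Real.add_one_le_exp (c * s ^ 2)
  rw [Real.exp_neg, one_div]
  apply inv_anti₀ (by norm_num)
  nlinarith

theorem total_bad_le (hs : 20 ≤ s) {G : ℝ} (hG0 : 0 ≤ G) (hG : G ≤ Real.exp (3 * s ^ 2)) :
    ((pI s : ℝ) + 1) * Real.exp (-(2 * k + 19 * s ^ 2)) * G ≤ 2⁻¹ ^ k / 4 := by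
  have h1 := pI_le hs
  have h2 := exp_neg_le k
  have h3 := exp_neg_sq_le hs (c := 15) (by norm_num)
  have h4 : Real.exp (-(k : ℝ)) ≤ 1 := Real.exp_le_one_iff.2 (by simp)
  calc _ ≤ Real.exp (s ^ 2) * Real.exp (-(2 * k + 19 * s ^ 2)) * Real.exp (3 * s ^ 2) := by gcongr
    _ = Real.exp (-(k : ℝ)) * Real.exp (-(k : ℝ)) * Real.exp (-(15 * s ^ 2)) := by
        simp only [← Real.exp_add]; congr 1; ring
    _ ≤ 2⁻¹ ^ k * 1 * (1 / 4) := by gcongr
    _ = _ := by ring

theorem Valid.anneal_count (h : I.Valid s k rt P) :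
    avgL (2 ^ pr s) (pT s k) (fun us => ind (¬ (0 < (I.fin s k us).den ∧
      (1 - 1 / (s : ℝ)) * I.GS.card * (I.fin s k us).den ≤ (I.fin s k us).num ∧
      (I.fin s k us).num ≤ (1 + 1 / (s : ℝ)) * I.GS.card * (I.fin s k us).den))) ≤ 2⁻¹ ^ k := by
  have h1 := h.bad_le (i := pI s + 1) le_rfl
  have hs : (20 : ℝ) ≤ s := by exact_mod_cast h.s_ge
  obtain ⟨y0, y1, y2⟩ := yy_bounds h.s_ge
  have l1 : 1 - 1 / (s : ℝ) ≤ (1 - yy s) ^ (pI s + 1) := by
    have := one_add_mul_le_pow (a := -yy s) (by linarith) (pI s + 1)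
    push_cast at this
    rw [mul_neg, y2] at this
    have h3 : 3 / (16 * (s : ℝ)) ≤ 1 / s := by
      rw [div_le_div_iff₀ (by positivity) (by positivity)]; linarith
    rw [sub_eq_add_neg 1 (yy s)]
    linarith
  have l2 : (1 + yy s) ^ (pI s + 1) ≤ 1 + 1 / (s : ℝ) := by
    have h2 : (1 + yy s) ^ (pI s + 1) ≤ Real.exp (yy s) ^ (pI s + 1) :=
      pow_le_pow_left₀ (by linarith) (by linarith [Real.add_one_le_exp (yy s)]) _
    rw [← Real.exp_nat_mul] at h2
    push_cast at h2
    rw [y2] at h2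
    have x0 : 0 ≤ 3 / (16 * (s : ℝ)) := by positivity
    have x1 : 3 / (16 * (s : ℝ)) ≤ 1 := by rw [div_le_one (by positivity)]; linarith
    have h3 := (_root_.abs_le.1 (Real.abs_exp_sub_one_sub_id_le (x := 3 / (16 * (s : ℝ)))
      (by rw [abs_of_nonneg x0]; exact x1))).2
    have h4 : 2 * (3 / (16 * (s : ℝ))) ≤ 1 / s := by
      rw [← mul_div_assoc, div_le_div_iff₀ (by positivity) (by positivity)]; linarith
    nlinarith
  have hO : I.Ov s k (pI s + 1) = I.GS.card := by simp [Ov]
  calc _ ≤ avgL (2 ^ pr s) ((pI s + 1) * pS s k)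
        (fun us => ind (¬ I.GoodAt s k (pI s + 1) rt (I.run0 s k us))) := by
        refine avgL_mono fun us hus => ind_mono fun hb hg => hb ?_
        rw [h.run_eq hus.1.le]
        obtain ⟨-, g2, g3, g4⟩ := hg
        rw [hO] at g3 g4
        refine ⟨g2, le_trans ?_ g3, g4.trans ?_⟩
        · exact mul_le_mul_of_nonneg_right (mul_le_mul_of_nonneg_right l1 (Nat.cast_nonneg _))
            (Nat.cast_nonneg _)
        · exact mul_le_mul_of_nonneg_right (mul_le_mul_of_nonneg_right l2 (Nat.cast_nonneg _))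
            (Nat.cast_nonneg _)
    _ ≤ _ := h1
    _ ≤ _ := by
        have h2 := total_bad_le (k := k) h.s_ge (G := 1) zero_le_one (Real.one_le_exp (by positivity))
        have : (0 : ℝ) ≤ 2⁻¹ ^ k := by positivity
        push_cast
        linarith

theorem Valid.anneal_mem (h : I.Valid s k rt P) {us : List ℕ} (hus : us.length = pT s k) :
    ∃ D ∈ I.GS, I.outZ (I.fin s k us) = List.ofFn D := by
  have h1 : (us.take (pI s * pS s k)).length = pI s * pS s k := by
    rw [List.length_take, hus, pT, Nat.succ_mul]; omega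
  have h2 : (us.drop (pI s * pS s k)).length = pS s k := by
    rw [List.length_drop, hus, pT, Nat.succ_mul]; omega
  have h3 := run0_step (I := I) (pKs_pos h.s_ge) le_rfl h1 h2
  rw [List.take_append_drop, if_pos rfl] at h3
  rw [h.run_eq hus.le]
  change ∃ D ∈ I.GS, I.outZ (I.run0 s k us) = _
  rw [h3]
  change ∃ D ∈ I.GS, Option.getD (I.first s k _ _ _) I.zeros = _
  cases e : I.first s k (pI s) (I.run0 s k (us.take (pI s * pS s k))).hs (us.drop (pI s * pS s k)) with
  | none => exact ⟨0, zero_mem_GS, zeros_eq⟩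
  | some Z => exact h.first_mem _ _ _ e

theorem Valid.anneal_law (h : I.Valid s k rt P) {D : Fin I.m → ℤ} (hD : D ∈ I.GS) :
    avgL (2 ^ pr s) (pT s k) (fun us => ind (I.outZ (I.fin s k us) = List.ofFn D)) ≤
      (1 + 2⁻¹ ^ k) / I.GS.card := by
  have hN : 0 < 2 ^ pr s := by positivity
  have hG : (0 : ℝ) < I.GS.card := by exact_mod_cast Finset.card_pos.2 ⟨D, hD⟩
  set b : ℝ := Real.exp (-(2 * k + 19 * s ^ 2)) with hb
  set f : ℝ := (1 + 3 * Real.exp (-(k + 10 * s ^ 2))) / I.GS.card with hf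
  have hb0 : 0 ≤ b := (Real.exp_pos _).le
  have hf0 : 0 ≤ f := by positivity
  calc _ = avgL (2 ^ pr s) (pI s * pS s k + pS s k)
        (fun us => ind (I.outZ (I.run0 s k us) = List.ofFn D)) := by
        rw [← Nat.succ_mul]
        refine avgL_congr fun us hus => ?_
        rw [h.run_eq hus.1.le]
        rfl
    _ ≤ avgL (2 ^ pr s) (pI s * pS s k)
        (fun us => ind (¬ I.GoodAt s k (pI s) rt (I.run0 s k us)) + (b + f)) := by
        rw [avgL_append]
        refine avgL_mono fun us hus => ?_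
        by_cases hg : I.GoodAt s k (pI s) rt (I.run0 s k us)
        · rw [ind_of_not (not_not.2 hg), zero_add]
          have hW := hg.1 le_rfl
          refine le_trans ?_ (add_le_add (h.stage_ok le_rfl hW) (h.stage_first hW hD))
          rw [← avgL_add]
          refine avgL_mono fun us' hus' => le_trans (ind_mono fun he => ?_) (ind_or_le _ _)
          by_cases hok : I.StageOK s k (pI s) rt (I.run0 s k us).hs us'
          · right
            rw [run0_step (pKs_pos h.s_ge) le_rfl hus.1 hus'.1, if_pos rfl] at he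
            change Option.getD (I.first s k _ _ _) I.zeros = _ at he
            obtain ⟨Z, hZ⟩ := Option.ne_none_iff_exists'.1 (first_ne_none hok.2.1)
            rw [hZ] at he ⊢
            exact congrArg some he
          · exact Or.inl hok
        · rw [ind_of hg]
          refine ((avgL_mono fun us' _ => ind_le_one _).trans (avgL_const hN _ 1).le).trans ?_
          linarith
    _ ≤ ((pI s : ℝ) + 1) * b + f := by
        rw [avgL_add, avgL_const hN]
        have := h.bad_le (i := pI s) (Nat.le_succ _)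
        linarith
    _ ≤ _ := by
        have h1 := total_bad_le (k := k) h.s_ge hG.le h.card_GS
        have h2 : Real.exp (-(k + 10 * s ^ 2 : ℝ)) ≤ 2⁻¹ ^ k * (1 / 4) := by
          rw [neg_add, Real.exp_add]
          exact mul_le_mul (exp_neg_le k) (exp_neg_sq_le h.s_ge (by norm_num)) (Real.exp_pos _).le
            (by positivity)
        rw [hf, le_div_iff₀ hG, add_mul, div_mul_cancel₀ _ hG.ne']
        linarith

end Inst

end Crest.Agent.R309
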