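import Crest.Agent.R309.Flow

/-!
# Row 309: Mix
Mixing of the chain `St.T` from a weak Poincaré inequality.  Write `T f = f - 𝓛 f`.
* reversibility: `pi X * acc X Y = min (pi X) (pi Y)` for `X, Y ∈ Om`; re-index the `-` moves by `Y = X - j • chi e`.
  So `∑ pi * g * (𝓛 f) = 1/(4M) ∑_e 1/s ∑_j ∑_X min (pi X) (pi X') (f X' - f X) (g X' - g X)`; `g = 1` gives `mean_T`, `g = f` gives `Dh f / (4 M)`.
* the total jump probability is `≤ card E / (2 M) ≤ 1/2`; Cauchy–Schwarz gives `∑ pi (𝓛 f)² ≤ Dh f / (4 M)`; expand `var (T f)`.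
* `mix`: `var`, `Dh`, `mean` and `T f` on `Om` only depend on the values on `Om` (truncate `T^[t] f` outside `Om`);
  `v (t+1) ≤ (1 - 1/(4MC)) v t + ε/(4MC)`, `v 0 ≤ 1`.
-/

set_option autoImplicit false
set_option linter.unusedSectionVars false

noncomputable section

namespace Crest.Agent.R309

open Finset

variable {E V : Type} [Fintype E] [DecidableEq E] [DecidableEq V]

namespace St

variable (σ : St E V)

theorem mx_mem_box {X : E → ℤ} : X ∈ σ.box ↔ ∀ e, σ.bl e ≤ X e ∧ X e ≤ σ.bu e := by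
  simp [box, Fintype.mem_piFinset]

theorem mx_mem_Om {X : E → ℤ} : X ∈ σ.Om ↔ X ∈ σ.box ∧ σ.IsR (σ.G.div X) := by
  simp [Om]

theorem mx_isR_zero (hF : σ.Forest) : σ.IsR 0 := by
  obtain ⟨v, hv⟩ := hF.vs_ne
  exact ⟨σ.rt v, hF.rt_mem v hv, σ.rt v, hF.rt_mem v hv, hF.rt_rt v hv, hF.rt_rt v hv,
    (uv_self _).symm⟩

theorem zero_mem_Om (hF : σ.Forest) : (0 : E → ℤ) ∈ σ.Om := by
  rw [mx_mem_Om, mx_mem_box, Gr.div_zero]
  exact ⟨hF.zero_mem, σ.mx_isR_zero hF⟩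
theorem Zh_pos (hF : σ.Forest) : 0 < σ.Zh :=
  Finset.sum_pos (fun _ _ => Real.exp_pos _) ⟨0, σ.zero_mem_Om hF⟩
theorem pi_pos (hF : σ.Forest) (X : E → ℤ) : 0 < σ.pi X :=
  div_pos (Real.exp_pos _) (σ.Zh_pos hF)
theorem sum_pi (hF : σ.Forest) : ∑ X ∈ σ.Om, σ.pi X = 1 := by
  unfold pi
  rw [← Finset.sum_div]
  exact div_self (σ.Zh_pos hF).ne'
theorem isR_zero (hF : σ.Forest) : σ.IsR 0 := σ.mx_isR_zero hF
theorem div_chi (hF : σ.Forest) (e : E) :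
    σ.G.div (σ.chi e) = uv (σ.rt (σ.G.src e)) (σ.rt (σ.G.tgt e)) := by
  unfold chi
  rw [Gr.div_add, Gr.div_sub, Gr.div_one, hF.div_P _ (hF.src_mem e), hF.div_P _ (hF.tgt_mem e)]
  unfold uv
  abel

open Classical in
/-- the root defects -/
def defs : Finset (V → ℤ) := ((σ.vs ×ˢ σ.vs).image fun p => uv p.1 p.2).filter σ.IsR

theorem mem_defs {γ : V → ℤ} : γ ∈ σ.defs ↔ σ.IsR γ := by
  classical
  unfold defs
  rw [Finset.mem_filter]
  refine ⟨fun h => h.2, fun h => ⟨?_, h⟩⟩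
  obtain ⟨w, hw, v, hv, -, -, rfl⟩ := h
  rw [Finset.mem_image]
  exact ⟨(w, v), Finset.mem_product.2 ⟨hw, hv⟩, rfl⟩
theorem card_defs_le : (σ.defs.card : ℝ) ≤ (σ.vs.card : ℝ) ^ 2 := by
  classical
  have : σ.defs.card ≤ σ.vs.card ^ 2 := by
    unfold defs
    refine (Finset.card_filter_le _ _).trans (Finset.card_image_le.trans ?_)
    rw [Finset.card_product, sq]
  exact_mod_cast this
open Classical in
/-- sums over the state space, sector by sector -/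
theorem sum_Om (f : (E → ℤ) → ℝ) :
    ∑ X ∈ σ.Om, f X = ∑ γ ∈ σ.defs, ∑ X ∈ σ.box.filter (fun X => σ.G.div X = γ), f X := by
  rw [← Finset.sum_fiberwise_of_maps_to (s := σ.Om) (t := σ.defs) (g := fun X => σ.G.div X)
    (fun X hX => σ.mem_defs.2 (σ.mx_mem_Om.1 hX).2)]
  refine Finset.sum_congr rfl fun γ hγ => Finset.sum_congr ?_ fun _ _ => rfl
  ext X
  simp only [Finset.mem_filter, mx_mem_Om]
  exact ⟨fun h => ⟨h.1.1, h.2⟩, fun h => ⟨⟨h.1, h.2 ▸ σ.mem_defs.1 hγ⟩, h.2⟩⟩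
theorem Zh_eq : σ.Zh = ∑ γ ∈ σ.defs, Real.exp (-σ.hh γ) * σ.Z γ := by
  classical
  unfold Zh
  rw [σ.sum_Om]
  refine Finset.sum_congr rfl fun γ _ => ?_
  unfold Z
  rw [Finset.mul_sum]
  refine Finset.sum_congr rfl fun X hX => ?_
  have := (Finset.mem_filter.1 hX).2
  unfold H w
  rw [← Real.exp_add, this]
  congr 1
  ring
theorem mx_Z_nonneg (γ : V → ℤ) : 0 ≤ σ.Z γ :=
  Finset.sum_nonneg fun _ _ => (Real.exp_pos _).le
theorem Z_le_Zh (hF : σ.Forest) (h0 : σ.hh 0 = 0) : σ.Z 0 ≤ σ.Zh := by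
  rw [σ.Zh_eq]
  have := Finset.single_le_sum (f := fun γ => Real.exp (-σ.hh γ) * σ.Z γ)
    (fun γ _ => mul_nonneg (Real.exp_pos _).le (σ.mx_Z_nonneg γ)) (σ.mem_defs.2 (σ.isR_zero hF))
  simpa [h0] using this
theorem Zh_le {A : ℝ} (hA : 0 ≤ A) (h : ∀ γ, σ.IsR γ → Real.exp (-σ.hh γ) * σ.Z γ ≤ A * σ.Z 0) :
    σ.Zh ≤ ((σ.vs.card : ℝ) ^ 2 + 1) * A * σ.Z 0 := by
  rw [σ.Zh_eq]
  have h1 := Finset.sum_le_card_nsmul σ.defs (fun γ => Real.exp (-σ.hh γ) * σ.Z γ) (A * σ.Z 0)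
    fun γ hγ => h γ (σ.mem_defs.1 hγ)
  rw [nsmul_eq_mul] at h1
  have h2 := σ.card_defs_le
  have h3 : 0 ≤ A * σ.Z 0 := mul_nonneg hA (σ.mx_Z_nonneg 0)
  rw [mul_assoc]
  exact h1.trans (mul_le_mul_of_nonneg_right (by linarith) h3)
theorem var_le (hF : σ.Forest) (f : (E → ℤ) → ℝ) (c : ℝ) :
    σ.var f ≤ ∑ X ∈ σ.Om, σ.pi X * (f X - c) ^ 2 := by
  have h : ∑ X ∈ σ.Om, σ.pi X * (f X - c) ^ 2 = σ.var f + (σ.mean f - c) ^ 2 := by
    have e : ∀ X, σ.pi X * (f X - c) ^ 2 = σ.pi X * (f X - σ.mean f) ^ 2 +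
        2 * (σ.mean f - c) * (σ.pi X * f X) +
        ((σ.mean f - c) ^ 2 - 2 * (σ.mean f - c) * σ.mean f) * σ.pi X := fun X => by ring
    simp only [e, Finset.sum_add_distrib, ← Finset.mul_sum, σ.sum_pi hF]
    unfold var
    change _ + 2 * (σ.mean f - c) * σ.mean f + _ = _
    ring
  rw [h]
  exact le_add_of_nonneg_right (sq_nonneg _)
theorem Dh_nonneg (hF : σ.Forest) (f : (E → ℤ) → ℝ) : 0 ≤ σ.Dh f :=
  Finset.sum_nonneg fun _ _ => mul_nonneg (by positivity) (Finset.sum_nonneg fun _ _ =>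
    Finset.sum_nonneg fun _ _ =>
      mul_nonneg (le_min (σ.pi_pos hF _).le (σ.pi_pos hF _).le) (sq_nonneg _))

theorem mx_acc_nonneg (X Y : E → ℤ) : 0 ≤ σ.acc X Y := by
  unfold acc
  split_ifs
  · exact le_min zero_le_one (Real.exp_pos _).le
  · exact le_rfl

theorem mx_acc_le_one (X Y : E → ℤ) : σ.acc X Y ≤ 1 := by
  unfold acc
  split_ifs
  · exact min_le_left _ _
  · exact zero_le_one

theorem mx_acc_of_not_mem (X : E → ℤ) {Y : E → ℤ} (hY : Y ∉ σ.Om) : σ.acc X Y = 0 := by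
  unfold acc
  rw [if_neg hY]

theorem mx_acc_mul_congr (X Y : E → ℤ) {a b : ℝ} (h : Y ∈ σ.Om → a = b) :
    σ.acc X Y * a = σ.acc X Y * b := by
  by_cases hY : Y ∈ σ.Om
  · rw [h hY]
  · rw [σ.mx_acc_of_not_mem X hY, zero_mul, zero_mul]

theorem mx_acc_mul_le (X Y : E → ℤ) {a b : ℝ} (h : Y ∈ σ.Om → a ≤ b) :
    σ.acc X Y * a ≤ σ.acc X Y * b := by
  by_cases hY : Y ∈ σ.Om
  · exact mul_le_mul_of_nonneg_left (h hY) (σ.mx_acc_nonneg X Y)
  · rw [σ.mx_acc_of_not_mem X hY, zero_mul, zero_mul]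

/-- reversibility -/
theorem mx_pi_mul_acc (hF : σ.Forest) (X : E → ℤ) {Y : E → ℤ} (hY : Y ∈ σ.Om) :
    σ.pi X * σ.acc X Y = min (σ.pi X) (σ.pi Y) := by
  unfold acc
  rw [if_pos hY, mul_min_of_nonneg _ _ (σ.pi_pos hF X).le, mul_one]
  congr 1
  unfold pi
  rw [div_mul_eq_mul_div, ← Real.exp_add]
  congr 2
  ring

open Classical in
theorem mx_sum_acc_add (hF : σ.Forest) (v : E → ℤ) (Φ : (E → ℤ) → ℝ) :
    ∑ X ∈ σ.Om, σ.pi X * (σ.acc X (X + v) * Φ X) =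
      ∑ X ∈ σ.Om.filter (fun X => X + v ∈ σ.Om), min (σ.pi X) (σ.pi (X + v)) * Φ X := by
  rw [Finset.sum_filter]
  refine Finset.sum_congr rfl fun X _ => ?_
  split_ifs with h
  · rw [← mul_assoc, σ.mx_pi_mul_acc hF X h]
  · rw [σ.mx_acc_of_not_mem X h, zero_mul, mul_zero]

open Classical in
theorem mx_sum_acc_sub (hF : σ.Forest) (v : E → ℤ) (Φ : (E → ℤ) → ℝ) :
    ∑ X ∈ σ.Om, σ.pi X * (σ.acc X (X - v) * Φ X) =
      ∑ X ∈ σ.Om.filter (fun X => X + v ∈ σ.Om), min (σ.pi X) (σ.pi (X + v)) * Φ (X + v) := by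
  have h := σ.mx_sum_acc_add hF (-v) Φ
  simp only [← sub_eq_add_neg] at h
  rw [h]
  refine Finset.sum_nbij' (fun X => X - v) (fun X => X + v) ?_ ?_ ?_ ?_ ?_
  · intro X hX
    simp only [Finset.mem_filter] at hX ⊢
    exact ⟨hX.2, by simpa using hX.1⟩
  · intro X hX
    simp only [Finset.mem_filter] at hX ⊢
    exact ⟨hX.2, by simpa using hX.1⟩
  · intro X _
    simp
  · intro X _
    simp
  · intro X _
    rw [sub_add_cancel, min_comm]

/-- the average of `Φ X ·` over the moves from `X` -/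
def mx_jump (M : ℕ) (Φ : (E → ℤ) → (E → ℤ) → ℝ) (X : E → ℤ) : ℝ :=
  ∑ e, ∑ j ∈ Finset.Icc 1 (σ.s e), 1 / (4 * (M : ℝ) * σ.s e) *
    (σ.acc X (X + (j : ℤ) • σ.chi e) * Φ X (X + (j : ℤ) • σ.chi e) +
      σ.acc X (X - (j : ℤ) • σ.chi e) * Φ X (X - (j : ℤ) • σ.chi e))

theorem mx_T_eq (M : ℕ) (f : (E → ℤ) → ℝ) (X : E → ℤ) :
    σ.T M f X = f X + σ.mx_jump M (fun X Y => f Y - f X) X := rfl

theorem mx_jump_mono (M : ℕ) {Φ Ψ : (E → ℤ) → (E → ℤ) → ℝ} {X : E → ℤ}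
    (h : ∀ Y ∈ σ.Om, Φ X Y ≤ Ψ X Y) : σ.mx_jump M Φ X ≤ σ.mx_jump M Ψ X :=
  Finset.sum_le_sum fun _ _ => Finset.sum_le_sum fun _ _ =>
    mul_le_mul_of_nonneg_left (add_le_add (σ.mx_acc_mul_le _ _ (h _)) (σ.mx_acc_mul_le _ _ (h _)))
      (by positivity)

theorem mx_jump_lin (M : ℕ) (a b : ℝ) (Φ Ψ : (E → ℤ) → (E → ℤ) → ℝ) (X : E → ℤ) :
    σ.mx_jump M (fun X Y => a * Φ X Y + b * Ψ X Y) X = a * σ.mx_jump M Φ X + b * σ.mx_jump M Ψ X := by
  unfold mx_jump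
  simp only [Finset.mul_sum, ← Finset.sum_add_distrib]
  refine Finset.sum_congr rfl fun _ _ => Finset.sum_congr rfl fun _ _ => ?_
  ring

theorem mx_mul_jump (M : ℕ) (g : (E → ℤ) → ℝ) (Φ : (E → ℤ) → (E → ℤ) → ℝ) (X : E → ℤ) :
    g X * σ.mx_jump M Φ X = σ.mx_jump M (fun X Y => g X * Φ X Y) X := by
  unfold mx_jump
  simp only [Finset.mul_sum]
  refine Finset.sum_congr rfl fun _ _ => Finset.sum_congr rfl fun _ _ => ?_
  ring

theorem mx_jump_one_nonneg (M : ℕ) (X : E → ℤ) : 0 ≤ σ.mx_jump M (fun _ _ => 1) X :=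
  Finset.sum_nonneg fun _ _ => Finset.sum_nonneg fun _ _ => mul_nonneg (by positivity)
    (add_nonneg (mul_nonneg (σ.mx_acc_nonneg _ _) zero_le_one)
      (mul_nonneg (σ.mx_acc_nonneg _ _) zero_le_one))

theorem mx_jump_one_le (hF : σ.Forest) {M : ℕ} (hM : Fintype.card E ≤ M) (X : E → ℤ) :
    σ.mx_jump M (fun _ _ => 1) X ≤ 1 / 2 := by
  have h1 : σ.mx_jump M (fun _ _ => 1) X ≤ ∑ _e : E, 1 / (2 * (M : ℝ)) := by
    refine Finset.sum_le_sum fun e _ => ?_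
    have hs : (0 : ℝ) < σ.s e := by exact_mod_cast hF.s_pos e
    refine (Finset.sum_le_card_nsmul _ _ (1 / (4 * (M : ℝ) * σ.s e) * 2) fun j _ => ?_).trans ?_
    · refine mul_le_mul_of_nonneg_left ?_ (by positivity)
      have := σ.mx_acc_le_one X (X + (j : ℤ) • σ.chi e)
      have := σ.mx_acc_le_one X (X - (j : ℤ) • σ.chi e)
      linarith
    · rw [Nat.card_Icc, Nat.add_sub_cancel, nsmul_eq_mul]
      apply le_of_eq
      by_cases hM0 : (M : ℝ) = 0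
      · simp [hM0]
      · field_simp
        norm_num
  refine h1.trans ?_
  rw [Finset.sum_const, Finset.card_univ, nsmul_eq_mul]
  rcases Nat.eq_zero_or_pos M with rfl | hM0
  · simp
  · have : (Fintype.card E : ℝ) ≤ M := by exact_mod_cast hM
    have hM' : (0 : ℝ) < M := by exact_mod_cast hM0
    rw [mul_one_div, div_le_div_iff₀ (by positivity) (by norm_num)]
    linarith

open Classical in
theorem mx_sum_jump (hF : σ.Forest) (M : ℕ) (Φ : (E → ℤ) → (E → ℤ) → ℝ) :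
    ∑ X ∈ σ.Om, σ.pi X * σ.mx_jump M Φ X = 1 / (4 * (M : ℝ)) *
      ∑ e, (1 / (σ.s e : ℝ)) * ∑ j ∈ Finset.Icc 1 (σ.s e),
        ∑ X ∈ σ.Om.filter (fun X => X + (j : ℤ) • σ.chi e ∈ σ.Om),
          min (σ.pi X) (σ.pi (X + (j : ℤ) • σ.chi e)) *
            (Φ X (X + (j : ℤ) • σ.chi e) + Φ (X + (j : ℤ) • σ.chi e) X) := by
  unfold mx_jump
  simp only [Finset.mul_sum (s := Finset.univ), Finset.mul_sum (s := Finset.Icc _ _)]
  rw [Finset.sum_comm]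
  refine Finset.sum_congr rfl fun e _ => ?_
  rw [Finset.sum_comm]
  refine Finset.sum_congr rfl fun j _ => ?_
  have h1 := σ.mx_sum_acc_add hF ((j : ℤ) • σ.chi e) fun X => Φ X (X + (j : ℤ) • σ.chi e)
  have h2 := σ.mx_sum_acc_sub hF ((j : ℤ) • σ.chi e) fun X => Φ X (X - (j : ℤ) • σ.chi e)
  simp only [add_sub_cancel_right] at h2
  simp only [mul_add, Finset.sum_add_distrib]
  rw [← h1, ← h2, ← mul_add, ← mul_add, ← mul_assoc, ← Finset.sum_add_distrib,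
    ← Finset.sum_add_distrib, Finset.mul_sum]
  refine Finset.sum_congr rfl fun X _ => ?_
  rw [one_div_mul_one_div]
  ring

theorem mx_sum_jump_Dh (hF : σ.Forest) (M : ℕ) (f : (E → ℤ) → ℝ) (a : ℝ)
    {Φ : (E → ℤ) → (E → ℤ) → ℝ} (h : ∀ X Y, Φ X Y + Φ Y X = a * (f Y - f X) ^ 2) :
    ∑ X ∈ σ.Om, σ.pi X * σ.mx_jump M Φ X = a * (σ.Dh f / (4 * M)) := by
  rw [σ.mx_sum_jump hF]
  unfold Dh
  simp only [h, mul_left_comm _ a, ← Finset.mul_sum]
  ring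

theorem T_congr (M : ℕ) {f g : (E → ℤ) → ℝ} (h : ∀ X ∈ σ.Om, f X = g X) :
    ∀ X ∈ σ.Om, σ.T M f X = σ.T M g X := by
  intro X hX
  rw [mx_T_eq, mx_T_eq, h X hX]
  congr 1
  exact le_antisymm (σ.mx_jump_mono M fun Y hY => by rw [h X hX, h Y hY])
    (σ.mx_jump_mono M fun Y hY => by rw [h X hX, h Y hY])
theorem mean_T (hF : σ.Forest) (M : ℕ) (f : (E → ℤ) → ℝ) : σ.mean (σ.T M f) = σ.mean f := by
  have h := σ.mx_sum_jump_Dh hF M f 0 (Φ := fun X Y => f Y - f X) fun X Y => by ring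
  unfold mean
  simp only [mx_T_eq, mul_add, Finset.sum_add_distrib, h]
  ring
theorem abs_T_le (hF : σ.Forest) {M : ℕ} (hM : Fintype.card E ≤ M) {f : (E → ℤ) → ℝ}
    (hf : ∀ X ∈ σ.Om, |f X| ≤ 1) : ∀ X ∈ σ.Om, |σ.T M f X| ≤ 1 := by
  intro X hX
  have h0 := σ.mx_jump_one_nonneg M X
  have h1 := σ.mx_jump_one_le hF hM X
  have hx := abs_le.1 (hf X hX)
  have h2 := σ.mx_jump_mono M (X := X) (Φ := fun X Y => f Y - f X)
    (Ψ := fun X _ => (1 - f X) * 1) fun Y hY => by linarith [(abs_le.1 (hf Y hY)).2]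
  have h3 := σ.mx_jump_mono M (X := X) (Ψ := fun X Y => f Y - f X)
    (Φ := fun X _ => (-1 - f X) * 1) fun Y hY => by linarith [(abs_le.1 (hf Y hY)).1]
  rw [← σ.mx_mul_jump M (fun X => 1 - f X) (fun _ _ => 1)] at h2
  rw [← σ.mx_mul_jump M (fun X => -1 - f X) (fun _ _ => 1)] at h3
  rw [mx_T_eq, abs_le]
  constructor <;> nlinarith [hx.1, hx.2]

theorem mx_jump_sq_le (hF : σ.Forest) {M : ℕ} (hM : Fintype.card E ≤ M)
    (Φ : (E → ℤ) → (E → ℤ) → ℝ) (X : E → ℤ) :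
    σ.mx_jump M Φ X ^ 2 ≤ 1 / 2 * σ.mx_jump M (fun X Y => Φ X Y ^ 2) X := by
  set D := σ.mx_jump M Φ X with hD
  have h1 := σ.mx_jump_one_le hF hM X
  have h2 := σ.mx_jump_mono M (X := X) (Φ := fun X Y => (2 * D) * Φ X Y)
    (Ψ := fun X Y => (2 * D ^ 2) * 1 + 1 / 2 * Φ X Y ^ 2)
    fun Y _ => by nlinarith [sq_nonneg (2 * D - Φ X Y)]
  rw [← σ.mx_mul_jump M (fun _ => 2 * D) Φ,
    σ.mx_jump_lin M (2 * D ^ 2) (1 / 2) (fun _ _ => 1) (fun X Y => Φ X Y ^ 2), ← hD] at h2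
  nlinarith [sq_nonneg D]

theorem var_T (hF : σ.Forest) {M : ℕ} (hM : Fintype.card E ≤ M) (f : (E → ℤ) → ℝ) :
    σ.var (σ.T M f) ≤ σ.var f - σ.Dh f / (4 * M) := by
  have h1 := σ.mx_sum_jump_Dh hF M f (-1) (Φ := fun X Y => (f X - σ.mean f) * (f Y - f X))
    fun X Y => by ring
  have h2 := σ.mx_sum_jump_Dh hF M f 2 (Φ := fun X Y => (f Y - f X) ^ 2) fun X Y => by ring
  have h3 : σ.var (σ.T M f) ≤ ∑ X ∈ σ.Om, (σ.pi X * (f X - σ.mean f) ^ 2 +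
      2 * (σ.pi X * σ.mx_jump M (fun X Y => (f X - σ.mean f) * (f Y - f X)) X) +
      1 / 2 * (σ.pi X * σ.mx_jump M (fun X Y => (f Y - f X) ^ 2) X)) := by
    unfold var
    rw [σ.mean_T hF]
    refine Finset.sum_le_sum fun X _ => ?_
    have h4 := mul_le_mul_of_nonneg_left (σ.mx_jump_sq_le hF hM (fun X Y => f Y - f X) X)
      (σ.pi_pos hF X).le
    rw [mx_T_eq, ← σ.mx_mul_jump M (fun X => f X - σ.mean f) (fun X Y => f Y - f X)]
    nlinarith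
  rw [Finset.sum_add_distrib, Finset.sum_add_distrib, ← Finset.mul_sum, ← Finset.mul_sum, h1, h2]
    at h3
  unfold var at h3 ⊢
  linarith

theorem mx_mean_congr {f g : (E → ℤ) → ℝ} (h : ∀ X ∈ σ.Om, f X = g X) : σ.mean f = σ.mean g :=
  Finset.sum_congr rfl fun X hX => by rw [h X hX]

theorem mx_var_congr {f g : (E → ℤ) → ℝ} (h : ∀ X ∈ σ.Om, f X = g X) : σ.var f = σ.var g :=
  Finset.sum_congr rfl fun X hX => by rw [h X hX, σ.mx_mean_congr h]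

theorem mx_Dh_congr {f g : (E → ℤ) → ℝ} (h : ∀ X ∈ σ.Om, f X = g X) : σ.Dh f = σ.Dh g := by
  unfold Dh
  refine Finset.sum_congr rfl fun e _ => ?_
  congr 1
  refine Finset.sum_congr rfl fun j _ => Finset.sum_congr rfl fun X hX => ?_
  rw [Finset.mem_filter] at hX
  rw [h X hX.1, h _ hX.2]

theorem mix (hF : σ.Forest) {M : ℕ} (hM : Fintype.card E ≤ M) (hM0 : 0 < M) {C ε : ℝ} (hC : 1 ≤ C)
    (hε : 0 ≤ ε) (hP : ∀ F : (E → ℤ) → ℝ, (∀ X, |F X| ≤ 1) → σ.var F ≤ C * σ.Dh F + ε)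
    {f : (E → ℤ) → ℝ} (hf : ∀ X, |f X| ≤ 1) (t : ℕ) :
    σ.pi 0 * ((σ.T M)^[t] f 0 - σ.mean f) ^ 2 ≤ Real.exp (-(t : ℝ) / (4 * M * C)) + ε := by
  classical
  have hM' : (1 : ℝ) ≤ M := by exact_mod_cast hM0
  have hP' : ∀ F : (E → ℤ) → ℝ, (∀ X ∈ σ.Om, |F X| ≤ 1) → σ.var F ≤ C * σ.Dh F + ε := by
    intro F hFb
    have e : ∀ X ∈ σ.Om, F X = (fun X => if X ∈ σ.Om then F X else 0) X := fun X hX => by
      simp [hX]
    rw [σ.mx_var_congr e, σ.mx_Dh_congr e]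
    refine hP _ fun X => ?_
    split_ifs with hX
    · exact hFb X hX
    · simp
  have hb : ∀ t : ℕ, ∀ X ∈ σ.Om, |(σ.T M)^[t] f X| ≤ 1 := by
    intro t
    induction t with
    | zero => exact fun X _ => hf X
    | succ t ih =>
      rw [Function.iterate_succ_apply']
      exact σ.abs_T_le hF hM ih
  have hm : ∀ t : ℕ, σ.mean ((σ.T M)^[t] f) = σ.mean f := by
    intro t
    induction t with
    | zero => rfl
    | succ t ih => rw [Function.iterate_succ_apply', σ.mean_T hF, ih]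
  set κ : ℝ := 1 / (4 * M * C) with hκ
  have hMC : (1 : ℝ) ≤ 4 * M * C := by nlinarith
  have hκ0 : 0 < κ := by positivity
  have hκ1 : κ ≤ 1 := by
    rw [hκ, div_le_one (by linarith)]
    exact hMC
  have hv : ∀ t : ℕ, σ.var ((σ.T M)^[t] f) ≤ Real.exp (-(t * κ)) + ε := by
    intro t
    induction t with
    | zero =>
      have h1 := σ.var_le hF f 0
      have h2 : ∑ X ∈ σ.Om, σ.pi X * (f X - 0) ^ 2 ≤ ∑ X ∈ σ.Om, σ.pi X :=
        Finset.sum_le_sum fun X _ => by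
          have := sq_le_one_iff_abs_le_one (f X) |>.2 (hf X)
          have := σ.pi_pos hF X
          rw [sub_zero]
          nlinarith
      rw [σ.sum_pi hF] at h2
      simp only [Function.iterate_zero, id, Nat.cast_zero, zero_mul, neg_zero, Real.exp_zero]
      linarith
    | succ t ih =>
      rw [Function.iterate_succ_apply']
      have h1 := σ.var_T hF hM ((σ.T M)^[t] f)
      have h2 := hP' _ (hb t)
      have h3 : σ.Dh ((σ.T M)^[t] f) / (4 * M) = κ * (C * σ.Dh ((σ.T M)^[t] f)) := by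
        rw [hκ]
        field_simp
      have h4 : Real.exp (-(((t + 1 : ℕ) : ℝ) * κ)) = Real.exp (-κ) * Real.exp (-(t * κ)) := by
        rw [← Real.exp_add]
        congr 1
        push_cast
        ring
      have h5 : 1 - κ ≤ Real.exp (-κ) := by linarith [Real.add_one_le_exp (-κ)]
      have h6 := mul_le_mul_of_nonneg_right h5 (Real.exp_pos (-(t * κ))).le
      have h7 := mul_le_mul_of_nonneg_left ih (show 0 ≤ 1 - κ by linarith)
      have h8 := mul_le_mul_of_nonneg_left h2 hκ0.le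
      rw [h4]
      nlinarith
  have h1 : σ.pi 0 * ((σ.T M)^[t] f 0 - σ.mean f) ^ 2 ≤ σ.var ((σ.T M)^[t] f) := by
    unfold var
    rw [hm t]
    exact Finset.single_le_sum (f := fun X => σ.pi X * ((σ.T M)^[t] f X - σ.mean f) ^ 2)
      (fun X _ => mul_nonneg (σ.pi_pos hF X).le (sq_nonneg _)) (σ.zero_mem_Om hF)
  refine h1.trans ((hv t).trans (le_of_eq ?_))
  congr 2
  rw [hκ]
  ring

end St

end Crest.Agent.R309
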