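import Crest.Agent.R309.Par
import Crest.Agent.R309.Mix

/-!
# Row 309: Bridge
Lists versus functions.  `List.ofFn X` for `X : Fin I.m → ℤ`; sums over `List.range` versus `Finset.univ` (`Fin.sum_univ_eq_sum_range`,
`List.sum_ofFn`, `ofFn_eq_map_range` of `Lib.PolyTime.Codes`).
`card_box`: every side has at most `2 R (pL + 3) + 1 ≤ 2 ^ (3 s + 5)` points (`pL_le`), `2 ^ ((3 s + 5) s) ≤ exp (3 s²)` (`log 2 < 0.7`).
`kF_final`: on the windows `|t| ≤ R ≤ 2 ^ (2 s + 1)`, `bet_final`, `bet_floor`.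
-/

set_option autoImplicit false

noncomputable section

namespace Crest.Agent.R309

open Finset Crest.Agent.Lib.PolyTime

namespace Inst

variable {I : Inst} {s k i : ℕ} {rt : ℕ → ℕ} {P : ℕ → Fin I.m → ℤ} {hs : List ℤ}

theorem br_sum_range {β : Type} [AddCommMonoid β] (n : ℕ) (f : ℕ → β) :
    ((List.range n).map f).sum = ∑ e : Fin n, f e := by
  rw [← ofFn_eq_map_range (fun e : Fin n => f e) f fun _ => rfl, List.sum_ofFn]

theorem br_all_range (n : ℕ) (p : ℕ → Bool) : (List.range n).all p = true ↔ ∀ e : Fin n, p e = true := by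
  rw [List.all_eq_true]
  exact ⟨fun h e => h e (List.mem_range.2 e.2), fun h e he => h ⟨e, List.mem_range.1 he⟩⟩

theorem br_idxOf {n a : ℕ} (γ : ℕ → ℤ) {c : ℤ} (ha : a < n) (h : γ a = c) (h' : ∀ b, γ b = c → b = a) :
    ((List.range n).map γ).idxOf c = a := by
  unfold List.idxOf
  rw [List.findIdx_eq (by simpa using ha)]
  refine ⟨by simpa using h, fun j hj => ?_⟩
  have : γ j ≠ c := fun e => hj.ne (h' j e)
  simpa using this

theorem toF_ofFn (X : Fin I.m → ℤ) : I.toF (List.ofFn X) = X := by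
  funext e
  simp [toF, List.getD_eq_getElem?_getD]

theorem ofFn_toF {Z : List ℤ} (h : Z.length = I.m) : List.ofFn (I.toF Z) = Z := by
  apply List.ext_getElem (by simpa using h.symm)
  intro j h1 h2
  simp [toF, List.getD_eq_getElem?_getD, h2]

theorem zeros_eq : I.zeros = List.ofFn (0 : Fin I.m → ℤ) := by
  unfold zeros
  exact (List.ofFn_const _ _).symm

theorem getD_ofFn (X : Fin I.m → ℤ) (e : Fin I.m) : (List.ofFn X).getD e 0 = X e := by
  simp [List.getD_eq_getElem?_getD]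

theorem divL_ofFn (X : Fin I.m → ℤ) : I.divL (List.ofFn X) = (List.range I.n).map (I.gr.div X) := by
  unfold divL
  refine List.map_congr_left fun v _ => ?_
  rw [br_sum_range]
  simp only [getD_ofFn]
  rfl

theorem key_ofFn (X : Fin I.m → ℤ) : I.key (List.ofFn X) = I.keyF (I.gr.div X) := by
  unfold key keyF
  rw [divL_ofFn]

theorem kTot_ofFn (s i : ℕ) (X : Fin I.m → ℤ) : I.kTot s i (List.ofFn X) = I.kF s i X := by
  unfold kTot kF
  rw [br_sum_range]
  simp only [getD_ofFn]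

theorem inBox_ofFn (s k : ℕ) (X : Fin I.m → ℤ) : I.inBox s k (List.ofFn X) = true ↔ X ∈ I.boxF s k := by
  unfold inBox boxF
  rw [br_all_range, Fintype.mem_piFinset]
  simp only [getD_ofFn, Bool.and_eq_true, decide_eq_true_eq, Finset.mem_Icc]

theorem all_zero_ofFn (X : Fin I.m → ℤ) : (List.ofFn X).all (fun x => x == 0) = true ↔ X = 0 := by
  rw [List.all_eq_true]
  constructor
  · intro h
    funext e
    simpa using h (X e) (List.mem_ofFn.2 ⟨e, rfl⟩)
  · rintro rfl x hx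
    obtain ⟨e, rfl⟩ := List.mem_ofFn.1 hx
    simp

theorem keyF_zero : I.keyF 0 = 0 := by
  unfold keyF keyL
  rw [if_pos]
  simp

theorem keyF_uv {w v : ℕ} (hw : w < I.n) (hv : v < I.n) (h : w ≠ v) : I.keyF (uv w v) = w * I.n + v := by
  unfold keyF keyL
  rw [if_neg, br_idxOf (uv w v) (c := 1) hw, br_idxOf (uv w v) (c := -1) hv]
  · simp [uv_apply, h]
  · intro b hb
    rw [uv_apply] at hb
    split_ifs at hb <;> omega
  · simp [uv_apply, h.symm]
  · intro b hb
    rw [uv_apply] at hb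
    split_ifs at hb <;> omega
  · rw [List.all_eq_true]
    intro h0
    have := h0 (uv w v w) (List.mem_map.2 ⟨w, List.mem_range.2 hw, rfl⟩)
    simp [uv_apply, h.symm] at this

theorem keyF_lt {w v : ℕ} (hw : w < I.n) (hv : v < I.n) : I.keyF (uv w v) < I.n * I.n := by
  by_cases h : w = v
  · subst h
    rw [uv_self, keyF_zero]
    exact Nat.mul_pos (by omega) (by omega)
  · rw [keyF_uv hw hv h]
    calc w * I.n + v < w * I.n + I.n := by omega
      _ = (w + 1) * I.n := by ring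
      _ ≤ I.n * I.n := Nat.mul_le_mul_right _ hw

theorem keyF_inj {w v w' v' : ℕ} (hw : w < I.n) (hv : v < I.n) (hw' : w' < I.n) (hv' : v' < I.n)
    (h : I.keyF (uv w v) = I.keyF (uv w' v')) : uv w v = uv w' v' := by
  have key : ∀ {a b : ℕ}, a < I.n → b < I.n → a ≠ b → I.keyF (uv a b) ≠ 0 := by
    intro a b ha hb hab h0
    rw [keyF_uv ha hb hab] at h0
    have h1 : a * I.n = 0 := by omega
    rcases Nat.mul_eq_zero.1 h1 with h2 | h2 <;> omega
  by_cases h1 : w = v
  · by_cases h2 : w' = v'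
    · rw [h1, h2, uv_self, uv_self]
    · rw [h1, uv_self, keyF_zero] at h
      exact absurd h.symm (key hw' hv' h2)
  · by_cases h2 : w' = v'
    · rw [h2, uv_self, keyF_zero] at h
      exact absurd h (key hw hv h1)
    · rw [keyF_uv hw hv h1, keyF_uv hw' hv' h2] at h
      have h3 : v = v' := by
        have := congrArg (· % I.n) h
        simpa [Nat.mul_add_mod_self_right, Nat.mod_eq_of_lt hv, Nat.mod_eq_of_lt hv'] using this
      subst h3
      have h4 : w = w' := Nat.eq_of_mul_eq_mul_right (by omega : 0 < I.n) (by omega)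
      rw [h4]

theorem kF_zero (s i : ℕ) : I.kF s i 0 = 0 := by
  unfold kF
  exact Finset.sum_eq_zero fun e _ => Edge.ke_zero _ _ _

theorem zero_mem_boxF (s k : ℕ) : (0 : Fin I.m → ℤ) ∈ I.boxF s k := by
  unfold boxF
  rw [Fintype.mem_piFinset]
  intro e
  rw [Finset.mem_Icc]
  constructor <;> simp only [Pi.zero_apply] <;> omega

theorem zero_mem_GS : (0 : Fin I.m → ℤ) ∈ I.GS := by
  classical
  unfold GS
  rw [Finset.mem_filter, Fintype.mem_piFinset]
  refine ⟨fun e => ?_, Gr.div_zero _⟩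
  split_ifs <;> simp

theorem mem_GS {X : Fin I.m → ℤ} : X ∈ I.GS ↔ I.gr.div X = 0 ∧ ∀ e : Fin I.m,
    if (I.ed e).ty = 3 then X e = 0 else -((I.ed e).lo : ℤ) ≤ X e ∧ X e ≤ (I.ed e).hi := by
  classical
  unfold GS
  rw [Finset.mem_filter, Fintype.mem_piFinset, and_comm]
  refine and_congr_right fun _ => forall_congr' fun e => ?_
  split_ifs <;> simp

theorem GS_subset (s k : ℕ) : I.GS ⊆ I.boxF s k := by
  intro X hX
  obtain ⟨-, h2⟩ := mem_GS.1 hX
  unfold boxF
  rw [Fintype.mem_piFinset]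
  intro e
  have := h2 e
  rw [Finset.mem_Icc]
  split_ifs at this <;> omega


theorem mkSt_box : (I.mkSt s k i rt P hs).box = I.boxF s k := rfl
theorem mkSt_chi (e : Fin I.m) : (I.mkSt s k i rt P hs).chi e = I.chiF P e := rfl
theorem mkSt_w (X : Fin I.m → ℤ) : (I.mkSt s k i rt P hs).w X = th s ^ I.kF s i X := by
  rw [th_pow]
  unfold St.w kF
  congr 2
  simp only [mkSt]
  rw [Nat.cast_sum, Finset.mul_sum]

theorem mkSt_Z (γ : ℕ → ℤ) : (I.mkSt s k i rt P hs).Z γ = I.ZZ s k i γ := by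
  unfold St.Z ZZ
  simp only [mkSt_w]
  rfl

theorem mkSt_H (X : Fin I.m → ℤ) : (I.mkSt s k i rt P hs).H X = ka s * I.enH s i hs (List.ofFn X) := by
  unfold St.H enH
  rw [kTot_ofFn, key_ofFn]
  unfold kF
  simp only [mkSt]
  push_cast
  rw [mul_add, Finset.mul_sum]

theorem mkSt_isR {γ : ℕ → ℤ} : (I.mkSt s k i rt P hs).IsR γ ↔
    ∃ w < I.n, ∃ v < I.n, rt w = w ∧ rt v = v ∧ γ = uv w v := by
  unfold St.IsR
  simp only [mkSt, Finset.mem_range]

theorem mkSt_hh_zero (h : hs.getD 0 0 = 0) : (I.mkSt s k i rt P hs).hh 0 = 0 := by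
  simp only [mkSt]
  rw [keyF_zero, h]
  simp


theorem Valid.m_pos (h : I.Valid s k rt P) : 0 < I.m := by
  exact lt_of_lt_of_le (Nat.mul_pos h.n_pos h.n_pos) h.nn_le

theorem Valid.forest (h : I.Valid s k rt P) (i : ℕ) (hs : List ℤ) : (I.mkSt s k i rt P hs).Forest := by
  refine ⟨⟨0, Finset.mem_range.2 h.n_pos⟩, fun e => Finset.mem_range.2 (h.src_lt e),
    fun e => Finset.mem_range.2 (h.tgt_lt e), fun v hv => Finset.mem_range.2 (h.rt_lt v (Finset.mem_range.1 hv)),
    fun v hv => h.rt_rt v (Finset.mem_range.1 hv), fun v hv => h.div_P v (Finset.mem_range.1 hv),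
    fun v hv => h.P_rt v (Finset.mem_range.1 hv), fun e => Edge.stp_pos _ _ _,
    fun e he => h.same e (Edge.ty_of_stp he), fun e => ?_⟩
  simp only [mkSt]
  constructor <;> omega

theorem Valid.div_all (h : I.Valid s k rt P) (X : Fin I.m → ℤ) :
    (I.divL (List.ofFn X)).all (fun x => x == 0) = true ↔ I.gr.div X = 0 := by
  rw [divL_ofFn, List.all_map, br_all_range]
  constructor
  · intro h0
    funext v
    by_cases hv : v < I.n
    · simpa using h0 ⟨v, hv⟩
    · exact Gr.div_eq_zero _ X (fun e he => hv (he ▸ h.src_lt e)) (fun e he => hv (he ▸ h.tgt_lt e))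
  · intro h0 v
    simp [h0]

theorem Valid.goodL_ofFn (h : I.Valid s k rt P) (X : Fin I.m → ℤ) :
    I.goodL (List.ofFn X) = true ↔ X ∈ I.GS := by
  unfold goodL
  rw [Bool.and_eq_true, h.div_all, br_all_range, mem_GS]
  refine and_congr_right fun _ => forall_congr' fun e => ?_
  rw [getD_ofFn]
  split_ifs <;> simp

theorem Valid.GS_subset_Om (h : I.Valid s k rt P) (i : ℕ) (hs : List ℤ) :
    I.GS ⊆ (I.mkSt s k i rt P hs).Om := by
  classical
  intro X hX
  unfold St.Om
  rw [Finset.mem_filter]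
  refine ⟨GS_subset s k hX, mkSt_isR.2 ⟨rt 0, h.rt_lt 0 h.n_pos, rt 0, h.rt_lt 0 h.n_pos,
    h.rt_rt 0 h.n_pos, h.rt_rt 0 h.n_pos, ?_⟩⟩
  rw [uv_self]
  exact (mem_GS.1 hX).1

theorem Valid.kF_final (h : I.Valid s k rt P) {X : Fin I.m → ℤ} (hX : X ∈ I.GS) : I.kF s (pI s) X = 0 := by
  unfold kF
  refine Finset.sum_eq_zero fun e _ => ?_
  have h1 := (mem_GS.1 hX).2 e
  by_cases h3 : (I.ed e).ty = 3
  · rw [if_pos h3] at h1
    rw [h1, Edge.ke_zero]
  · rw [if_neg h3] at h1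
    have h2 : (I.ed e).out (X e) = 0 := by
      unfold Edge.out
      omega
    have h4 : (X e).natAbs ≤ 2 ^ (2 * s + 1) := by
      have := h.lo_le e
      have := h.hi_le e
      have := h.R_le e
      omega
    have h5 : pL0 s * (pQ s - 1) ^ pI s * (X e).natAbs / pQ s ^ pI s = 0 := by
      rw [bet_floor h.s_ge, Nat.floor_eq_zero]
      refine lt_of_le_of_lt ?_ (bet_final h.s_ge)
      exact mul_le_mul_of_nonneg_left (by exact_mod_cast h4) (bet_pos h.s_ge _).le
    unfold Edge.ke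
    rw [if_neg h3, h2, h5]
    simp

theorem Valid.br_side (h : I.Valid s k rt P) (e : Fin I.m) :
    (I.ed e).lo + (I.ed e).ext s k ≤ 2 ^ (3 * s + 3) ∧ (I.ed e).hi + (I.ed e).ext s k ≤ 2 ^ (3 * s + 3) := by
  have h1 : (I.ed e).ext s k ≤ (I.ed e).R * (pL s k + 2) := by
    unfold Edge.ext
    split_ifs <;> omega
  have h2 : (I.ed e).R * (pL s k + 3) ≤ 2 ^ (3 * s + 3) :=
    calc (I.ed e).R * (pL s k + 3) ≤ 2 ^ (2 * s + 1) * 2 ^ (s + 2) :=
          Nat.mul_le_mul (h.R_le e) (pL_le h.s_ge h.k_le)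
      _ = 2 ^ (3 * s + 3) := by rw [← pow_add]; congr 1; ring
  have h3 : (I.ed e).R * (pL s k + 3) = (I.ed e).R * (pL s k + 2) + (I.ed e).R := by ring
  have := h.lo_le e
  have := h.hi_le e
  constructor <;> omega

theorem Valid.abs_le (h : I.Valid s k rt P) {X : Fin I.m → ℤ} (hX : X ∈ I.boxF s k) (e : Fin I.m) :
    |X e| ≤ 2 ^ (3 * s + 3) := by
  unfold boxF at hX
  have h1 := Finset.mem_Icc.1 (Fintype.mem_piFinset.1 hX e)
  have h2 := h.br_side e
  have h3 : ((2 ^ (3 * s + 3) : ℕ) : ℤ) = 2 ^ (3 * s + 3) := by push_cast; rfl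
  rw [← h3, _root_.abs_le]
  constructor <;> omega

theorem Valid.card_box (h : I.Valid s k rt P) : ((I.boxF s k).card : ℝ) ≤ Real.exp (3 * s ^ 2) := by
  have h1 : (I.boxF s k).card ≤ 2 ^ ((3 * s + 5) * s) := by
    unfold boxF
    rw [Fintype.card_piFinset]
    calc _ ≤ ∏ _e : Fin I.m, 2 ^ (3 * s + 5) := by
          refine Finset.prod_le_prod' fun e _ => ?_
          rw [Int.card_Icc]
          have h2 := h.br_side e
          have h3 : 2 ^ (3 * s + 5) = 4 * 2 ^ (3 * s + 3) := by ring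
          have h4 : 1 ≤ 2 ^ (3 * s + 3) := Nat.one_le_two_pow
          omega
      _ = 2 ^ ((3 * s + 5) * I.m) := by simp [← pow_mul]
      _ ≤ _ := Nat.pow_le_pow_right (by norm_num) (Nat.mul_le_mul_left _ h.m_le)
  have h2 : ((I.boxF s k).card : ℝ) ≤ 2 ^ ((3 * s + 5) * s) := by exact_mod_cast h1
  refine h2.trans ?_
  have h3 : (20 : ℝ) ≤ s := by exact_mod_cast h.s_ge
  rw [← Real.exp_log (show (0 : ℝ) < 2 by norm_num), ← Real.exp_nat_mul, Real.exp_le_exp]
  push_cast
  have h4 := Real.log_two_lt_d9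
  have h5 : (0 : ℝ) ≤ (3 * s + 5) * s := by positivity
  nlinarith [mul_le_mul_of_nonneg_left (show Real.log 2 ≤ 7 / 10 by linarith) h5]

theorem Valid.ZZ_le (h : I.Valid s k rt P) (i : ℕ) (γ : ℕ → ℤ) : I.ZZ s k i γ ≤ Real.exp (3 * s ^ 2) := by
  classical
  refine le_trans ?_ h.card_box
  unfold ZZ
  refine (Finset.sum_le_card_nsmul _ _ 1 fun X _ => pow_le_one₀ (th_pos s).le (th_lt_one s).le).trans ?_
  rw [nsmul_eq_mul, mul_one]
  exact_mod_cast Finset.card_filter_le _ _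

theorem Valid.card_GS (h : I.Valid s k rt P) : (I.GS.card : ℝ) ≤ Real.exp (3 * s ^ 2) := by
  refine le_trans ?_ h.card_box
  exact_mod_cast Finset.card_le_card (GS_subset s k)

theorem one_le_ZZ (s k i : ℕ) : 1 ≤ I.ZZ s k i 0 := by
  classical
  unfold ZZ
  have h0 : (1 : ℝ) = th s ^ I.kF s i 0 := by rw [kF_zero, pow_zero]
  rw [h0]
  refine Finset.single_le_sum (f := fun X => th s ^ I.kF s i X) (fun X _ => (pow_pos (th_pos s) _).le) ?_
  rw [Finset.mem_filter]
  exact ⟨zero_mem_boxF s k, Gr.div_zero _⟩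

/-- one unit on the virtual edge `w → v` -/
theorem Valid.ZZ_ge (h : I.Valid s k rt P) (i : ℕ) {w v : ℕ} (hw : w < I.n) (hv : v < I.n) :
    th s ^ min (pL0 s + i) (pLm s) ≤ I.ZZ s k i (uv w v) := by
  classical
  obtain ⟨e, h3, hs', ht'⟩ := h.virt_ex w hw v hv
  have h0 : min (pL0 s + i) (pLm s) = I.kF s i (one e) := by
    unfold kF
    rw [Finset.sum_eq_single e]
    · unfold Edge.ke
      simp [h3]
    · intro t _ ht
      rw [show one e t = 0 from Pi.single_eq_of_ne ht 1, Edge.ke_zero]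
    · simp
  unfold ZZ
  rw [h0]
  refine Finset.single_le_sum (f := fun X => th s ^ I.kF s i X) (fun X _ => (pow_pos (th_pos s) _).le) ?_
  rw [Finset.mem_filter]
  constructor
  · unfold boxF
    rw [Fintype.mem_piFinset]
    intro t
    rw [Finset.mem_Icc]
    by_cases ht : t = e
    · subst ht
      have := h.virt t h3
      rw [show one t t = 1 from Pi.single_eq_same t 1]
      constructor <;> omega
    · rw [show one e t = 0 from Pi.single_eq_of_ne ht 1]
      constructor <;> omega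
  · rw [Gr.div_one]
    simp only [gr, hs', ht']

theorem Valid.ZZ_lb (h : I.Valid s k rt P) (i : ℕ) {w v : ℕ} (hw : w < I.n) (hv : v < I.n) :
    Real.exp (-(11 * s ^ 2)) ≤ I.ZZ s k i (uv w v) := by
  refine le_trans ?_ (h.ZZ_ge i hw hv)
  refine le_trans ?_ (pow_le_pow_of_le_one (th_pos s).le (th_lt_one s).le (min_le_right _ _))
  rw [th_pow, Real.exp_le_exp]
  linarith [ka_pLm_le h.s_ge]

/-- off `e` the move `chiF P e` lives on tree edges -/
theorem Valid.chi_self (h : I.Valid s k rt P) {e : Fin I.m} (he : (I.ed e).ty ≠ 2) : I.chiF P e e = 1 := by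
  have h1 : P (I.ed e).src e = 0 := by
    by_contra h0
    exact he (h.P_tree _ (h.src_lt e) e h0)
  have h2 : P (I.ed e).tgt e = 0 := by
    by_contra h0
    exact he (h.P_tree _ (h.tgt_lt e) e h0)
  simp [chiF, h1, h2]

theorem Valid.chi_tree (h : I.Valid s k rt P) {e t : Fin I.m} (hne : t ≠ e) (ht : I.chiF P e t ≠ 0) :
    (I.ed t).ty = 2 ∧ |I.chiF P e t| ≤ 2 := by
  have h1 : I.chiF P e t = -P (I.ed e).src t + P (I.ed e).tgt t := by
    simp [chiF, Pi.single_eq_of_ne hne]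
  have h2 := _root_.abs_le.1 (h.P_le _ (h.src_lt e) t)
  have h3 := _root_.abs_le.1 (h.P_le _ (h.tgt_lt e) t)
  rw [h1] at ht ⊢
  refine ⟨?_, _root_.abs_le.2 ⟨by omega, by omega⟩⟩
  by_cases h4 : P (I.ed e).src t = 0
  · exact h.P_tree _ (h.tgt_lt e) t (by omega)
  · exact h.P_tree _ (h.src_lt e) t h4


end Inst

end Crest.Agent.R309
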