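import Crest.Agent.R309.Cyc

/-!
# Row 309: MaxCen
* `maxflow_spec`: fix a feasible `X'`; the gap `g = X'[e₀] - X[e₀]` satisfies `g ≤ 2 m bq` (`bq_spec`) and a step decreases it by `bq`, so `g⁺` is multiplied by at most `1 - 1/(2m)`;
  initially `g < 2 ^ b`; `(1 - 1/(2m)) ^ (2m (b+1)) ≤ exp (-(b+1)) < 2 ^ (-b)` (or `(1 - 1/(2m)) ^ (2m) ≤ 1/2`).
* `center_spec`: potential `Φ X = ∏_{e < m} (1 + res (e, true)) (1 + res (e, false)) ∈ [1, (2 ^ b) ^ (2 m)]`.  An effective step pushes `t = bq / (2m) ≥ 3 (opp + 1)` along a cycle whose arcs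
  have residual `≥ bq ≥ 2 m t`: each of the `≤ m` decreasing factors loses at most the fraction `1/(2m)` (Bernoulli: total `≥ 1/2`), the factor `1 + opp` is multiplied by `≥ 4`.  So `Φ` doubles.
  A non-effective step is a fixed point.
-/

set_option autoImplicit false

noncomputable section

namespace Crest.Agent.R309

open Finset Crest.Agent.Lib.PolyTime

namespace Net

variable {N : Net} {b : ℕ} {X X' : List ℤ} {a : ℕ × Bool} {B t : ℕ}

theorem mc_pow_half {M : ℕ} (hM : 0 < M) : (1 - 1 / (M : ℝ)) ^ M ≤ 1 / 2 := by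
  have hM' : (1 : ℝ) ≤ M := by exact_mod_cast hM
  have hx0 : (0 : ℝ) ≤ 1 / M := by positivity
  have hx1 : 1 / (M : ℝ) ≤ 1 := by rw [div_le_one (by linarith)]; exact hM'
  have h1 : (2 : ℝ) ≤ (1 + 1 / (M : ℝ)) ^ M := by
    have := one_add_mul_le_pow (a := 1 / (M : ℝ)) (by linarith) M
    have e : (M : ℝ) * (1 / M) = 1 := by field_simp
    linarith
  have h2 : (1 - 1 / (M : ℝ)) ^ M * (1 + 1 / (M : ℝ)) ^ M ≤ 1 := by
    rw [← mul_pow]
    apply pow_le_one₀
    · apply mul_nonneg <;> linarith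
    · nlinarith
  have h3 : (0 : ℝ) ≤ (1 - 1 / (M : ℝ)) ^ M := pow_nonneg (by linarith) _
  nlinarith

theorem maxStep_feas (h : N.WF b) {e₀ : ℕ} (he : e₀ < N.m) (hX : N.Feas X) : N.Feas (N.maxStep b e₀ X) :=
  aug_feas (a := (e₀, true)) h he hX le_rfl

theorem maxStep_getD (h : N.WF b) {e₀ : ℕ} (he : e₀ < N.m) (hX : N.Feas X) :
    (N.maxStep b e₀ X).getD e₀ 0 = X.getD e₀ 0 + N.bq b X (e₀, true) := by
  unfold maxStep
  rcases hc : N.cyc X (e₀, true) (N.bq b X (e₀, true)) with _ | C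
  · rcases (bq_spec (a := (e₀, true)) h he hX).1 with h0 | ⟨C, hC⟩
    · unfold aug
      rw [hc, h0]; simp
    · rw [hc] at hC; cases hC
  · rw [getD_aug (a := (e₀, true)) h he hX.1 hc]
    have := (cyc_some (a := (e₀, true)) h he hc).2.2.1
    simp only at this
    rw [this]; simp [sgn]

theorem maxStep_iter (h : N.WF b) {e₀ : ℕ} (he : e₀ < N.m) (hX : N.Feas X) (hX' : N.Feas X') (k : ℕ) :
    N.Feas ((N.maxStep b e₀)^[k] X) ∧
      ((X'.getD e₀ 0 - ((N.maxStep b e₀)^[k] X).getD e₀ 0 : ℤ) : ℝ) ≤ (1 - 1 / ((2 * N.m : ℕ) : ℝ)) ^ k * 2 ^ b := by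
  have hm : (1 : ℝ) ≤ ((2 * N.m : ℕ) : ℝ) := by
    have : 1 ≤ 2 * N.m := by omega
    exact_mod_cast this
  have hr : (0 : ℝ) ≤ 1 - 1 / ((2 * N.m : ℕ) : ℝ) := by
    have : 1 / ((2 * N.m : ℕ) : ℝ) ≤ 1 := by rw [div_le_one (by linarith)]; exact hm
    linarith
  induction k with
  | zero =>
    refine ⟨hX, ?_⟩
    have h1 := (hX.2.2 e₀ he).1
    have h2 := (hX'.2.2 e₀ he).2
    have h3 := h.cap_lt e₀ he
    have h4 : X'.getD e₀ 0 - X.getD e₀ 0 ≤ 2 ^ b := by linarith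
    simp only [Function.iterate_zero, id, pow_zero, one_mul]
    exact_mod_cast h4
  | succ k ih =>
    rw [Function.iterate_succ_apply']
    set Y := (N.maxStep b e₀)^[k] X with hY
    refine ⟨maxStep_feas h he ih.1, ?_⟩
    rw [maxStep_getD h he ih.1]
    have hb := (bq_spec (a := (e₀, true)) h he ih.1).2.2.2 X' hX'
    simp only [sgn, if_true, one_mul] at hb
    have hb' : ((X'.getD e₀ 0 - Y.getD e₀ 0 : ℤ) : ℝ) ≤ ((2 * N.m : ℕ) : ℝ) * (N.bq b Y (e₀, true) : ℝ) := by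
      exact_mod_cast hb
    have h2 := ih.2
    have h3 : ((X'.getD e₀ 0 - Y.getD e₀ 0 : ℤ) : ℝ) / ((2 * N.m : ℕ) : ℝ) ≤ (N.bq b Y (e₀, true) : ℝ) := by
      rw [div_le_iff₀ (by linarith)]; linarith
    have h4 : ((X'.getD e₀ 0 - (Y.getD e₀ 0 + N.bq b Y (e₀, true)) : ℤ) : ℝ) =
        ((X'.getD e₀ 0 - Y.getD e₀ 0 : ℤ) : ℝ) - (N.bq b Y (e₀, true) : ℝ) := by push_cast; ring
    rw [h4, pow_succ]
    have h5 := mul_le_mul_of_nonneg_left h2 hr
    have h6 : (1 - 1 / ((2 * N.m : ℕ) : ℝ)) * ((X'.getD e₀ 0 - Y.getD e₀ 0 : ℤ) : ℝ) =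
        ((X'.getD e₀ 0 - Y.getD e₀ 0 : ℤ) : ℝ) - ((X'.getD e₀ 0 - Y.getD e₀ 0 : ℤ) : ℝ) / ((2 * N.m : ℕ) : ℝ) := by ring
    nlinarith

theorem maxflow_spec (h : N.WF b) {e₀ : ℕ} (he : e₀ < N.m) (h0 : N.Feas (List.replicate N.m 0)) :
    N.Feas (N.maxflow b e₀) ∧ ∀ X', N.Feas X' → X'.getD e₀ 0 ≤ (N.maxflow b e₀).getD e₀ 0 := by
  have hit := fun X' (hX' : N.Feas X') => maxStep_iter h he h0 hX' (2 * N.m * (b + 1))
  refine ⟨(hit _ h0).1, fun X' hX' => ?_⟩
  have h2 := (hit X' hX').2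
  have hm : (1 : ℝ) ≤ ((2 * N.m : ℕ) : ℝ) := by
    have : 1 ≤ 2 * N.m := by omega
    exact_mod_cast this
  have hr : (0 : ℝ) ≤ 1 - 1 / ((2 * N.m : ℕ) : ℝ) := by
    have : 1 / ((2 * N.m : ℕ) : ℝ) ≤ 1 := by rw [div_le_one (by linarith)]; exact hm
    linarith
  have h3 : (1 - 1 / ((2 * N.m : ℕ) : ℝ)) ^ (2 * N.m * (b + 1)) ≤ (1 / 2) ^ (b + 1) := by
    rw [pow_mul]
    exact pow_le_pow_left₀ (pow_nonneg hr _) (mc_pow_half (by omega)) _
  have h4 : ((1 : ℝ) / 2) ^ (b + 1) * 2 ^ b = 1 / 2 := by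
    rw [pow_succ, mul_right_comm, ← mul_pow]; norm_num
  have h5 := mul_le_mul_of_nonneg_right h3 (show (0 : ℝ) ≤ 2 ^ b by positivity)
  have h6 : ((X'.getD e₀ 0 - (N.maxflow b e₀).getD e₀ 0 : ℤ) : ℝ) < 1 := by
    unfold maxflow; linarith
  have h7 : X'.getD e₀ 0 - (N.maxflow b e₀).getD e₀ 0 < 1 := by exact_mod_cast h6
  omega

/-- the centering potential -/
def cenPot (N : Net) (X : List ℤ) : ℝ :=
  ∏ e ∈ range N.m, (1 + (N.res X (e, true) : ℝ)) * (1 + (N.res X (e, false) : ℝ))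

theorem mc_res_nonneg (hX : N.Feas X) {e : ℕ} (he : e < N.m) (σ : Bool) : 0 ≤ N.res X (e, σ) := by
  have h1 := hX.2.2 e he
  cases σ
  · simp only [res, Bool.false_eq_true, if_false]; linarith [h1.1]
  · simp only [res, if_true]; linarith [h1.2]

theorem mc_res_lt (h : N.WF b) (hX : N.Feas X) {e : ℕ} (he : e < N.m) (σ : Bool) : N.res X (e, σ) < 2 ^ b := by
  have h1 := hX.2.2 e he
  have h2 := h.cap_lt e he
  cases σ
  · simp only [res, Bool.false_eq_true, if_false]; linarith [h1.2]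
  · simp only [res, if_true]; linarith [h1.1]

theorem one_le_cenPot (hX : N.Feas X) : 1 ≤ N.cenPot X := by
  unfold cenPot
  have : ∏ _e ∈ range N.m, (1 : ℝ) ≤
      ∏ e ∈ range N.m, (1 + (N.res X (e, true) : ℝ)) * (1 + (N.res X (e, false) : ℝ)) := by
    apply Finset.prod_le_prod
    · intro e _; norm_num
    · intro e he
      have h1 : (0 : ℝ) ≤ (N.res X (e, true) : ℝ) := by exact_mod_cast mc_res_nonneg hX (mem_range.1 he) true
      have h2 : (0 : ℝ) ≤ (N.res X (e, false) : ℝ) := by exact_mod_cast mc_res_nonneg hX (mem_range.1 he) false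
      nlinarith
  simpa using this

theorem cenPot_le (h : N.WF b) (hX : N.Feas X) : N.cenPot X ≤ 2 ^ (2 * N.m * b) := by
  unfold cenPot
  have : ∏ e ∈ range N.m, (1 + (N.res X (e, true) : ℝ)) * (1 + (N.res X (e, false) : ℝ)) ≤
      ∏ _e ∈ range N.m, ((2 : ℝ) ^ b * 2 ^ b) := by
    apply Finset.prod_le_prod
    · intro e he
      have h1 : (0 : ℝ) ≤ (N.res X (e, true) : ℝ) := by exact_mod_cast mc_res_nonneg hX (mem_range.1 he) true
      have h2 : (0 : ℝ) ≤ (N.res X (e, false) : ℝ) := by exact_mod_cast mc_res_nonneg hX (mem_range.1 he) false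
      positivity
    · intro e he
      have h2 : (0 : ℝ) ≤ (N.res X (e, false) : ℝ) := by exact_mod_cast mc_res_nonneg hX (mem_range.1 he) false
      have h3 : 1 + (N.res X (e, true) : ℝ) ≤ 2 ^ b := by
        have := mc_res_lt h hX (mem_range.1 he) true
        have h' : 1 + N.res X (e, true) ≤ 2 ^ b := by omega
        exact_mod_cast h'
      have h4 : 1 + (N.res X (e, false) : ℝ) ≤ 2 ^ b := by
        have := mc_res_lt h hX (mem_range.1 he) false
        have h' : 1 + N.res X (e, false) ≤ 2 ^ b := by omega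
        exact_mod_cast h'
      exact mul_le_mul h3 h4 (by linarith) (by positivity)
  refine this.trans (le_of_eq ?_)
  rw [prod_const, card_range, ← pow_add, ← pow_mul]
  congr 1; ring

theorem mc_res_shift {Y : List ℤ} {e : ℕ} {σ : Bool} {s : ℤ} (hY : Y.getD e 0 = X.getD e 0 + s * sgn σ) :
    N.res Y (e, σ) = N.res X (e, σ) - s ∧ N.res Y (e, !σ) = N.res X (e, !σ) + s := by
  cases σ
  · simp only [res, sgn, Bool.false_eq_true, if_false, Bool.not_false, if_true] at hY ⊢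
    constructor <;> linarith
  · simp only [res, sgn, Bool.false_eq_true, if_false, Bool.not_true, if_true] at hY ⊢
    constructor <;> linarith

theorem mc_fac_symm (Y : List ℤ) (e : ℕ) (σ : Bool) :
    (1 + (N.res Y (e, true) : ℝ)) * (1 + (N.res Y (e, false) : ℝ)) =
      (1 + (N.res Y (e, σ) : ℝ)) * (1 + (N.res Y (e, !σ) : ℝ)) := by
  cases σ <;> simp [mul_comm]

theorem cen_double (h : N.WF b) (ha : a.1 < N.m) (hX : N.Feas X)
    (hq : 3 * (N.res X (a.1, !a.2) + 1) ≤ ((N.bq b X a / (2 * N.m) : ℕ) : ℤ)) :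
    2 * N.cenPot X ≤ N.cenPot (N.aug X a (N.bq b X a) (N.bq b X a / (2 * N.m))) := by
  obtain ⟨hor, -, hres, -⟩ := bq_spec h ha hX
  generalize N.bq b X a = B at hor hres hq ⊢
  have htB : 2 * N.m * (B / (2 * N.m)) ≤ B := Nat.mul_div_le B (2 * N.m)
  have hB0 : B ≠ 0 := by
    intro h0
    have hopp := mc_res_nonneg hX ha (!a.2)
    rw [h0] at hq
    simp at hq
    omega
  generalize B / (2 * N.m) = t at hq htB ⊢
  obtain ⟨C, hC⟩ := hor.resolve_left hB0
  obtain ⟨-, -, hCa, hCe⟩ := cyc_some h ha hC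
  have hget := getD_aug (t := t) h ha hX.1 hC
  generalize N.aug X a B t = Y at hget ⊢
  have hm : (1 : ℝ) ≤ N.m := by
    have : 1 ≤ N.m := by omega
    exact_mod_cast this
  obtain ⟨r, hr⟩ : ∃ r : ℝ, r = 1 - 1 / (2 * (N.m : ℝ)) := ⟨_, rfl⟩
  have hx1 : 1 / (2 * (N.m : ℝ)) ≤ 1 := by rw [div_le_one (by linarith)]; linarith
  have hx0 : 0 ≤ 1 / (2 * (N.m : ℝ)) := by positivity
  have hr0 : 0 ≤ r := by linarith
  have hr1 : r ≤ 1 := by linarith
  have hrm : 1 / 2 ≤ r ^ N.m := by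
    have h1 := one_add_mul_le_pow (a := -(1 / (2 * (N.m : ℝ)))) (by linarith) N.m
    have e1 : (N.m : ℝ) * -(1 / (2 * (N.m : ℝ))) = -(1 / 2) := by field_simp
    have e2 : 1 + -(1 / (2 * (N.m : ℝ))) = r := by rw [hr]; ring
    rw [e1, e2] at h1
    linarith
  have hdec : ∀ R : ℤ, (B : ℤ) ≤ R → r * (1 + (R : ℝ)) ≤ 1 + ((R - t : ℤ) : ℝ) := by
    intro R hR
    have h1 : (B : ℝ) ≤ R := by exact_mod_cast hR
    have h2 : 2 * (N.m : ℝ) * t ≤ B := by exact_mod_cast htB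
    have h3 : (t : ℝ) ≤ (1 + (R : ℝ)) / (2 * (N.m : ℝ)) := by
      rw [le_div_iff₀ (by linarith)]; linarith
    have h4 : r * (1 + (R : ℝ)) = 1 + R - (1 + (R : ℝ)) / (2 * (N.m : ℝ)) := by rw [hr]; ring
    push_cast
    linarith
  have hfac : ∀ e ∈ range N.m, (if e = a.1 then 4 else 1) * r *
      ((1 + (N.res X (e, true) : ℝ)) * (1 + (N.res X (e, false) : ℝ))) ≤
      (1 + (N.res Y (e, true) : ℝ)) * (1 + (N.res Y (e, false) : ℝ)) := by
    intro e he
    have he' := mem_range.1 he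
    have key : ∀ σ : Bool, C.getD e 0 = sgn σ → (B : ℤ) ≤ N.res X (e, σ) → ∀ c : ℝ, 0 ≤ c →
        c * (1 + (N.res X (e, !σ) : ℝ)) ≤ 1 + (N.res X (e, !σ) : ℝ) + t →
        c * r * ((1 + (N.res X (e, true) : ℝ)) * (1 + (N.res X (e, false) : ℝ))) ≤
          (1 + (N.res Y (e, true) : ℝ)) * (1 + (N.res Y (e, false) : ℝ)) := by
      intro σ hσ hBσ c hc hct
      have hY := hget e
      rw [hσ] at hY
      obtain ⟨s1, s2⟩ := mc_res_shift (N := N) hY
      rw [mc_fac_symm X e σ, mc_fac_symm Y e σ, s1, s2]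
      have d1 := hdec _ hBσ
      have p1 : (0 : ℝ) ≤ (N.res X (e, σ) : ℝ) := by exact_mod_cast mc_res_nonneg hX he' σ
      have p2 : (0 : ℝ) ≤ (N.res X (e, !σ) : ℝ) := by exact_mod_cast mc_res_nonneg hX he' (!σ)
      have d2 : c * (1 + (N.res X (e, !σ) : ℝ)) ≤ 1 + ((N.res X (e, !σ) + t : ℤ) : ℝ) := by push_cast; linarith
      have d3 := mul_le_mul d1 d2 (by positivity) (le_trans (by positivity) d1)
      calc _ = r * (1 + (N.res X (e, σ) : ℝ)) * (c * (1 + (N.res X (e, !σ) : ℝ))) := by ring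
        _ ≤ _ := d3
    split_ifs with hea
    · subst hea
      refine key a.2 hCa hres 4 (by norm_num) ?_
      have : (3 : ℝ) * ((N.res X (a.1, !a.2) : ℝ) + 1) ≤ t := by exact_mod_cast hq
      linarith
    · rcases hCe e he' with h0 | ⟨σ, hσ, hBσ⟩
      · have hY := hget e
        rw [h0, mul_zero, add_zero] at hY
        have s1 : N.res Y (e, true) = N.res X (e, true) := by simp only [res, if_true, hY]
        have s2 : N.res Y (e, false) = N.res X (e, false) := by simp only [res, Bool.false_eq_true, if_false, hY]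
        rw [s1, s2]
        have p1 : (0 : ℝ) ≤ (N.res X (e, true) : ℝ) := by exact_mod_cast mc_res_nonneg hX he' true
        have p2 : (0 : ℝ) ≤ (N.res X (e, false) : ℝ) := by exact_mod_cast mc_res_nonneg hX he' false
        have p3 : 0 ≤ (1 + (N.res X (e, true) : ℝ)) * (1 + (N.res X (e, false) : ℝ)) := by positivity
        nlinarith
      · refine key σ hσ hBσ 1 (by norm_num) ?_
        have : (0 : ℝ) ≤ t := by positivity
        linarith
  have hprod := Finset.prod_le_prod (s := range N.m) (fun e he => by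
    have he' := mem_range.1 he
    have p1 : (0 : ℝ) ≤ (N.res X (e, true) : ℝ) := by exact_mod_cast mc_res_nonneg hX he' true
    have p2 : (0 : ℝ) ≤ (N.res X (e, false) : ℝ) := by exact_mod_cast mc_res_nonneg hX he' false
    have p3 : (0 : ℝ) ≤ (if e = a.1 then 4 else 1) := by split_ifs <;> norm_num
    positivity) hfac
  rw [prod_mul_distrib, prod_mul_distrib, prod_const, card_range, Finset.prod_ite_eq' (range N.m) a.1 (fun _ => (4 : ℝ)),
    if_pos (mem_range.2 ha)] at hprod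
  have h1 := one_le_cenPot hX
  unfold cenPot at h1 ⊢
  nlinarith

theorem cenStep_cases (h : N.WF b) (hX : N.Feas X) :
    N.Feas (N.cenStep b X) ∧ ((N.Centered b X ∧ N.cenStep b X = X) ∨
      (¬ N.Centered b X ∧ 2 * N.cenPot X ≤ N.cenPot (N.cenStep b X))) := by
  unfold cenStep
  rcases hf : (N.arcs.find? fun a => decide (3 * (N.res X (a.1, !a.2) + 1) ≤ ((N.bq b X a / (2 * N.m) : ℕ) : ℤ))) with _ | a
  · simp only [Option.elim_none]
    refine ⟨hX, Or.inl ⟨fun a ha => ?_, trivial⟩⟩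
    have := List.find?_eq_none.1 hf a (mem_arcs.2 ha)
    simpa using this
  · simp only [Option.elim_some]
    have ha : a.1 < N.m := mem_arcs.1 (List.mem_of_find?_eq_some hf)
    have hq : 3 * (N.res X (a.1, !a.2) + 1) ≤ ((N.bq b X a / (2 * N.m) : ℕ) : ℤ) := by
      simpa using List.find?_some hf
    refine ⟨aug_feas h ha hX (Nat.div_le_self _ _), Or.inr ⟨fun hc => ?_, cen_double h ha hX hq⟩⟩
    exact absurd (hc a ha) (not_lt.2 hq)

theorem cenStep_iter (h : N.WF b) (hX : N.Feas X) (k : ℕ) :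
    N.Feas ((N.cenStep b)^[k] X) ∧ (N.Centered b ((N.cenStep b)^[k] X) ∨ 2 ^ k ≤ N.cenPot ((N.cenStep b)^[k] X)) := by
  induction k with
  | zero => exact ⟨hX, Or.inr (by simpa using one_le_cenPot hX)⟩
  | succ k ih =>
    rw [Function.iterate_succ_apply']
    obtain ⟨h1, h2⟩ := cenStep_cases h ih.1
    refine ⟨h1, ?_⟩
    rcases h2 with ⟨hc, he⟩ | ⟨hc, hd⟩
    · left; rw [he]; exact hc
    · right
      have := ih.2.resolve_left hc
      rw [pow_succ]; linarith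

theorem center_spec (h : N.WF b) (hX : N.Feas X) : N.Feas (N.center b X) ∧ N.Centered b (N.center b X) := by
  obtain ⟨h1, h2⟩ := cenStep_iter h hX (2 * N.m * b + 1)
  refine ⟨h1, h2.resolve_right fun h3 => ?_⟩
  have h4 := cenPot_le h h1
  have h5 : (0 : ℝ) < 2 ^ (2 * N.m * b) := by positivity
  rw [pow_succ] at h3
  linarith

end Net

end Crest.Agent.R309
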