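import Crest.Agent.R309.Defs

/-!
# Row 309: Flow
Elementary facts on integer flows.
* `walk_step`: if `div X - d = uv w v` with `w ≠ v` then `div (Y - X) v = 1 > 0`, so some edge at `v` carries
  `Y - X` out of `v`; moving one unit along it gives the defect `uv w (other end)`.  If the defect is `0`
  take any edge with `X e ≠ Y e`.
* `walk`: iterate `walk_step` (induction on `∑ |Y e - X e|`); the potential `∑ |Y e - Z e|` drops by one per step, so the
  visited transitions are distinct; Cauchy–Schwarz.  (Prove first: `|F X - F Y| ≤ ∑ over a set of ≤ n transitions`,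
  or directly by induction `(F X - F Y)² ≤ n * ∑ e, ∑ Z ∈ (mvs between X and Y) ...`, the "between" box shrinks.)
* `exists_center`: among the `X₀` with `|2 X₀ e - S e| ≤ 1` minimise `∑_{v ∈ endpoints ∪ {i,j}} |div X₀ v - Q v|`.
  With `σ = 2 X₀ - S ∈ {0, ±1}`: `2 (div X₀ - Q) = div σ - (Q - Q')`.  If some `v` has `div X₀ v > Q v`, let `R` be the set reachable from
  `v` along arcs oriented by `σ` (`σ e = 1`: src → tgt, `σ e = -1`: tgt → src); `∑_R div σ ≤ 0`, `∑_R (Q - Q') ≥ -1`, hence some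
  `u ∈ R` has `div X₀ u < Q u`; flip a simple path (or: induct along `Relation.ReflTransGen`, moving the excess one arc at a time with
  a second potential / use a minimal counterexample: the set of vertices `v'` such that the excess can be moved to `v'`).
* `cut_le`: sum `div D = 0` over `A`.
-/

set_option autoImplicit false
set_option linter.unusedSectionVars false

noncomputable section

namespace Crest.Agent.R309

open Finset

variable {E V : Type} [Fintype E] [DecidableEq E] [DecidableEq V]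

theorem uv_apply (w v u : V) : uv w v u = (if w = u then 1 else 0) - (if v = u then 1 else 0) := by
  simp only [uv, Pi.sub_apply, Pi.single_apply, eq_comm]

theorem Gr.div_eq_sum (G : Gr E V) (X : E → ℤ) (v : V) :
    G.div X v = ∑ e, X e * uv (G.src e) (G.tgt e) v := by
  unfold Gr.div
  refine sum_congr rfl (fun e _ => ?_)
  rw [uv_apply]
  split_ifs <;> simp

theorem Gr.div_add (G : Gr E V) (X Y : E → ℤ) : G.div (X + Y) = G.div X + G.div Y := by
  funext v
  simp only [Pi.add_apply, Gr.div_eq_sum, add_mul, sum_add_distrib]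
theorem Gr.div_sub (G : Gr E V) (X Y : E → ℤ) : G.div (X - Y) = G.div X - G.div Y := by
  funext v
  simp only [Pi.sub_apply, Gr.div_eq_sum, sub_mul, sum_sub_distrib]
theorem Gr.div_neg (G : Gr E V) (X : E → ℤ) : G.div (-X) = -G.div X := by
  funext v
  simp only [Pi.neg_apply, Gr.div_eq_sum, neg_mul, sum_neg_distrib]
theorem Gr.div_zero (G : Gr E V) : G.div 0 = 0 := by
  funext v
  simp [Gr.div_eq_sum]
theorem Gr.div_smul (G : Gr E V) (c : ℤ) (X : E → ℤ) : G.div (c • X) = c • G.div X := by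
  funext v
  simp only [Pi.smul_apply, smul_eq_mul, Gr.div_eq_sum, mul_sum, mul_assoc]
theorem Gr.div_sum {ι : Type} (G : Gr E V) (t : Finset ι) (X : ι → E → ℤ) :
    G.div (∑ i ∈ t, X i) = ∑ i ∈ t, G.div (X i) := by
  funext v
  simp only [Finset.sum_apply, Gr.div_eq_sum, sum_mul]
  exact sum_comm
theorem Gr.div_one (G : Gr E V) (e : E) : G.div (one e) = uv (G.src e) (G.tgt e) := by
  funext v
  rw [Gr.div_eq_sum, sum_eq_single e]
  · simp
  · intro b _ hb
    simp [Pi.single_eq_of_ne hb]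
  · simp
theorem uv_self (v : V) : uv v v = 0 := sub_self _
theorem uv_add (u v w : V) : uv u v + uv v w = uv u w := by
  unfold uv; abel
theorem uv_neg (u v : V) : -uv u v = uv v u := by
  unfold uv; abel
theorem uv_inj {w v w' v' : V} (h : w ≠ v) (e : uv w v = uv w' v') : w = w' ∧ v = v' := by
  have h1 := congrFun e w
  have h2 := congrFun e v
  rw [uv_apply, uv_apply, if_pos rfl, if_neg (Ne.symm h)] at h1
  rw [uv_apply, uv_apply, if_pos rfl, if_neg h] at h2
  constructor
  · by_contra hw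
    rw [if_neg (Ne.symm hw)] at h1
    split_ifs at h1 <;> omega
  · by_contra hv
    rw [if_neg (Ne.symm hv)] at h2
    split_ifs at h2 <;> omega
theorem IsDef.neg {γ : V → ℤ} (h : IsDef γ) : IsDef (-γ) := by
  rcases h with rfl | ⟨w, v, rfl⟩
  · left; exact neg_zero
  · right; exact ⟨v, w, uv_neg w v⟩
/-- the divergence vanishes off the endpoints -/
theorem Gr.div_eq_zero (G : Gr E V) (X : E → ℤ) {v : V} (h1 : ∀ e, G.src e ≠ v) (h2 : ∀ e, G.tgt e ≠ v) :
    G.div X v = 0 := by
  unfold Gr.div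
  refine sum_eq_zero (fun e _ => ?_)
  rw [if_neg (h1 e), if_neg (h2 e), sub_self]
/-- net outflow of a vertex set -/
theorem Gr.sum_div (G : Gr E V) (X : E → ℤ) (A : Finset V) :
    ∑ v ∈ A, G.div X v =
      ∑ e, ((if G.src e ∈ A then X e else 0) - (if G.tgt e ∈ A then X e else 0)) := by
  unfold Gr.div
  rw [sum_comm]
  refine sum_congr rfl (fun e _ => ?_)
  rw [sum_sub_distrib, sum_ite_eq, sum_ite_eq]
theorem mem_cube {R : ℕ} {X : E → ℤ} : X ∈ cube E R ↔ ∀ e, |X e| ≤ R := by
  simp only [cube, Fintype.mem_piFinset, mem_Icc, abs_le]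
theorem mem_sec {G : Gr E V} {R : ℕ} {γ : V → ℤ} {X : E → ℤ} :
    X ∈ sec G R γ ↔ (∀ e, |X e| ≤ R) ∧ G.div X = γ := by
  simp only [sec, mem_filter, mem_cube]

theorem walk_step (G : Gr E V) {d : V → ℤ} {X Y : E → ℤ} (hX : IsDef (G.div X - d))
    (hY : G.div Y = d) (hne : X ≠ Y) :
    ∃ e, (X e < Y e ∧ IsDef (G.div (X + one e) - d)) ∨ (Y e < X e ∧ IsDef (G.div (X - one e) - d)) := by
  have e1 : ∀ e, G.div (X + one e) - d = (G.div X - d) + uv (G.src e) (G.tgt e) := by
    intro e; rw [G.div_add, G.div_one]; abel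
  have e2 : ∀ e, G.div (X - one e) - d = (G.div X - d) + uv (G.tgt e) (G.src e) := by
    intro e; rw [G.div_sub, G.div_one, ← uv_neg (G.src e)]; abel
  by_cases h0 : G.div X - d = 0
  · obtain ⟨e, he⟩ := Function.ne_iff.1 hne
    refine ⟨e, ?_⟩
    rcases lt_or_gt_of_ne he with h | h
    · left; refine ⟨h, Or.inr ⟨G.src e, G.tgt e, ?_⟩⟩
      rw [e1, h0, zero_add]
    · right; refine ⟨h, Or.inr ⟨G.tgt e, G.src e, ?_⟩⟩
      rw [e2, h0, zero_add]
  · rcases hX with h | ⟨w, v, h⟩
    · exact absurd h h0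
    have hwv : w ≠ v := by
      rintro rfl
      exact h0 (h.trans (uv_self w))
    have h1 : G.div (Y - X) v = 1 := by
      have := congrFun h v
      rw [uv_apply, if_pos rfl, if_neg hwv] at this
      rw [G.div_sub, hY]
      simp only [Pi.sub_apply] at this ⊢
      omega
    have h2 : ∃ e, 0 < (if G.src e = v then (Y - X) e else 0) - (if G.tgt e = v then (Y - X) e else 0) := by
      by_contra hc
      push Not at hc
      have : G.div (Y - X) v ≤ 0 := sum_nonpos (fun e _ => hc e)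
      omega
    obtain ⟨e, he⟩ := h2
    refine ⟨e, ?_⟩
    simp only [Pi.sub_apply] at he
    by_cases hs : G.src e = v
    · by_cases ht : G.tgt e = v
      · rw [if_pos hs, if_pos ht] at he; omega
      · rw [if_pos hs, if_neg ht] at he
        left; refine ⟨by omega, Or.inr ⟨w, G.tgt e, ?_⟩⟩
        rw [e1, h, hs, uv_add]
    · by_cases ht : G.tgt e = v
      · rw [if_neg hs, if_pos ht] at he
        right; refine ⟨by omega, Or.inr ⟨w, G.src e, ?_⟩⟩
        rw [e2, h, ht, uv_add]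
      · rw [if_neg hs, if_neg ht] at he; omega

theorem walk_cs {n T δ a : ℝ} (hn : 0 ≤ n) (hT : 0 ≤ T) (ha : a ^ 2 ≤ n * T) :
    (δ + a) ^ 2 ≤ (n + 1) * (T + δ ^ 2) := by
  have h1 : 2 * δ * a ≤ n * δ ^ 2 + T := by
    refine (le_abs_self _).trans (abs_le_of_sq_le_sq' ?_ (by positivity)).2
    rw [sq_abs]
    nlinarith [sq_nonneg (n * δ ^ 2 - T), mul_le_mul_of_nonneg_left ha (sq_nonneg δ)]
  nlinarith

open Classical in
/-- the transitions between `X` and `Y` -/
def btw (G : Gr E V) (R : ℕ) (d : V → ℤ) (X Y : E → ℤ) (e : E) : Finset (E → ℤ) :=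
  (mvs G R d e).filter
    (fun Z => (∀ e', min (X e') (Y e') ≤ Z e' ∧ Z e' ≤ max (X e') (Y e')) ∧ Z e + 1 ≤ max (X e) (Y e))

theorem mem_btw {G : Gr E V} {R : ℕ} {d : V → ℤ} {X Y Z : E → ℤ} {e : E} :
    Z ∈ btw G R d X Y e ↔ (Z ∈ cube E R ∧ IsDef (G.div Z - d) ∧ IsDef (G.div (Z + one e) - d)) ∧
      (∀ e', min (X e') (Y e') ≤ Z e' ∧ Z e' ≤ max (X e') (Y e')) ∧ Z e + 1 ≤ max (X e) (Y e) := by
  simp only [btw, mvs, mem_filter]

theorem btw_mono {G : Gr E V} {R : ℕ} {d : V → ℤ} {X X' Y : E → ℤ}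
    (h : ∀ e, min (X e) (Y e) ≤ X' e ∧ X' e ≤ max (X e) (Y e)) (e : E) :
    btw G R d X' Y e ⊆ btw G R d X Y e := by
  intro Z hZ
  rw [mem_btw] at hZ ⊢
  refine ⟨hZ.1, fun e' => ?_, ?_⟩
  · have h1 := hZ.2.1 e'
    have h2 := h e'
    omega
  · have h1 := hZ.2.2
    have h2 := h e
    omega

theorem btw_step {G : Gr E V} {R : ℕ} {d : V → ℤ} {X X' Y Z : E → ℤ} {e : E}
    (h : ∀ e, min (X e) (Y e) ≤ X' e ∧ X' e ≤ max (X e) (Y e))
    (hZ : Z ∈ btw G R d X Y e) (hZ' : Z ∉ btw G R d X' Y e) (F : (E → ℤ) → ℝ) :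
    ∑ e, ∑ Z ∈ btw G R d X' Y e, (F (Z + one e) - F Z) ^ 2 + (F (Z + one e) - F Z) ^ 2 ≤
      ∑ e, ∑ Z ∈ btw G R d X Y e, (F (Z + one e) - F Z) ^ 2 := by
  rw [← add_sum_erase _ _ (mem_univ e), ← add_sum_erase univ _ (mem_univ e)]
  have h1 : ∑ e' ∈ univ.erase e, ∑ Z ∈ btw G R d X' Y e', (F (Z + one e') - F Z) ^ 2 ≤
      ∑ e' ∈ univ.erase e, ∑ Z ∈ btw G R d X Y e', (F (Z + one e') - F Z) ^ 2 :=
    sum_le_sum (fun e' _ => sum_le_sum_of_subset_of_nonneg (btw_mono h e') (fun _ _ _ => sq_nonneg _))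
  have h2 : ∑ W ∈ insert Z (btw G R d X' Y e), (F (W + one e) - F W) ^ 2 ≤
      ∑ W ∈ btw G R d X Y e, (F (W + one e) - F W) ^ 2 :=
    sum_le_sum_of_subset_of_nonneg (insert_subset hZ (btw_mono h e)) (fun _ _ _ => sq_nonneg _)
  rw [sum_insert hZ'] at h2
  linarith

theorem cube_between {R : ℕ} {X X' Y : E → ℤ} (hXR : X ∈ cube E R) (hYR : Y ∈ cube E R)
    (h : ∀ e, min (X e) (Y e) ≤ X' e ∧ X' e ≤ max (X e) (Y e)) : X' ∈ cube E R := by
  rw [mem_cube] at hXR hYR ⊢
  intro e
  have h1 := abs_le.1 (hXR e)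
  have h2 := abs_le.1 (hYR e)
  have h3 := h e
  rw [abs_le]
  omega

theorem sum_abs_step {X X' Y : E → ℤ} (e : E) (h1 : ∀ e', e' ≠ e → X' e' = X e')
    (h2 : |X e - Y e| = |X' e - Y e| + 1) :
    ∑ e, |X e - Y e| = ∑ e, |X' e - Y e| + 1 := by
  rw [← add_sum_erase _ _ (mem_univ e), ← add_sum_erase univ _ (mem_univ e), h2]
  have : ∑ e' ∈ univ.erase e, |X e' - Y e'| = ∑ e' ∈ univ.erase e, |X' e' - Y e'| :=
    sum_congr rfl (fun e' he' => by rw [h1 e' (ne_of_mem_erase he')])
  rw [this]; ring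

theorem walk_aux (G : Gr E V) {R : ℕ} {d : V → ℤ} {Y : E → ℤ} (hY : G.div Y = d) (hYR : Y ∈ cube E R)
    (F : (E → ℤ) → ℝ) (n : ℕ) : ∀ X : E → ℤ, IsDef (G.div X - d) → X ∈ cube E R →
      ∑ e, |X e - Y e| = (n : ℤ) →
      (F X - F Y) ^ 2 ≤ (n : ℝ) * ∑ e, ∑ Z ∈ btw G R d X Y e, (F (Z + one e) - F Z) ^ 2 := by
  induction n with
  | zero =>
    intro X _ _ hn
    have : X = Y := by
      funext e
      have := (sum_eq_zero_iff_of_nonneg (fun e _ => abs_nonneg (X e - Y e))).1 hn e (mem_univ e)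
      exact sub_eq_zero.1 (abs_eq_zero.1 this)
    subst this
    simp
  | succ n ih =>
    intro X hX hXR hn
    have hne : X ≠ Y := by
      rintro rfl
      simp only [sub_self, abs_zero, sum_const_zero] at hn
      omega
    have hT : ∀ X' : E → ℤ, 0 ≤ ∑ e, ∑ Z ∈ btw G R d X' Y e, (F (Z + one e) - F Z) ^ 2 :=
      fun X' => sum_nonneg (fun _ _ => sum_nonneg (fun _ _ => sq_nonneg _))
    obtain ⟨e, ⟨hlt, hd⟩ | ⟨hlt, hd⟩⟩ := walk_step G hX hY hne
    · have he : (X + one e) e = X e + 1 := by simp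
      have hoff : ∀ e', e' ≠ e → (X + one e) e' = X e' := fun e' h => by
        simp [Pi.single_eq_of_ne h]
      have hb : ∀ e', min (X e') (Y e') ≤ (X + one e) e' ∧ (X + one e) e' ≤ max (X e') (Y e') := by
        intro e'
        by_cases h : e' = e
        · rw [h, he]; omega
        · rw [hoff e' h]; omega
      have hs := sum_abs_step (Y := Y) e hoff (by
        rw [he, abs_of_neg (by omega), abs_of_nonpos (by omega)]; ring)
      have h1 := ih (X + one e) hd (cube_between hXR hYR hb) (by push_cast at hn; omega)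
      have hZ : X ∈ btw G R d X Y e :=
        mem_btw.2 ⟨⟨hXR, hX, hd⟩, fun e' => by omega, by omega⟩
      have hZ' : X ∉ btw G R d (X + one e) Y e := fun h => by
        have := ((mem_btw.1 h).2.1 e).1
        rw [he] at this
        omega
      have h2 := btw_step hb hZ hZ' F
      have h3 := walk_cs (δ := F X - F (X + one e)) (Nat.cast_nonneg n) (hT _) h1
      have h4 : (F X - F (X + one e)) ^ 2 = (F (X + one e) - F X) ^ 2 := by ring
      rw [h4, sub_add_sub_cancel] at h3
      push_cast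
      exact h3.trans (mul_le_mul_of_nonneg_left h2 (by positivity))
    · have he : (X - one e) e = X e - 1 := by simp
      have hoff : ∀ e', e' ≠ e → (X - one e) e' = X e' := fun e' h => by
        simp [Pi.single_eq_of_ne h]
      have hb : ∀ e', min (X e') (Y e') ≤ (X - one e) e' ∧ (X - one e) e' ≤ max (X e') (Y e') := by
        intro e'
        by_cases h : e' = e
        · rw [h, he]; omega
        · rw [hoff e' h]; omega
      have hs := sum_abs_step (Y := Y) e hoff (by
        rw [he, abs_of_pos (by omega), abs_of_nonneg (by omega)]; ring)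
      have h1 := ih (X - one e) hd (cube_between hXR hYR hb) (by push_cast at hn; omega)
      have hZ : X - one e ∈ btw G R d X Y e :=
        mem_btw.2 ⟨⟨cube_between hXR hYR hb, hd, by rwa [sub_add_cancel]⟩, hb, by rw [he]; omega⟩
      have hZ' : X - one e ∉ btw G R d (X - one e) Y e := fun h => by
        have := (mem_btw.1 h).2.2
        rw [he] at this
        omega
      have h2 := btw_step hb hZ hZ' F
      have h3 := walk_cs (δ := F X - F (X - one e)) (Nat.cast_nonneg n) (hT _) h1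
      rw [sub_add_sub_cancel] at h3
      rw [sub_add_cancel] at h2
      push_cast
      exact h3.trans (mul_le_mul_of_nonneg_left h2 (by positivity))

open Classical in
theorem walk (G : Gr E V) {R : ℕ} {d : V → ℤ} {X Y : E → ℤ} (hX : IsDef (G.div X - d))
    (hY : G.div Y = d) (hXR : X ∈ cube E R) (hYR : Y ∈ cube E R) (F : (E → ℤ) → ℝ) :
    (F X - F Y) ^ 2 ≤ ((∑ e, |X e - Y e| : ℤ) : ℝ) * ∑ e, ∑ Z ∈ (mvs G R d e).filter
      (fun Z => (∀ e', min (X e') (Y e') ≤ Z e' ∧ Z e' ≤ max (X e') (Y e')) ∧ Z e + 1 ≤ max (X e) (Y e)),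
        (F (Z + one e) - F Z) ^ 2 := by
  obtain ⟨n, hn⟩ := Int.eq_ofNat_of_zero_le (sum_nonneg (fun e (_ : e ∈ univ) => abs_nonneg (X e - Y e)))
  have h := walk_aux G hY hYR F n X hX hXR hn
  rw [hn, Int.cast_natCast]
  unfold btw at h
  convert h

omit [Fintype E] in
/-- balanced orientations -/
theorem exists_balanced (O : Finset E) : ∀ a b : E → V, ∃ σ : E → ℤ,
    (∀ e, σ e = 1 ∨ σ e = -1) ∧ ∀ v, |∑ e ∈ O, σ e * uv (a e) (b e) v| ≤ 1 := by
  induction O using Finset.induction_on with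
  | empty => intro a b; exact ⟨fun _ => 1, fun _ => Or.inl rfl, fun v => by simp⟩
  | insert e₂ O he₂ ih =>
    intro a b
    by_cases hm : ∃ e₁ ∈ O, ∃ (s₁ s₂ : ℤ) (x y : V), (s₁ = 1 ∨ s₁ = -1) ∧ (s₂ = 1 ∨ s₂ = -1) ∧
        ∀ v, s₁ * uv (a e₁) (b e₁) v + s₂ * uv (a e₂) (b e₂) v = uv x y v
    · obtain ⟨e₁, he₁, s₁, s₂, x, y, hs₁, hs₂, hxy⟩ := hm
      obtain ⟨σ, hσ, hb⟩ := ih (Function.update a e₁ x) (Function.update b e₁ y)
      have hne : e₁ ≠ e₂ := fun h => he₂ (h ▸ he₁)
      refine ⟨fun e => if e = e₁ then σ e₁ * s₁ else if e = e₂ then σ e₁ * s₂ else σ e,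
        fun e => ?_, fun v => ?_⟩
      · dsimp only
        split_ifs
        · rcases hσ e₁ with h | h <;> rcases hs₁ with h' | h' <;> simp [h, h']
        · rcases hσ e₁ with h | h <;> rcases hs₂ with h' | h' <;> simp [h, h']
        · exact hσ e
      · have hv := hb v
        rw [← add_sum_erase _ _ he₁, Function.update_self, Function.update_self, ← hxy v] at hv
        rw [sum_insert he₂, ← add_sum_erase _ _ he₁]
        dsimp only
        rw [if_neg hne.symm, if_pos rfl, if_pos rfl]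
        have : ∑ e ∈ O.erase e₁, (if e = e₁ then σ e₁ * s₁ else if e = e₂ then σ e₁ * s₂ else σ e) *
            uv (a e) (b e) v = ∑ e ∈ O.erase e₁,
              σ e * uv (Function.update a e₁ x e) (Function.update b e₁ y e) v := by
          refine sum_congr rfl (fun e he => ?_)
          have h1 : e ≠ e₁ := ne_of_mem_erase he
          have h2 : e ≠ e₂ := fun h => he₂ (h ▸ mem_of_mem_erase he)
          rw [if_neg h1, if_neg h2, Function.update_of_ne h1, Function.update_of_ne h1]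
        rw [this]
        convert hv using 2
        ring
    · obtain ⟨σ, hσ, hb⟩ := ih a b
      have hdis : ∀ e₁ ∈ O, a e₁ ≠ a e₂ ∧ a e₁ ≠ b e₂ ∧ b e₁ ≠ a e₂ ∧ b e₁ ≠ b e₂ := by
        intro e₁ he₁
        refine ⟨fun h => hm ⟨e₁, he₁, -1, 1, b e₁, b e₂, Or.inr rfl, Or.inl rfl, fun v => ?_⟩,
          fun h => hm ⟨e₁, he₁, 1, 1, a e₂, b e₁, Or.inl rfl, Or.inl rfl, fun v => ?_⟩,
          fun h => hm ⟨e₁, he₁, 1, 1, a e₁, b e₂, Or.inl rfl, Or.inl rfl, fun v => ?_⟩,
          fun h => hm ⟨e₁, he₁, 1, -1, a e₁, a e₂, Or.inl rfl, Or.inr rfl, fun v => ?_⟩⟩ <;>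
        · simp only [uv_apply, h]; ring
      refine ⟨σ, hσ, fun v => ?_⟩
      rw [sum_insert he₂]
      by_cases hv : a e₂ = v ∨ b e₂ = v
      · have h0 : ∑ e ∈ O, σ e * uv (a e) (b e) v = 0 := by
          refine sum_eq_zero (fun e he => ?_)
          obtain ⟨h1, h2, h3, h4⟩ := hdis e he
          have h5 : a e ≠ v := by rcases hv with rfl | rfl <;> assumption
          have h6 : b e ≠ v := by rcases hv with rfl | rfl <;> assumption
          rw [uv_apply, if_neg h5, if_neg h6]; simp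
        rw [h0, add_zero, uv_apply]
        rcases hσ e₂ with h | h <;> rw [h] <;> split_ifs <;> simp
      · push Not at hv
        rw [uv_apply (a e₂), if_neg hv.1, if_neg hv.2]
        simpa using hb v

theorem exists_center (G : Gr E V) {S : E → ℤ} {Q Q' : V → ℤ} (hS : G.div S = Q + Q')
    (hQ : IsDef (Q - Q')) : ∃ X : E → ℤ, G.div X = Q ∧ ∀ e, |2 * X e - S e| ≤ 1 := by
  obtain ⟨σ, hσ, hb⟩ := exists_balanced (univ.filter (fun e => S e % 2 = 1)) G.src G.tgt
  set τ : E → ℤ := fun e => if S e % 2 = 1 then σ e else 0 with hτ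
  have hτ1 : ∀ e, |τ e| ≤ 1 ∧ (S e + τ e) % 2 = 0 := by
    intro e
    simp only [hτ]
    split_ifs with h
    · rcases hσ e with h' | h' <;> rw [h'] <;> exact ⟨by simp, by omega⟩
    · exact ⟨by simp, by omega⟩
  have hτ2 : ∀ v, |G.div τ v| ≤ 1 := by
    intro v
    have := hb v
    rw [sum_filter] at this
    rw [G.div_eq_sum]
    convert this using 3 with e
    simp only [hτ]
    split_ifs <;> simp
  -- halving
  have half : ∀ τ : E → ℤ, (∀ e, |τ e| ≤ 1 ∧ (S e + τ e) % 2 = 0) →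
      ∃ X : E → ℤ, (∀ v, 2 * G.div X v = Q v + Q' v + G.div τ v) ∧ ∀ e, |2 * X e - S e| ≤ 1 := by
    intro τ h
    refine ⟨fun e => (S e + τ e) / 2, fun v => ?_, fun e => ?_⟩
    · have e1 : (2 : ℤ) • (fun e => (S e + τ e) / 2) = S + τ := by
        funext e
        have := (h e).2
        simp only [Pi.smul_apply, smul_eq_mul, Pi.add_apply]
        omega
      have e2 := congrFun (G.div_smul 2 (fun e => (S e + τ e) / 2)) v
      rw [e1, G.div_add, hS] at e2
      simpa using e2.symm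
    · have h1 := h e
      have : 2 * ((S e + τ e) / 2) - S e = τ e := by omega
      rw [this]; exact h1.1
  have fin : ∀ τ : E → ℤ, (∀ e, |τ e| ≤ 1 ∧ (S e + τ e) % 2 = 0) → G.div τ = Q - Q' →
      ∃ X : E → ℤ, G.div X = Q ∧ ∀ e, |2 * X e - S e| ≤ 1 := by
    intro τ h hd
    obtain ⟨X, h1, h2⟩ := half τ h
    refine ⟨X, funext (fun v => ?_), h2⟩
    have := h1 v
    rw [hd, Pi.sub_apply] at this
    omega
  obtain ⟨X, hX, -⟩ := half τ hτ1
  have hpar : ∀ v, (Q - Q') v = 0 → G.div τ v = 0 := by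
    intro v hv
    have h1 := hX v
    have h2 := abs_le.1 (hτ2 v)
    rw [Pi.sub_apply] at hv
    omega
  by_cases h0 : Q - Q' = 0
  · exact fin τ hτ1 (funext (fun v => by rw [hpar v (by rw [h0]; rfl), h0]; rfl))
  rcases hQ with h | ⟨w, v, h⟩
  · exact absurd h h0
  have hwv : w ≠ v := by
    rintro rfl
    exact h0 (h.trans (uv_self w))
  have hoff : ∀ u, u ≠ w → u ≠ v → G.div τ u = 0 := fun u h1 h2 =>
    hpar u (by rw [h, uv_apply, if_neg h1.symm, if_neg h2.symm, sub_self])
  have hsum : G.div τ w + G.div τ v = 0 := by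
    have h1 := G.sum_div τ ({w, v} ∪ (univ.image G.src ∪ univ.image G.tgt))
    rw [sum_eq_zero (s := univ) (fun e _ => by rw [if_pos (by simp), if_pos (by simp), sub_self]),
      ← sum_subset subset_union_left (fun u _ hu => by
        simp only [mem_insert, mem_singleton, not_or] at hu
        exact hoff u hu.1 hu.2), sum_pair hwv] at h1
    exact h1
  have hw : G.div τ w = 1 ∨ G.div τ w = -1 := by
    have h1 := hX w
    have h2 := abs_le.1 (hτ2 w)
    have h3 := congrFun h w
    rw [uv_apply, if_pos rfl, if_neg hwv.symm, Pi.sub_apply] at h3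
    omega
  rcases hw with hw | hw
  · refine fin τ hτ1 (funext (fun u => ?_))
    rw [h, uv_apply]
    by_cases h1 : w = u
    · subst h1; rw [if_pos rfl, if_neg hwv.symm]; omega
    · by_cases h2 : v = u
      · subst h2; rw [if_neg h1, if_pos rfl]; omega
      · rw [if_neg h1, if_neg h2, hoff u (Ne.symm h1) (Ne.symm h2)]; simp
  · refine fin (-τ) (fun e => ?_) (funext (fun u => ?_))
    · have := hτ1 e
      rw [Pi.neg_apply, abs_neg]
      exact ⟨this.1, by omega⟩
    · rw [h, uv_apply, G.div_neg, Pi.neg_apply]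
      by_cases h1 : w = u
      · subst h1; rw [if_pos rfl, if_neg hwv.symm]; omega
      · by_cases h2 : v = u
        · subst h2; rw [if_neg h1, if_pos rfl]; omega
        · rw [if_neg h1, if_neg h2, hoff u (Ne.symm h1) (Ne.symm h2)]; simp

/-- cut lemma: a circulation enters `A` through `e₀` by at most `|E| * B` if every other arc leaving `A` has
capacity at most `B` -/
theorem cut_le (G : Gr E V) {D : E → ℤ} (hD : G.div D = 0) (A : Finset V) (e₀ : E) {B : ℤ} (hB : 0 ≤ B)
    (hout : ∀ e, e ≠ e₀ → G.src e ∈ A → G.tgt e ∉ A → D e ≤ B)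
    (hin : ∀ e, e ≠ e₀ → G.src e ∉ A → G.tgt e ∈ A → -D e ≤ B) :
    (G.src e₀ ∉ A → G.tgt e₀ ∈ A → D e₀ ≤ Fintype.card E * B) ∧
      (G.src e₀ ∈ A → G.tgt e₀ ∉ A → -D e₀ ≤ Fintype.card E * B) := by
  have h1 := G.sum_div D A
  rw [hD, ← add_sum_erase _ _ (mem_univ e₀)] at h1
  simp only [Pi.zero_apply, sum_const_zero] at h1
  have h2 : ∑ e ∈ univ.erase e₀,
      ((if G.src e ∈ A then D e else 0) - (if G.tgt e ∈ A then D e else 0)) ≤ Fintype.card E * B := by
    refine (sum_le_card_nsmul _ _ B (fun e he => ?_)).trans ?_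
    · have he' := ne_of_mem_erase he
      by_cases hs : G.src e ∈ A <;> by_cases ht : G.tgt e ∈ A
      · rw [if_pos hs, if_pos ht]; omega
      · have := hout e he' hs ht
        rw [if_pos hs, if_neg ht]; omega
      · have := hin e he' hs ht
        rw [if_neg hs, if_pos ht]; omega
      · rw [if_neg hs, if_neg ht]; omega
    · rw [nsmul_eq_mul]
      exact mul_le_mul_of_nonneg_right (by exact_mod_cast card_le_univ _) hB
  constructor
  · intro hs ht
    rw [if_neg hs, if_pos ht] at h1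
    omega
  · intro hs ht
    rw [if_pos hs, if_neg ht] at h1
    omega

end Crest.Agent.R309
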