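import Crest.Agent.R309.Prep
import Crest.Agent.R309.Flow

/-!
# Row 309: Cyc
Correctness of the cycle search.  Invariant of `bfsStep` (root `r = hd a`): `lab.length = n`, `r` is labelled, and if `lab[v] = some p` then `p.length = m`,
`div p = uv r v`, `p[a.1] = 0`, and every `e` has `p[e] = 0` or (`p[e] = sgn σ`, `B ≤ res X (e, σ)` and both ends of `e` are labelled).  (The new edge has an unlabelled end,
so `p[e] = 0` before `set`.)  A step either labels a new vertex or is a fixed point, so after `n` steps no admissible arc leaves the labelled set `A`.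
* `cyc_none`: if `res X a < B` it is trivial; otherwise `hd a ∈ A`, `tl a ∉ A`; apply `cut_le` to `D = toF X' - toF X` with bound `B - 1`.
* `bq_spec`: `cyc X a (2 ^ b) = none`, so `p₀ = findIdx ≤ b`; failure at `2 ^ p₀`, success at `2 ^ (p₀ - 1)` if `p₀ > 0`.
-/

set_option autoImplicit false

noncomputable section

namespace Crest.Agent.R309

open Finset Crest.Agent.Lib.PolyTime

namespace Net

variable {N : Net} {b : ℕ} {X X' : List ℤ} {a : ℕ × Bool} {B t : ℕ}

theorem mem_arcs : a ∈ N.arcs ↔ a.1 < N.m := by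
  obtain ⟨e, σ⟩ := a
  cases σ <;> simp [arcs]

theorem cyc_getD_set {β : Type} (l : List β) (i j : ℕ) (x d : β) :
    (l.set i x).getD j d = if i = j ∧ i < l.length then x else l.getD j d := by
  simp only [List.getD_eq_getElem?_getD, List.getElem?_set]
  by_cases h1 : i = j
  · subst h1
    by_cases h2 : i < l.length <;> simp [h2]
  · simp [h1]

theorem div_set {p : List ℤ} (hp : p.length = N.m) (ha : a.1 < N.m) (h0 : p.getD a.1 0 = 0) :
    N.gr.div (N.toF (p.set a.1 (sgn a.2))) = N.gr.div (N.toF p) + uv (N.tl a) (N.hd a) := by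
  have e : N.toF (p.set a.1 (sgn a.2)) = N.toF p + sgn a.2 • one (⟨a.1, ha⟩ : Fin N.m) := by
    funext e
    simp only [toF, cyc_getD_set, hp, ha, and_true, Pi.add_apply, Pi.smul_apply, Pi.single_apply,
      Fin.ext_iff, smul_eq_mul]
    by_cases h : a.1 = e
    · rw [if_pos h, if_pos h.symm, ← h, h0]
      simp
    · rw [if_neg h, if_neg (Ne.symm h)]
      simp
  rw [e, Gr.div_add, Gr.div_smul, Gr.div_one]
  congr 1
  obtain ⟨e, σ⟩ := a
  cases σ
  · simp only [sgn, tl, hd, Bool.false_eq_true, if_false, neg_smul, one_smul, uv_neg]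
    rfl
  · simp only [sgn, tl, hd, if_true, one_smul]
    rfl

theorem tl_lt (h : N.WF b) (ha : a.1 < N.m) : N.tl a < N.n := by
  unfold tl
  split_ifs
  exacts [h.src_lt _ ha, h.tgt_lt _ ha]

theorem hd_lt (h : N.WF b) (ha : a.1 < N.m) : N.hd a < N.n := by
  unfold hd
  split_ifs
  exacts [h.tgt_lt _ ha, h.src_lt _ ha]

/-- the vertex `v` is labelled -/
def lb (lab : List (Option (List ℤ))) (v : ℕ) : Prop := (lab.getD v none).isSome = true

/-- the invariant of the search -/
def Inv (N : Net) (X : List ℤ) (a : ℕ × Bool) (B : ℕ) (lab : List (Option (List ℤ))) : Prop :=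
  lab.length = N.n ∧ lb lab (N.hd a) ∧ ∀ v p, lab.getD v none = some p →
    p.length = N.m ∧ N.gr.div (N.toF p) = uv (N.hd a) v ∧ p.getD a.1 0 = 0 ∧
      ∀ e < N.m, p.getD e 0 = 0 ∨ ((∃ σ, p.getD e 0 = sgn σ ∧ (B : ℤ) ≤ N.res X (e, σ)) ∧
        lb lab (N.src e) ∧ lb lab (N.tgt e))

/-- no admissible arc leaves the labelled set -/
def Closed (N : Net) (X : List ℤ) (e₀ B : ℕ) (lab : List (Option (List ℤ))) : Prop :=
  ∀ c : ℕ × Bool, c.1 < N.m → c.1 ≠ e₀ → (B : ℤ) ≤ N.res X c → lb lab (N.tl c) → lb lab (N.hd c)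

open Classical in
/-- the labelled set -/
def lbs (N : Net) (lab : List (Option (List ℤ))) : Finset ℕ := (range N.n).filter (lb lab)

theorem ends_lb {lab : List (Option (List ℤ))} (c : ℕ × Bool) :
    lb lab (N.src c.1) ∧ lb lab (N.tgt c.1) ↔ lb lab (N.tl c) ∧ lb lab (N.hd c) := by
  unfold tl hd
  split_ifs
  · rfl
  · exact and_comm

theorem step_spec (h : N.WF b) {lab : List (Option (List ℤ))} (hI : N.Inv X a B lab) :
    N.Inv X a B (N.bfsStep X a.1 B lab) ∧
      ((N.Closed X a.1 B lab ∧ N.bfsStep X a.1 B lab = lab) ∨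
        (¬ N.Closed X a.1 B lab ∧ (N.lbs lab).card < (N.lbs (N.bfsStep X a.1 B lab)).card)) := by
  unfold bfsStep
  cases hf : N.arcs.find? fun c => c.1 != a.1 && decide ((B : ℤ) ≤ N.res X c) &&
      (lab.getD (N.tl c) none).isSome && (lab.getD (N.hd c) none).isNone with
  | none =>
    refine ⟨hI, Or.inl ⟨fun c h1 h2 h3 h4 => ?_, rfl⟩⟩
    have := List.find?_eq_none.1 hf c (mem_arcs.2 h1)
    unfold lb at h4 ⊢
    simp only [h4, h3, decide_true, Bool.and_true, Bool.and_eq_true, bne_iff_ne, ne_eq, h2,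
      not_false_eq_true, true_and] at this
    cases hl : lab.getD (N.hd c) none with
    | none => exact (this (by rw [hl]; rfl)).elim
    | some _ => rfl
  | some c =>
    have hc := mem_arcs.1 (List.mem_of_find?_eq_some hf)
    have hp := List.find?_some hf
    simp only [Bool.and_eq_true, bne_iff_ne, ne_eq, decide_eq_true_eq] at hp
    obtain ⟨⟨⟨h1, h2⟩, h3⟩, h4⟩ := hp
    obtain ⟨hlen, hr, hI⟩ := hI
    obtain ⟨p, hp⟩ := Option.isSome_iff_exists.1 h3
    have hn : ¬ lb lab (N.hd c) := by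
      unfold lb
      rw [Option.isNone_iff_eq_none.1 h4]
      simp
    have hhd : N.hd c < lab.length := hlen ▸ hd_lt h hc
    simp only [Option.elim_some, hp, Option.map_some]
    set lab' := lab.set (N.hd c) (some (p.set c.1 (sgn c.2))) with hlab'
    have hget : ∀ v, lab'.getD v none =
        if N.hd c = v then some (p.set c.1 (sgn c.2)) else lab.getD v none := fun v => by
      simp only [hlab', cyc_getD_set, hhd, and_true]
    have hmono : ∀ v, lb lab v → lb lab' v := fun v hv => by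
      unfold lb at hv ⊢
      rw [hget]
      split_ifs
      exacts [rfl, hv]
    have hnew : lb lab' (N.hd c) := by
      unfold lb
      rw [hget, if_pos rfl]
      rfl
    refine ⟨⟨by rw [hlab', List.length_set, hlen], hmono _ hr, fun v q hq => ?_⟩,
      Or.inr ⟨fun hcl => hn (hcl c hc h1 h2 h3), ?_⟩⟩
    · rw [hget] at hq
      split_ifs at hq with hv
      · obtain rfl := Option.some.inj hq
        obtain ⟨p1, p2, p3, p4⟩ := hI _ _ hp
        have h0 : p.getD c.1 0 = 0 := (p4 c.1 hc).resolve_right fun h => hn ((ends_lb c).1 h.2).2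
        refine ⟨by rw [List.length_set, p1], by rw [div_set p1 hc h0, p2, uv_add, hv], ?_,
          fun e he => ?_⟩
        · rw [cyc_getD_set, if_neg fun h => h1 h.1, p3]
        · rw [cyc_getD_set]
          split_ifs with he'
          · obtain ⟨rfl, -⟩ := he'
            exact Or.inr ⟨⟨c.2, rfl, h2⟩, (ends_lb c).2 ⟨hmono _ h3, hnew⟩⟩
          · exact (p4 e he).imp_right fun h => ⟨h.1, hmono _ h.2.1, hmono _ h.2.2⟩
      · obtain ⟨p1, p2, p3, p4⟩ := hI _ _ hq
        exact ⟨p1, p2, p3, fun e he =>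
          (p4 e he).imp_right fun h => ⟨h.1, hmono _ h.2.1, hmono _ h.2.2⟩⟩
    · refine card_lt_card ⟨fun v hv => ?_, fun hs => ?_⟩
      · simp only [lbs, mem_filter] at hv ⊢
        exact ⟨hv.1, hmono v hv.2⟩
      · have : N.hd c ∈ N.lbs lab' := by
          simp only [lbs, mem_filter, mem_range]
          exact ⟨hd_lt h hc, hnew⟩
        have := hs this
        simp only [lbs, mem_filter] at this
        exact hn this.2

theorem bfs_spec (h : N.WF b) (ha : a.1 < N.m) (X : List ℤ) (B : ℕ) :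
    N.Inv X a B (N.bfs X a B) ∧ N.Closed X a.1 B (N.bfs X a B) := by
  set lab₀ := (List.replicate N.n none).set (N.hd a) (some (List.replicate N.m (0 : ℤ))) with h0
  have hget : ∀ v, lab₀.getD v none =
      if N.hd a = v then some (List.replicate N.m 0) else none := fun v => by
    simp only [h0, cyc_getD_set, List.length_replicate, hd_lt h ha, and_true]
    split_ifs
    · rfl
    · simp only [List.getD_eq_getElem?_getD, List.getElem?_replicate]
      split_ifs <;> rfl
  have hz : ∀ e, (List.replicate N.m (0 : ℤ)).getD e 0 = 0 := fun e => by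
    simp only [List.getD_eq_getElem?_getD, List.getElem?_replicate]
    split_ifs <;> rfl
  have hI : N.Inv X a B lab₀ := by
    refine ⟨by simp [h0], by unfold lb; rw [hget, if_pos rfl]; rfl, fun v p hp => ?_⟩
    rw [hget] at hp
    split_ifs at hp with hv
    obtain rfl := Option.some.inj hp
    refine ⟨by simp, ?_, hz _, fun e _ => Or.inl (hz e)⟩
    rw [← hv, uv_self, show N.toF (List.replicate N.m 0) = 0 from funext fun e => hz e,
      Gr.div_zero]
  have key : ∀ j, N.Inv X a B ((N.bfsStep X a.1 B)^[j] lab₀) ∧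
      (N.Closed X a.1 B ((N.bfsStep X a.1 B)^[j] lab₀) ∨
        j < (N.lbs ((N.bfsStep X a.1 B)^[j] lab₀)).card) := by
    intro j
    induction j with
    | zero =>
      refine ⟨hI, Or.inr (card_pos.2 ⟨N.hd a, ?_⟩)⟩
      simp only [lbs, mem_filter, mem_range]
      exact ⟨hd_lt h ha, hI.2.1⟩
    | succ j ih =>
      rw [Function.iterate_succ_apply']
      obtain ⟨h1, h2 | h2⟩ := step_spec h ih.1
      · exact ⟨h1, Or.inl (by rw [h2.2]; exact h2.1)⟩
      · exact ⟨h1, Or.inr (lt_of_le_of_lt (ih.2.resolve_left h2.1) h2.2)⟩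
  refine ⟨(key N.n).1, (key N.n).2.resolve_right (not_lt.2 ?_)⟩
  classical
  exact (card_filter_le _ _).trans (card_range _).le

theorem diff_le_res (ha : a.1 < N.m) (hX' : N.Feas X') :
    sgn a.2 * (X'.getD a.1 0 - X.getD a.1 0) ≤ N.res X a := by
  have := hX'.2.2 a.1 ha
  unfold sgn res
  split_ifs <;> omega

theorem cyc_some (h : N.WF b) (ha : a.1 < N.m) {C : List ℤ} (hC : N.cyc X a B = some C) :
    C.length = N.m ∧ N.gr.div (N.toF C) = 0 ∧ C.getD a.1 0 = sgn a.2 ∧
      ∀ e < N.m, C.getD e 0 = 0 ∨ ∃ σ, C.getD e 0 = sgn σ ∧ (B : ℤ) ≤ N.res X (e, σ) := by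
  unfold cyc at hC
  split_ifs at hC with hB
  obtain ⟨p, hp, rfl⟩ := Option.map_eq_some_iff.1 hC
  obtain ⟨p1, p2, p3, p4⟩ := (bfs_spec h ha X B).1.2.2 _ _ hp
  refine ⟨by rw [List.length_set, p1], by rw [div_set p1 ha p3, p2, uv_add, uv_self], ?_,
    fun e he => ?_⟩
  · rw [cyc_getD_set, if_pos ⟨rfl, p1 ▸ ha⟩]
  · rw [cyc_getD_set]
    split_ifs with he'
    · obtain ⟨rfl, -⟩ := he'
      exact Or.inr ⟨a.2, rfl, hB⟩
    · exact (p4 e he).imp_right fun h => h.1

theorem cyc_none (h : N.WF b) (ha : a.1 < N.m) (hB : 1 ≤ B) (hC : N.cyc X a B = none) (hX : N.Feas X)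
    (hX' : N.Feas X') : sgn a.2 * (X'.getD a.1 0 - X.getD a.1 0) ≤ N.m * ((B : ℤ) - 1) := by
  have hB' : (0 : ℤ) ≤ (B : ℤ) - 1 := by omega
  unfold cyc at hC
  split_ifs at hC with hB1
  swap
  · have h1 := diff_le_res (X := X) ha hX'
    have h2 : (1 : ℤ) ≤ N.m := by omega
    nlinarith
  obtain ⟨hI, hcl⟩ := bfs_spec h ha X B
  have hmem : ∀ v < N.n, v ∈ N.lbs (N.bfs X a B) ↔ lb (N.bfs X a B) v := fun v hv => by
    simp only [lbs, mem_filter, mem_range, hv, true_and]
  have h1 : N.hd a ∈ N.lbs (N.bfs X a B) := (hmem _ (hd_lt h ha)).2 hI.2.1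
  have h2 : N.tl a ∉ N.lbs (N.bfs X a B) := by
    rw [hmem _ (tl_lt h ha), lb, Option.map_eq_none_iff.1 hC]
    simp
  have hD : N.gr.div (N.toF X' - N.toF X) = 0 := by rw [Gr.div_sub, hX.2.1, hX'.2.1, sub_self]
  have hgen : ∀ (e : Fin N.m) (σ : Bool), e ≠ ⟨a.1, ha⟩ → N.tl (e, σ) ∈ N.lbs (N.bfs X a B) →
      N.hd (e, σ) ∉ N.lbs (N.bfs X a B) → sgn σ * (X'.getD e 0 - X.getD e 0) ≤ (B : ℤ) - 1 := by
    intro e σ he t1 t2
    have h3 := diff_le_res (X := X) (a := (e, σ)) e.2 hX'
    have h4 : ¬ (B : ℤ) ≤ N.res X (e, σ) := fun hh => t2 ((hmem _ (hd_lt h e.2)).2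
      (hcl (e, σ) e.2 (fun h' => he (Fin.ext h')) hh ((hmem _ (tl_lt h e.2)).1 t1)))
    simp only at h3
    omega
  have hc := cut_le N.gr hD (N.lbs (N.bfs X a B)) ⟨a.1, ha⟩ hB'
    (fun e he t1 t2 => by simpa [sgn, toF] using hgen e true he t1 t2)
    (fun e he t1 t2 => by simpa [sgn, toF] using hgen e false he t2 t1)
  rw [Fintype.card_fin] at hc
  obtain ⟨e, σ⟩ := a
  cases σ
  · simpa [sgn, toF] using hc.2 h1 h2
  · simpa [sgn, toF] using hc.1 h2 h1

theorem bq_spec (h : N.WF b) (ha : a.1 < N.m) (hX : N.Feas X) :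
    (N.bq b X a = 0 ∨ ∃ C, N.cyc X a (N.bq b X a) = some C) ∧ N.bq b X a ≤ 2 ^ b ∧
      (N.bq b X a : ℤ) ≤ N.res X a ∧
      ∀ X', N.Feas X' → sgn a.2 * (X'.getD a.1 0 - X.getD a.1 0) ≤ 2 * N.m * (N.bq b X a : ℤ) := by
  have hb := hX.2.2 a.1 ha
  have hcap := h.cap_lt a.1 ha
  have hres : 0 ≤ N.res X a ∧ N.res X a < 2 ^ b := by
    unfold res
    split_ifs <;> omega
  have hex : ∃ p ∈ List.range (b + 1), (N.cyc X a (2 ^ min p b)).isNone = true := by
    refine ⟨b, by simp, ?_⟩
    rw [min_self, cyc, if_neg (by push_cast; omega)]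
    rfl
  have h1 := List.findIdx_lt_length_of_exists hex
  have h2 := List.findIdx_getElem (w := h1)
  have h3 : ∀ q (hq : q < (List.range (b + 1)).findIdx fun p => (N.cyc X a (2 ^ min p b)).isNone),
      (N.cyc X a (2 ^ min q b)).isNone = false := fun q hq => by
    simpa using List.not_of_lt_findIdx hq
  rw [List.getElem_range] at h2
  rw [List.length_range] at h1
  unfold bq
  generalize ((List.range (b + 1)).findIdx fun p => (N.cyc X a (2 ^ min p b)).isNone) = p₀
    at h1 h2 h3
  rw [min_eq_left (by omega), Option.isNone_iff_eq_none] at h2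
  have h4 := fun X' (hX' : N.Feas X') => cyc_none h ha Nat.one_le_two_pow h2 hX hX'
  cases p₀ with
  | zero =>
    refine ⟨Or.inl rfl, by simp, by simpa using hres.1, fun X' hX' => ?_⟩
    simpa using h4 X' hX'
  | succ q =>
    have h5 := h3 q (by omega)
    rw [min_eq_left (by omega), Option.isNone_eq_false_iff, Option.isSome_iff_exists] at h5
    rw [pow_succ, Nat.mul_div_cancel _ two_pos]
    refine ⟨Or.inr h5, Nat.pow_le_pow_right two_pos (by omega), ?_, fun X' hX' => ?_⟩
    · obtain ⟨C, hC⟩ := h5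
      by_contra hh
      rw [cyc, if_neg hh] at hC
      cases hC
    · refine (h4 X' hX').trans ?_
      have : (0 : ℤ) ≤ N.m := by positivity
      push_cast
      rw [pow_succ]
      nlinarith

theorem getD_aug (h : N.WF b) (ha : a.1 < N.m) (hX : X.length = N.m) {C : List ℤ} (hC : N.cyc X a B = some C)
    (e : ℕ) : (N.aug X a B t).getD e 0 = X.getD e 0 + t * C.getD e 0 := by
  have hl := (cyc_some h ha hC).1
  simp only [aug, hC, Option.elim_some, List.getD_eq_getElem?_getD, List.getElem?_zipWith]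
  rcases lt_or_ge e N.m with he | he
  · rw [List.getElem?_eq_getElem (hX ▸ he), List.getElem?_eq_getElem (hl ▸ he)]
    rfl
  · rw [List.getElem?_eq_none (hX ▸ he), List.getElem?_eq_none (hl ▸ he)]
    simp

theorem aug_feas (h : N.WF b) (ha : a.1 < N.m) (hX : N.Feas X) (ht : t ≤ B) : N.Feas (N.aug X a B t) := by
  cases hC : N.cyc X a B with
  | none => simpa [aug, hC] using hX
  | some C =>
    obtain ⟨c1, c2, -, c4⟩ := cyc_some h ha hC
    have hg := getD_aug (t := t) h ha hX.1 hC
    refine ⟨by simp [aug, hC, hX.1, c1], ?_, fun e he => ?_⟩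
    · rw [show N.toF (N.aug X a B t) = N.toF X + (t : ℤ) • N.toF C from funext fun e => hg e,
        Gr.div_add, Gr.div_smul, hX.2.1, c2, smul_zero, add_zero]
    · have hb := hX.2.2 e he
      rw [hg]
      rcases c4 e he with h0 | ⟨σ, h1, h2⟩
      · rw [h0, mul_zero, add_zero]
        exact hb
      · rw [h1]
        cases σ <;> simp only [sgn, res, Bool.false_eq_true, if_false, if_true] at h2 ⊢ <;> omega

end Net

end Crest.Agent.R309
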