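import Crest.Agent.R309.Kruskal
import Crest.Agent.R309.Cyc
import Crest.Agent.R309.Bridge

/-!
# Row 309: MkInst
The instance built from a centered feasible point.  `I = N.mkInst s b X`, `I.m = m + n * n`; compute `I.ed e` for `e < m` and for `e = m + q`.
`rt = K.rt`, `P v t = K.P v t` (zero for `t ≥ m`).  A flow `D` on `I` vanishing on the virtual edges has the same divergence as its restriction to `N`.
* `big`: `R = 2 m B`, `B = bq a` for `a = (e, true)` or `(e, false)`; `res a ≥ B`; `Centered` gives `B < 6 m (opp + 1)`, so `R < 12 m² (opp + 1)`, `opp ≥ 1` since `R ≥ pM s`.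
* bijection: for feasible `Y`, `D = Y - X` (extended by `0`) has `-res (e, false) ≤ D e ≤ res (e, true)` and `|D e| ≤ R e` (`bq_spec`).
-/

set_option autoImplicit false

noncomputable section

namespace Crest.Agent.R309

open Finset Crest.Agent.Lib.PolyTime

namespace Net

variable {N : Net} {b : ℕ} {X X' : List ℤ} {a : ℕ × Bool} {B t : ℕ}

theorem mk_m (N : Net) (s b : ℕ) (X : List ℤ) : (N.mkInst s b X).m = N.m + N.n * N.n := by
  simp [mkInst, Inst.m]

theorem mk_ed_lt (s : ℕ) {e : ℕ} (he : e < N.m) : (N.mkInst s b X).ed e =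
    ⟨N.src e, N.tgt e, min (N.res X (e, false)).toNat (N.RR b X e),
      min (N.res X (e, true)).toNat (N.RR b X e), N.RR b X e,
      if N.RR b X e < pM s then 0 else if e ∈ (N.kruskal (N.ord s b X)).2.2 then 2 else 1,
      N.chiL (N.kruskal (N.ord s b X)) (N.src e) (N.tgt e) e⟩ := by
  unfold Inst.ed mkInst
  simp only []
  rw [List.getD_append _ _ _ _ (by simpa using he), List.getD_eq_getElem _ _ (by simpa using he)]
  simp

theorem mk_ed_ge (s : ℕ) {q : ℕ} (hq : q < N.n * N.n) : (N.mkInst s b X).ed (N.m + q) =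
    ⟨q / N.n, q % N.n, 0, 1, 1, 3,
      N.chiL (N.kruskal (N.ord s b X)) (q / N.n) (q % N.n) (N.m + q)⟩ := by
  unfold Inst.ed mkInst
  simp only []
  rw [List.getD_append_right _ _ _ _ (by simp), List.getD_eq_getElem _ _ (by simpa using hq)]
  simp

theorem mk_cases {s : ℕ} (e : Fin (N.mkInst s b X).m) :
    (e : ℕ) < N.m ∨ ∃ q < N.n * N.n, (e : ℕ) = N.m + q := by
  have := e.2
  have h2 := N.mk_m s b X
  by_cases h : (e : ℕ) < N.m
  · exact Or.inl h
  · exact Or.inr ⟨e - N.m, by omega, by omega⟩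

theorem mk_div (s : ℕ) (D : ℕ → ℤ) (hD : ∀ t, N.m ≤ t → D t = 0) :
    (N.mkInst s b X).gr.div (fun t => D t) = N.gr.div (fun t => D t) := by
  funext v
  unfold Gr.div
  have h1 := Fin.sum_univ_eq_sum_range (fun e => (if ((N.mkInst s b X).ed e).src = v then D e else 0) -
    (if ((N.mkInst s b X).ed e).tgt = v then D e else 0)) (N.mkInst s b X).m
  have h2 := Fin.sum_univ_eq_sum_range (fun e => (if N.src e = v then D e else 0) -
    (if N.tgt e = v then D e else 0)) N.m
  refine h1.trans (Eq.trans ?_ h2.symm)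
  rw [mk_m, sum_range_add, sum_eq_zero (s := range (N.n * N.n)) fun q _ => by
    simp [hD (N.m + q) (by omega)], add_zero]
  refine sum_congr rfl fun e he => ?_
  rw [mk_ed_lt s (mem_range.1 he)]

theorem mem_ord {s e : ℕ} : e ∈ N.ord s b X ↔ e < N.m ∧ pM s ≤ N.RR b X e := by
  simp [ord]

theorem mk_kinv (h : N.WF b) (s : ℕ) (X : List ℤ) :
    N.KInv (N.RR b X) (N.ord s b X) (N.kruskal (N.ord s b X)) := by
  refine kruskal_spec h _ (fun e he => (mem_ord.1 he).1) ?_
  have : Std.Total fun e e' => N.RR b X e' ≤ N.RR b X e := ⟨fun _ _ => le_total _ _⟩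
  have : IsTrans ℕ fun e e' => N.RR b X e' ≤ N.RR b X e := ⟨fun _ _ _ h1 h2 => h2.trans h1⟩
  exact List.pairwise_insertionSort _ _

theorem res_nonneg (hX : N.Feas X) {e : ℕ} (he : e < N.m) (σ : Bool) : 0 ≤ N.res X (e, σ) := by
  have := hX.2.2 e he
  cases σ <;> simp only [res] <;> simp <;> simpa using by first | exact this.1 | exact this.2

theorem RR_le_res {s : ℕ} (h : N.WF b) (hs : 20 ≤ s) (hm : N.m ≤ s) (hX : N.Feas X)
    (hc : N.Centered b X) {e : ℕ} (he : e < N.m) (hR : pM s ≤ N.RR b X e) (σ : Bool) :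
    N.RR b X e ≤ 24 * s ^ 2 * (N.res X (e, σ)).toNat := by
  obtain ⟨τ, hτ⟩ : ∃ τ, N.RR b X e = 2 * N.m * N.bq b X (e, τ) := by
    unfold RR
    rcases max_choice (N.bq b X (e, true)) (N.bq b X (e, false)) with h1 | h1
    · exact ⟨true, by rw [h1]⟩
    · exact ⟨false, by rw [h1]⟩
  have h0 := res_nonneg hX he σ
  obtain ⟨r, hr⟩ := Int.eq_ofNat_of_zero_le h0
  rw [hr, Int.toNat_natCast]
  by_cases hστ : σ = τ
  · subst hστ
    have h1 := (bq_spec (a := (e, σ)) h he hX).2.2.1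
    rw [hr, Nat.cast_le] at h1
    rw [hτ]
    refine Nat.mul_le_mul ?_ h1
    nlinarith
  · have h1 := hc (e, τ) he
    have h2 : (!τ) = σ := by cases σ <;> cases τ <;> simp_all
    simp only [h2, hr] at h1
    have h3 : N.bq b X (e, τ) / (2 * N.m) + 1 ≤ 3 * (r + 1) := by exact_mod_cast h1
    have h4 : N.bq b X (e, τ) < 2 * N.m * (N.bq b X (e, τ) / (2 * N.m) + 1) :=
      Nat.lt_mul_div_succ _ (by omega)
    have h5 : N.bq b X (e, τ) ≤ 2 * s * (3 * (r + 1)) :=
      h4.le.trans (Nat.mul_le_mul (by omega) h3)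
    have h6 : N.RR b X e ≤ 2 * s * (2 * s * (3 * (r + 1))) := by
      rw [hτ]; exact Nat.mul_le_mul (by omega) h5
    rcases Nat.eq_zero_or_pos r with rfl | hr0
    · exfalso
      have h7 : s ^ 2 ≤ s ^ 6 := Nat.pow_le_pow_right (by omega) (by omega)
      have h8 : 0 < s ^ 2 := by positivity
      unfold pM at hR
      nlinarith
    · refine h6.trans ?_
      have h7 : r + 1 ≤ 2 * r := by omega
      calc 2 * s * (2 * s * (3 * (r + 1))) = 12 * s ^ 2 * (r + 1) := by ring
        _ ≤ 12 * s ^ 2 * (2 * r) := Nat.mul_le_mul_left _ h7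
        _ = 24 * s ^ 2 * r := by ring

theorem RR_le_min {s : ℕ} (h : N.WF b) (hs : 20 ≤ s) (hm : N.m ≤ s) (hX : N.Feas X)
    (hc : N.Centered b X) {e : ℕ} (he : e < N.m) (hR : pM s ≤ N.RR b X e) (σ : Bool) :
    N.RR b X e ≤ 24 * s ^ 2 * min (N.res X (e, σ)).toNat (N.RR b X e) := by
  rcases min_choice (N.res X (e, σ)).toNat (N.RR b X e) with h1 | h1 <;> rw [h1]
  · exact RR_le_res h hs hm hX hc he hR σ
  · exact Nat.le_mul_of_pos_left _ (by positivity)

theorem mk_ty {s e : ℕ} (he : e < (N.mkInst s b X).m) :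
    (e < N.m ∧ ((N.mkInst s b X).ed e).ty = 0 ∧ N.RR b X e < pM s) ∨
    (e < N.m ∧ ((N.mkInst s b X).ed e).ty = 1 ∧ pM s ≤ N.RR b X e) ∨
    (e < N.m ∧ ((N.mkInst s b X).ed e).ty = 2 ∧ pM s ≤ N.RR b X e ∧
      e ∈ (N.kruskal (N.ord s b X)).2.2) ∨
    (N.m ≤ e ∧ ((N.mkInst s b X).ed e).ty = 3) := by
  rcases mk_cases ⟨e, he⟩ with h1 | ⟨q, hq, h1⟩
  · have h1 : e < N.m := h1
    rw [mk_ed_lt s h1]
    by_cases h2 : N.RR b X e < pM s
    · exact Or.inl ⟨h1, if_pos h2, h2⟩
    · by_cases h3 : e ∈ (N.kruskal (N.ord s b X)).2.2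
      · exact Or.inr (Or.inr (Or.inl ⟨h1, by simp only [if_neg h2, if_pos h3], not_lt.1 h2, h3⟩))
      · exact Or.inr (Or.inl ⟨h1, by simp only [if_neg h2, if_neg h3], not_lt.1 h2⟩)
  · have h1 : e = N.m + q := h1
    subst h1
    rw [mk_ed_ge s hq]
    exact Or.inr (Or.inr (Or.inr ⟨by omega, rfl⟩))

theorem mkInst_valid {s k : ℕ} (h : N.WF b) (hs : 20 ≤ s) (hk : k ≤ 2 ^ s) (hb : b ≤ s)
    (hm : N.m + N.n * N.n ≤ s) (hX : N.Feas X) (hc : N.Centered b X) :
    ∃ rt P, (N.mkInst s b X).Valid s k rt P := by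
  have hK := mk_kinv h s X
  set K := N.kruskal (N.ord s b X) with hKdef
  have hn := h.n_pos
  have hmm := N.mk_m s b X
  have hnn : (N.mkInst s b X).n = N.n := rfl
  have hsrc : ∀ e : Fin (N.mkInst s b X).m, ((N.mkInst s b X).ed e).src < N.n := by
    intro e
    rcases mk_cases e with h1 | ⟨q, hq, h1⟩
    · rw [mk_ed_lt s h1]; exact h.src_lt _ h1
    · rw [h1, mk_ed_ge s hq]; exact Nat.div_lt_of_lt_mul hq
  have htgt : ∀ e : Fin (N.mkInst s b X).m, ((N.mkInst s b X).ed e).tgt < N.n := by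
    intro e
    rcases mk_cases e with h1 | ⟨q, hq, h1⟩
    · rw [mk_ed_lt s h1]; exact h.tgt_lt _ h1
    · rw [h1, mk_ed_ge s hq]; exact Nat.mod_lt _ hn
  have hPm : ∀ v < N.n, ∀ t, K.P v t ≠ 0 → t < N.m ∧ pM s ≤ N.RR b X t := fun v hv t ht =>
    mem_ord.1 (hK.tr_sub t (hK.P_tree v hv t ht))
  have hchi : ∀ e t : Fin (N.mkInst s b X).m, (N.mkInst s b X).chiF (fun v t => K.P v t) e t =
      (if (t : ℕ) = e then 1 else 0) - K.P ((N.mkInst s b X).ed e).src t +
        K.P ((N.mkInst s b X).ed e).tgt t := by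
    intro e t
    simp only [Inst.chiF, Pi.add_apply, Pi.sub_apply, Pi.single_apply, Fin.ext_iff]
  refine ⟨K.rt, fun v t => K.P v t, hs, hk, hn, ?_, by rw [hnn]; omega, by omega, hsrc, htgt, ?_, ?_, ?_, ?_, ?_, ?_,
    ?_, ?_, hK.rt_lt, hK.rt_rt, ?_, ?_, fun v hv e => hK.P_le v hv e, ?_, ?_, ?_, ?_, ?_⟩
  · have := Nat.le_mul_self N.n
    omega
  · intro e
    rcases mk_cases e with h1 | ⟨q, hq, h1⟩
    · rw [mk_ed_lt s h1]; exact min_le_right _ _
    · rw [h1, mk_ed_ge s hq]; exact Nat.zero_le _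
  · intro e
    rcases mk_cases e with h1 | ⟨q, hq, h1⟩
    · rw [mk_ed_lt s h1]; exact min_le_right _ _
    · rw [h1, mk_ed_ge s hq]
  · intro e
    rcases mk_cases e with h1 | ⟨q, hq, h1⟩
    · rw [mk_ed_lt s h1]
      have h2 : 2 ^ b ≤ 2 ^ s := Nat.pow_le_pow_right (by omega) hb
      have h3 : max (N.bq b X (e, true)) (N.bq b X (e, false)) ≤ 2 ^ s :=
        max_le ((bq_spec (a := (e, true)) h h1 hX).2.1.trans h2)
          ((bq_spec (a := (e, false)) h h1 hX).2.1.trans h2)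
      have h4 : N.m ≤ 2 ^ s := le_trans (by omega) (Nat.lt_two_pow_self (n := s)).le
      calc N.RR b X e ≤ 2 * 2 ^ s * 2 ^ s := Nat.mul_le_mul (by omega) h3
        _ = 2 ^ (2 * s + 1) := by ring
    · rw [h1, mk_ed_ge s hq]; exact Nat.one_le_two_pow
  · intro e
    rcases mk_ty e.2 with h1 | h1 | h1 | h1 <;> omega
  · intro e he
    rcases mk_ty e.2 with h1 | h1 | h1 | h1
    · rw [mk_ed_lt s h1.1]; exact h1.2.2.le
    all_goals omega
  · intro e he
    have h1 : (e : ℕ) < N.m ∧ pM s ≤ N.RR b X e := by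
      rcases mk_ty e.2 with h1 | h1 | h1 | h1 <;> omega
    rw [mk_ed_lt s h1.1]
    exact ⟨h1.2, RR_le_min h hs (by omega) hX hc h1.1 h1.2 false,
      RR_le_min h hs (by omega) hX hc h1.1 h1.2 true⟩
  · intro e he
    rcases mk_cases e with h1 | ⟨q, hq, h1⟩
    · rcases mk_ty e.2 with h1 | h1 | h1 | h1 <;> omega
    · rw [h1, mk_ed_ge s hq]; exact ⟨rfl, rfl⟩
  · intro w hw v hv
    rw [hnn] at hw hv
    have hq : w * N.n + v < N.n * N.n :=
      calc w * N.n + v < w * N.n + N.n := by omega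
        _ = (w + 1) * N.n := by ring
        _ ≤ N.n * N.n := Nat.mul_le_mul_right _ hw
    refine ⟨⟨N.m + (w * N.n + v), by omega⟩, ?_⟩
    simp only [mk_ed_ge s hq, true_and]
    constructor
    · rw [add_comm, Nat.add_mul_div_right _ _ hn, Nat.div_eq_of_lt hv, zero_add]
    · rw [add_comm, Nat.add_mul_mod_self_right, Nat.mod_eq_of_lt hv]
  · intro v hv
    rw [mk_div s (K.P v) fun t ht => by_contra fun h0 => absurd (hPm v hv t h0).1 (by omega)]
    exact hK.div_P v hv
  · intro v hv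
    funext t
    exact hK.P_rt v hv t
  · intro v hv e he
    have h1 := hPm v hv e he
    rw [mk_ed_lt s h1.1]
    simp only [if_neg (not_lt.2 h1.2)]
    exact if_pos (hK.P_tree v hv e he)
  · intro e he
    have h1 : (e : ℕ) < N.m ∧ (e : ℕ) ∈ K.2.2 := by
      rcases mk_ty e.2 with h1 | h1 | h1 | h1
      · omega
      · omega
      · exact ⟨h1.1, h1.2.2.2⟩
      · omega
    funext t
    rw [hchi, mk_ed_lt s h1.1]
    exact hK.tree e h1.2 t
  · intro e he
    have h1 : (e : ℕ) < N.m ∧ pM s ≤ N.RR b X e := by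
      rcases mk_ty e.2 with h1 | h1 | h1 | h1 <;> omega
    rw [mk_ed_lt s h1.1]
    exact hK.same e (mem_ord.2 h1)
  · intro e t he ht
    have h1 : (e : ℕ) < N.m ∧ pM s ≤ N.RR b X e := by
      rcases mk_ty e.2 with h1 | h1 | h1 | h1 <;> omega
    by_cases hte : (t : ℕ) = e
    · rw [hte]
    rw [hchi, if_neg hte, mk_ed_lt s h1.1] at ht
    have h2 : K.P (N.src e) t ≠ K.P (N.tgt e) t := fun h0 => ht (by simp only [h0]; ring)
    have h3 : (t : ℕ) < N.m := by
      by_cases h0 : K.P (N.src e) t = 0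
      · exact (hPm _ (h.tgt_lt e h1.1) t fun h4 => h2 (h0.trans h4.symm)).1
      · exact (hPm _ (h.src_lt e h1.1) t h0).1
    rw [mk_ed_lt s h1.1, mk_ed_lt s h3]
    exact hK.order e (mem_ord.2 h1) t h2
  · intro e t
    have ht : (t : ℕ) < N.m + N.n * N.n := hmm ▸ t.2
    have h0 : ((N.mkInst s b X).ed e).chi =
        N.chiL K ((N.mkInst s b X).ed e).src ((N.mkInst s b X).ed e).tgt e := by
      rcases mk_cases e with h1 | ⟨q, hq, h1⟩
      · rw [mk_ed_lt s h1]
      · rw [h1, mk_ed_ge s hq]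
    rw [hchi, h0, chiL, List.getD_eq_getElem _ _ (by simpa using ht)]
    simp

theorem getD_addL (X Z : List ℤ) {e : ℕ} (he : e < N.m) :
    (N.addL X Z).getD e 0 = X.getD e 0 + Z.getD e 0 := by
  rw [addL, List.getD_eq_getElem _ _ (by simpa using he)]
  simp

theorem mem_GS {s : ℕ} {D : Fin (N.mkInst s b X).m → ℤ} : D ∈ (N.mkInst s b X).GS ↔
    (∀ e : Fin (N.mkInst s b X).m, (e : ℕ) < N.m →
      -((min (N.res X (e, false)).toNat (N.RR b X e) : ℕ) : ℤ) ≤ D e ∧
        D e ≤ ((min (N.res X (e, true)).toNat (N.RR b X e) : ℕ) : ℤ)) ∧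
      (∀ e : Fin (N.mkInst s b X).m, N.m ≤ (e : ℕ) → D e = 0) ∧ (N.mkInst s b X).gr.div D = 0 := by
  classical
  unfold Inst.GS
  rw [mem_filter, Fintype.mem_piFinset, ← and_assoc]
  refine and_congr_left fun _ => ⟨fun h => ⟨fun e he => ?_, fun e he => ?_⟩, fun h e => ?_⟩
  · have h1 := h e
    rw [if_neg (by rcases mk_ty e.2 with h1 | h1 | h1 | h1 <;> omega), mk_ed_lt s he, mem_Icc] at h1
    exact h1
  · have h1 := h e
    rw [if_pos (by rcases mk_ty e.2 with h1 | h1 | h1 | h1 <;> omega), mem_singleton] at h1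
    exact h1
  · by_cases he : (e : ℕ) < N.m
    · rw [if_neg (by rcases mk_ty e.2 with h1 | h1 | h1 | h1 <;> omega), mk_ed_lt s he, mem_Icc]
      exact h.1 e he
    · rw [if_pos (by rcases mk_ty e.2 with h1 | h1 | h1 | h1 <;> omega), mem_singleton]
      exact h.2 e (by omega)

theorem mkInst_bij {s : ℕ} (h : N.WF b) (hX : N.Feas X) :
    Set.BijOn (fun D : Fin (N.mkInst s b X).m → ℤ => N.addL X (List.ofFn D)) {D | D ∈ (N.mkInst s b X).GS}
      {Y | N.Feas Y} := by
  have hmm := N.mk_m s b X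
  refine ⟨fun D hD => ?_, fun D hD D' hD' hDD => ?_, fun Y hY => ?_⟩
  · obtain ⟨h1, h2, h3⟩ := mem_GS.1 hD
    have h4 : ∀ t, N.m ≤ t → (List.ofFn D).getD t 0 = 0 := by
      intro t ht
      by_cases h5 : t < (N.mkInst s b X).m
      · exact (Inst.getD_ofFn D ⟨t, h5⟩).trans (h2 ⟨t, h5⟩ ht)
      · exact List.getD_eq_default _ _ (by simpa using h5)
    refine ⟨by simp [addL], ?_, fun e he => ?_⟩
    · have h5 : N.toF (N.addL X (List.ofFn D)) = N.toF X + fun t : Fin N.m => (List.ofFn D).getD t 0 := by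
        funext t
        exact getD_addL _ _ t.2
      rw [h5, Gr.div_add, hX.2.1, zero_add, ← mk_div (b := b) (X := X) s _ h4]
      simpa only [Inst.getD_ofFn] using h3
    · have he' : e < (N.mkInst s b X).m := by omega
      rw [getD_addL _ _ he, Inst.getD_ofFn D ⟨e, he'⟩]
      have h5 := h1 ⟨e, he'⟩ he
      have h6 := hX.2.2 e he
      simp only [res, if_true, Bool.false_eq_true, if_false] at h5
      omega
  · funext e
    by_cases he : (e : ℕ) < N.m
    · have h1 := congrArg (fun Y : List ℤ => Y.getD e 0) hDD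
      simp only [getD_addL _ _ he, Inst.getD_ofFn] at h1
      omega
    · rw [(mem_GS.1 hD).2.1 e (by omega), (mem_GS.1 hD').2.1 e (by omega)]
  · have hY : N.Feas Y := hY
    refine ⟨fun e => if (e : ℕ) < N.m then Y.getD e 0 - X.getD e 0 else 0,
      mem_GS.2 ⟨fun e he => ?_, fun e he => if_neg (by omega), ?_⟩, ?_⟩
    · have h1 := (bq_spec (a := (e, true)) h he hX).2.2.2 Y hY
      have h2 := (bq_spec (a := (e, false)) h he hX).2.2.2 Y hY
      have h3 : 2 * N.m * N.bq b X (e, true) ≤ N.RR b X e := Nat.mul_le_mul_left _ (le_max_left _ _)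
      have h4 : 2 * N.m * N.bq b X (e, false) ≤ N.RR b X e := Nat.mul_le_mul_left _ (le_max_right _ _)
      have h3' : 2 * (N.m : ℤ) * N.bq b X (e, true) ≤ N.RR b X e := by exact_mod_cast h3
      have h4' : 2 * (N.m : ℤ) * N.bq b X (e, false) ≤ N.RR b X e := by exact_mod_cast h4
      have h5 := hY.2.2 e he
      have h6 := hX.2.2 e he
      simp only [sgn, if_true, Bool.false_eq_true, if_false, one_mul, neg_mul] at h1 h2
      simp only [res, if_true, Bool.false_eq_true, if_false, if_pos he]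
      omega
    · rw [mk_div s (fun e => if e < N.m then Y.getD e 0 - X.getD e 0 else 0) fun t ht => if_neg (by omega)]
      have h1 : (fun t : Fin N.m => if (t : ℕ) < N.m then Y.getD t 0 - X.getD t 0 else 0) =
          N.toF Y - N.toF X := by
        funext t
        exact if_pos t.2
      rw [h1, Gr.div_sub, hY.2.1, hX.2.1, sub_zero]
    · refine List.ext_getElem (by simp [addL, hY.1]) fun e h1 h2 => ?_
      have he : e < N.m := hY.1 ▸ h2
      have he' : e < (N.mkInst s b X).m := by omega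
      rw [← List.getD_eq_getElem _ 0 h1, ← List.getD_eq_getElem _ 0 h2, getD_addL _ _ he]
      rw [Inst.getD_ofFn _ ⟨e, he'⟩]
      simp only [if_pos he]
      ring

end Net

end Crest.Agent.R309
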