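import Crest.Agent.R309.Prep
import Crest.Agent.R309.Flow

/-!
# Row 309: TabNet
Tables as circulations.  Edge `q < nr * nc` goes from row `q / nc` to column `nr + q % nc`; edge `nr * nc + i` from the source `nr + nc` to row `i`; edge `nr * nc + nr + j` from column `j`
to the sink `nr + nc + 1`; the last edge `e0` from the sink to the source.  First compute `src`, `tgt`, `up.getD`, `low.getD` on the four ranges and prove `div_iff`
(split the sum over `range m` by `Finset.sum_range_add`-like lemmas; `∑_{q < nr * nc} f q = ∑_i ∑_j f (i * nc + j)`).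
-/

set_option autoImplicit false

noncomputable section

namespace Crest.Agent.R309

open Finset Crest.Agent.Lib.PolyTime

namespace Tab

variable {T : Tab} {s : ℕ}

theorem getD4 {α : Type} (A B C : List α) (d z : α) :
    (∀ q < A.length, (A ++ B ++ C ++ [d]).getD q z = A.getD q z) ∧
    (∀ i < B.length, (A ++ B ++ C ++ [d]).getD (A.length + i) z = B.getD i z) ∧
    (∀ j < C.length, (A ++ B ++ C ++ [d]).getD (A.length + B.length + j) z = C.getD j z) ∧
    (A ++ B ++ C ++ [d]).getD (A.length + B.length + C.length) z = d := by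
  refine ⟨fun q hq => ?_, fun i hi => ?_, fun j hj => ?_, ?_⟩
  · rw [List.append_assoc, List.append_assoc, List.getD_append _ _ _ _ hq]
  · rw [List.append_assoc, List.append_assoc, List.getD_append_right _ _ _ _ (by omega),
      Nat.add_sub_cancel_left, List.getD_append _ _ _ _ hi]
  · rw [List.append_assoc (A ++ B), List.getD_append_right _ _ _ _ (by simp), List.length_append,
      Nat.add_sub_cancel_left, List.getD_append _ _ _ _ hj]
  · rw [List.getD_append_right _ _ _ _ (by simp; omega)]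
    simp [Nat.add_assoc]

theorem getD_map_range {α : Type} (f : ℕ → α) (n q : ℕ) (z : α) (h : q < n) :
    ((List.range n).map f).getD q z = f q := by
  rw [List.getD_eq_getElem _ _ (by simpa using h)]
  simp

theorem getD_cast (L : List ℕ) (q : ℕ) : (L.map fun x : ℕ => (x : ℤ)).getD q 0 = (L.getD q 0 : ℕ) := by
  have := List.getD_map (f := fun x : ℕ => (x : ℤ)) (l := L) (n := q) (d := 0)
  simpa using this

theorem es_length : T.es.length = T.e0 + 1 := by simp [es, e0]; omega

theorem es1 {q : ℕ} (h : q < T.nr * T.nc) : T.es.getD q (0, 0) = (q / T.nc, T.nr + q % T.nc) := by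
  unfold es
  rw [(getD4 _ _ _ _ _).1 q (by simpa using h), getD_map_range _ _ _ _ h]

theorem es2 {i : ℕ} (h : i < T.nr) : T.es.getD (T.nr * T.nc + i) (0, 0) = (T.nr + T.nc, i) := by
  unfold es
  have := (getD4 ((List.range (T.nr * T.nc)).map fun q => (q / T.nc, T.nr + q % T.nc))
    ((List.range T.nr).map fun i => (T.nr + T.nc, i))
    ((List.range T.nc).map fun j => (T.nr + j, T.nr + T.nc + 1)) (T.nr + T.nc + 1, T.nr + T.nc) (0, 0)).2.1 i
    (by simpa using h)
  rw [List.length_map, List.length_range] at this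
  rw [this, getD_map_range _ _ _ _ h]

theorem es3 {j : ℕ} (h : j < T.nc) :
    T.es.getD (T.nr * T.nc + T.nr + j) (0, 0) = (T.nr + j, T.nr + T.nc + 1) := by
  unfold es
  have := (getD4 ((List.range (T.nr * T.nc)).map fun q => (q / T.nc, T.nr + q % T.nc))
    ((List.range T.nr).map fun i => (T.nr + T.nc, i))
    ((List.range T.nc).map fun j => (T.nr + j, T.nr + T.nc + 1)) (T.nr + T.nc + 1, T.nr + T.nc) (0, 0)).2.2.1 j
    (by simpa using h)
  simp only [List.length_map, List.length_range] at this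
  rw [this, getD_map_range _ _ _ _ h]

theorem es4 : T.es.getD T.e0 (0, 0) = (T.nr + T.nc + 1, T.nr + T.nc) := by
  unfold es e0
  have := (getD4 ((List.range (T.nr * T.nc)).map fun q => (q / T.nc, T.nr + q % T.nc))
    ((List.range T.nr).map fun i => (T.nr + T.nc, i))
    ((List.range T.nc).map fun j => (T.nr + j, T.nr + T.nc + 1)) (T.nr + T.nc + 1, T.nr + T.nc) (0, 0)).2.2.2
  simp only [List.length_map, List.length_range] at this
  exact this

theorem up1 {q : ℕ} (h : q < T.nr * T.nc) : T.up.getD q 0 = (T.bs.getD q 0 : ℕ) := by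
  unfold up
  rw [getD_cast, (getD4 _ _ _ _ _).1 q (by simpa using h), getD_map_range _ _ _ _ h]

theorem up2 {i : ℕ} (h : i < T.nr) : T.up.getD (T.nr * T.nc + i) 0 = (T.rs.getD i 0 : ℕ) := by
  unfold up
  have := (getD4 ((List.range (T.nr * T.nc)).map fun q => T.bs.getD q 0) T.rs T.cs T.rs.sum 0).2.1 i h
  rw [List.length_map, List.length_range] at this
  rw [getD_cast, this]

theorem up3 {j : ℕ} (h : j < T.nc) : T.up.getD (T.nr * T.nc + T.nr + j) 0 = (T.cs.getD j 0 : ℕ) := by
  unfold up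
  have := (getD4 ((List.range (T.nr * T.nc)).map fun q => T.bs.getD q 0) T.rs T.cs T.rs.sum 0).2.2.1 j h
  rw [List.length_map, List.length_range] at this
  rw [getD_cast, this]

theorem up4 : T.up.getD T.e0 0 = (T.rs.sum : ℕ) := by
  unfold up e0
  have := (getD4 ((List.range (T.nr * T.nc)).map fun q => T.bs.getD q 0) T.rs T.cs T.rs.sum 0).2.2.2
  rw [List.length_map, List.length_range] at this
  rw [getD_cast, this]

theorem low1 {q : ℕ} (h : q < T.nr * T.nc) : T.low.getD q 0 = 0 := by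
  unfold low
  rw [getD_cast, (getD4 _ _ _ _ _).1 q (by simpa using h)]
  simp [List.getD_eq_getElem?_getD, h]

theorem low2 {i : ℕ} (h : i < T.nr) : T.low.getD (T.nr * T.nc + i) 0 = (T.rs.getD i 0 : ℕ) := by
  unfold low
  have := (getD4 (List.replicate (T.nr * T.nc) 0) T.rs T.cs T.rs.sum 0).2.1 i h
  rw [List.length_replicate] at this
  rw [getD_cast, this]

theorem low3 {j : ℕ} (h : j < T.nc) : T.low.getD (T.nr * T.nc + T.nr + j) 0 = (T.cs.getD j 0 : ℕ) := by
  unfold low
  have := (getD4 (List.replicate (T.nr * T.nc) 0) T.rs T.cs T.rs.sum 0).2.2.1 j h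
  rw [List.length_replicate] at this
  rw [getD_cast, this]

theorem low4 : T.low.getD T.e0 0 = (T.rs.sum : ℕ) := by
  unfold low e0
  have := (getD4 (List.replicate (T.nr * T.nc) 0) T.rs T.cs T.rs.sum 0).2.2.2
  rw [List.length_replicate] at this
  rw [getD_cast, this]

/-- the four kinds of edges -/
theorem edge_cases {P : ℕ → Prop} (h1 : ∀ q < T.nr * T.nc, P q) (h2 : ∀ i < T.nr, P (T.nr * T.nc + i))
    (h3 : ∀ j < T.nc, P (T.nr * T.nc + T.nr + j)) (h4 : P T.e0) : ∀ e < T.e0 + 1, P e := by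
  intro e he
  by_cases a : e < T.nr * T.nc
  · exact h1 e a
  by_cases b : e < T.nr * T.nc + T.nr
  · have := h2 (e - T.nr * T.nc) (by omega)
    rwa [show T.nr * T.nc + (e - T.nr * T.nc) = e by omega] at this
  by_cases c : e < T.nr * T.nc + T.nr + T.nc
  · have := h3 (e - (T.nr * T.nc + T.nr)) (by omega)
    rwa [show T.nr * T.nc + T.nr + (e - (T.nr * T.nc + T.nr)) = e by omega] at this
  · have : e = T.e0 := by unfold e0 at he ⊢; omega
    rwa [this]

theorem idx_lt {a b i j : ℕ} (hi : i < a) (hj : j < b) : i * b + j < a * b := by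
  have : (i + 1) * b ≤ a * b := Nat.mul_le_mul_right _ hi
  rw [Nat.succ_mul] at this
  omega

theorem idx_div {b i j : ℕ} (hj : j < b) : (i * b + j) / b = i := by
  rw [Nat.add_comm, Nat.add_mul_div_right _ _ (by omega), Nat.div_eq_of_lt hj, Nat.zero_add]

theorem idx_mod {b i j : ℕ} (hj : j < b) : (i * b + j) % b = j := by
  rw [Nat.add_comm, Nat.add_mul_mod_self_right, Nat.mod_eq_of_lt hj]

theorem sum_range_mul {M : Type} [AddCommMonoid M] (f : ℕ → M) (a b : ℕ) :
    ∑ q ∈ range (a * b), f q = ∑ i ∈ range a, ∑ j ∈ range b, f (i * b + j) := by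
  induction a with
  | zero => simp
  | succ a ih => rw [Nat.succ_mul, sum_range_add, ih, sum_range_succ]

theorem getD_le_sum (L : List ℕ) (i : ℕ) : L.getD i 0 ≤ L.sum := by
  by_cases h : i < L.length
  · rw [List.getD_eq_getElem _ _ h]
    exact List.single_le_sum (fun _ _ => Nat.zero_le _) _ (List.getElem_mem h)
  · rw [List.getD_eq_default _ _ (by omega)]
    exact Nat.zero_le _

theorem sum_getD (L : List ℕ) : ∑ i ∈ range L.length, L.getD i 0 = L.sum := by
  induction L with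
  | nil => simp
  | cons a L ih => rw [List.length_cons, sum_range_succ', List.sum_cons, ← ih]; simp [Nat.add_comm]

theorem m_net0 : T.net0.m = T.e0 + 1 := es_length
theorem m_net1 : T.net1.m = T.e0 + 1 := es_length

theorem src_lt : ∀ e < T.e0 + 1, (T.es.getD e (0, 0)).1 < T.nr + T.nc + 2 := by
  refine edge_cases (fun q hq => ?_) (fun i hi => ?_) (fun j hj => ?_) ?_
  · rw [es1 hq]
    have : q / T.nc < T.nr := Nat.div_lt_of_lt_mul (by rwa [Nat.mul_comm])
    simp only
    omega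
  · rw [es2 hi]; simp only; omega
  · rw [es3 hj]; simp only; omega
  · rw [es4]; simp only; omega

theorem tgt_lt : ∀ e < T.e0 + 1, (T.es.getD e (0, 0)).2 < T.nr + T.nc + 2 := by
  refine edge_cases (fun q hq => ?_) (fun i hi => ?_) (fun j hj => ?_) ?_
  · rw [es1 hq]
    have : q % T.nc < T.nc := Nat.mod_lt _ (Nat.pos_of_ne_zero (by rintro h; simp [h] at hq))
    simp only
    omega
  · rw [es2 hi]; simp only; omega
  · rw [es3 hj]; simp only; omega
  · rw [es4]; simp only; omega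

theorem OK.up_lt (h : T.OK s) : ∀ e < T.e0 + 1, T.up.getD e 0 < 2 ^ s := by
  refine edge_cases (fun q hq => ?_) (fun i hi => ?_) (fun j hj => ?_) ?_
  · rw [up1 hq]
    have : T.bs.getD q 0 < 2 ^ s := by
      by_cases hq' : q < T.bs.length
      · rw [List.getD_eq_getElem _ _ hq']
        exact h.bs_lt _ (List.getElem_mem hq')
      · rw [List.getD_eq_default _ _ (by omega)]
        positivity
    exact_mod_cast this
  · rw [up2 hi]
    exact_mod_cast (getD_le_sum T.rs i).trans_lt h.rs_lt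
  · rw [up3 hj]
    exact_mod_cast (getD_le_sum T.cs j).trans_lt h.cs_lt
  · rw [up4]
    exact_mod_cast h.rs_lt

theorem low_nonneg (e : ℕ) : 0 ≤ T.low.getD e 0 := by
  unfold low
  rw [getD_cast]
  positivity

theorem up_nonneg (e : ℕ) : 0 ≤ T.up.getD e 0 := by
  unfold up
  rw [getD_cast]
  positivity

theorem OK.wf0 (h : T.OK s) : T.net0.WF s := by
  refine ⟨by simp [net0], fun e he => src_lt e (m_net0 ▸ he), fun e he => tgt_lt e (m_net0 ▸ he), fun e he => ?_⟩
  have := h.up_lt e (m_net0 ▸ he)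
  simpa [net0] using this

theorem OK.wf1 (h : T.OK s) : T.net1.WF s := by
  refine ⟨by simp [net1], fun e he => src_lt e (m_net1 ▸ he), fun e he => tgt_lt e (m_net1 ▸ he), fun e he => ?_⟩
  have h1 := h.up_lt e (m_net1 ▸ he)
  have h2 := low_nonneg (T := T) e
  change T.up.getD e 0 - T.low.getD e 0 < 2 ^ s
  omega

theorem OK.m_le (h : T.OK s) : T.net1.m + T.net1.n * T.net1.n ≤ s := by
  have := h.size
  rw [m_net1]
  change T.e0 + 1 + (T.nr + T.nc + 2) * (T.nr + T.nc + 2) ≤ s
  unfold e0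
  nlinarith [Nat.zero_le (T.nr * T.nc), Nat.zero_le (T.nr * T.nr), Nat.zero_le (T.nc * T.nc)]

theorem div_eq (Y : List ℤ) (v : ℕ) : T.net0.gr.div (T.net0.toF Y) v =
    ∑ i ∈ range T.nr, ∑ j ∈ range T.nc, ((if i = v then Y.getD (i * T.nc + j) 0 else 0) -
        (if T.nr + j = v then Y.getD (i * T.nc + j) 0 else 0)) +
      ∑ i ∈ range T.nr, ((if T.nr + T.nc = v then Y.getD (T.nr * T.nc + i) 0 else 0) -
        (if i = v then Y.getD (T.nr * T.nc + i) 0 else 0)) +
      ∑ j ∈ range T.nc, ((if T.nr + j = v then Y.getD (T.nr * T.nc + T.nr + j) 0 else 0) -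
        (if T.nr + T.nc + 1 = v then Y.getD (T.nr * T.nc + T.nr + j) 0 else 0)) +
      ((if T.nr + T.nc + 1 = v then Y.getD T.e0 0 else 0) - (if T.nr + T.nc = v then Y.getD T.e0 0 else 0)) := by
  have h1 : T.net0.gr.div (T.net0.toF Y) v = ∑ e ∈ range T.net0.m,
      ((if (T.es.getD e (0, 0)).1 = v then Y.getD e 0 else 0) -
        (if (T.es.getD e (0, 0)).2 = v then Y.getD e 0 else 0)) :=
    Fin.sum_univ_eq_sum_range (fun e => (if (T.es.getD e (0, 0)).1 = v then Y.getD e 0 else 0) -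
        (if (T.es.getD e (0, 0)).2 = v then Y.getD e 0 else 0)) T.net0.m
  rw [h1, m_net0, sum_range_succ, es4]
  congr 1
  unfold e0
  rw [sum_range_add, sum_range_add, sum_range_mul]
  congr 1
  · congr 1
    · refine sum_congr rfl fun i hi => sum_congr rfl fun j hj => ?_
      rw [es1 (idx_lt (mem_range.1 hi) (mem_range.1 hj)), idx_div (mem_range.1 hj), idx_mod (mem_range.1 hj)]
    · exact sum_congr rfl fun i hi => by rw [es2 (mem_range.1 hi)]
  · exact sum_congr rfl fun j hj => by rw [es3 (mem_range.1 hj)]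

theorem sum_ite_add {f : ℕ → ℤ} {a n v : ℕ} :
    ∑ j ∈ range n, (if a + j = v then f j else 0) = if a ≤ v ∧ v < a + n then f (v - a) else 0 := by
  split_ifs with h
  · rw [sum_eq_single (v - a)]
    · rw [if_pos (by omega)]
    · intro j _ hj
      rw [if_neg (by omega)]
    · intro hj
      rw [mem_range] at hj
      omega
  · refine sum_eq_zero fun j hj => ?_
    rw [mem_range] at hj
    rw [if_neg (by omega)]

theorem div_eq' (Y : List ℤ) (v : ℕ) : T.net0.gr.div (T.net0.toF Y) v =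
    (if v < T.nr then ∑ j ∈ range T.nc, Y.getD (v * T.nc + j) 0 - Y.getD (T.nr * T.nc + v) 0 else 0) +
      (if T.nr ≤ v ∧ v < T.nr + T.nc then Y.getD (T.nr * T.nc + T.nr + (v - T.nr)) 0 -
        ∑ i ∈ range T.nr, Y.getD (i * T.nc + (v - T.nr)) 0 else 0) +
      (if T.nr + T.nc = v then ∑ i ∈ range T.nr, Y.getD (T.nr * T.nc + i) 0 - Y.getD T.e0 0 else 0) +
      (if T.nr + T.nc + 1 = v then Y.getD T.e0 0 - ∑ j ∈ range T.nc, Y.getD (T.nr * T.nc + T.nr + j) 0 else 0) := by
  rw [div_eq]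
  simp only [sum_sub_distrib]
  have a1 : ∑ i ∈ range T.nr, ∑ j ∈ range T.nc, (if i = v then Y.getD (i * T.nc + j) 0 else 0) =
      if v < T.nr then ∑ j ∈ range T.nc, Y.getD (v * T.nc + j) 0 else 0 := by
    rw [sum_comm]
    simp only [sum_ite_eq', mem_range]
    split_ifs <;> simp
  have a2 : ∑ i ∈ range T.nr, ∑ j ∈ range T.nc, (if T.nr + j = v then Y.getD (i * T.nc + j) 0 else 0) =
      if T.nr ≤ v ∧ v < T.nr + T.nc then ∑ i ∈ range T.nr, Y.getD (i * T.nc + (v - T.nr)) 0 else 0 := by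
    have : ∀ i, ∑ j ∈ range T.nc, (if T.nr + j = v then Y.getD (i * T.nc + j) 0 else 0) =
        if T.nr ≤ v ∧ v < T.nr + T.nc then Y.getD (i * T.nc + (v - T.nr)) 0 else 0 := fun i =>
      sum_ite_add (f := fun j => Y.getD (i * T.nc + j) 0)
    simp only [this]
    split_ifs <;> simp
  have a3 : ∑ i ∈ range T.nr, (if T.nr + T.nc = v then Y.getD (T.nr * T.nc + i) 0 else 0) =
      if T.nr + T.nc = v then ∑ i ∈ range T.nr, Y.getD (T.nr * T.nc + i) 0 else 0 := by
    split_ifs <;> simp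
  have a4 : ∑ i ∈ range T.nr, (if i = v then Y.getD (T.nr * T.nc + i) 0 else 0) =
      if v < T.nr then Y.getD (T.nr * T.nc + v) 0 else 0 := by
    simp only [sum_ite_eq', mem_range]
  have a5 : ∑ j ∈ range T.nc, (if T.nr + j = v then Y.getD (T.nr * T.nc + T.nr + j) 0 else 0) =
      if T.nr ≤ v ∧ v < T.nr + T.nc then Y.getD (T.nr * T.nc + T.nr + (v - T.nr)) 0 else 0 :=
    sum_ite_add (f := fun j => Y.getD (T.nr * T.nc + T.nr + j) 0)
  have a6 : ∑ j ∈ range T.nc, (if T.nr + T.nc + 1 = v then Y.getD (T.nr * T.nc + T.nr + j) 0 else 0) =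
      if T.nr + T.nc + 1 = v then ∑ j ∈ range T.nc, Y.getD (T.nr * T.nc + T.nr + j) 0 else 0 := by
    split_ifs <;> simp
  rw [a1, a2, a3, a4, a5, a6]
  split_ifs <;> ring

theorem div_iff (Y : List ℤ) : T.net0.gr.div (T.net0.toF Y) = 0 ↔
    (∀ i < T.nr, ∑ j ∈ range T.nc, Y.getD (i * T.nc + j) 0 = Y.getD (T.nr * T.nc + i) 0) ∧
    (∀ j < T.nc, ∑ i ∈ range T.nr, Y.getD (i * T.nc + j) 0 = Y.getD (T.nr * T.nc + T.nr + j) 0) ∧
    ∑ i ∈ range T.nr, Y.getD (T.nr * T.nc + i) 0 = Y.getD T.e0 0 ∧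
    ∑ j ∈ range T.nc, Y.getD (T.nr * T.nc + T.nr + j) 0 = Y.getD T.e0 0 := by
  constructor
  · intro h
    have h' : ∀ v, T.net0.gr.div (T.net0.toF Y) v = 0 := fun v => congrFun h v
    refine ⟨fun i hi => ?_, fun j hj => ?_, ?_, ?_⟩
    · have := h' i
      rw [div_eq', if_pos hi, if_neg (by omega), if_neg (by omega), if_neg (by omega)] at this
      linarith
    · have := h' (T.nr + j)
      rw [div_eq', if_neg (by omega), if_pos (by omega), if_neg (by omega), if_neg (by omega),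
        Nat.add_sub_cancel_left] at this
      linarith
    · have := h' (T.nr + T.nc)
      rw [div_eq', if_neg (by omega), if_neg (by omega), if_pos rfl, if_neg (by omega)] at this
      linarith
    · have := h' (T.nr + T.nc + 1)
      rw [div_eq', if_neg (by omega), if_neg (by omega), if_neg (by omega), if_pos rfl] at this
      linarith
  · rintro ⟨h1, h2, h3, h4⟩
    funext v
    rw [div_eq', h3, h4, sub_self, ite_self, ite_self]
    have b1 : (if v < T.nr then ∑ j ∈ range T.nc, Y.getD (v * T.nc + j) 0 - Y.getD (T.nr * T.nc + v) 0 else 0) = 0 := by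
      split_ifs with hv
      · rw [h1 v hv, sub_self]
      · rfl
    have b2 : (if T.nr ≤ v ∧ v < T.nr + T.nc then Y.getD (T.nr * T.nc + T.nr + (v - T.nr)) 0 -
        ∑ i ∈ range T.nr, Y.getD (i * T.nc + (v - T.nr)) 0 else 0) = 0 := by
      split_ifs with hv
      · rw [h2 (v - T.nr) (by omega), sub_self]
      · rfl
    rw [b1, b2]
    rfl

theorem feas0_iff {Y : List ℤ} : T.net0.Feas Y ↔ Y.length = T.e0 + 1 ∧ T.net0.gr.div (T.net0.toF Y) = 0 ∧
    ∀ e < T.e0 + 1, 0 ≤ Y.getD e 0 ∧ Y.getD e 0 ≤ T.up.getD e 0 := by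
  rw [← m_net0]
  rfl

theorem feas1_iff {Y : List ℤ} : T.net1.Feas Y ↔ Y.length = T.e0 + 1 ∧ T.net0.gr.div (T.net0.toF Y) = 0 ∧
    ∀ e < T.e0 + 1, T.low.getD e 0 ≤ Y.getD e 0 ∧ Y.getD e 0 ≤ T.up.getD e 0 := by
  rw [← m_net1]
  rfl

theorem getD_replicate_zero (k e : ℕ) : (List.replicate k (0 : ℤ)).getD e 0 = 0 := by
  simp only [List.getD_eq_getElem?_getD, List.getElem?_replicate]
  split_ifs <;> rfl

theorem feas0_zero : T.net0.Feas (List.replicate T.net0.m 0) := by
  rw [feas0_iff]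
  refine ⟨by rw [List.length_replicate, m_net0], ?_, fun e _ => ?_⟩
  · rw [div_iff]
    simp only [getD_replicate_zero, sum_const_zero, implies_true, and_self]
  · rw [getD_replicate_zero]
    exact ⟨le_rfl, up_nonneg e⟩

theorem feas0_le {Y : List ℤ} (h : T.net0.Feas Y) : Y.getD T.e0 0 ≤ T.rs.sum := by
  have := ((feas0_iff.1 h).2.2 T.e0 (by omega)).2
  rwa [up4] at this

theorem feas0_of_feas1 {Y : List ℤ} (h : T.net1.Feas Y) : T.net0.Feas Y ∧ Y.getD T.e0 0 = T.rs.sum := by
  obtain ⟨h1, h2, h3⟩ := feas1_iff.1 h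
  refine ⟨feas0_iff.2 ⟨h1, h2, fun e he => ⟨(low_nonneg e).trans (h3 e he).1, (h3 e he).2⟩⟩, ?_⟩
  have := h3 T.e0 (by omega)
  rw [up4, low4] at this
  exact le_antisymm this.2 this.1

theorem feas1_of_feas0 {Y : List ℤ} (h : T.net0.Feas Y) (hs : T.rs.sum = T.cs.sum)
    (he : Y.getD T.e0 0 = T.rs.sum) : T.net1.Feas Y := by
  obtain ⟨h1, h2, h3⟩ := feas0_iff.1 h
  obtain ⟨-, -, d3, d4⟩ := (div_iff Y).1 h2
  have hr : ∀ i ∈ range T.nr, Y.getD (T.nr * T.nc + i) 0 = (T.rs.getD i 0 : ℕ) := by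
    rw [← sum_eq_sum_iff_of_le]
    · rw [d3, he, ← sum_getD T.rs]
      push_cast
      rfl
    · intro i hi
      rw [mem_range] at hi
      rw [← up2 hi]
      exact (h3 _ (by unfold e0; omega)).2
  have hc : ∀ j ∈ range T.nc, Y.getD (T.nr * T.nc + T.nr + j) 0 = (T.cs.getD j 0 : ℕ) := by
    rw [← sum_eq_sum_iff_of_le]
    · rw [d4, he, hs, ← sum_getD T.cs]
      push_cast
      rfl
    · intro j hj
      rw [mem_range] at hj
      rw [← up3 hj]
      exact (h3 _ (by unfold e0; omega)).2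
  refine feas1_iff.2 ⟨h1, h2, fun e he' => ⟨?_, (h3 e he').2⟩⟩
  refine edge_cases (P := fun e => T.low.getD e 0 ≤ Y.getD e 0) (fun q hq => ?_) (fun i hi => ?_) (fun j hj => ?_) ?_ e he'
  · rw [low1 hq]
    exact (h3 q (by unfold e0; omega)).1
  · rw [low2 hi, hr i (mem_range.2 hi)]
  · rw [low3 hj, hc j (mem_range.2 hj)]
  · rw [low4, he]

theorem IsTab.sum_eq {y : List ℕ} (h : T.IsTab y) : T.rs.sum = T.cs.sum := by
  obtain ⟨-, -, h1, h2⟩ := h
  rw [← sum_getD T.rs, ← sum_getD T.cs, ← sum_congr rfl fun i hi => h1 i (mem_range.1 hi),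
    ← sum_congr rfl fun j hj => h2 j (mem_range.1 hj), sum_comm]

theorem getD_cells (Y : List ℤ) {q : ℕ} (hq : q < T.nr * T.nc) : (T.cells Y).getD q 0 = (Y.getD q 0).toNat :=
  getD_map_range _ _ _ _ hq

/-- the values of a feasible circulation of `net1` -/
theorem feas1_val {Y : List ℤ} (h : T.net1.Feas Y) :
    (∀ q < T.nr * T.nc, Y.getD q 0 = ((T.cells Y).getD q 0 : ℕ) ∧ (T.cells Y).getD q 0 ≤ T.bs.getD q 0) ∧
    (∀ i < T.nr, Y.getD (T.nr * T.nc + i) 0 = (T.rs.getD i 0 : ℕ)) ∧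
    (∀ j < T.nc, Y.getD (T.nr * T.nc + T.nr + j) 0 = (T.cs.getD j 0 : ℕ)) ∧ Y.getD T.e0 0 = (T.rs.sum : ℕ) := by
  obtain ⟨-, -, h3⟩ := feas1_iff.1 h
  refine ⟨fun q hq => ?_, fun i hi => ?_, fun j hj => ?_, (feas0_of_feas1 h).2⟩
  · have := h3 q (by unfold e0; omega)
    rw [low1 hq, up1 hq] at this
    rw [getD_cells Y hq]
    omega
  · have := h3 (T.nr * T.nc + i) (by unfold e0; omega)
    rw [low2 hi, up2 hi] at this
    omega
  · have := h3 (T.nr * T.nc + T.nr + j) (by unfold e0; omega)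
    rw [low3 hj, up3 hj] at this
    omega

theorem cells_bij : Set.BijOn T.cells {Y | T.net1.Feas Y} {y | T.IsTab y} := by
  refine ⟨fun Y hY => ?_, fun Y hY Y' hY' h => ?_, fun y hy => ?_⟩
  · obtain ⟨v1, v2, v3, -⟩ := feas1_val hY
    obtain ⟨d1, d2, -, -⟩ := (div_iff Y).1 (feas1_iff.1 hY).2.1
    refine ⟨by simp [cells], fun e he => (v1 e he).2, fun i hi => ?_, fun j hj => ?_⟩
    · have := d1 i hi
      rw [v2 i hi, sum_congr rfl fun j hj => (v1 _ (idx_lt hi (mem_range.1 hj))).1] at this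
      exact_mod_cast this
    · have := d2 j hj
      rw [v3 j hj, sum_congr rfl fun i hi => (v1 _ (idx_lt (mem_range.1 hi) hj)).1] at this
      exact_mod_cast this
  · obtain ⟨v1, v2, v3, v4⟩ := feas1_val hY
    obtain ⟨w1, w2, w3, w4⟩ := feas1_val hY'
    have l1 := (feas1_iff.1 hY).1
    have l2 := (feas1_iff.1 hY').1
    have : ∀ e < T.e0 + 1, Y.getD e 0 = Y'.getD e 0 := by
      refine edge_cases (fun q hq => ?_) (fun i hi => ?_) (fun j hj => ?_) ?_
      · rw [(v1 q hq).1, (w1 q hq).1, h]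
      · rw [v2 i hi, w2 i hi]
      · rw [v3 j hj, w3 j hj]
      · rw [v4, w4]
    refine List.ext_getElem (l1.trans l2.symm) fun e h1 h2 => ?_
    have := this e (l1 ▸ h1)
    rwa [List.getD_eq_getElem _ _ h1, List.getD_eq_getElem _ _ h2] at this
  · have hs := IsTab.sum_eq hy
    obtain ⟨y1, y2, y3, y4⟩ := hy
    set Y : List ℤ := (y ++ T.rs ++ T.cs ++ [T.rs.sum]).map fun x : ℕ => (x : ℤ) with hY
    obtain ⟨g1, g2, g3, g4⟩ := getD4 y T.rs T.cs T.rs.sum 0
    rw [y1] at g1 g2 g3 g4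
    have v1 : ∀ q < T.nr * T.nc, Y.getD q 0 = (y.getD q 0 : ℕ) := fun q hq => by rw [hY, getD_cast, g1 q hq]
    have v2 : ∀ i < T.nr, Y.getD (T.nr * T.nc + i) 0 = (T.rs.getD i 0 : ℕ) := fun i hi => by
      rw [hY, getD_cast, g2 i hi]
    have v3 : ∀ j < T.nc, Y.getD (T.nr * T.nc + T.nr + j) 0 = (T.cs.getD j 0 : ℕ) := fun j hj => by
      rw [hY, getD_cast, g3 j hj]
    have v4 : Y.getD T.e0 0 = (T.rs.sum : ℕ) := by
      rw [hY, getD_cast]
      unfold e0
      rw [g4]
    refine ⟨Y, feas1_iff.2 ⟨by simp [hY, y1, e0, nr, nc]; omega, (div_iff Y).2 ⟨fun i hi => ?_, fun j hj => ?_, ?_, ?_⟩, ?_⟩, ?_⟩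
    · rw [v2 i hi, sum_congr rfl fun j hj => v1 _ (idx_lt hi (mem_range.1 hj)), ← y3 i hi]
      push_cast
      rfl
    · rw [v3 j hj, sum_congr rfl fun i hi => v1 _ (idx_lt (mem_range.1 hi) hj), ← y4 j hj]
      push_cast
      rfl
    · rw [v4, sum_congr rfl fun i hi => v2 i (mem_range.1 hi), ← sum_getD T.rs]
      push_cast
      rfl
    · rw [v4, sum_congr rfl fun j hj => v3 j (mem_range.1 hj), hs, ← sum_getD T.cs]
      push_cast
      rfl
    · refine edge_cases (fun q hq => ?_) (fun i hi => ?_) (fun j hj => ?_) ?_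
      · rw [low1 hq, up1 hq, v1 q hq]
        exact ⟨by positivity, by exact_mod_cast y2 q hq⟩
      · rw [low2 hi, up2 hi, v2 i hi]
        exact ⟨le_rfl, le_rfl⟩
      · rw [low3 hj, up3 hj, v3 j hj]
        exact ⟨le_rfl, le_rfl⟩
      · rw [low4, up4, v4]
        exact ⟨le_rfl, le_rfl⟩
    · refine List.ext_getElem (by simp [cells, y1]) fun e h1 h2 => ?_
      have he : e < T.nr * T.nc := y1 ▸ h2
      rw [← List.getD_eq_getElem _ 0 h1, ← List.getD_eq_getElem _ 0 h2, getD_cells Y he, v1 e he, Int.toNat_natCast]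

theorem mem_tabs {y : List ℕ} : y ∈ T.tabs ↔ T.IsTab y := by
  classical
  unfold tabs
  rw [mem_filter]
  refine ⟨fun h => h.2, fun h => ⟨?_, h⟩⟩
  rw [mem_image]
  refine ⟨fun e => y.getD e 0, ?_, ?_⟩
  · rw [Fintype.mem_piFinset]
    intro e
    rw [mem_range, Nat.lt_succ_iff]
    exact h.2.1 e e.2
  · refine List.ext_getElem (by simp [h.1]) fun e h1 h2 => ?_
    rw [List.getElem_ofFn, List.getD_eq_getElem _ _ h2]

end Tab

open Crest.Tables

variable {m n : ℕ}

theorem flat_succ (X : Fin (m + 1) → Fin n → ℕ) :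
    flat X = List.ofFn (X 0) ++ flat fun i : Fin m => X i.succ := by
  simp [flat, List.ofFn_succ]

theorem length_flat (X : Fin m → Fin n → ℕ) : (flat X).length = m * n := by
  induction m with
  | zero => simp [flat]
  | succ m ih => rw [flat_succ, List.length_append, ih, List.length_ofFn]; ring

theorem getD_flat (X : Fin m → Fin n → ℕ) (i : Fin m) (j : Fin n) : (flat X).getD (i * n + j) 0 = X i j := by
  induction m with
  | zero => exact i.elim0
  | succ m ih =>
    rw [flat_succ]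
    refine Fin.cases ?_ (fun i => ?_) i
    · rw [Fin.val_zero, Nat.zero_mul, Nat.zero_add, List.getD_append _ _ _ _ (by simp),
        List.getD_eq_getElem _ _ (by simp)]
      simp
    · rw [List.getD_append_right _ _ _ _ (by simp [Nat.succ_mul]; omega), List.length_ofFn, Fin.val_succ,
        show (i + 1) * n + j - n = i * n + j by rw [Nat.succ_mul]; omega]
      exact ih (fun i : Fin m => X i.succ) i

theorem flat_injective : Function.Injective (flat : (Fin m → Fin n → ℕ) → List ℕ) := by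
  intro X Y h
  funext i j
  rw [← getD_flat X, ← getD_flat Y, h]

theorem getD_ofFn (r : Fin m → ℕ) (i : Fin m) : (List.ofFn r).getD i 0 = r i := by
  rw [List.getD_eq_getElem _ _ (by simp)]
  simp

theorem exists_idx {e : ℕ} (he : e < m * n) : ∃ (i : Fin m) (j : Fin n), e = i * n + j := by
  have hn : 0 < n := Nat.pos_of_ne_zero (by rintro rfl; simp at he)
  refine ⟨⟨e / n, Nat.div_lt_of_lt_mul (by rwa [Nat.mul_comm])⟩, ⟨e % n, Nat.mod_lt _ hn⟩, ?_⟩
  exact (Nat.div_add_mod' e n).symm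

theorem isTab_iff (rs : Fin m → ℕ) (cs : Fin n → ℕ) (b : Fin m → Fin n → ℕ) (y : List ℕ) :
    (Tab.mk (List.ofFn rs) (List.ofFn cs) (flat b)).IsTab y ↔
      ∃ X : Fin m → Fin n → ℕ, IsTable rs cs X ∧ (∀ i j, X i j ≤ b i j) ∧ y = flat X := by
  unfold Tab.IsTab Tab.nr Tab.nc
  simp only [List.length_ofFn]
  constructor
  · rintro ⟨h1, h2, h3, h4⟩
    refine ⟨fun i j => y.getD (i * n + j) 0, ⟨fun i => ?_, fun j => ?_⟩, fun i j => ?_, ?_⟩
    · rw [← getD_ofFn rs i, ← h3 i i.2]
      exact Fin.sum_univ_eq_sum_range (fun j => y.getD (i * n + j) 0) n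
    · rw [← getD_ofFn cs j, ← h4 j j.2]
      exact Fin.sum_univ_eq_sum_range (fun i => y.getD (i * n + j) 0) m
    · rw [← getD_flat b]
      exact h2 _ (Tab.idx_lt i.2 j.2)
    · refine List.ext_getElem (by rw [h1, length_flat]) fun e e1 e2 => ?_
      obtain ⟨i, j, rfl⟩ := exists_idx (h1 ▸ e1)
      rw [← List.getD_eq_getElem _ 0 e1, ← List.getD_eq_getElem _ 0 e2, getD_flat]
  · rintro ⟨X, ⟨h1, h2⟩, h3, rfl⟩
    refine ⟨length_flat X, fun e he => ?_, fun i hi => ?_, fun j hj => ?_⟩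
    · obtain ⟨i, j, rfl⟩ := exists_idx he
      rw [getD_flat, getD_flat]
      exact h3 i j
    · rw [← Fin.sum_univ_eq_sum_range (fun j => (flat X).getD (i * n + j) 0) n, getD_ofFn rs ⟨i, hi⟩, ← h1 ⟨i, hi⟩]
      exact sum_congr rfl fun j _ => getD_flat X ⟨i, hi⟩ j
    · rw [← Fin.sum_univ_eq_sum_range (fun i => (flat X).getD (i * n + j) 0) m, getD_ofFn cs ⟨j, hj⟩, ← h2 ⟨j, hj⟩]
      exact sum_congr rfl fun i _ => getD_flat X i ⟨j, hj⟩

theorem card_tabs (rs : Fin m → ℕ) (cs : Fin n → ℕ) (b : Fin m → Fin n → ℕ) :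
    (Tab.mk (List.ofFn rs) (List.ofFn cs) (flat b)).tabs.card = numBoundedTables rs cs b := by
  classical
  unfold numBoundedTables
  rw [← card_univ]
  symm
  refine card_bij (fun X _ => flat fun i j => (X.1 i j : ℕ)) (fun X _ => ?_) (fun X _ Y _ h => ?_) (fun y hy => ?_)
  · rw [Tab.mem_tabs, isTab_iff]
    exact ⟨_, X.2, fun i j => Nat.lt_succ_iff.1 (X.1 i j).2, rfl⟩
  · have := flat_injective h
    refine Subtype.ext (funext fun i => funext fun j => Fin.ext ?_)
    exact congrFun (congrFun this i) j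
  · rw [Tab.mem_tabs, isTab_iff] at hy
    obtain ⟨X, h1, h2, rfl⟩ := hy
    exact ⟨⟨fun i j => ⟨X i j, Nat.lt_succ_iff.2 (h2 i j)⟩, h1⟩, mem_univ _, rfl⟩

theorem flat_const (c : ℕ) : flat (fun (_ : Fin m) (_ : Fin n) => c) = List.replicate (m * n) c := by
  induction m with
  | zero => simp [flat]
  | succ m ih => rw [flat_succ, ih, List.ofFn_const, ← List.replicate_add, Nat.succ_mul, Nat.add_comm]

theorem IsTable.le_sum {rs : Fin m → ℕ} {cs : Fin n → ℕ} {X : Fin m → Fin n → ℕ} (h : IsTable rs cs X)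
    (i : Fin m) (j : Fin n) : X i j ≤ ∑ i, rs i :=
  calc X i j ≤ ∑ j, X i j := single_le_sum (f := fun j => X i j) (fun _ _ => Nat.zero_le _) (mem_univ j)
    _ = rs i := h.1 i
    _ ≤ ∑ i, rs i := single_le_sum (fun _ _ => Nat.zero_le _) (mem_univ i)

theorem sum_update_pred {k : ℕ} (r : Fin k → ℕ) (i : Fin k) (h : r i ≠ 0) :
    ∑ a, Function.update r i (r i - 1) a + 1 = ∑ a, r a := by
  rw [sum_update_of_mem (mem_univ i), ← add_sum_erase _ _ (mem_univ i), sdiff_singleton_eq_erase]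
  omega

/-- unbounded tables exist (north-west corner rule; induction on the total) -/
theorem exists_table (rs : Fin m → ℕ) (cs : Fin n → ℕ) (h : ∑ i, rs i = ∑ j, cs j) :
    ∃ X : Fin m → Fin n → ℕ, IsTable rs cs X := by
  induction hN : ∑ i, rs i generalizing rs cs with
  | zero =>
    refine ⟨fun _ _ => 0, fun i => ?_, fun j => ?_⟩
    · rw [sum_const_zero, (sum_eq_zero_iff.1 hN) i (mem_univ i)]
    · rw [sum_const_zero, (sum_eq_zero_iff.1 (h.symm.trans hN)) j (mem_univ j)]
  | succ N ih =>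
    obtain ⟨i, -, hi⟩ := exists_ne_zero_of_sum_ne_zero (s := univ) (f := rs) (by omega)
    obtain ⟨j, -, hj⟩ := exists_ne_zero_of_sum_ne_zero (s := univ) (f := cs) (by omega)
    have h1 := sum_update_pred rs i hi
    have h2 := sum_update_pred cs j hj
    obtain ⟨X, hX1, hX2⟩ := ih (Function.update rs i (rs i - 1)) (Function.update cs j (cs j - 1)) (by omega) (by omega)
    refine ⟨fun a b => X a b + if a = i ∧ b = j then 1 else 0, fun a => ?_, fun b => ?_⟩
    · rw [sum_add_distrib, hX1]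
      by_cases ha : a = i
      · subst ha
        simp
        omega
      · simp [ha]
    · rw [sum_add_distrib, hX2]
      by_cases hb : b = j
      · subst hb
        simp
        omega
      · simp [hb]

theorem boundsCode_eq (b : Fin m → Fin n → ℕ) : boundsCode b = ((flat b).map Crest.Enc.natCode).flatten := by
  unfold boundsCode
  induction m with
  | zero => simp [flat]
  | succ m ih =>
    rw [flat_succ, List.map_append, List.flatten_append, ← ih, List.ofFn_succ, List.flatten_cons]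

theorem matrixCode_eq (X : Fin m → Fin n → ℕ) :
    matrixCode X = Crest.Enc.natCode m ++ Crest.Enc.natCode n ++ ((flat X).map Crest.Enc.natCode).flatten := by
  rw [← boundsCode_eq]
  rfl

end Crest.Agent.R309
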