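import Crest.Agent.R309.PTPrep
import Crest.Agent.R309.TabNet
import Crest.Agent.R309.MkInst
import Crest.Agent.R309.MaxCen
import Crest.Agent.R309.Anneal

/-!
# Row 309: Core
The two machines on tables.
-/

set_option autoImplicit false

noncomputable section

namespace Crest.Agent.R309

open Finset Crest.Agent.Lib.PolyTime

namespace Tab

variable {T : Tab} {s k : ℕ}

theorem OK.X0_spec (h : T.OK s) :
    T.net0.Feas (T.X0 s) ∧ ∀ X', T.net0.Feas X' → X'.getD T.e0 0 ≤ (T.X0 s).getD T.e0 0 :=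
  Net.maxflow_spec h.wf0 (by rw [m_net0]; omega) feas0_zero

theorem OK.X0_feas1 (h : T.OK s) (hf : T.feas s = true) : T.net1.Feas (T.X0 s) := by
  simp only [feas, Bool.and_eq_true, beq_iff_eq] at hf
  exact feas1_of_feas0 h.X0_spec.1 hf.1 hf.2

theorem OK.feas_iff (h : T.OK s) : T.feas s = true ↔ T.tabs.Nonempty := by
  constructor
  · intro hf
    exact ⟨_, mem_tabs.mpr (cells_bij.mapsTo (h.X0_feas1 hf))⟩
  · rintro ⟨y, hy⟩
    have hy := mem_tabs.mp hy
    obtain ⟨Y, hY, -⟩ := cells_bij.surjOn (show y ∈ {y | T.IsTab y} from hy)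
    obtain ⟨h0, he⟩ := feas0_of_feas1 hY
    have h1 := h.X0_spec.2 Y h0
    have h2 := feas0_le h.X0_spec.1
    simp only [feas, Bool.and_eq_true, beq_iff_eq]
    exact ⟨hy.sum_eq, by omega⟩

theorem OK.valid (h : T.OK s) (hk : k ≤ 2 ^ s) (hf : T.feas s = true) :
    (∃ rt P, (T.inst s).Valid s k rt P) ∧
      Set.BijOn (fun D : Fin (T.inst s).m → ℤ => T.dec s (List.ofFn D)) {D | D ∈ (T.inst s).GS}
        {y | y ∈ T.tabs} := by
  obtain ⟨h1, h2⟩ := Net.center_spec h.wf1 (h.X0_feas1 hf)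
  refine ⟨Net.mkInst_valid h.wf1 h.s_ge hk le_rfl h.m_le h1 h2, ?_⟩
  have h3 := (cells_bij (T := T)).comp (Net.mkInst_bij (s := s) h.wf1 h1)
  have e : {y | y ∈ T.tabs} = {y | T.IsTab y} := Set.ext fun y => mem_tabs
  rw [e]
  exact h3

theorem OK.card_eq (h : T.OK s) (hf : T.feas s = true) : T.tabs.card = (T.inst s).GS.card := by
  obtain ⟨-, hb⟩ := h.valid (k := 0) (Nat.zero_le _) hf
  symm
  exact Finset.card_bij (fun D _ => T.dec s (List.ofFn D)) (fun D hD => hb.mapsTo hD)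
    (fun D hD D' hD' e => hb.injOn hD hD' e) fun y hy => by
      obtain ⟨D, hD, e⟩ := hb.surjOn hy
      exact ⟨D, hD, e⟩

end Tab

section Poly

variable {α : Type} [Enc α] {a : α → In}

theorem in_s (ha : PT a) : PT fun p => (a p).1.length := by fun_prop
theorem in_s' (ha : PT a) : PB fun p => (a p).1.length := by fun_prop
theorem in_k (ha : PT a) : PT fun p => (a p).2.1.length := by fun_prop
theorem in_k' (ha : PT a) : PB fun p => (a p).2.1.length := by fun_prop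
theorem in_T (ha : PT a) : PT fun p => (a p).2.2 := by fun_prop
theorem in_inst (ha : PT a) : PT fun p => (a p).2.2.inst (a p).1.length :=
  pt_inst (in_s ha) (in_s' ha) (in_T ha)

end Poly

theorem mS_poly : mS.Poly where
  ini := pt_ini (in_s PT.id') (in_s' PT.id') (in_inst PT.id') (pb_inst_n (in_T PT.id'))
  step := pt_step (in_s PT.fst') (in_s' PT.fst') (in_k PT.fst') (in_inst PT.fst') (pb_inst_n (in_T PT.fst'))
    (by fun_prop) (by fun_prop) (by fun_prop)
  out := pt_dec (in_s PT.fst') (in_s' PT.fst') (in_T PT.fst') (pt_outZ (in_inst PT.fst') PT.snd')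
  T := pt_pT (in_s PT.id') (in_s' PT.id') (in_k PT.id')
  T' := pb_pT (in_s' PT.id') (in_k' PT.id')
  r := pt_pr (in_s PT.id')
  r' := pb_pr (in_s' PT.id')
  B := pt_pB (in_s PT.id')
  B' := pb_pB (in_s' PT.id')
  ini_le _ := esize_cap_le _ _
  step_le _ _ _ _ := esize_cap_le _ _

theorem mC_poly : mC.Poly where
  ini := mS_poly.ini
  step := mS_poly.step
  out := PT.ite (pt_feas (in_s PT.fst') (in_s' PT.fst') (in_T PT.fst')).eq_true
    ((pt_num PT.snd').rat_natCast.rat_div (pt_den PT.snd').rat_natCast) (PT.const _)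
  T := mS_poly.T
  T' := mS_poly.T'
  r := mS_poly.r
  r' := mS_poly.r'
  B := mS_poly.B
  B' := mS_poly.B'
  ini_le := mS_poly.ini_le
  step_le := mS_poly.step_le

variable {a : In}

theorem mS_run (a : In) (us : List ℕ) : mS.run a us = a.2.2.dec a.1.length ((a.2.2.inst a.1.length).outZ
    ((a.2.2.inst a.1.length).fin a.1.length a.2.1.length us)) := rfl

theorem mC_run (a : In) (us : List ℕ) : mC.run a us = if a.2.2.feas a.1.length = true then
    (((a.2.2.inst a.1.length).fin a.1.length a.2.1.length us).num : ℚ) /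
      ((a.2.2.inst a.1.length).fin a.1.length a.2.1.length us).den else 0 := rfl

theorem card_tabs_le (h : a.2.2.OK a.1.length) : a.2.2.tabs.card ≤ 2 ^ (5 * a.1.length ^ 2) := by
  rcases a.2.2.tabs.eq_empty_or_nonempty with h0 | h0
  · simp [h0]
  have hf := h.feas_iff.mpr h0
  obtain ⟨⟨rt, P, hV⟩, -⟩ := h.valid (k := 0) (Nat.zero_le _) hf
  rw [h.card_eq hf]
  have h1 := hV.card_GS
  have h2 : Real.exp (3 * (a.1.length : ℝ) ^ 2) ≤ 2 ^ (5 * a.1.length ^ 2) := by
    have e : Real.exp 3 ≤ 2 ^ 5 := by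
      have := Real.exp_one_lt_d9
      have h3 : Real.exp 3 = Real.exp 1 ^ 3 := by rw [← Real.exp_nat_mul]; norm_num
      rw [h3]
      have h4 : Real.exp 1 ^ 3 ≤ 3 ^ 3 := by gcongr; linarith
      linarith
    calc Real.exp (3 * (a.1.length : ℝ) ^ 2) = Real.exp 3 ^ (a.1.length ^ 2) := by
          rw [← Real.exp_nat_mul]; push_cast; ring_nf
      _ ≤ (2 ^ 5) ^ (a.1.length ^ 2) := by gcongr
      _ = _ := by rw [← pow_mul]
  exact_mod_cast h1.trans h2

theorem mS_mem (h : a.2.2.OK a.1.length) (hk : a.2.1.length ≤ 2 ^ a.1.length) (hne : a.2.2.tabs.Nonempty)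
    {us : List ℕ} (hus : us.length = mS.T a) : mS.run a us ∈ a.2.2.tabs := by
  obtain ⟨⟨rt, P, hV⟩, hb⟩ := h.valid hk (h.feas_iff.mpr hne)
  obtain ⟨D, hD, e⟩ := hV.anneal_mem hus
  rw [mS_run, e]
  exact hb.mapsTo hD

theorem mS_law (h : a.2.2.OK a.1.length) (hk : a.2.1.length ≤ 2 ^ a.1.length) {y : List ℕ}
    (hy : y ∈ a.2.2.tabs) :
    avgL (2 ^ mS.r a) (mS.T a) (fun us => ind (mS.run a us = y)) ≤
      (1 + 2⁻¹ ^ a.2.1.length) / a.2.2.tabs.card := by
  have hf := h.feas_iff.mpr ⟨y, hy⟩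
  obtain ⟨⟨rt, P, hV⟩, hb⟩ := h.valid hk hf
  obtain ⟨D, hD, rfl⟩ := hb.surjOn hy
  rw [h.card_eq hf]
  refine le_trans (avgL_mono fun us hus => ind_mono fun e => ?_) (hV.anneal_law hD)
  obtain ⟨D', hD', e'⟩ := hV.anneal_mem hus.1
  rw [mS_run, e'] at e
  rw [e', hb.injOn hD' hD e]

theorem mC_nonneg (a : In) (us : List ℕ) : 0 ≤ mC.run a us := by
  rw [mC_run]; split_ifs
  · positivity
  · exact le_rfl

theorem mC_zero (h : a.2.2.OK a.1.length) (h0 : a.2.2.tabs.card = 0) (us : List ℕ) : mC.run a us = 0 := by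
  rw [mC_run, if_neg]
  intro hf
  exact (h.feas_iff.mp hf).card_pos.ne' h0

theorem mC_law (h : a.2.2.OK a.1.length) (hk : a.2.1.length ≤ 2 ^ a.1.length) :
    1 - (2⁻¹ : ℝ) ^ a.2.1.length ≤ avgL (2 ^ mC.r a) (mC.T a) fun us =>
      ind ((1 - 1 / (a.1.length : ℚ)) * a.2.2.tabs.card ≤ mC.run a us ∧
        mC.run a us ≤ (1 + 1 / (a.1.length : ℚ)) * a.2.2.tabs.card) := by
  have hN : 0 < 2 ^ mC.r a := by positivity
  rcases a.2.2.tabs.eq_empty_or_nonempty with h0 | h0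
  · have h1 : a.2.2.tabs.card = 0 := by simp [h0]
    rw [avgL_congr (g := fun _ => 1) fun us _ => ind_of (by simp [mC_zero h h1, h1]), avgL_const hN]
    have : (0 : ℝ) ≤ 2⁻¹ ^ a.2.1.length := by positivity
    linarith
  have hf := h.feas_iff.mpr h0
  obtain ⟨⟨rt, P, hV⟩, -⟩ := h.valid hk hf
  have h1 := hV.anneal_count
  rw [← h.card_eq hf] at h1
  set F := (a.2.2.inst a.1.length).fin a.1.length a.2.1.length with hF
  have h2 : avgL (2 ^ mC.r a) (mC.T a) (fun us => 1 + (-1) * ind (¬ (0 < (F us).den ∧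
      (1 - 1 / (a.1.length : ℝ)) * a.2.2.tabs.card * (F us).den ≤ (F us).num ∧
      (F us).num ≤ (1 + 1 / (a.1.length : ℝ)) * a.2.2.tabs.card * (F us).den))) ≤
      avgL (2 ^ mC.r a) (mC.T a) fun us =>
      ind ((1 - 1 / (a.1.length : ℚ)) * a.2.2.tabs.card ≤ mC.run a us ∧
        mC.run a us ≤ (1 + 1 / (a.1.length : ℚ)) * a.2.2.tabs.card) := by
    refine avgL_mono fun us _ => ?_
    rw [ind_not]
    have : ind (0 < (F us).den ∧
      (1 - 1 / (a.1.length : ℝ)) * a.2.2.tabs.card * (F us).den ≤ (F us).num ∧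
      (F us).num ≤ (1 + 1 / (a.1.length : ℝ)) * a.2.2.tabs.card * (F us).den) ≤
      ind ((1 - 1 / (a.1.length : ℚ)) * a.2.2.tabs.card ≤ mC.run a us ∧
        mC.run a us ≤ (1 + 1 / (a.1.length : ℚ)) * a.2.2.tabs.card) := by
      refine ind_mono fun ⟨h3, h4, h5⟩ => ?_
      rw [mC_run, if_pos hf, ← hF]
      have h6 : (0 : ℚ) < (F us).den := by exact_mod_cast h3
      rw [le_div_iff₀ h6, div_le_iff₀ h6]
      constructor
      · rw [← Rat.cast_le (K := ℝ)]; push_cast; exact h4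
      · rw [← Rat.cast_le (K := ℝ)]; push_cast; exact h5
    linarith
  rw [avgL_add, avgL_const hN, avgL_mul_left] at h2
  have h3 : avgL (2 ^ mC.r a) (mC.T a) (fun us => ind (¬ (0 < (F us).den ∧
      (1 - 1 / (a.1.length : ℝ)) * a.2.2.tabs.card * (F us).den ≤ (F us).num ∧
      (F us).num ≤ (1 + 1 / (a.1.length : ℝ)) * a.2.2.tabs.card * (F us).den))) ≤ 2⁻¹ ^ a.2.1.length := h1
  linarith

end Crest.Agent.R309
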