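import Mathlib

/-!
# Row 309 (contingency tables): definitions, theory part

Integer flows `X : E → ℤ` on a directed multigraph with log-concave cell weights `a e : ℤ → ℝ`.
Blueprint (details in the headers of the files):
* `Flow`  : divergence, the walk lemma, rounding of the centre, the cut lemma.
* `TT`    : fibres `a^S(t) = a(t) a(S-t)`; `Z(P) Z(P') ≤ Z(Q) Z(Q')` (tensor trick); load bounds.
* `WP/TI` : weighted Poincaré inequality and transport inequality for the worm chain.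
* `Smooth`: weak Poincaré inequality for the multiscale chain `St.T`;  `Mix`: its mixing.
-/

set_option autoImplicit false

noncomputable section

namespace Crest.Agent.R309

open Finset

/-- A directed multigraph. -/
structure Gr (E V : Type) where
  src : E → V
  tgt : E → V

section Flows

variable {E V : Type} [Fintype E] [DecidableEq E] [DecidableEq V]

/-- divergence (outflow minus inflow) -/
def Gr.div (G : Gr E V) (X : E → ℤ) : V → ℤ :=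
  fun v => ∑ e, ((if G.src e = v then X e else 0) - (if G.tgt e = v then X e else 0))

/-- the defect `e_w - e_v` -/
def uv (w v : V) : V → ℤ := Pi.single w 1 - Pi.single v 1

/-- admissible defects: none, or one unit moved -/
def IsDef (γ : V → ℤ) : Prop := γ = 0 ∨ ∃ w v, γ = uv w v

/-- unit flow on one edge -/
abbrev one (e : E) : E → ℤ := Pi.single e 1

/-- product weight -/
def W (a : E → ℤ → ℝ) (X : E → ℤ) : ℝ := ∏ e, a e (X e)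

/-- the cube of radius `R` -/
def cube (E : Type) [Fintype E] [DecidableEq E] (R : ℕ) : Finset (E → ℤ) :=
  Fintype.piFinset fun _ => Finset.Icc (-(R : ℤ)) R

open Classical in
/-- flows in the cube with divergence `γ` -/
def sec (G : Gr E V) (R : ℕ) (γ : V → ℤ) : Finset (E → ℤ) := (cube E R).filter fun X => G.div X = γ

/-- partition function -/
def Zs (G : Gr E V) (R : ℕ) (a : E → ℤ → ℝ) (γ : V → ℤ) : ℝ := ∑ X ∈ sec G R γ, W a X

/-- log-concave weights (interval supports) supported in `[-R, R]` -/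
structure LC (a : E → ℤ → ℝ) (R : ℕ) : Prop where
  nonneg : ∀ e t, 0 ≤ a e t
  supp : ∀ e t, a e t ≠ 0 → |t| ≤ R
  lc : ∀ e x y, x < y → a e x * a e y ≤ a e (x + 1) * a e (y - 1)

/-- strong log-concavity -/
def SC (a : E → ℤ → ℝ) (η : E → ℝ) : Prop :=
  ∀ e t, a e (t - 1) * a e (t + 1) ≤ Real.exp (-η e) * a e t ^ 2

/-- symmetry about `S / 2` -/
def Sym (a : E → ℤ → ℝ) (S : E → ℤ) : Prop := ∀ e t, a e (S e - t) = a e t

/-- bounded kinks -/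
def KC (a : E → ℤ → ℝ) (K : ℝ) : Prop :=
  ∀ e x y, 0 < a e x * a e y → a e (x + 1) * a e (y - 1) ≤ K ^ 2 * (a e x * a e y)

/-- the fibre system -/
def fib (a : E → ℤ → ℝ) (S : E → ℤ) : E → ℤ → ℝ := fun e t => a e t * a e (S e - t)

/-- the ground system about `S / 2` -/
def grd (S : E → ℤ) : E → ℤ → ℝ := fun e t => if |2 * t - S e| ≤ 1 then 1 else 0

open Classical in
/-- starting points of worm moves across `e` (both ends have an admissible defect) -/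
def mvs (G : Gr E V) (R : ℕ) (d : V → ℤ) (e : E) : Finset (E → ℤ) :=
  (cube E R).filter fun X => IsDef (G.div X - d) ∧ IsDef (G.div (X + one e) - d)

/-- Dirichlet form with geometric-mean conductances -/
def Dir (G : Gr E V) (R : ℕ) (a : E → ℤ → ℝ) (d : V → ℤ) (e : E) (F : (E → ℤ) → ℝ) : ℝ :=
  ∑ X ∈ mvs G R d e, √(W a X * W a (X + one e)) * (F (X + one e) - F X) ^ 2

/-- Metropolis conductance for the ideal hole weights -/
def mu (G : Gr E V) (R : ℕ) (a : E → ℤ → ℝ) (e : E) (X : E → ℤ) : ℝ :=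
  min (W a X / Zs G R a (G.div X)) (W a (X + one e) / Zs G R a (G.div (X + one e)))

/-- Dirichlet form with the ideal hole weights -/
def DirM (G : Gr E V) (R : ℕ) (a : E → ℤ → ℝ) (d : V → ℤ) (e : E) (F : (E → ℤ) → ℝ) : ℝ :=
  ∑ X ∈ mvs G R d e, mu G R a e X * (F (X + one e) - F X) ^ 2

/-- `2 Z² Var F` -/
def Vv (G : Gr E V) (R : ℕ) (a : E → ℤ → ℝ) (d : V → ℤ) (F : (E → ℤ) → ℝ) : ℝ :=
  ∑ X ∈ sec G R d, ∑ Y ∈ sec G R d, W a X * W a Y * (F X - F Y) ^ 2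

/-- the antisymmetric part -/
def Aa (G : Gr E V) (R : ℕ) (a : E → ℤ → ℝ) (d : V → ℤ) (S : E → ℤ) (F : (E → ℤ) → ℝ) : ℝ :=
  ∑ X ∈ sec G R d, W a X * (F X - F (S - X)) ^ 2

/-- second moment on a sector -/
def Ll (G : Gr E V) (R : ℕ) (a : E → ℤ → ℝ) (γ : V → ℤ) (F : (E → ℤ) → ℝ) : ℝ :=
  ∑ X ∈ sec G R γ, W a X * F X ^ 2

/-- the edge coefficient of the Poincaré inequality -/
def Gh (η : ℝ) : ℝ := (1 + 5 * Real.exp (-η / 4)) * max 1 (14 / η)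

end Flows

/-! ## The multiscale chain -/

/-- Data of one stage: graph, spanning-forest data (`rt`, `P`), step sizes `s`, box `[bl, bu]`,
ideal potential `ψ`, actual potential `φ`, hole potential `hh`. -/
structure St (E V : Type) where
  G : Gr E V
  vs : Finset V
  rt : V → V
  P : V → E → ℤ
  s : E → ℕ
  bl : E → ℤ
  bu : E → ℤ
  ψ : E → ℤ → ℝ
  φ : E → ℤ → ℝ
  hh : (V → ℤ) → ℝ

namespace St

variable {E V : Type} [Fintype E] [DecidableEq E] [DecidableEq V] (σ : St E V)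

/-- the composite move of edge `e` -/
def chi (e : E) : E → ℤ := one e - σ.P (σ.G.src e) + σ.P (σ.G.tgt e)

def box : Finset (E → ℤ) := Fintype.piFinset fun e => Finset.Icc (σ.bl e) (σ.bu e)

/-- defects between roots -/
def IsR (γ : V → ℤ) : Prop := ∃ w ∈ σ.vs, ∃ v ∈ σ.vs, σ.rt w = w ∧ σ.rt v = v ∧ γ = uv w v

open Classical in
/-- the state space -/
def Om : Finset (E → ℤ) := σ.box.filter fun X => σ.IsR (σ.G.div X)

/-- actual weight -/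
def w (X : E → ℤ) : ℝ := Real.exp (-∑ e, σ.φ e (X e))

open Classical in
/-- partition function of a sector -/
def Z (γ : V → ℤ) : ℝ := ∑ X ∈ σ.box.filter (fun X => σ.G.div X = γ), σ.w X

/-- energy including the hole potential -/
def H (X : E → ℤ) : ℝ := ∑ e, σ.φ e (X e) + σ.hh (σ.G.div X)

def Zh : ℝ := ∑ X ∈ σ.Om, Real.exp (-σ.H X)

/-- stationary law -/
def pi (X : E → ℤ) : ℝ := Real.exp (-σ.H X) / σ.Zh

/-- stationary mean -/
def mean (f : (E → ℤ) → ℝ) : ℝ := ∑ X ∈ σ.Om, σ.pi X * f X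

def var (f : (E → ℤ) → ℝ) : ℝ := ∑ X ∈ σ.Om, σ.pi X * (f X - σ.mean f) ^ 2

open Classical in
/-- Metropolis acceptance -/
def acc (X Y : E → ℤ) : ℝ := if Y ∈ σ.Om then min 1 (Real.exp (σ.H X - σ.H Y)) else 0

/-- transition operator; `M ≥ |E|` is the number of edge slots -/
def T (M : ℕ) (f : (E → ℤ) → ℝ) (X : E → ℤ) : ℝ :=
  f X + ∑ e, ∑ j ∈ Finset.Icc 1 (σ.s e), 1 / (4 * (M : ℝ) * σ.s e) *
    (σ.acc X (X + (j : ℤ) • σ.chi e) * (f (X + (j : ℤ) • σ.chi e) - f X) +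
      σ.acc X (X - (j : ℤ) • σ.chi e) * (f (X - (j : ℤ) • σ.chi e) - f X))

open Classical in
/-- Dirichlet form -/
def Dh (f : (E → ℤ) → ℝ) : ℝ :=
  ∑ e, (1 / (σ.s e : ℝ)) * ∑ j ∈ Finset.Icc 1 (σ.s e),
    ∑ X ∈ σ.Om.filter (fun X => X + (j : ℤ) • σ.chi e ∈ σ.Om),
      min (σ.pi X) (σ.pi (X + (j : ℤ) • σ.chi e)) * (f (X + (j : ℤ) • σ.chi e) - f X) ^ 2

/-- forest axioms -/
structure Forest : Prop where
  vs_ne : σ.vs.Nonempty
  src_mem : ∀ e, σ.G.src e ∈ σ.vs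
  tgt_mem : ∀ e, σ.G.tgt e ∈ σ.vs
  rt_mem : ∀ v ∈ σ.vs, σ.rt v ∈ σ.vs
  rt_rt : ∀ v ∈ σ.vs, σ.rt (σ.rt v) = σ.rt v
  div_P : ∀ v ∈ σ.vs, σ.G.div (σ.P v) = uv v (σ.rt v)
  P_rt : ∀ v ∈ σ.vs, σ.P (σ.rt v) = 0
  s_pos : ∀ e, 1 ≤ σ.s e
  s_big : ∀ e, 1 < σ.s e → σ.rt (σ.G.src e) = σ.rt (σ.G.tgt e)
  zero_mem : ∀ e, σ.bl e ≤ 0 ∧ 0 ≤ σ.bu e

/-- admissible shift amounts -/
def Adm (h : E → ℕ) : Prop := ∀ e, h e ≤ σ.s e ∧ (σ.s e = 1 → h e = 0)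

/-- The hypotheses of the weak Poincaré inequality. -/
structure Good (L A Γ K Λ ε : ℝ) : Prop where
  forest : σ.Forest
  conv : ∀ e x y, σ.bl e ≤ x → x < y → y ≤ σ.bu e → σ.ψ e (x + 1) + σ.ψ e (y - 1) ≤ σ.ψ e x + σ.ψ e y
  ψ_nonneg : ∀ e t, 0 ≤ σ.ψ e t
  ψ_zero : ∀ e, σ.ψ e 0 = 0
  φ_le : ∀ e t, σ.φ e t ≤ σ.ψ e t
  le_φ : ∀ e t, σ.ψ e t - 1 / (Fintype.card E : ℝ) ≤ σ.φ e t
  smooth : ∃ sh : E → ℕ,
    (∀ w ∈ σ.vs, ∀ v ∈ σ.vs, ∀ h, σ.Adm h → ∀ e,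
      |(σ.P v - σ.P w + ∑ e', (h e' : ℤ) • σ.chi e') e| ≤ (sh e : ℤ)) ∧
    ∀ e (t r : ℤ), σ.bl e ≤ t → t ≤ σ.bu e → σ.ψ e t ≤ L + 1 → |r| ≤ (sh e : ℤ) →
      σ.bl e ≤ t + r ∧ t + r ≤ σ.bu e ∧ σ.ψ e (t + r) ≤ σ.ψ e t + 1 / (Fintype.card E : ℝ)
  range : ∀ e, σ.chi e ≠ 0 → ∀ t : ℤ, σ.bl e ≤ t → t ≤ σ.bu e → σ.ψ e t ≤ L + 1 →
    |(t : ℝ)| ≤ Γ * σ.s e
  kink : ∀ e, σ.bu e - σ.bl e ≤ 1 ∨ ∀ t, σ.bl e ≤ t → t + 1 ≤ σ.bu e →
    Real.exp (|σ.ψ e (t + 1) - σ.ψ e t| + 3) ≤ K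
  hh_zero : σ.hh 0 = 0
  hw : ∀ γ, σ.IsR γ → σ.Z 0 ≤ A * (Real.exp (-σ.hh γ) * σ.Z γ) ∧ Real.exp (-σ.hh γ) * σ.Z γ ≤ A * σ.Z 0
  lb : ∀ γ, σ.IsR γ → Real.exp (-Λ) ≤ σ.Z γ
  tail : (σ.box.card : ℝ) * Real.exp (1 - L + Λ) ≤ ε
  ε_le : ε ≤ 1 / 2
  one_le : 1 ≤ A ∧ 1 ≤ Γ ∧ 1 ≤ K ∧ 0 ≤ L

/-- the constant of the weak Poincaré inequality -/
def CP (A Γ K : ℝ) : ℝ :=
  10 ^ 6 * A ^ 3 * ((σ.vs.card : ℝ) ^ 2 + 1) ^ 3 * K * ((Fintype.card E : ℝ) + 1) ^ 2 * Γ ^ 2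

end St

end Crest.Agent.R309
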