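import Crest.Agent.R309.Alg

/-!
# Row 309: Par
Numerical facts on the parameters (`20 ≤ s`, `k ≤ 2 ^ s`).  Useful: `2 ^ log 2 s ≤ s < 2 ^ (log 2 s + 1)`, `s ^ 4 ≤ 2 ^ s` (`s ≥ 16`), `1 + x ≤ exp x`,
`x ≤ -log (1 - x) ≤ x / (1 - x)`, `2 ≤ e`, `e ^ 1.01 ≤ 4`, `x ^ n / n! ≤ exp x`.
-/

set_option autoImplicit false

noncomputable section

namespace Crest.Agent.R309

open Finset Crest.Agent.Lib.PolyTime

variable {s k : ℕ}

theorem pow_four_le (hs : 20 ≤ s) : s ^ 4 ≤ 2 ^ s := by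
  induction s, hs using Nat.le_induction with
  | base => norm_num
  | succ n hn ih =>
    have h1 : (n + 1) ^ 4 ≤ 2 * n ^ 4 := by
      have h2 : 20 * n ^ 3 ≤ n ^ 4 := by rw [pow_succ' n 3]; exact Nat.mul_le_mul_right _ hn
      have h3 : 20 * n ^ 2 ≤ n ^ 3 := by rw [pow_succ' n 2]; exact Nat.mul_le_mul_right _ hn
      have h4 : 20 * n ≤ n ^ 2 := by rw [sq]; exact Nat.mul_le_mul_right _ hn
      have : (n + 1) ^ 4 = n ^ 4 + 4 * n ^ 3 + 6 * n ^ 2 + 4 * n + 1 := by ring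
      omega
    rw [pow_succ 2 n]
    omega

theorem pJ_ge (hs : 20 ≤ s) : 64 * s ≤ pJ s := by
  have := Nat.lt_pow_succ_log_self (by norm_num : 1 < 2) s
  unfold pJ pj
  rw [show Nat.log 2 s + 7 = (Nat.log 2 s).succ + 6 from rfl, pow_add]
  omega

theorem pJ_le (hs : 20 ≤ s) : pJ s ≤ 128 * s := by
  have := Nat.pow_log_le_self 2 (by omega : s ≠ 0)
  unfold pJ pj
  rw [pow_add]
  omega

theorem two_dvd_pJ (s : ℕ) : 2 ∣ pJ s := by
  exact dvd_pow_self 2 (by unfold pj; omega)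

theorem par_pJ_ge (s : ℕ) : 128 ≤ pJ s := by
  unfold pJ pj
  rw [pow_add]
  have : 1 ≤ 2 ^ Nat.log 2 s := Nat.one_le_two_pow
  omega

theorem par_pJ_ge' (s : ℕ) : (128 : ℝ) ≤ pJ s := by exact_mod_cast par_pJ_ge s

theorem th_pos (s : ℕ) : 0 < th s := by
  have := par_pJ_ge' s
  unfold th
  rw [sub_pos, div_lt_one (by linarith)]
  linarith

theorem th_lt_one (s : ℕ) : th s < 1 := by
  have := par_pJ_ge' s
  have : 0 < 1 / (pJ s : ℝ) := by positivity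
  unfold th
  linarith

theorem ka_pos (s : ℕ) : 0 < ka s := by
  exact neg_pos.2 (Real.log_neg (th_pos s) (th_lt_one s))

theorem th_pow (s n : ℕ) : th s ^ n = Real.exp (-(ka s * n)) := by
  rw [ka, neg_mul, neg_neg, Real.exp_mul, Real.exp_log (th_pos s), Real.rpow_natCast]

theorem ka_ge (s : ℕ) : 1 ≤ ka s * pJ s := by
  have hJ := par_pJ_ge' s
  have h := Real.log_le_sub_one_of_pos (th_pos s)
  have h2 : 1 / (pJ s : ℝ) ≤ ka s := by
    unfold ka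
    unfold th at h ⊢
    linarith
  rwa [div_le_iff₀ (by linarith)] at h2

theorem ka_le (s : ℕ) : ka s * pJ s ≤ 101 / 100 := by
  have hJ := par_pJ_ge' s
  have h := Real.log_le_sub_one_of_pos (inv_pos.2 (th_pos s))
  rw [Real.log_inv] at h
  have e : (th s)⁻¹ - 1 = 1 / ((pJ s : ℝ) - 1) := by
    have h1 : (pJ s : ℝ) ≠ 0 := by linarith
    have h2 : (pJ s : ℝ) - 1 ≠ 0 := by linarith
    unfold th
    field_simp
    ring
  have h2 : ka s ≤ 1 / ((pJ s : ℝ) - 1) := by rw [← e]; exact h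
  rw [le_div_iff₀ (by linarith)] at h2
  have h3 := ka_pos s
  nlinarith

theorem ka_mul_le (hs : 20 ≤ s) : ka s * s ≤ 1 / 50 := by
  have h1 : (64 : ℝ) * s ≤ pJ s := by exact_mod_cast pJ_ge hs
  have h2 := ka_le s
  have h3 := ka_pos s
  nlinarith

theorem par_exp_neg_le (k : ℕ) : Real.exp (-(k : ℝ)) ≤ 2⁻¹ ^ k := by
  have h : Real.exp (-1) ≤ 2⁻¹ := by
    rw [Real.exp_neg]
    exact inv_anti₀ (by norm_num) (by linarith [Real.add_one_le_exp (1 : ℝ)])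
  rw [show -(k : ℝ) = k * -1 by ring, Real.exp_nat_mul]
  exact pow_le_pow_left₀ (Real.exp_pos _).le h k

theorem par_two_pow_le_exp (k : ℕ) : (2 : ℝ) ^ k ≤ Real.exp k := by
  rw [show (k : ℝ) = k * 1 by ring, Real.exp_nat_mul]
  exact pow_le_pow_left₀ (by norm_num) (by linarith [Real.add_one_le_exp (1 : ℝ)]) k

theorem th_pL0_le (hs : 20 ≤ s) : th s ^ pL0 s ≤ 1 / (8 * s) := by
  have h1 := ka_ge s
  have h2 : (s : ℝ) < 2 ^ (Nat.log 2 s + 1) := by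
    exact_mod_cast Nat.lt_pow_succ_log_self (by norm_num : 1 < 2) s
  have hs' : (20 : ℝ) ≤ s := by exact_mod_cast hs
  rw [th_pow]
  calc Real.exp (-(ka s * pL0 s)) ≤ Real.exp (-((Nat.log 2 s + 4 : ℕ) : ℝ)) := by
        rw [Real.exp_le_exp, neg_le_neg_iff, pL0, Nat.cast_mul, ← mul_assoc]
        exact le_mul_of_one_le_left (Nat.cast_nonneg _) h1
    _ ≤ 2⁻¹ ^ (Nat.log 2 s + 4) := par_exp_neg_le _
    _ ≤ 1 / (8 * s) := by
        rw [inv_pow, one_div]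
        refine inv_anti₀ (by positivity) ?_
        rw [show Nat.log 2 s + 4 = Nat.log 2 s + 1 + 3 from rfl, pow_add]
        linarith

theorem exp_pL0_le (hs : 20 ≤ s) : Real.exp (ka s * pL0 s) ≤ 256 * s ^ 2 := by
  have h1 := ka_le s
  have h2 : (2 : ℝ) ^ Nat.log 2 s ≤ s := by
    exact_mod_cast Nat.pow_log_le_self 2 (by omega : s ≠ 0)
  have h4 : Real.exp (101 / 100) ≤ 4 := by
    have e : Real.exp (101 / 100) = Real.exp 1 * Real.exp (1 / 100) := by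
      rw [← Real.exp_add]; norm_num
    have h5 := Real.exp_one_lt_d9
    have h6 : Real.exp (1 / 100) ≤ 1 / (1 - 1 / 100) :=
      Real.exp_bound_div_one_sub_of_interval (by norm_num) (by norm_num)
    rw [e]
    have h7 := Real.exp_pos (1 / 100)
    nlinarith
  calc Real.exp (ka s * pL0 s) ≤ Real.exp (((Nat.log 2 s + 4 : ℕ) : ℝ) * (101 / 100)) := by
        rw [Real.exp_le_exp, pL0, Nat.cast_mul, ← mul_assoc, mul_comm]
        exact mul_le_mul_of_nonneg_left h1 (Nat.cast_nonneg _)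
    _ ≤ 4 ^ (Nat.log 2 s + 4) := by
        rw [Real.exp_nat_mul]
        exact pow_le_pow_left₀ (Real.exp_pos _).le h4 _
    _ = 256 * (2 ^ Nat.log 2 s) ^ 2 := by
        rw [pow_add, ← pow_mul, mul_comm (Nat.log 2 s) 2, pow_mul]; norm_num; ring
    _ ≤ 256 * s ^ 2 := by gcongr

theorem ka_pLm_le (hs : 20 ≤ s) : ka s * pLm s ≤ 11 * s ^ 2 := by
  have h1 := ka_le s
  have hs' : (20 : ℝ) ≤ s := by exact_mod_cast hs
  unfold pLm
  push_cast
  rw [← mul_assoc]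
  have h2 : ka s * pJ s * (10 * (s : ℝ) ^ 2 + 3) ≤ 101 / 100 * (10 * (s : ℝ) ^ 2 + 3) := by gcongr
  nlinarith

theorem ka_pLm_ge (s : ℕ) : 10 * s ^ 2 + 3 ≤ ka s * pLm s := by
  have h1 := ka_ge s
  unfold pLm
  push_cast
  rw [← mul_assoc]
  exact le_mul_of_one_le_left (by positivity) h1

theorem pL0_le_pLm (hs : 20 ≤ s) : pL0 s ≤ pLm s := by
  have := Nat.log_le_self 2 s
  exact Nat.mul_le_mul_left _ (by nlinarith)

theorem pLm_le (hs : 20 ≤ s) : pLm s ≤ 1300 * s ^ 3 := by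
  have h1 := pJ_le hs
  have h2 : pLm s ≤ 128 * s * (10 * s ^ 2 + 3) := Nat.mul_le_mul_right _ h1
  have h3 : 400 ≤ s ^ 2 := by nlinarith
  have h4 : 400 * s ≤ s ^ 3 := by rw [pow_succ s 2]; exact Nat.mul_le_mul_right _ h3
  have : 128 * s * (10 * s ^ 2 + 3) = 1280 * s ^ 3 + 384 * s := by ring
  omega

theorem pL0_le (hs : 20 ≤ s) : pL0 s ≤ 128 * s * (s + 4) := by
  have := Nat.log_le_self 2 s
  exact Nat.mul_le_mul (pJ_le hs) (by omega)

theorem par_pQ_ge (hs : 20 ≤ s) : 2 ≤ pQ s := by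
  unfold pQ
  nlinarith

theorem par_pQ_ge' (hs : 20 ≤ s) : (2 : ℝ) ≤ pQ s := by exact_mod_cast par_pQ_ge hs

theorem par_pL0_pos (s : ℕ) : 0 < pL0 s :=
  Nat.mul_pos (by have := par_pJ_ge s; omega) (by omega)

theorem bet_pos (hs : 20 ≤ s) (i : ℕ) : 0 < bet s i := by
  have h1 := par_pQ_ge' hs
  have h2 : (0 : ℝ) < pL0 s := by exact_mod_cast par_pL0_pos s
  exact mul_pos h2 (pow_pos (div_pos (by linarith) (by linarith)) i)

theorem bet_le (hs : 20 ≤ s) (i : ℕ) : bet s i ≤ pL0 s := by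
  have h1 := par_pQ_ge' hs
  refine mul_le_of_le_one_right (Nat.cast_nonneg _) (pow_le_one₀ (div_nonneg (by linarith) (by linarith)) ?_)
  rw [div_le_one (by linarith)]
  linarith

theorem bet_zero (s : ℕ) : bet s 0 = pL0 s := by
  simp [bet]

theorem bet_succ (hs : 20 ≤ s) (i : ℕ) : bet s (i + 1) = bet s i * (1 - 1 / (pQ s : ℝ)) := by
  have h1 := par_pQ_ge' hs
  have h2 : (pQ s : ℝ) ≠ 0 := by linarith
  unfold bet
  rw [pow_succ, mul_assoc]
  congr 2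
  field_simp

theorem bet_final (hs : 20 ≤ s) : bet s (pI s) * 2 ^ (2 * s + 1) < 1 := by
  have h1 := par_pQ_ge' hs
  have hs' : (20 : ℝ) ≤ s := by exact_mod_cast hs
  have h2 : ((pQ s : ℝ) - 1) / pQ s ≤ Real.exp (-(1 / pQ s)) := by
    have := Real.add_one_le_exp (-(1 / (pQ s : ℝ)))
    rw [sub_div, div_self (by linarith)]
    linarith
  have h3 : (((pQ s : ℝ) - 1) / pQ s) ^ pI s ≤ 2⁻¹ ^ (4 * s) := by
    refine (pow_le_pow_left₀ (div_nonneg (by linarith) (by linarith)) h2 _).trans ?_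
    rw [← Real.exp_nat_mul]
    refine le_of_eq_of_le ?_ (par_exp_neg_le (4 * s))
    congr 1
    unfold pI pQ
    push_cast
    field_simp
    ring
  have h4 : pL0 s * 2 < 2 ^ (2 * s) := by
    have h5 := pL0_le hs
    have h6 := pow_four_le hs
    have h7 : 2 ^ s ≤ 2 ^ (2 * s) := Nat.pow_le_pow_right (by norm_num) (by omega)
    have h8 : 400 ≤ s ^ 2 := by nlinarith
    have h9 : 400 * s ^ 2 ≤ s ^ 4 := by
      rw [show s ^ 4 = s ^ 2 * s ^ 2 by ring]; exact Nat.mul_le_mul_right _ h8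
    have h10 : 20 * s ≤ s ^ 2 := by rw [sq]; exact Nat.mul_le_mul_right _ hs
    have : 128 * s * (s + 4) = 128 * s ^ 2 + 512 * s := by ring
    omega
  have h5 : (pL0 s : ℝ) * 2 < 2 ^ (2 * s) := by exact_mod_cast h4
  calc bet s (pI s) * 2 ^ (2 * s + 1) ≤ pL0 s * 2⁻¹ ^ (4 * s) * 2 ^ (2 * s + 1) := by
        unfold bet; gcongr
    _ = pL0 s * 2 / 2 ^ (2 * s) := by
        rw [show 4 * s = 2 * s + 2 * s by ring, pow_add, pow_succ, inv_pow]
        field_simp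
    _ < 1 := by rw [div_lt_one (by positivity)]; exact h5

theorem par_bet_eq (hs : 20 ≤ s) (i : ℕ) :
    bet s i = ((pL0 s * (pQ s - 1) ^ i : ℕ) : ℝ) / ((pQ s ^ i : ℕ) : ℝ) := by
  have h1 := par_pQ_ge hs
  unfold bet
  push_cast [Nat.cast_sub (by omega : 1 ≤ pQ s)]
  rw [div_pow, mul_div_assoc]

theorem bet_floor (hs : 20 ≤ s) (i t : ℕ) : pL0 s * (pQ s - 1) ^ i * t / pQ s ^ i = ⌊bet s i * t⌋₊ := by
  rw [par_bet_eq hs, div_mul_eq_mul_div, ← Nat.cast_mul, Nat.floor_div_eq_div]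

theorem lt_pM2 (s : ℕ) : s < pM2 s := by
  exact Nat.lt_pow_succ_log_self (by norm_num) s

theorem pM2_le (hs : 20 ≤ s) : pM2 s ≤ 2 * s := by
  have := Nat.pow_log_le_self 2 (by omega : s ≠ 0)
  unfold pM2
  rw [pow_succ]
  omega

theorem par_sq_le (hs : 20 ≤ s) : 400 ≤ s ^ 2 ∧ 400 * s ^ 2 ≤ s ^ 4 := by
  have h8 : 400 ≤ s ^ 2 := by nlinarith
  exact ⟨h8, by rw [show s ^ 4 = s ^ 2 * s ^ 2 by ring]; exact Nat.mul_le_mul_right _ h8⟩

theorem pL_le (hs : 20 ≤ s) (hk : k ≤ 2 ^ s) : pL s k + 3 ≤ 2 ^ (s + 2) := by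
  have h1 := pow_four_le hs
  have h2 := par_sq_le hs
  unfold pL
  rw [pow_add]
  omega

theorem par_pDn_pos (hs : 20 ≤ s) : 0 < pDn s := by
  have : 0 < s := by omega
  unfold pDn pA
  positivity

theorem par_pDn_le (hs : 20 ≤ s) : pDn s ≤ s ^ 17 := by
  have h0 : 0 < s := by omega
  have h1 : pI s + 1 ≤ 4001 * s ^ 3 := by
    have : 1 ≤ s ^ 3 := Nat.one_le_pow _ _ h0
    unfold pI; omega
  have h2 : s ^ 2 + 1 ≤ 2 * s ^ 2 := by
    have : 1 ≤ s ^ 2 := Nat.one_le_pow _ _ h0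
    omega
  have h3 : 20 ^ 8 ≤ s ^ 8 := Nat.pow_le_pow_left hs 8
  calc pDn s ≤ 64 * s * (4001 * s ^ 3) * (2 * s ^ 2) * (10 ^ 4 * s ^ 3) := by
        unfold pDn pA; gcongr
    _ = 5121280000 * s ^ 9 := by ring
    _ ≤ s ^ 8 * s ^ 9 := Nat.mul_le_mul_right _ (le_trans (by norm_num) h3)
    _ = s ^ 17 := by ring

theorem par_pow_le_exp (hs : 20 ≤ s) : ((s ^ 20 : ℕ) : ℝ) ≤ Real.exp (s ^ 2) := by
  have h1 : s ^ 20 ≤ 2 ^ (5 * s) := by
    rw [show s ^ 20 = (s ^ 4) ^ 5 by ring, mul_comm, pow_mul]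
    exact Nat.pow_le_pow_left (pow_four_le hs) 5
  have h2 : ((s ^ 20 : ℕ) : ℝ) ≤ 2 ^ (5 * s) := by exact_mod_cast h1
  have hs' : (20 : ℝ) ≤ s := by exact_mod_cast hs
  refine h2.trans ((par_two_pow_le_exp _).trans (Real.exp_le_exp.2 ?_))
  push_cast
  nlinarith

theorem pKs_pos (hs : 20 ≤ s) : 0 < pKs s k := by
  have h1 := par_pDn_pos hs
  have : 0 < s := by omega
  unfold pKs
  positivity

theorem pKs_le (hs : 20 ≤ s) (hk : k ≤ 2 ^ s) : pKs s k ≤ 2 ^ (10 * s) := by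
  have h1 := pow_four_le hs
  have h2 := par_sq_le hs
  have h3 := par_pDn_le hs
  have h4 : s ^ 32 ≤ (2 ^ s) ^ 8 := by
    rw [show s ^ 32 = (s ^ 4) ^ 8 by ring]
    exact Nat.pow_le_pow_left h1 8
  have h5 : s ^ 2 * (8 * k + 80 * s ^ 2) ≤ 2 ^ s * 2 ^ s := by
    calc s ^ 2 * (8 * k + 80 * s ^ 2) = 8 * s ^ 2 * k + 80 * s ^ 4 := by ring
      _ ≤ 8 * s ^ 2 * 2 ^ s + 80 * 2 ^ s := by gcongr
      _ = (8 * s ^ 2 + 80) * 2 ^ s := by ring
      _ ≤ 2 ^ s * 2 ^ s := Nat.mul_le_mul_right _ (by omega)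
  calc pKs s k ≤ (s ^ 17) ^ 2 * (8 * k + 80 * s ^ 2) := by unfold pKs; gcongr
    _ = s ^ 32 * (s ^ 2 * (8 * k + 80 * s ^ 2)) := by ring
    _ ≤ (2 ^ s) ^ 8 * (2 ^ s * 2 ^ s) := Nat.mul_le_mul h4 h5
    _ = 2 ^ (10 * s) := by ring

theorem pS_pos (hs : 20 ≤ s) : 0 < pS s k := by
  exact Nat.mul_pos (pKs_pos hs) (Nat.succ_pos _)

theorem pDn_pos (hs : 20 ≤ s) : 0 < pDn s := by
  exact par_pDn_pos hs

theorem pDn_le (hs : 20 ≤ s) : (pDn s : ℝ) ≤ Real.exp (s ^ 2) := by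
  refine le_trans ?_ (par_pow_le_exp hs)
  exact_mod_cast (par_pDn_le hs).trans (Nat.pow_le_pow_right (by omega) (by norm_num))

theorem pA_le (hs : 20 ≤ s) : ((s : ℝ) ^ 2 + 1) * pA s ≤ Real.exp (s ^ 2) := by
  refine le_trans ?_ (par_pow_le_exp hs)
  have h1 : (s ^ 2 + 1) * pA s ≤ pDn s := by
    unfold pDn
    rw [mul_assoc _ (s ^ 2 + 1)]
    exact Nat.le_mul_of_pos_left _ (Nat.mul_pos (by omega) (Nat.succ_pos _))
  exact_mod_cast h1.trans ((par_pDn_le hs).trans (Nat.pow_le_pow_right (by omega) (by norm_num)))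

theorem pI_le (hs : 20 ≤ s) : (pI s : ℝ) + 1 ≤ Real.exp (s ^ 2) := by
  refine le_trans ?_ (par_pow_le_exp hs)
  have h0 : 0 < s := by omega
  have h1 : pI s + 1 ≤ pDn s := by
    unfold pDn
    rw [show 64 * s * (pI s + 1) * (s ^ 2 + 1) * pA s = (pI s + 1) * (64 * s * (s ^ 2 + 1) * pA s) by ring]
    refine Nat.le_mul_of_pos_right _ ?_
    unfold pA
    positivity
  exact_mod_cast h1.trans ((par_pDn_le hs).trans (Nat.pow_le_pow_right (by omega) (by norm_num)))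

theorem exp_neg_le (k : ℕ) : Real.exp (-(k : ℝ)) ≤ 2⁻¹ ^ k := by
  exact par_exp_neg_le k

theorem two_pow_pr (s : ℕ) : 2 ^ pr s = 2 ^ (10 * s) * pJ s ^ pD s := by
  rw [pr, pow_add, pJ, pow_mul 2 (pj s)]


theorem par_natAbs (t : ℤ) : ((t.natAbs : ℕ) : ℝ) = |(t : ℝ)| := by
  rw [Nat.cast_natAbs, Int.cast_abs]

theorem par_div_le (a b : ℕ) : (a : ℝ) / b ≤ ((a / b : ℕ) : ℝ) + 1 := by
  rw [← Nat.floor_div_eq_div (K := ℝ)]
  exact (Nat.lt_floor_add_one _).le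

theorem par_ke (hs : 20 ≤ s) (d : Edge) (i : ℕ) (t : ℤ) :
    ∃ u : ℝ, d.psi s i t = ka s * u ∧ (d.ke s i t : ℝ) ≤ u ∧ u ≤ d.ke s i t + 2 := by
  refine ⟨_, rfl, ?_⟩
  have h0 := (bet_pos hs i).le
  have h1 : ((pL0 s * (pQ s - 1) ^ i * t.natAbs / pQ s ^ i : ℕ) : ℝ) ≤ bet s i * |(t : ℝ)| := by
    rw [bet_floor hs, par_natAbs]
    exact Nat.floor_le (by positivity)
  have h2 : bet s i * |(t : ℝ)| ≤ ((pL0 s * (pQ s - 1) ^ i * t.natAbs / pQ s ^ i : ℕ) : ℝ) + 1 := by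
    rw [bet_floor hs, par_natAbs]
    exact (Nat.lt_floor_add_one _).le
  have h3 : ((pP s * d.out t / d.R : ℕ) : ℝ) ≤ (pP s : ℝ) * d.out t / d.R := by
    rw [← Nat.cast_mul]; exact Nat.cast_div_le
  have h4 : (pP s : ℝ) * d.out t / d.R ≤ ((pP s * d.out t / d.R : ℕ) : ℝ) + 1 := by
    rw [← Nat.cast_mul]; exact par_div_le _ _
  unfold Edge.ke
  split_ifs <;> simp only [Nat.cast_add, Nat.cast_zero, Nat.cast_mul, par_natAbs] <;>
    constructor <;> linarith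

/-- integer versus ideal potential -/
theorem Edge.ke_le (hs : 20 ≤ s) (d : Edge) (i : ℕ) (t : ℤ) : ka s * d.ke s i t ≤ d.psi s i t := by
  obtain ⟨u, h1, h2, -⟩ := par_ke hs d i t
  rw [h1]
  exact mul_le_mul_of_nonneg_left h2 (ka_pos s).le

theorem Edge.le_ke (hs : 20 ≤ s) (d : Edge) (i : ℕ) (t : ℤ) : d.psi s i t - 2 * ka s ≤ ka s * d.ke s i t := by
  obtain ⟨u, h1, -, h2⟩ := par_ke hs d i t
  have := mul_le_mul_of_nonneg_left h2 (ka_pos s).le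
  rw [h1]
  linarith

theorem Edge.psi_nonneg (hs : 20 ≤ s) (d : Edge) (i : ℕ) (t : ℤ) : 0 ≤ d.psi s i t := by
  exact le_trans (mul_nonneg (ka_pos s).le (Nat.cast_nonneg _)) (Edge.ke_le hs d i t)

theorem par_out_zero (d : Edge) : d.out 0 = 0 := by
  unfold Edge.out
  omega

theorem Edge.psi_zero (d : Edge) (s i : ℕ) : d.psi s i 0 = 0 := by
  simp [Edge.psi, par_out_zero]

theorem Edge.ke_zero (d : Edge) (s i : ℕ) : d.ke s i 0 = 0 := by
  simp [Edge.ke, par_out_zero]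

theorem Edge.psi_conv (hs : 20 ≤ s) (d : Edge) (i : ℕ) {x y : ℤ} (h : x < y) :
    d.psi s i (x + 1) + d.psi s i (y - 1) ≤ d.psi s i x + d.psi s i y := by
  have h0 := (bet_pos hs i).le
  have h1 : |((x + 1 : ℤ) : ℝ)| + |((y - 1 : ℤ) : ℝ)| ≤ |(x : ℝ)| + |(y : ℝ)| := by
    have : (x + 1).natAbs + (y - 1).natAbs ≤ x.natAbs + y.natAbs := by omega
    simp only [← par_natAbs]
    exact_mod_cast this
  have h2 : (d.out (x + 1) : ℝ) + d.out (y - 1) ≤ d.out x + d.out y := by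
    have : d.out (x + 1) + d.out (y - 1) ≤ d.out x + d.out y := by
      unfold Edge.out; omega
    exact_mod_cast this
  have h3 : (pP s : ℝ) * d.out (x + 1) / d.R + pP s * d.out (y - 1) / d.R ≤
      pP s * d.out x / d.R + pP s * d.out y / d.R := by
    rw [← add_div, ← add_div, ← mul_add, ← mul_add]
    gcongr
  have h4 := mul_le_mul_of_nonneg_left h1 h0
  have h5 := mul_le_mul_of_nonneg_left h1 (Nat.cast_nonneg (min (pL0 s + i) (pLm s)))
  unfold Edge.psi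
  rw [← mul_add, ← mul_add]
  refine mul_le_mul_of_nonneg_left ?_ (ka_pos s).le
  split_ifs <;> linarith

/-- Lipschitz bounds -/
theorem Edge.out_lip (d : Edge) (x y : ℤ) : |(d.out x : ℝ) - d.out y| ≤ |(x : ℝ) - y| := by
  have : ((d.out x : ℤ) - d.out y).natAbs ≤ (x - y).natAbs := by
    unfold Edge.out; omega
  have h : ((((d.out x : ℤ) - d.out y).natAbs : ℕ) : ℝ) ≤ ((x - y).natAbs : ℕ) := by exact_mod_cast this
  rw [par_natAbs, par_natAbs] at h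
  push_cast at h
  exact h

theorem Edge.psi_lip (hs : 20 ≤ s) (d : Edge) (h3 : d.ty ≠ 3) (i : ℕ) (x y : ℤ) :
    |d.psi s i x - d.psi s i y| ≤ ka s * ((if d.ty = 2 then 0 else bet s i) +
      (if d.ty = 0 then 0 else (pP s : ℝ) / d.R)) * |(x : ℝ) - y| := by
  have h0 := (bet_pos hs i).le
  have h1 : |bet s i * |(x : ℝ)| - bet s i * (|(y : ℝ)|)| ≤ bet s i * |(x : ℝ) - y| := by
    rw [← mul_sub, abs_mul, abs_of_nonneg h0]
    exact mul_le_mul_of_nonneg_left (abs_abs_sub_abs_le_abs_sub _ _) h0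
  have h2 : |(pP s : ℝ) * d.out x / d.R - pP s * d.out y / d.R| ≤ (pP s : ℝ) / d.R * |(x : ℝ) - y| := by
    have e : (pP s : ℝ) * d.out x / d.R - pP s * d.out y / d.R =
        (pP s : ℝ) / d.R * ((d.out x : ℝ) - d.out y) := by ring
    have h4 : (0 : ℝ) ≤ (pP s : ℝ) / d.R := by positivity
    rw [e, abs_mul, abs_of_nonneg h4]
    exact mul_le_mul_of_nonneg_left (d.out_lip x y) h4
  unfold Edge.psi
  rw [if_neg h3, if_neg h3, ← mul_sub, abs_mul, abs_of_pos (ka_pos s), mul_assoc]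
  refine mul_le_mul_of_nonneg_left ?_ (ka_pos s).le
  rw [abs_le] at h1 h2 ⊢
  split_ifs <;> constructor <;> linarith

theorem Edge.stp_pos (d : Edge) (s i : ℕ) : 1 ≤ d.stp s i := by
  unfold Edge.stp
  split_ifs
  · exact Nat.one_le_two_pow
  · exact le_rfl

theorem Edge.stp_dvd (hs : 20 ≤ s) (d : Edge) (hR : d.R ≤ 2 ^ (2 * s + 1)) (i : ℕ) :
    4 * pM2 s * d.stp s i ∣ 2 ^ (10 * s) := by
  have hL := Nat.log_le_self 2 s
  have key : ∀ e ≤ 2 * s + 1, 4 * pM2 s * 2 ^ e ∣ 2 ^ (10 * s) := fun e he => by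
    rw [pM2, show 4 = 2 ^ 2 from rfl, ← pow_add, ← pow_add]
    exact pow_dvd_pow 2 (by omega)
  unfold Edge.stp
  split_ifs
  · refine key _ ?_
    rw [← Nat.log_pow (by norm_num : 1 < 2) (2 * s + 1)]
    refine Nat.log_mono_right (le_trans (Nat.div_le_of_le_mul (Nat.mul_le_mul_right _ ?_)) hR)
    have h0 : 0 < s := by omega
    calc pJ s * pQ s ^ i ≤ pP s * pQ s ^ i :=
          Nat.mul_le_mul_right _ (Nat.le_mul_of_pos_right _ (by positivity))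
      _ ≤ pL0 s * (pQ s - 1) ^ i * d.R + pP s * pQ s ^ i := Nat.le_add_left _ _
      _ ≤ _ := Nat.le_mul_of_pos_left _ (by positivity)
  · exact key 0 (Nat.zero_le _)

theorem Edge.ty_of_stp {d : Edge} {i : ℕ} (h : 1 < d.stp s i) : d.ty = 1 := by
  by_contra hne
  rw [Edge.stp, if_neg hne] at h
  exact lt_irrefl _ h

theorem par_den (hs : 20 ≤ s) (d : Edge) (i : ℕ) :
    ((8 * s ^ 2 * (pL0 s * (pQ s - 1) ^ i * d.R + pP s * pQ s ^ i) : ℕ) : ℝ) =
      8 * s ^ 2 * (bet s i * d.R + pP s) * (pQ s : ℝ) ^ i := by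
  have h1 := par_pQ_ge' hs
  have h2 : (pQ s : ℝ) ^ i ≠ 0 := by positivity
  rw [par_bet_eq hs]
  push_cast
  field_simp

theorem Edge.stp_le (hs : 20 ≤ s) {d : Edge} {i : ℕ} (h : 1 < d.stp s i) :
    (d.stp s i : ℝ) * (8 * s ^ 2 * (bet s i * d.R + pP s)) ≤ pJ s * d.R := by
  have h1 := par_pQ_ge' hs
  have hty := Edge.ty_of_stp h
  rw [Edge.stp, if_pos hty] at h ⊢
  set D := 8 * s ^ 2 * (pL0 s * (pQ s - 1) ^ i * d.R + pP s * pQ s ^ i) with hD
  set N := pJ s * pQ s ^ i * d.R with hN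
  have hx : N / D ≠ 0 := by
    intro e
    rw [e] at h
    simp at h
  have h2 : 2 ^ Nat.log 2 (N / D) * D ≤ N :=
    (Nat.mul_le_mul_right _ (Nat.pow_log_le_self 2 hx)).trans (Nat.div_mul_le_self _ _)
  have h3 : ((2 ^ Nat.log 2 (N / D) : ℕ) : ℝ) * (D : ℝ) ≤ N := by exact_mod_cast h2
  rw [hD, par_den hs, ← hD, ← mul_assoc] at h3
  have h4 : (N : ℝ) = pJ s * d.R * (pQ s : ℝ) ^ i := by rw [hN]; push_cast; ring
  rw [h4] at h3
  exact le_of_mul_le_mul_right h3 (by positivity)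

theorem Edge.le_stp (hs : 20 ≤ s) {d : Edge} (h : d.ty = 1) (i : ℕ) :
    (pJ s : ℝ) * d.R ≤ 4 * d.stp s i * (8 * s ^ 2 * (bet s i * d.R + pP s)) := by
  have h1 := par_pQ_ge' hs
  rw [Edge.stp, if_pos h]
  set D := 8 * s ^ 2 * (pL0 s * (pQ s - 1) ^ i * d.R + pP s * pQ s ^ i) with hD
  set N := pJ s * pQ s ^ i * d.R with hN
  have hD0 : 0 < D := by
    have h0 : 0 < s := by omega
    have h5 := par_pJ_ge s
    have h6 := par_pQ_ge hs
    have h7 : 0 < pP s := by unfold pP; positivity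
    positivity
  have h2 : N ≤ 4 * 2 ^ Nat.log 2 (N / D) * D := by
    have h5 := Nat.lt_pow_succ_log_self (by norm_num : 1 < 2) (N / D)
    have h6 : N < (N / D + 1) * D := by
      rw [← Nat.div_lt_iff_lt_mul hD0]; omega
    refine h6.le.trans (Nat.mul_le_mul_right _ ?_)
    rw [Nat.succ_eq_add_one, pow_succ] at h5
    omega
  have h3 : (N : ℝ) ≤ 4 * ((2 ^ Nat.log 2 (N / D) : ℕ) : ℝ) * (D : ℝ) := by exact_mod_cast h2
  rw [hD, par_den hs, ← hD, ← mul_assoc] at h3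
  have h4 : (N : ℝ) = pJ s * d.R * (pQ s : ℝ) ^ i := by rw [hN]; push_cast; ring
  rw [h4] at h3
  exact le_of_mul_le_mul_right h3 (by positivity)


/-- polynomially bounded functions of `(s, k)` -/
def ParP (f : ℕ → ℕ → ℕ) : Prop := ∃ c : ℕ, ∀ s k : ℕ, f s k ≤ (s + k + 2) ^ c

theorem ParP.const (a : ℕ) : ParP fun _ _ => a :=
  ⟨a, fun s k => Nat.lt_two_pow_self.le.trans (Nat.pow_le_pow_left (by omega) a)⟩

theorem ParP.fst : ParP fun s _ => s := ⟨1, fun s k => by simp only [pow_one]; omega⟩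

theorem ParP.snd : ParP fun _ k => k := ⟨1, fun s k => by simp only [pow_one]; omega⟩

theorem ParP.log : ParP fun s _ => Nat.log 2 s :=
  ⟨1, fun s k => by have := Nat.log_le_self 2 s; simp only [pow_one]; omega⟩

theorem ParP.mul {f g : ℕ → ℕ → ℕ} (hf : ParP f) (hg : ParP g) : ParP fun s k => f s k * g s k := by
  obtain ⟨a, ha⟩ := hf
  obtain ⟨b, hb⟩ := hg
  exact ⟨a + b, fun s k => by rw [pow_add]; exact Nat.mul_le_mul (ha s k) (hb s k)⟩

theorem ParP.add {f g : ℕ → ℕ → ℕ} (hf : ParP f) (hg : ParP g) : ParP fun s k => f s k + g s k := by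
  obtain ⟨a, ha⟩ := hf
  obtain ⟨b, hb⟩ := hg
  refine ⟨a + b + 1, fun s k => ?_⟩
  have h1 : (s + k + 2) ^ a ≤ (s + k + 2) ^ (a + b) := Nat.pow_le_pow_right (by omega) (by omega)
  have h2 : (s + k + 2) ^ b ≤ (s + k + 2) ^ (a + b) := Nat.pow_le_pow_right (by omega) (by omega)
  have h3 : (s + k + 2) ^ (a + b) * 2 ≤ (s + k + 2) ^ (a + b + 1) := by
    rw [pow_succ]; exact Nat.mul_le_mul_left _ (by omega)
  have := ha s k
  have := hb s k
  show f s k + g s k ≤ _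
  omega

theorem ParP.pow {f : ℕ → ℕ → ℕ} (hf : ParP f) (n : ℕ) : ParP fun s k => f s k ^ n := by
  obtain ⟨a, ha⟩ := hf
  exact ⟨a * n, fun s k => by rw [pow_mul]; exact Nat.pow_le_pow_left (ha s k) n⟩

theorem ParP.pI : ParP fun s _ => pI s := (ParP.const 4000).mul (ParP.fst.pow 3)

theorem ParP.pA : ParP fun s _ => pA s := (ParP.const (10 ^ 4)).mul (ParP.fst.pow 3)

theorem ParP.pr : ParP fun s _ => pr s :=
  ((ParP.const 10).mul ParP.fst).add ((ParP.log.add (ParP.const 7)).mul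
    ((ParP.const (10 ^ 6)).mul (ParP.fst.pow 4)))

theorem ParP.pG : ParP pG :=
  ((ParP.const 32).mul (ParP.fst.pow 2)).mul
    ((((ParP.const 2).mul (((ParP.const 2).mul ParP.snd).add
      ((ParP.const 100).mul (ParP.fst.pow 2)))).add (ParP.const 2)).add
      ((ParP.const 34000).mul (ParP.fst.pow 5)))

theorem ParP.pC : ParP pC :=
  (((((ParP.const (10 ^ 6)).mul (ParP.pA.pow 3)).mul
    (((ParP.fst.pow 2).add (ParP.const 1)).pow 3)).mul
    ((ParP.const (10 ^ 6)).mul (ParP.fst.pow 3))).mul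
    ((ParP.fst.add (ParP.const 1)).pow 2)).mul (ParP.pG.pow 2)

theorem ParP.pmix : ParP pmix :=
  (((ParP.const 8).mul ParP.fst).mul ParP.pC).mul
    (((ParP.const 2).mul ParP.snd).add ((ParP.const 34).mul (ParP.fst.pow 2)))

theorem ParP.pDn : ParP fun s _ => pDn s :=
  ((((ParP.const 64).mul ParP.fst).mul (ParP.pI.add (ParP.const 1))).mul
    ((ParP.fst.pow 2).add (ParP.const 1))).mul ParP.pA

theorem ParP.pKs : ParP pKs :=
  (ParP.pDn.pow 2).mul (((ParP.const 8).mul ParP.snd).add ((ParP.const 80).mul (ParP.fst.pow 2)))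

/-- polynomial bounds -/
theorem exists_pT_le : ∃ c : ℕ, ∀ s k : ℕ, pT s k * pr s ≤ (s + k + 2) ^ c := by
  exact ((ParP.pI.add (ParP.const 1)).mul (ParP.pKs.mul (ParP.pmix.add (ParP.const 1)))).mul ParP.pr

theorem exists_pB_le : ∃ c : ℕ, ∀ s : ℕ, pB s + 1 + pr s + 5 * s ^ 2 ≤ (s + 2) ^ c := by
  obtain ⟨c, hc⟩ := ((((((ParP.const (10 ^ 6)).mul (ParP.fst.pow 4)).add (ParP.const 100)).add
    (ParP.const 1)).add ParP.pr).add ((ParP.const 5).mul (ParP.fst.pow 2)))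
  exact ⟨c, fun s => hc s 0⟩


end Crest.Agent.R309
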