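import Crest.Agent.R309.Core
import Crest.Agent.R309.Par
import Crest.Prelude.Def_Randomized

/-!
# Row 309: Fin79
Final assembly of S0479.  Input `x` of length `ℓ`.  Parse `m, n, rs, cs, bs` (`Parses.nat`, `.many`, `.seq`, `exists_decoder_rest`; `boundsCode_eq`).  `s = 2 (ℓ + 10) ^ 2`, `k = ℓ`,
`a = (replicate s (), replicate k (), ⟨rs, cs, bs⟩)`; `A (x, tape) = ratCode (mC.run a (digs (2 ^ r) T (ofBits tape)))` (`mC_poly.run_digs`, `PT.randPolyTime`);
`r = (2 (X + 10) ^ 2 + X + 2) ^ c` with `c` from `exists_pT_le`.  `uniformProb_eq_avgN`, `avgN_digs` (`2 ^ R = (2 ^ r) ^ T * 2 ^ (R - T r)`), `card_tabs`, `mC_law`;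
`1 / s ≤ 1 / ⌈ε⁻¹⌉ ≤ ε`, `2⁻¹ ^ ℓ ≤ 1 / δ.den ≤ δ`, every number in the code is `< 2 ^ ℓ` (`length_natCode`), sums are `< 2 ^ s`.
-/

set_option autoImplicit false

noncomputable section

namespace Crest.Agent.R309

open Finset Crest.Agent.Lib.PolyTime Crest.Enc Crest.FinProb Crest.Randomized Crest.Tables

theorem fin79_parse : ∃ dec : List Bool → Tab, PT dec ∧
    ∀ (m n : ℕ) (rs : Fin m → ℕ) (cs : Fin n → ℕ) (b : Fin m → Fin n → ℕ) (rest : List Bool),
      dec (marginsCode rs cs ++ boundsCode b ++ rest) =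
        ⟨List.ofFn rs, List.ofFn cs, flat b⟩ := by
  obtain ⟨dec, h1, h2⟩ := (((((Parses.nat (ι := Unit)).seq Parses.nat).seq
    (Parses.nat.many (k := fun p : Unit × (ℕ × ℕ) => p.2.1) (by fun_prop))).seq
    (Parses.nat.many (k := fun p : Unit × ((ℕ × ℕ) × List ℕ) => p.2.1.2) (by fun_prop))).seq
    (Parses.nat.many (k := fun p : Unit × (((ℕ × ℕ) × List ℕ) × List ℕ) => p.2.1.1.1 * p.2.1.1.2)
      (by fun_prop))).exists_decoder_rest
  refine ⟨fun x => ⟨(dec x).1.1.1.2, (dec x).1.1.2, (dec x).1.2⟩,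
    pt_mkTab (by fun_prop) (by fun_prop) (by fun_prop), fun m n rs cs b rest => ?_⟩
  have := h2 ((((m, n), List.ofFn rs), List.ofFn cs), flat b) rest
    ⟨⟨⟨⟨trivial, trivial⟩, by simp, fun a _ => ⟨trivial, natCode_ne_nil a⟩⟩, by simp,
      fun a _ => ⟨trivial, natCode_ne_nil a⟩⟩, length_flat b,
      fun a _ => ⟨trivial, natCode_ne_nil a⟩⟩
  rw [boundsCode_eq]
  unfold marginsCode
  simp only at this ⊢
  rw [this]

theorem fin79_len (l : List ℕ) :
    l.length ≤ (l.map natCode).flatten.length ∧ l.sum < 2 ^ (l.map natCode).flatten.length := by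
  induction l with
  | nil => simp
  | cons x l ih =>
    obtain ⟨h1, h2⟩ := ih
    simp only [List.map_cons, List.flatten_cons, List.length_append, List.length_cons,
      List.sum_cons, length_natCode]
    refine ⟨by omega, ?_⟩
    generalize (l.map natCode).flatten.length = L at h2
    have h3 : x < 2 ^ x.size := Nat.lt_size_self x
    have h4 : 2 ^ x.size ≤ 2 ^ (2 * x.size + L) := Nat.pow_le_pow_right (by norm_num) (by omega)
    have h5 : 2 ^ L ≤ 2 ^ (2 * x.size + L) := Nat.pow_le_pow_right (by norm_num) (by omega)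
    rw [show 2 * x.size + 2 + L = 2 * x.size + L + 2 by ring, pow_add _ _ 2]
    omega

theorem fin79_OK {m n : ℕ} (rs : Fin m → ℕ) (cs : Fin n → ℕ) (b : Fin m → Fin n → ℕ) {l : ℕ}
    (hl : (marginsCode rs cs ++ boundsCode b).length ≤ l) :
    (Tab.mk (List.ofFn rs) (List.ofFn cs) (flat b)).OK (2 * (l + 10) ^ 2) := by
  obtain ⟨a1, a2⟩ := fin79_len (List.ofFn rs)
  obtain ⟨b1, b2⟩ := fin79_len (List.ofFn cs)
  obtain ⟨-, c2⟩ := fin79_len (flat b)
  rw [boundsCode_eq] at hl
  unfold marginsCode at hl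
  simp only [List.length_append] at hl
  have hs : l ≤ 2 * (l + 10) ^ 2 := by nlinarith
  have hp : ∀ L, L ≤ l → 2 ^ L ≤ 2 ^ (2 * (l + 10) ^ 2) := fun L hL =>
    Nat.pow_le_pow_right (by norm_num) (hL.trans hs)
  refine ⟨by nlinarith, ?_, a2.trans_le (hp _ (by omega)), b2.trans_le (hp _ (by omega)),
    fun x hx => ((List.le_sum_of_mem hx).trans_lt c2).trans_le (hp _ (by omega))⟩
  refine Nat.mul_le_mul_left 2 (Nat.pow_le_pow_left ?_ 2)
  change (List.ofFn rs).length + (List.ofFn cs).length + 2 ≤ l + 10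
  omega

theorem fin79_delta {δ : ℚ} (hδ : 0 < δ) {l : ℕ} (hl : (ratCode δ).length ≤ l) :
    (2⁻¹ : ℝ) ^ l ≤ δ := by
  have h1 : δ.den ≤ 2 ^ l := by
    refine (Nat.lt_size_self _).le.trans (Nat.pow_le_pow_right (by norm_num) ?_)
    simp only [ratCode, List.length_cons, List.length_append, length_natCode] at hl
    omega
  have h2 : (1 : ℝ) ≤ δ.num := by exact_mod_cast Rat.num_pos.2 hδ
  have h3 : (0 : ℝ) < δ.den := by exact_mod_cast δ.den_pos
  have h4 : (δ.den : ℝ) ≤ 2 ^ l := by exact_mod_cast h1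
  rw [Rat.cast_def, inv_pow, ← one_div]
  exact div_le_div₀ (by linarith) h2 h3 h4

theorem fin79 :
    ∃ (A : List Bool × List Bool → List Bool) (r : Polynomial ℕ), RandPolyTime A ∧
      ∀ (m n : ℕ) (rs : Fin m → ℕ) (cs : Fin n → ℕ) (b : Fin m → Fin n → ℕ) (ε δ : ℚ),
        0 < ε → ε < 1 → 0 < δ → δ < 1 →
        (∀ ω : Fin (r.eval (marginsCode rs cs ++ boundsCode b ++ ratCode ε ++ ratCode δ ++ List.replicate ⌈ε⁻¹⌉₊ true).length) → Bool,
          ∃ z : ℚ, 0 ≤ z ∧ A (marginsCode rs cs ++ boundsCode b ++ ratCode ε ++ ratCode δ ++ List.replicate ⌈ε⁻¹⌉₊ true, List.ofFn ω) = ratCode z) ∧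
        (numBoundedTables rs cs b = 0 →
          ∀ ω : Fin (r.eval (marginsCode rs cs ++ boundsCode b ++ ratCode ε ++ ratCode δ ++
              List.replicate ⌈ε⁻¹⌉₊ true).length) → Bool,
            A (marginsCode rs cs ++ boundsCode b ++ ratCode ε ++ ratCode δ ++
              List.replicate ⌈ε⁻¹⌉₊ true, List.ofFn ω) = ratCode 0) ∧
        1 - (δ : ℝ) ≤ uniformProb {ω : Fin (r.eval (marginsCode rs cs ++ boundsCode b ++ ratCode ε ++
              ratCode δ ++ List.replicate ⌈ε⁻¹⌉₊ true).length) → Bool |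
            ∃ z : ℚ, A (marginsCode rs cs ++ boundsCode b ++ ratCode ε ++ ratCode δ ++
                List.replicate ⌈ε⁻¹⌉₊ true, List.ofFn ω) = ratCode z ∧
              (1 - ε) * numBoundedTables rs cs b ≤ z ∧ z ≤ (1 + ε) * numBoundedTables rs cs b} := by
  obtain ⟨dec, hdec, hd⟩ := fin79_parse
  obtain ⟨c, hc⟩ := exists_pT_le
  set inp : List Bool → In := fun x =>
    (List.replicate (2 * (x.length + 10) ^ 2) (), List.replicate x.length (), dec x) with hinp
  have hi : PT inp := by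
    refine PT.prodMk (PT.replicate ?_ ?_ (PT.const _))
      (PT.prodMk (PT.replicate ?_ ?_ (PT.const _)) hdec) <;> fun_prop
  refine ⟨fun p => ratCode (mC.run (inp p.1)
      (digs (2 ^ mC.r (inp p.1)) (mC.T (inp p.1)) (ofBits p.2))),
    (2 * (Polynomial.X + 10) ^ 2 + Polynomial.X + 2) ^ c,
    PT.randPolyTime (PT.ratCode (mC_poly.run_digs.comp
      (g := fun p : List Bool × List Bool => (inp p.1, ofBits p.2))
      ((hi.comp PT.fst').prodMk (by fun_prop)))), ?_⟩
  intro m n rs cs b ε δ hε _ hδ _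
  generalize hx : marginsCode rs cs ++ boundsCode b ++ ratCode ε ++ ratCode δ ++
    List.replicate ⌈ε⁻¹⌉₊ true = x
  have hlen : (marginsCode rs cs ++ boundsCode b).length + (ratCode ε).length +
      (ratCode δ).length + ⌈ε⁻¹⌉₊ = x.length := by
    rw [← hx]
    simp only [List.length_append, List.length_replicate]
  have htab : (inp x).2.2 = ⟨List.ofFn rs, List.ofFn cs, flat b⟩ := by
    change dec x = _
    rw [← hx, List.append_assoc (marginsCode rs cs ++ boundsCode b),
      List.append_assoc (marginsCode rs cs ++ boundsCode b), hd]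
  have hs : (inp x).1.length = 2 * (x.length + 10) ^ 2 := by simp [hinp]
  have hk : (inp x).2.1.length = x.length := by simp [hinp]
  have hsl : x.length ≤ 2 * (x.length + 10) ^ 2 := by nlinarith
  have hOK : (inp x).2.2.OK (inp x).1.length := by
    rw [htab, hs]
    exact fin79_OK rs cs b (by omega)
  have hcard : (inp x).2.2.tabs.card = numBoundedTables rs cs b := by rw [htab, card_tabs]
  refine ⟨fun ω => ⟨_, mC_nonneg _ _, rfl⟩, fun h0 ω => ?_, ?_⟩
  · exact congrArg ratCode (mC_zero hOK (hcard.trans h0) _)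
  · have hR : mC.r (inp x) * mC.T (inp x) ≤
        ((2 * (Polynomial.X + 10) ^ 2 + Polynomial.X + 2 : Polynomial ℕ) ^ c).eval x.length := by
      have := hc (inp x).1.length (inp x).2.1.length
      rw [mul_comm]
      refine le_trans this (le_of_eq ?_)
      rw [hs, hk]
      simp
    generalize ((2 * (Polynomial.X + 10) ^ 2 + Polynomial.X + 2 : Polynomial ℕ) ^ c).eval
      x.length = R at hR ⊢
    have hlaw := mC_law hOK (by
      rw [hs, hk]
      exact hsl.trans Nat.lt_two_pow_self.le)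
    rw [hcard, hk, hs] at hlaw
    have hε' : 1 / ((2 * (x.length + 10) ^ 2 : ℕ) : ℚ) ≤ ε := by
      have h1 : ε⁻¹ ≤ ((2 * (x.length + 10) ^ 2 : ℕ) : ℚ) :=
        (Nat.le_ceil _).trans (by exact_mod_cast (by omega))
      rw [one_div]
      exact inv_le_of_inv_le₀ hε h1
    have hδ' := fin79_delta hδ (l := x.length) (by omega)
    rw [uniformProb_eq_avgN R (fun U => ∃ z : ℚ, ratCode (mC.run (inp x)
        (digs (2 ^ mC.r (inp x)) (mC.T (inp x)) U)) = ratCode z ∧
          (1 - ε) * numBoundedTables rs cs b ≤ z ∧ z ≤ (1 + ε) * numBoundedTables rs cs b),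
      show 2 ^ R = (2 ^ mC.r (inp x)) ^ mC.T (inp x) * 2 ^ (R - mC.r (inp x) * mC.T (inp x)) by
        rw [← pow_mul, ← pow_add, Nat.add_sub_cancel' hR],
      avgN_digs (by positivity) (by positivity) (mC.T (inp x)) (fun us => ind (∃ z : ℚ,
        ratCode (mC.run (inp x) us) = ratCode z ∧
          (1 - ε) * numBoundedTables rs cs b ≤ z ∧ z ≤ (1 + ε) * numBoundedTables rs cs b))]
    refine le_trans (by linarith) (hlaw.trans (avgL_mono fun us _ => ind_mono ?_))
    rintro ⟨h1, h2⟩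
    have hN : (0 : ℚ) ≤ numBoundedTables rs cs b := Nat.cast_nonneg _
    exact ⟨_, rfl, le_trans (mul_le_mul_of_nonneg_right (by linarith) hN) h1,
      h2.trans (mul_le_mul_of_nonneg_right (by linarith) hN)⟩

end Crest.Agent.R309
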