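import Crest.Agent.R309.Core
import Crest.Agent.R309.Par
import Crest.Prelude.Def_Randomized

/-!
# Row 309: Fin80
Final assembly of S0480.  As `Fin79` with `bs = replicate (|rs| * |cs|) (sum rs)` (`flat_const`), the machine `mS` run with `k' = ℓ ≥ k`, output
`natCode m ++ natCode n ++ (y.map natCode).flatten` (`matrixCode_eq`).  `tv_le`: if `p, u ≥ 0` both sum to `1` and `p ≤ (1 + η) u` then `∑ |p - u| / 2 = ∑ (p - u)⁺ ≤ η`.
The events `A = matrixCode X` and `run = flat X` agree (codes are injective: parse them, or `flat_injective` + prefix-freeness); `exists_table`, `isTab_iff`, `IsTable.le_sum`, `card_tabs`.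
-/

set_option autoImplicit false

noncomputable section

namespace Crest.Agent.R309

open Finset Crest.Agent.Lib.PolyTime Crest.Enc Crest.FinProb Crest.Randomized Crest.Tables

theorem tv_le {ι : Type} [Fintype ι] {p u : ι → ℝ} {η : ℝ} (hp : ∑ i, p i = 1) (hu : ∑ i, u i = 1)
    (hu0 : ∀ i, 0 ≤ u i) (hη : 0 ≤ η) (h : ∀ i, p i ≤ (1 + η) * u i) : (∑ i, |p i - u i|) / 2 ≤ η := by
  have h1 : ∀ i, |p i - u i| ≤ 2 * (η * u i) - (p i - u i) := fun i => by
    have := h i
    have h2 := mul_nonneg hη (hu0 i)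
    rw [abs_le]
    constructor <;> nlinarith
  have h2 := Finset.sum_le_sum fun i (_ : i ∈ univ) => h1 i
  rw [Finset.sum_sub_distrib, Finset.sum_sub_distrib, ← Finset.mul_sum, ← Finset.mul_sum, hp, hu] at h2
  linarith

namespace Fin80

theorem codes_inj : ∀ y y' : List ℕ, (y.map natCode).flatten = (y'.map natCode).flatten → y = y'
  | [], [], _ => rfl
  | [], a :: _, h => by simp [natCode_ne_nil] at h
  | a :: _, [], h => by simp [natCode_ne_nil] at h
  | a :: y, a' :: y', h => by
    obtain ⟨dec, -, hdec⟩ := (Parses.nat (ι := Unit)).exists_decoder_rest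
    simp only [List.map_cons, List.flatten_cons] at h
    have h1 := hdec a (y.map natCode).flatten trivial
    rw [h, hdec a' _ trivial] at h1
    obtain ⟨h2, h3⟩ := Prod.mk.inj h1
    rw [h2, codes_inj y y' h3.symm]

theorem codes_len (y : List ℕ) :
    y.length ≤ (y.map natCode).flatten.length ∧ y.sum < 2 ^ (y.map natCode).flatten.length := by
  induction y with
  | nil => simp
  | cons a y ih =>
    simp only [List.map_cons, List.flatten_cons, List.length_append, List.length_cons, List.sum_cons,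
      length_natCode]
    refine ⟨by omega, ?_⟩
    have h1 := Nat.lt_size_self a
    set L := (y.map natCode).flatten.length
    have h2 : 2 ^ a.size ≤ 2 ^ (2 * a.size + 1 + L) := Nat.pow_le_pow_right (by omega) (by omega)
    have h3 : 2 ^ L ≤ 2 ^ (2 * a.size + 1 + L) := Nat.pow_le_pow_right (by omega) (by omega)
    rw [show 2 * a.size + 2 + L = 2 * a.size + 1 + L + 1 by omega, pow_succ]
    omega

theorem exists_parse : ∃ dec : List Bool → List ℕ × List ℕ, PT dec ∧
    ∀ (m n : ℕ) (rs : Fin m → ℕ) (cs : Fin n → ℕ) (r : List Bool),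
      dec (marginsCode rs cs ++ r) = (List.ofFn rs, List.ofFn cs) := by
  obtain ⟨dec, h1, h2⟩ := ((Parses.nat (ι := Unit)).seq ((Parses.nat (ι := Unit × ℕ)).seq
    (((Parses.nat (ι := (Unit × ℕ) × ℕ)).many (k := fun p => p.1.2) (by fun_prop)).seq
      ((Parses.nat (ι := ((Unit × ℕ) × ℕ) × List ℕ)).many (k := fun p => p.1.2)
        (by fun_prop))))).exists_decoder_rest
  refine ⟨fun x => (dec x).1.2.2, by fun_prop, fun m n rs cs r => ?_⟩
  have := h2 (m, n, List.ofFn rs, List.ofFn cs) r
    ⟨trivial, trivial, ⟨by simp, fun a _ => ⟨trivial, natCode_ne_nil a⟩⟩,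
      ⟨by simp, fun a _ => ⟨trivial, natCode_ne_nil a⟩⟩⟩
  simp only [marginsCode, List.append_assoc] at this ⊢
  rw [this]

/-- the input of the machine -/
def inp (ℓ : ℕ) (rs cs : List ℕ) : In :=
  (List.replicate (2 * (ℓ + 10) ^ 2) (), List.replicate ℓ (),
    ⟨rs, cs, List.replicate (rs.length * cs.length) rs.sum⟩)

theorem inp_ok {ℓ : ℕ} {rs cs : List ℕ}
    (h : (rs.map natCode).flatten.length + (cs.map natCode).flatten.length ≤ ℓ) :
    (inp ℓ rs cs).2.2.OK (inp ℓ rs cs).1.length ∧ (inp ℓ rs cs).2.1.length ≤ 2 ^ (inp ℓ rs cs).1.length := by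
  have h1 := codes_len rs
  have h2 := codes_len cs
  have h3 : ℓ ≤ 2 * (ℓ + 10) ^ 2 := by nlinarith
  have h4 : ∀ L, L ≤ ℓ → 2 ^ L ≤ 2 ^ (2 * (ℓ + 10) ^ 2) := fun L hL =>
    Nat.pow_le_pow_right (by omega) (hL.trans h3)
  have h5 : rs.sum < 2 ^ (2 * (ℓ + 10) ^ 2) := h1.2.trans_le (h4 _ (by omega))
  simp only [inp, List.length_replicate]
  refine ⟨⟨by nlinarith, ?_, h5, h2.2.trans_le (h4 _ (by omega)), fun x hx => ?_⟩,
    (Nat.lt_two_pow_self).le.trans (h4 ℓ le_rfl)⟩
  · exact Nat.mul_le_mul_left _ (Nat.pow_le_pow_left (by simp only [Tab.nr, Tab.nc]; omega) 2)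
  · rw [List.eq_of_mem_replicate hx]
    exact h5

end Fin80

open Fin80 in
theorem fin80 :
    ∃ (A : List Bool × List Bool → List Bool) (r : Polynomial ℕ), RandPolyTime A ∧
      ∀ (m n : ℕ) (rs : Fin m → ℕ) (cs : Fin n → ℕ) (k : ℕ), 1 ≤ k → ∑ i, rs i = ∑ j, cs j →
        (∀ ω : Fin (r.eval (marginsCode rs cs ++ List.replicate k true).length) → Bool,
          ∃ X : Fin m → Fin n → ℕ, IsTable rs cs X ∧
            A (marginsCode rs cs ++ List.replicate k true, List.ofFn ω) = matrixCode X) ∧
        (∑ X : (i : Fin m) → (j : Fin n) → Fin (∑ i, rs i + 1),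
            |uniformProb {ω : Fin (r.eval (marginsCode rs cs ++ List.replicate k true).length) → Bool |
                A (marginsCode rs cs ++ List.replicate k true, List.ofFn ω) =
                  matrixCode (fun i j => (X i j : ℕ))} -
              uniformTableWeight rs cs (fun i j => (X i j : ℕ))|) / 2
          ≤ (2 : ℝ)⁻¹ ^ k := by
  classical
  obtain ⟨dec, hdec, hdec'⟩ := exists_parse
  obtain ⟨c, hc⟩ := exists_pT_le
  let φ : List Bool → In := fun x => inp x.length (dec x).1 (dec x).2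
  have hφ : PT φ := by
    have h1 : PT fun x : List Bool => (⟨(dec x).1, (dec x).2,
        List.replicate ((dec x).1.length * (dec x).2.length) (dec x).1.sum⟩ : Tab) :=
      pt_mkTab (by fun_prop) (by fun_prop) (by fun_prop)
    unfold φ inp
    fun_prop
  let F : List Bool × ℕ → List ℕ := fun p => mS.run (φ p.1) (digs (2 ^ mS.r (φ p.1)) (mS.T (φ p.1)) p.2)
  have hF : PT F := mS_poly.run_digs.comp (g := fun p : List Bool × ℕ => (φ p.1, p.2)) (by fun_prop)
  refine ⟨fun p => natCode (dec p.1).1.length ++ natCode (dec p.1).2.length ++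
    ((F (p.1, ofBits p.2)).map natCode).flatten, (2 * (Polynomial.X + 10) ^ 2 + Polynomial.X + 2) ^ c,
    PT.randPolyTime (by fun_prop), fun m n rs cs k _ hsum => ?_⟩
  set x := marginsCode rs cs ++ List.replicate k true with hx
  have hd : dec x = (List.ofFn rs, List.ofFn cs) := hdec' m n rs cs _
  have hlen : ((List.ofFn rs).map natCode).flatten.length + ((List.ofFn cs).map natCode).flatten.length + k ≤
      x.length := by
    simp only [hx, marginsCode, List.length_append, List.length_replicate]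
    omega
  have hφx : φ x = inp x.length (List.ofFn rs) (List.ofFn cs) := by simp only [φ, hd]
  obtain ⟨hok, hk⟩ := inp_ok (ℓ := x.length) (rs := List.ofFn rs) (cs := List.ofFn cs) (by omega)
  rw [← hφx] at hok hk
  have hT : (φ x).2.2 = ⟨List.ofFn rs, List.ofFn cs, flat fun (_ : Fin m) (_ : Fin n) => ∑ i, rs i⟩ := by
    simp only [hφx, inp, flat_const, List.length_ofFn, List.sum_ofFn]
  have hmem : ∀ y, y ∈ (φ x).2.2.tabs ↔ ∃ X : Fin m → Fin n → ℕ, IsTable rs cs X ∧ y = flat X := fun y => by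
    rw [Tab.mem_tabs, hT, isTab_iff]
    exact ⟨fun ⟨X, h1, _, h3⟩ => ⟨X, h1, h3⟩, fun ⟨X, h1, h3⟩ => ⟨X, h1, IsTable.le_sum h1, h3⟩⟩
  have hne : (φ x).2.2.tabs.Nonempty := by
    obtain ⟨X, hX⟩ := exists_table rs cs hsum
    exact ⟨_, (hmem _).2 ⟨X, hX, rfl⟩⟩
  have hcard : (φ x).2.2.tabs.card = numBoundedTables rs cs fun _ _ => ∑ i, rs i := by rw [hT, card_tabs]
  have hpos : 0 < 2 ^ mS.r (φ x) := by positivity
  have hrun : ∀ us, Tape (2 ^ mS.r (φ x)) (mS.T (φ x)) us →
      ∃ X : Fin m → Fin n → ℕ, IsTable rs cs X ∧ mS.run (φ x) us = flat X := fun us hus =>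
    (hmem _).1 (mS_mem hok hk hne hus.1)
  refine ⟨fun ω => ?_, ?_⟩
  · obtain ⟨X, h1, h2⟩ := hrun _ (tape_digs hpos _ (ofBits (List.ofFn ω)))
    refine ⟨X, h1, ?_⟩
    simp only [F, h2, hd, List.length_ofFn, matrixCode_eq]
  set R := ((2 * (Polynomial.X + 10) ^ 2 + Polynomial.X + 2) ^ c : Polynomial ℕ).eval x.length with hR
  have hRle : mS.T (φ x) * mS.r (φ x) ≤ R := by
    have := hc (2 * (x.length + 10) ^ 2) x.length
    simp only [hφx, mS, inp, List.length_replicate, hR, Polynomial.eval_pow, Polynomial.eval_add,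
      Polynomial.eval_mul, Polynomial.eval_X, Polynomial.eval_ofNat]
    exact this
  have hprob : ∀ X : Fin m → Fin n → ℕ,
      uniformProb {ω : Fin R → Bool | natCode (dec x).1.length ++ natCode (dec x).2.length ++
        ((F (x, ofBits (List.ofFn ω))).map natCode).flatten = matrixCode X} =
      avgL (2 ^ mS.r (φ x)) (mS.T (φ x)) fun us => ind (mS.run (φ x) us = flat X) := fun X => by
    rw [uniformProb_eq_avgN R fun U => natCode (dec x).1.length ++ natCode (dec x).2.length ++
        ((F (x, U)).map natCode).flatten = matrixCode X,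
      show 2 ^ R = (2 ^ mS.r (φ x)) ^ mS.T (φ x) * 2 ^ (R - mS.T (φ x) * mS.r (φ x)) by
        rw [← pow_mul, ← pow_add, mul_comm, Nat.add_sub_cancel' hRle],
      ← avgN_digs hpos (by positivity : 0 < 2 ^ (R - mS.T (φ x) * mS.r (φ x)))]
    refine avgN_congr fun U _ => ?_
    congr 1
    simp only [F, hd, List.length_ofFn, matrixCode_eq, List.append_cancel_left_eq, eq_iff_iff]
    exact ⟨codes_inj _ _, fun h => by rw [h]⟩
  simp only [hprob]
  have hN : (0 : ℝ) < numBoundedTables rs cs fun _ _ => ∑ i, rs i := by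
    rw [← hcard]
    exact_mod_cast hne.card_pos
  refine (tv_le (η := 2⁻¹ ^ x.length) ?_ ?_ ?_ (by positivity) ?_).trans
    (pow_le_pow_of_le_one (by norm_num) (by norm_num) (by omega))
  · rw [← avgL_sum, ← avgL_const hpos (mS.T (φ x)) 1]
    refine avgL_congr fun us hus => ?_
    obtain ⟨X, h1, h2⟩ := hrun us hus
    rw [h2, Finset.sum_eq_single (fun i j => ⟨X i j, Nat.lt_succ_of_le (IsTable.le_sum h1 i j)⟩)]
    · exact ind_of rfl
    · intro Y _ hY
      refine ind_of_not fun h => hY ?_
      funext i j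
      exact Fin.ext (congrFun (congrFun (flat_injective h) i) j).symm
    · simp
  · unfold uniformTableWeight
    rw [← Finset.sum_filter, Finset.sum_const, nsmul_eq_mul, mul_one_div, div_eq_one_iff_eq hN.ne']
    unfold numBoundedTables
    rw [Fintype.card_subtype]
    congr 2
    ext X
    simp [IsTable]
  · intro X
    unfold uniformTableWeight
    split_ifs
    exacts [div_nonneg zero_le_one hN.le, le_rfl]
  · intro X
    unfold uniformTableWeight
    split_ifs with h
    · have := mS_law hok hk ((hmem _).2 ⟨_, h, rfl⟩)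
      rw [hcard] at this
      refine this.trans_eq ?_
      simp only [hφx, inp, List.length_replicate]
      ring
    · rw [mul_zero, ← avgL_const hpos (mS.T (φ x)) 0]
      refine avgL_mono fun us hus => (ind_of_not fun h' => h ?_).le
      obtain ⟨Y, h1, h2⟩ := hrun us hus
      rwa [flat_injective (h2.symm.trans h')] at h1

end Crest.Agent.R309
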