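import Crest.Agent.R309.Core
import Crest.Agent.R309.Par
import Crest.Agent.R309.RamF

/-!
# Row 309: Fin81
Final assembly of S0481.  Order of the choices: `c` from `exists_ram`; `G', d` from `mS_poly.exact` with `k a = a.2.1.length`; `cB` from `exists_pB_le`; `κ = d * c + 1`; `s₀ ≥ 20` with
`κ (s + 2) ^ cB ≤ 2 ^ s` for `s ≥ s₀` (`exists_s0`).  For `x = m :: n :: rs ++ cs`: `s x = s₀ + 2 * (x.length + (x.drop 2).sum.size) ^ 2`, `k x = κ * (s x + 2) ^ cB`,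
`φ x = (replicate (s x) (), replicate (k x) (), ⟨rs, cs, replicate (|rs| * |cs|) rs.sum⟩)` with `rs = (x.drop 2).take x[0]`, `cs = (x.drop 2).drop x[0]`; `G (x, U) = G' (φ x, U)` (`PT.exists_CT`, `CT.comp`).
With `S = m + n + clog 2 (N + 2) + 1` all of `s, k, k + T r, esize x, esize (φ x)` are `≤ (S + 2) ^ a` (`PolyIn`, `exists_pT_le`); `w = c₀ S ^ c₁` from `exists_w`, `esize U ≤ 6 w + 1`.
Round time: `τ U ≤ C' (w + 1) ^ e` if `U % 2 ^ k ≠ 0` and `≤ C' (w + 1) ^ e * 2 ^ (d c (B + 1 + r))` otherwise (probability `2⁻ᵏ`, `avgN_mod`), `d c (B + 1 + r) ≤ k`; so the average is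
`≤ 2 C' (w + 1) ^ e`.  Then `Rounds.time`, `Rounds.out`, `Rounds.law`, `card_tabs_le` (`5 s² ≤ k`), `mS_mem`, `mS_law`, `isTab_iff`, `card_tabs`, `exists_table`.
-/

set_option autoImplicit false

noncomputable section

namespace Crest.Agent.R309

open Finset Crest.Agent.Lib.PolyTime Crest.Tables

theorem exists_s0 (κ c : ℕ) : ∃ s₀ : ℕ, 20 ≤ s₀ ∧ ∀ s, s₀ ≤ s → κ * (s + 2) ^ c ≤ 2 ^ s := by
  have h := (tendsto_pow_const_div_const_pow_of_one_lt c (one_lt_two (α := ℝ))).eventually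
    (gt_mem_nhds (show (0 : ℝ) < 1 / (4 * κ + 1) by positivity))
  obtain ⟨n₀, hn₀⟩ := Filter.eventually_atTop.1 h
  refine ⟨max 20 n₀, le_max_left _ _, fun s hs => ?_⟩
  have h1 := hn₀ (s + 2) (by omega)
  rw [div_lt_div_iff₀ (by positivity) (by positivity), one_mul, pow_add] at h1
  have h2 : (0 : ℝ) ≤ ((s + 2 : ℕ) : ℝ) ^ c := by positivity
  have h3 : (κ : ℝ) * ((s + 2 : ℕ) : ℝ) ^ c ≤ 2 ^ s := by nlinarith
  exact_mod_cast h3

theorem exists_w (C e a : ℕ) : ∃ c₀ c₁ : ℕ, ∀ S : ℕ, 1 ≤ S → (S + 2) ^ a ≤ c₀ * S ^ c₁ ∧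
    C * (c₀ * S ^ c₁ + 1) ^ e * 2 ^ ((S + 2) ^ a) < 2 ^ (c₀ * S ^ c₁) := by
  obtain ⟨s₀, h20, hs₀⟩ := exists_s0 (C * 2 ^ e + 1) e
  refine ⟨2 * (s₀ * 3 ^ a), a, fun S hS => ?_⟩
  have h1 : (S + 2) ^ a ≤ 3 ^ a * S ^ a := by
    rw [← mul_pow]
    exact Nat.pow_le_pow_left (by omega) a
  have h2 : 1 ≤ 3 ^ a * S ^ a := le_trans (Nat.one_le_pow _ _ (by omega)) h1
  rw [mul_assoc, mul_assoc s₀]
  generalize 3 ^ a * S ^ a = Q at h1 h2
  have h3 : Q ≤ s₀ * Q := Nat.le_mul_of_pos_left _ (by omega)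
  have h4 := hs₀ (s₀ * Q) (Nat.le_mul_of_pos_right _ h2)
  generalize s₀ * Q = v at h3 h4
  refine ⟨by omega, ?_⟩
  have h5 : (2 * v + 1) ^ e ≤ 2 ^ e * (v + 2) ^ e := by
    rw [← mul_pow]
    exact Nat.pow_le_pow_left (by omega) e
  have h6 : 0 < (v + 2) ^ e := by positivity
  have h7 : C * (2 * v + 1) ^ e < 2 ^ v := by
    have := Nat.mul_le_mul_left C h5
    rw [add_mul, one_mul, mul_assoc] at h4
    omega
  have h8 : 2 ^ ((S + 2) ^ a) ≤ 2 ^ v := Nat.pow_le_pow_right (by omega) (h1.trans h3)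
  rw [two_mul v, pow_add, ← two_mul v]
  exact Nat.mul_lt_mul_of_lt_of_le h7 h8 (by positivity)

/-- the parameter `s` -/
def f81s (s₀ : ℕ) (x : List ℕ) : ℕ := s₀ + 2 * (x.length + (x.drop 2).sum.size) ^ 2

/-- the parameter `k` -/
def f81k (s₀ κ c : ℕ) (x : List ℕ) : ℕ := κ * (f81s s₀ x + 2) ^ c

/-- the margins -/
def f81T (x : List ℕ) : Tab :=
  ⟨(x.drop 2).take (x.getD 0 0), (x.drop 2).drop (x.getD 0 0),
    List.replicate (((x.drop 2).take (x.getD 0 0)).length * ((x.drop 2).drop (x.getD 0 0)).length)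
      ((x.drop 2).take (x.getD 0 0)).sum⟩

/-- the input of the machine -/
def f81φ (s₀ κ c : ℕ) (x : List ℕ) : In :=
  (List.replicate (f81s s₀ x) (), List.replicate (f81k s₀ κ c x) (), f81T x)

theorem f81s_pt (s₀ : ℕ) : PT (f81s s₀) :=
  (PT.const s₀).nat_add ((PT.const 2).nat_mul (((PT.length PT.id').nat_add
    (PT.natSize (PT.drop (PT.const 2) PT.id').nat_sum)).nat_pow (PT.const 2) (PB.const 2)))

theorem f81s_pb (s₀ : ℕ) : PB (f81s s₀) :=
  (PB.const s₀).add ((PB.const 2).mul (((PB.length PT.id').add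
    (PB.natSize (PT.drop (PT.const 2) PT.id').nat_sum)).pow 2))

theorem f81k_pt (s₀ κ c : ℕ) : PT (f81k s₀ κ c) :=
  (PT.const κ).nat_mul (((f81s_pt s₀).nat_add (PT.const 2)).nat_pow (PT.const c) (PB.const c))

theorem f81k_pb (s₀ κ c : ℕ) : PB (f81k s₀ κ c) :=
  (PB.const κ).mul (((f81s_pb s₀).add (PB.const 2)).pow c)

theorem f81T_pt : PT f81T := by
  have h : PT fun x : List ℕ => ((x.drop 2).take (x.getD 0 0), (x.drop 2).drop (x.getD 0 0),
    List.replicate (((x.drop 2).take (x.getD 0 0)).length * ((x.drop 2).drop (x.getD 0 0)).length)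
      ((x.drop 2).take (x.getD 0 0)).sum) := by fun_prop
  exact h.of_enc_eq_out fun _ => rfl

theorem f81φ_pt (s₀ κ c : ℕ) : PT (f81φ s₀ κ c) :=
  ((f81s_pt s₀).replicate (f81s_pb s₀) (PT.const ())).prodMk
    (((f81k_pt s₀ κ c).replicate (f81k_pb s₀ κ c) (PT.const ())).prodMk f81T_pt)

theorem f81T_eq {m n : ℕ} (rs : Fin m → ℕ) (cs : Fin n → ℕ) :
    f81T (m :: n :: (List.ofFn rs ++ List.ofFn cs)) =
      ⟨List.ofFn rs, List.ofFn cs, flat fun (_ : Fin m) (_ : Fin n) => ∑ i, rs i⟩ := by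
  have h1 : (List.ofFn rs ++ List.ofFn cs).take m = List.ofFn rs := List.take_left' (by simp)
  have h2 : (List.ofFn rs ++ List.ofFn cs).drop m = List.ofFn cs := List.drop_left' (by simp)
  simp only [f81T, List.drop_succ_cons, List.drop_zero, List.getD_cons_zero, h1, h2, flat_const,
    List.length_ofFn, List.sum_ofFn]

theorem f81_ok {s₀ : ℕ} (h20 : 20 ≤ s₀) {m n : ℕ} (rs : Fin m → ℕ) (cs : Fin n → ℕ)
    (h : ∑ i, rs i = ∑ j, cs j) :
    (f81T (m :: n :: (List.ofFn rs ++ List.ofFn cs))).OK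
      (f81s s₀ (m :: n :: (List.ofFn rs ++ List.ofFn cs))) := by
  have e : f81s s₀ (m :: n :: (List.ofFn rs ++ List.ofFn cs)) =
      s₀ + 2 * (m + n + 2 + (∑ i, rs i + ∑ j, cs j).size) ^ 2 := by
    simp [f81s, List.sum_ofFn]
  have h1 : ∑ i, rs i + ∑ j, cs j < 2 ^ (∑ i, rs i + ∑ j, cs j).size := Nat.lt_size_self _
  rw [e, f81T_eq]
  generalize (∑ i, rs i + ∑ j, cs j).size = z at h1
  have h3 : m + n + 2 + z ≤ (m + n + 2 + z) ^ 2 := Nat.le_self_pow (by omega) _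
  have h4 : (m + n + 2) ^ 2 ≤ (m + n + 2 + z) ^ 2 := Nat.pow_le_pow_left (by omega) _
  have h2 : 2 ^ z ≤ 2 ^ (s₀ + 2 * (m + n + 2 + z) ^ 2) :=
    Nat.pow_le_pow_right (by omega) (by omega)
  refine ⟨by omega, ?_, ?_, ?_, fun x hx => ?_⟩
  · simp only [Tab.nr, Tab.nc, List.length_ofFn]
    omega
  · simp only [List.sum_ofFn]
    omega
  · simp only [List.sum_ofFn]
    omega
  · simp only [flat_const] at hx
    rw [List.eq_of_mem_replicate hx]
    omega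

theorem f81_esize {m n : ℕ} (rs : Fin m → ℕ) (cs : Fin n → ℕ) (h : ∑ i, rs i = ∑ j, cs j) :
    esize (m :: n :: (List.ofFn rs ++ List.ofFn cs)) + 1 ≤
      (m + n + Nat.clog 2 (∑ i, rs i + 2) + 1 + 2) ^ 4 := by
  have h1 : ∑ i, rs i + 2 ≤ 2 ^ Nat.clog 2 (∑ i, rs i + 2) := Nat.le_pow_clog one_lt_two _
  have h2 : 0 < Nat.clog 2 (∑ i, rs i + 2) := Nat.clog_pos one_lt_two (by omega)
  generalize Nat.clog 2 (∑ i, rs i + 2) = z at h1 h2
  have h3 : 2 ^ z ≤ 2 ^ (m + n + z + 1) := Nat.pow_le_pow_right (by omega) (by omega)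
  have h4 : m + n + z + 1 < 2 ^ (m + n + z + 1) := Nat.lt_two_pow_self
  have h5 := esize_list_le (l := m :: n :: (List.ofFn rs ++ List.ofFn cs))
    (B := 6 * (m + n + z + 1) + 1) fun a ha => esize_nat_le_of_lt_two_pow (by
      simp only [List.mem_cons, List.mem_append, List.mem_ofFn] at ha
      rcases ha with rfl | rfl | ⟨i, rfl⟩ | ⟨j, rfl⟩
      · omega
      · omega
      · have := single_le_sum (f := rs) (fun _ _ => Nat.zero_le _) (mem_univ i)
        omega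
      · have := single_le_sum (f := cs) (fun _ _ => Nat.zero_le _) (mem_univ j)
        omega)
  simp only [List.length_cons, List.length_append, List.length_ofFn] at h5
  have h6 : (m + n + 1 + 1) * (6 * (m + n + z + 1) + 1 + 1) ≤
      (m + n + z + 1) * (6 * (m + n + z + 1) + 1 + 1) := Nat.mul_le_mul_right _ (by omega)
  generalize m + n + z + 1 = S at h5 h6 ⊢
  have h7 : S * (6 * S + 1 + 1) + 2 ≤ (S + 2) ^ 4 := by
    have : (S + 2) ^ 4 = S ^ 4 + 8 * S ^ 3 + 24 * S ^ 2 + 32 * S + 16 := by ring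
    nlinarith [Nat.zero_le (S ^ 4), Nat.zero_le (S ^ 3)]
  omega

theorem f81_time {k₀ d c w A B L E F : ℕ} (hA : A ≤ 7 * w + 2) (hB : B ≤ 7 * w + 2) (hL : L ≤ w)
    (hE : E ≤ F) (hF : 1 ≤ F) :
    ((A + 1) ^ k₀ + (B + E + 2) ^ d + (L + 2) * (w + 1)) ^ c ≤
      (3 * 8 ^ (k₀ + d + 2)) ^ c * (w + 1) ^ ((k₀ + d + 2) * c) * F ^ (d * c) := by
  have h0 : 1 ≤ F ^ d := Nat.one_le_pow _ _ hF
  have h1 : (A + 1) ^ k₀ ≤ (8 * (w + 1)) ^ (k₀ + d + 2) * F ^ d :=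
    ((Nat.pow_le_pow_left (by omega) k₀).trans (Nat.pow_le_pow_right (by omega) (by omega))).trans
      (Nat.le_mul_of_pos_right _ h0)
  have h2 : (B + E + 2) ^ d ≤ (8 * (w + 1)) ^ (k₀ + d + 2) * F ^ d := by
    refine le_trans ?_ (Nat.mul_le_mul_right _
      (Nat.pow_le_pow_right (n := 8 * (w + 1)) (i := d) (by omega) (by omega)))
    rw [← mul_pow]
    exact Nat.pow_le_pow_left (by nlinarith) d
  have h3 : (L + 2) * (w + 1) ≤ (8 * (w + 1)) ^ (k₀ + d + 2) * F ^ d := by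
    refine le_trans ?_ ((Nat.pow_le_pow_right (n := 8 * (w + 1)) (i := 2) (by omega)
      (by omega)).trans (Nat.le_mul_of_pos_right _ h0))
    nlinarith
  rw [pow_mul, pow_mul, ← mul_pow, ← mul_pow]
  refine Nat.pow_le_pow_left ?_ c
  rw [mul_assoc 3, ← mul_pow, mul_assoc]
  omega

theorem f81_avg {k w : ℕ} (h : k ≤ w) :
    (avgN (2 ^ w) fun U => if U % 2 ^ k = 0 then (2 : ℝ) ^ k else 1) ≤ 2 := by
  rw [avgN_mod (a := 2 ^ k) (by positivity) (pow_dvd_pow 2 h)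
    fun x => if x = 0 then (2 : ℝ) ^ k else 1, Exact.avgN_split (by positivity),
    div_le_iff₀ (by positivity)]
  push_cast
  linarith

theorem fin81 :
    ∃ (P : Crest.WordRAM.Program) (c₀ c₁ C d : ℕ),
      ∀ (m n : ℕ) (rs : Fin m → ℕ) (cs : Fin n → ℕ), ∑ i, rs i = ∑ j, cs j →
        Crest.WordRAM.expectedTime P (c₀ * (m + n + Nat.clog 2 (∑ i, rs i + 2) + 1) ^ c₁)
            (m :: n :: (List.ofFn rs ++ List.ofFn cs))
          ≤ ((C * (m + n + Nat.clog 2 (∑ i, rs i + 2) + 1) ^ d : ℕ) : ENNReal) ∧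
        (∀ (ρ : ℕ → ℕ) (T : ℕ) (out : List ℕ),
          Crest.WordRAM.HaltsWithin P (c₀ * (m + n + Nat.clog 2 (∑ i, rs i + 2) + 1) ^ c₁) ρ
            (m :: n :: (List.ofFn rs ++ List.ofFn cs)) T out →
          ∃ X : Fin m → Fin n → ℕ, IsTable rs cs X ∧ out = (List.ofFn fun i => List.ofFn (X i)).flatten) ∧
        ∀ X : Fin m → Fin n → ℕ, IsTable rs cs X →
          Crest.WordRAM.probHaltsWith P (c₀ * (m + n + Nat.clog 2 (∑ i, rs i + 2) + 1) ^ c₁)
              (m :: n :: (List.ofFn rs ++ List.ofFn cs))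
              (fun out => out = (List.ofFn fun i => List.ofFn (X i)).flatten)
            = 1 / (numBoundedTables rs cs (fun _ _ => ∑ i, rs i) : ℝ) := by
  obtain ⟨c, hc⟩ := exists_ram
  obtain ⟨G', d, hG', hex⟩ := mS_poly.exact (k := fun a => a.2.1.length) (by fun_prop) (by fun_prop)
  obtain ⟨cB, hcB⟩ := exists_pB_le
  obtain ⟨s₀, h20, hs₀⟩ := exists_s0 (d * c + 1) cB
  have hφ := f81φ_pt s₀ (d * c + 1) cB
  obtain ⟨k₀, hψ⟩ := (show PT fun p : List ℕ × ℕ => (f81φ s₀ (d * c + 1) cB p.1, p.2) from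
    (hφ.comp PT.fst').prodMk PT.snd').exists_CT
  obtain ⟨P, C, hP⟩ := hc _ _ (hG'.comp hψ)
  obtain ⟨a, ha⟩ : PB fun x => f81s s₀ x + f81k s₀ (d * c + 1) cB x +
      mS.T (f81φ s₀ (d * c + 1) cB x) * mS.r (f81φ s₀ (d * c + 1) cB x) +
      esize (f81φ s₀ (d * c + 1) cB x) + esize x :=
    ((((f81s_pb s₀).add (f81k_pb _ _ _)).add ((mS_poly.T'.comp hφ).mul (mS_poly.r'.comp hφ))).add
      (PB.esize hφ)).add PB.esize_id
  obtain ⟨c₀, c₁, hw⟩ := exists_w (C * (3 * 8 ^ (k₀ + d + 2)) ^ c) ((k₀ + d + 2) * c) (4 * a)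
  refine ⟨P, c₀, c₁, 4 * (C * (3 * 8 ^ (k₀ + d + 2)) ^ c) * (c₀ + 1) ^ ((k₀ + d + 2) * c),
    c₁ * ((k₀ + d + 2) * c), fun m n rs cs h => ?_⟩
  have hok := f81_ok h20 rs cs h
  have hsz := (ha _).trans (Nat.pow_le_pow_left (f81_esize rs cs h) a)
  have hT := f81T_eq rs cs
  rw [← pow_mul] at hsz
  have hS : 1 ≤ m + n + Nat.clog 2 (∑ i, rs i + 2) + 1 := by omega
  obtain ⟨hw1, hw2⟩ := hw _ hS
  generalize m + n + Nat.clog 2 (∑ i, rs i + 2) + 1 = S at hsz hw1 hw2 hS ⊢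
  generalize m :: n :: (List.ofFn rs ++ List.ofFn cs) = x at hok hsz hT ⊢
  have hws : c₀ * S ^ c₁ + 1 ≤ (c₀ + 1) * S ^ c₁ := by
    have := Nat.one_le_pow c₁ S hS
    rw [add_mul]
    omega
  generalize c₀ * S ^ c₁ = w at hw1 hw2 hws ⊢
  set A := f81φ s₀ (d * c + 1) cB x with hA
  have hA1 : A.1.length = f81s s₀ x := List.length_replicate
  have hA2 : A.2.1.length = f81k s₀ (d * c + 1) cB x := List.length_replicate
  have hA3 : A.2.2 = f81T x := rfl
  have hok' : A.2.2.OK A.1.length := by rw [hA1]; exact hok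
  have hk1 : A.2.1.length ≤ 2 ^ A.1.length := by
    rw [hA1, hA2]
    exact hs₀ _ (Nat.le_add_right _ _)
  have hk2 : (d * c + 1) * (pB A.1.length + 1 + pr A.1.length + 5 * A.1.length ^ 2) ≤
      A.2.1.length := by
    rw [hA1, hA2]
    exact Nat.mul_le_mul_left _ (hcB _)
  have hk3 : 5 * A.1.length ^ 2 + 1 ≤ A.2.1.length := by
    refine le_trans ?_ hk2
    refine le_trans ?_ (Nat.le_mul_of_pos_left _ (by omega))
    omega
  have hk4 : (mS.B A + 1 + mS.r A) * (d * c) ≤ A.2.1.length := by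
    refine le_trans ?_ hk2
    rw [mul_comm]
    exact Nat.mul_le_mul (by omega) (Nat.le_add_right _ _)
  have hmem : ∀ y, y ∈ A.2.2.tabs ↔ ∃ X : Fin m → Fin n → ℕ, IsTable rs cs X ∧ y = flat X := by
    intro y
    rw [Tab.mem_tabs, hA3, hT, isTab_iff]
    exact ⟨fun ⟨X, h1, _, h3⟩ => ⟨X, h1, h3⟩,
      fun ⟨X, h1, h3⟩ => ⟨X, h1, fun i j => IsTable.le_sum h1 i j, h3⟩⟩
  have hne : A.2.2.tabs.Nonempty := by
    obtain ⟨X, hX⟩ := exists_table rs cs h
    exact ⟨_, (hmem _).2 ⟨X, hX, rfl⟩⟩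
  replace hsz : A.1.length + A.2.1.length + mS.T A * mS.r A + esize A + esize x ≤
      (S + 2) ^ (4 * a) := by
    rw [hA1, hA2]
    exact hsz
  obtain ⟨hG1, hG2, hG3⟩ := hex A A.2.2.tabs w (by omega) (by omega)
    ((card_tabs_le hok').trans (Nat.pow_le_pow_right (by omega) (by omega)))
    (fun us hus => mS_mem hok' hk1 hne hus.1) (fun y hy => mS_law hok' hk1 hy)
  have hτ : ∀ U < 2 ^ w, C * ((esize (x, U) + 1) ^ k₀ + (esize (A, U) +
      (if U % 2 ^ A.2.1.length = 0 then 2 ^ (mS.B A + 1 + mS.r A) else 0) + 2) ^ d +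
      (x.length + 2) * (w + 1)) ^ c ≤ C * (3 * 8 ^ (k₀ + d + 2)) ^ c * (w + 1) ^ ((k₀ + d + 2) * c) *
        if U % 2 ^ A.2.1.length = 0 then 2 ^ A.2.1.length else 1 := by
    intro U hU
    have h1 := esize_nat_le_of_lt_two_pow hU
    have h2 := length_lt_esize x
    have h3 := f81_time (k₀ := k₀) (d := d) (c := c) (w := w) (A := esize (x, U)) (B := esize (A, U))
      (L := x.length) (E := if U % 2 ^ A.2.1.length = 0 then 2 ^ (mS.B A + 1 + mS.r A) else 0)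
      (F := if U % 2 ^ A.2.1.length = 0 then 2 ^ (mS.B A + 1 + mS.r A) else 1)
      (by rw [esize_pair]; omega) (by rw [esize_pair]; omega) (by omega)
      (by split_ifs <;> simp) (by split_ifs <;> simp [Nat.one_le_two_pow])
    rw [mul_assoc C, mul_assoc C]
    refine Nat.mul_le_mul_left _ (h3.trans (Nat.mul_le_mul_left _ ?_))
    split_ifs
    · rw [← pow_mul]
      exact Nat.pow_le_pow_right (by omega) hk4
    · simp
  have hR := hP x w (fun b hb => (lt_two_pow_esize b).trans_le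
      (Nat.pow_le_pow_right (by omega) (by have := esize_lt_of_mem hb; omega)))
    (fun U _ y hy b hb => by
      obtain ⟨X, hX, rfl⟩ := (hmem y).1 (hG1 U y hy)
      simp only [flat, List.mem_flatten, List.mem_ofFn] at hb
      obtain ⟨_, ⟨i, rfl⟩, hb⟩ := hb
      obtain ⟨j, rfl⟩ := List.mem_ofFn.1 hb
      have h1 := IsTable.le_sum hX i j
      have h2 := hok'.rs_lt
      rw [hA3, hT, List.sum_ofFn] at h2
      exact (h1.trans_lt h2).trans_le (Nat.pow_le_pow_right (by omega) (by omega)))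
    (fun U hU => (hτ U hU).trans_lt (lt_of_le_of_lt (Nat.mul_le_mul_left _ (by
      split_ifs
      · exact Nat.pow_le_pow_right (by omega) (by omega)
      · exact Nat.one_le_two_pow)) hw2))
  refine ⟨(hR.time hG2).trans ?_, fun ρ T out ho => ?_, fun X hX => ?_⟩
  · rw [← ENNReal.ofReal_natCast]
    refine ENNReal.ofReal_le_ofReal ?_
    have h1 := avgN_mono (N := 2 ^ w) fun U hU => (Nat.cast_le (α := ℝ)).2 (hτ U hU)
    have h2 := f81_avg (k := A.2.1.length) (w := w) (by omega)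
    have h3 : (w + 1) ^ ((k₀ + d + 2) * c) ≤
        (c₀ + 1) ^ ((k₀ + d + 2) * c) * S ^ (c₁ * ((k₀ + d + 2) * c)) := by
      rw [pow_mul S, ← mul_pow]
      exact Nat.pow_le_pow_left hws _
    have h4 := (Nat.cast_le (α := ℝ)).2 (Nat.mul_le_mul_left (C * (3 * 8 ^ (k₀ + d + 2)) ^ c) h3)
    generalize C * (3 * 8 ^ (k₀ + d + 2)) ^ c = C' at h1 h4 ⊢
    generalize (w + 1) ^ ((k₀ + d + 2) * c) = W at h1 h4
    generalize (c₀ + 1) ^ ((k₀ + d + 2) * c) = c' at h4 ⊢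
    generalize S ^ (c₁ * ((k₀ + d + 2) * c)) = S' at h4 ⊢
    have e : (avgN (2 ^ w) fun U => ((C' * W * if U % 2 ^ A.2.1.length = 0 then 2 ^ A.2.1.length
        else 1 : ℕ) : ℝ)) = (C' * W : ℕ) * avgN (2 ^ w) fun U =>
          if U % 2 ^ A.2.1.length = 0 then (2 : ℝ) ^ A.2.1.length else 1 := by
      rw [← avgN_mul_left]
      refine avgN_congr fun U _ => ?_
      push_cast
      rfl
    rw [e] at h1
    have h5 := mul_le_mul_of_nonneg_left h2 (Nat.cast_nonneg (α := ℝ) (C' * W))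
    refine (mul_le_mul_of_nonneg_left (h1.trans h5) zero_le_two).trans ?_
    push_cast at h4 ⊢
    linarith
  · obtain ⟨U, -, hU⟩ := hR.out ρ T out ho
    exact (hmem out).1 (hG1 U out hU)
  · have h1 := hG3 (flat X) ((hmem _).2 ⟨X, hX, rfl⟩)
    rw [hA3, hT, card_tabs] at h1
    exact (hR.law hG2 (flat X)).trans h1

end Crest.Agent.R309
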