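import Crest.Agent.R309.Flow

/-!
# Row 309: TT
Fibres and the tensor trick.
* `sum_fib`: substitute `S = X + Y` (`W a (S - X) = 0` unless `S - X` lies in the cube).
* `tt`: let `H C` say that the inequality holds with a constant `C` for all `LC` systems (same `R, P, P', Q, Q'`).
  By `sum_fib` (with `f = 1`) `Z P * Z P' = ∑_S Z_S P` and `Z Q * Z Q' = ∑_S Z_S Q`; `Zs_sym` gives `Z_S P = Z_S P'`, `Z_S Q = Z_S Q'`.
  Base `H (card cube)`: `Z_S P ≤ N * W_S X₀ ≤ N * Z_S Q` (`exists_center`, `le_center`; if `W_S X₀ ≠ 0` then `X₀` is in the cube).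
  Step `H C → H √C`: `(Z_S P)² = Z_S P * Z_S P' ≤ C (Z_S Q)²`.  Iterate, `N^(1/2^k) → 1` (or: the infimum `C*` of the good
  constants `≥ 1` satisfies `C* ≤ √C*`).
* `load_le`: Cauchy–Schwarz, `∑ √(W C * W (C - one e)) ≤ √(Z γ * Z (γ - ξ))`, and `(Z γ)² = Z γ * Z (div S - γ) ≤ Z d * Z d' = (Z d)²`.
* `marg_lc`: pin the edge `e` (replace `a e` by the indicator of `0`; `marg y = Z' (γ - y • div (one e))`) and use `tt` for
  `marg (y-1) * marg (y+1) ≤ (marg y)²`-type steps; in general apply `tt` twice is not needed: `x < y` gives with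
  `z = ⌊(x+y)/2⌋`: use `tt` only through `marg_mid`.
-/

set_option autoImplicit false
set_option linter.unusedSectionVars false

noncomputable section

namespace Crest.Agent.R309

open Finset

variable {E V : Type} [Fintype E] [DecidableEq E] [DecidableEq V]

theorem W_nonneg {a : E → ℤ → ℝ} {R : ℕ} (h : LC a R) (X : E → ℤ) : 0 ≤ W a X := 
  Finset.prod_nonneg fun e _ => h.nonneg e _
theorem Zs_nonneg (G : Gr E V) {a : E → ℤ → ℝ} {R : ℕ} (h : LC a R) (γ : V → ℤ) : 0 ≤ Zs G R a γ := 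
  Finset.sum_nonneg fun X _ => W_nonneg h X
theorem W_eq_zero {a : E → ℤ → ℝ} {R : ℕ} (h : LC a R) {X : E → ℤ} (hX : X ∉ cube E R) : W a X = 0 := by
  by_contra h0
  exact hX (mem_cube.2 fun e => h.supp e _ (Finset.prod_ne_zero_iff.1 h0 e (Finset.mem_univ e)))
theorem tt_mem_cube {a : E → ℤ → ℝ} {R : ℕ} (h : LC a R) {X : E → ℤ} (hX : W a X ≠ 0) :
    ∀ e, |X e| ≤ R := by
  rw [← mem_cube]
  by_contra h0
  exact hX (W_eq_zero h h0)
theorem W_fib (a : E → ℤ → ℝ) (S X : E → ℤ) : W (fib a S) X = W a X * W a (S - X) := by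
  simp only [W, fib, Finset.prod_mul_distrib, Pi.sub_apply]
theorem LC.fib {a : E → ℤ → ℝ} {R : ℕ} (h : LC a R) (S : E → ℤ) : LC (fib a S) R := by
  refine ⟨fun e t => mul_nonneg (h.nonneg _ _) (h.nonneg _ _),
    fun e t ht => h.supp e t (left_ne_zero_of_mul ht), fun e x y hxy => ?_⟩
  have h1 := h.lc e x y hxy
  have h2 := h.lc e (S e - y) (S e - x) (by omega)
  have e1 : S e - (x + 1) = S e - x - 1 := by ring
  have e2 : S e - (y - 1) = S e - y + 1 := by ring
  simp only [R309.fib, e1, e2]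
  have h3 := mul_le_mul h1 h2 (mul_nonneg (h.nonneg _ _) (h.nonneg _ _))
    (mul_nonneg (h.nonneg _ _) (h.nonneg _ _))
  nlinarith
theorem SC.fib {a : E → ℤ → ℝ} {R : ℕ} {η : E → ℝ} (h : LC a R) (h' : SC a η) (S : E → ℤ) :
    SC (fib a S) (fun e => 2 * η e) := by
  intro e t
  have h1 := h' e t
  have h2 := h' e (S e - t)
  have e1 : S e - (t + 1) = S e - t - 1 := by ring
  have e2 : S e - (t - 1) = S e - t + 1 := by ring
  have e3 : Real.exp (-(2 * η e)) = Real.exp (-η e) * Real.exp (-η e) := by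
    rw [← Real.exp_add]; congr 1; ring
  simp only [R309.fib, e1, e2, e3]
  have h3 := mul_le_mul h1 h2 (mul_nonneg (h.nonneg _ _) (h.nonneg _ _)) (by positivity)
  nlinarith
theorem sym_fib (a : E → ℤ → ℝ) (S : E → ℤ) : Sym (fib a S) S := by
  intro e t
  simp only [fib, sub_sub_cancel, mul_comm]
theorem Sym.W {a : E → ℤ → ℝ} {S : E → ℤ} (h : Sym a S) (X : E → ℤ) : W a (S - X) = W a X := 
  Finset.prod_congr rfl fun e _ => h e (X e)
theorem lc_grd {S : E → ℤ} {R : ℕ} (hS : S ∈ cube E (2 * R)) : LC (grd S) R := by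
  refine ⟨fun e t => ?_, fun e t ht => ?_, fun e x y hxy => ?_⟩
  · unfold grd; split_ifs <;> norm_num
  · have h1 := mem_cube.1 hS e
    have h2 : |2 * t - S e| ≤ 1 := by
      by_contra h0
      exact ht (if_neg h0)
    push_cast at h1
    rw [abs_le] at h1 h2 ⊢
    omega
  · by_cases h1 : |2 * x - S e| ≤ 1 ∧ |2 * y - S e| ≤ 1
    · have h2 : y = x + 1 := by
        simp only [abs_le] at h1
        omega
      subst h2
      rw [add_sub_cancel_right, mul_comm]
    · have h2 : grd S e x * grd S e y = 0 := by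
        rw [not_and_or] at h1
        rcases h1 with h1 | h1 <;> simp [grd, h1]
      rw [h2]
      unfold grd; split_ifs <;> norm_num
theorem sym_grd (S : E → ℤ) : Sym (grd S) S := by
  intro e t
  have : |2 * (S e - t) - S e| = |2 * t - S e| := by
    rw [← abs_neg]; congr 1; ring
  simp only [grd, this]
theorem sc_grd (S : E → ℤ) (η : E → ℝ) : SC (grd S) η := by
  intro e t
  have h2 : grd S e (t - 1) * grd S e (t + 1) = 0 := by
    unfold grd
    split_ifs with h1 h2
    · rw [abs_le] at h1 h2; omega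
    all_goals norm_num
  rw [h2]
  positivity

/-- reflection `X ↦ S - X` -/
theorem sum_sym (G : Gr E V) {a : E → ℤ → ℝ} {R : ℕ} {S : E → ℤ} (h : LC a R) (hs : Sym a S)
    (γ : V → ℤ) (f : (E → ℤ) → ℝ) :
    ∑ X ∈ sec G R (G.div S - γ), W a X * f X = ∑ X ∈ sec G R γ, W a X * f (S - X) := by
  refine Finset.sum_bij_ne_zero (fun X _ _ => S - X) ?_ ?_ ?_ ?_
  · intro X h1 h2
    have h3 : W a (S - X) ≠ 0 := by rw [hs.W]; exact left_ne_zero_of_mul h2
    refine mem_sec.2 ⟨tt_mem_cube h h3, ?_⟩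
    rw [G.div_sub, (mem_sec.1 h1).2, sub_sub_cancel]
  · intro X _ _ Y _ _ hXY
    exact sub_right_injective hXY
  · intro Y h1 h2
    have h3 : W a (S - Y) ≠ 0 := by rw [hs.W]; exact left_ne_zero_of_mul h2
    refine ⟨S - Y, mem_sec.2 ⟨tt_mem_cube h h3, ?_⟩, ?_, sub_sub_cancel _ _⟩
    · rw [G.div_sub, (mem_sec.1 h1).2]
    · rwa [hs.W]
  · intro X _ _
    rw [hs.W, sub_sub_cancel]
theorem Zs_sym (G : Gr E V) {a : E → ℤ → ℝ} {R : ℕ} {S : E → ℤ} (h : LC a R) (hs : Sym a S)
    (γ : V → ℤ) : Zs G R a (G.div S - γ) = Zs G R a γ := by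
  simpa [Zs] using sum_sym G h hs γ fun _ => 1

/-- symmetric log-concave weights decrease away from the centre -/
theorem step_down {a : E → ℤ → ℝ} {R : ℕ} {S : E → ℤ} (h : LC a R) (hs : Sym a S) (e : E) {t : ℤ}
    (ht : S e ≤ 2 * t + 1) : a e (t + 1) ≤ a e t := by
  have h1 := h.lc e (S e - (t + 1)) (t + 1) (by omega)
  have e1 : S e - (t + 1) + 1 = S e - t := by ring
  rw [e1, add_sub_cancel_right, hs, hs] at h1
  exact le_of_sq_le_sq (by nlinarith) (h.nonneg _ _)
theorem le_center {a : E → ℤ → ℝ} {R : ℕ} {S : E → ℤ} (h : LC a R) (hs : Sym a S) (e : E) {c : ℤ}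
    (hc : |2 * c - S e| ≤ 1) (t : ℤ) : a e t ≤ a e c := by
  have key : ∀ c : ℤ, S e ≤ 2 * c + 1 → ∀ k : ℕ, a e (c + k) ≤ a e c := by
    intro c hc k
    induction k with
    | zero => simp
    | succ k ih =>
      have := step_down h hs e (t := c + k) (by omega)
      push_cast
      rw [← add_assoc]
      exact this.trans ih
  rw [abs_le] at hc
  by_cases ht : c ≤ t
  · have := key c (by omega) (t - c).toNat
    rwa [show c + ((t - c).toNat : ℤ) = t by omega] at this
  · have := key (S e - c) (by omega) (c - t).toNat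
    rwa [show S e - c + ((c - t).toNat : ℤ) = S e - t by omega, hs, hs] at this

theorem tt_shift (G : Gr E V) {R : ℕ} {X : E → ℤ} (hX : ∀ e, |X e| ≤ R) (D : V → ℤ)
    (g : (E → ℤ) → ℝ) (hg : ∀ Y, g Y ≠ 0 → ∀ e, |Y e| ≤ R) :
    ∑ S ∈ sec G (2 * R) D, g (S - X) = ∑ Y ∈ sec G R (D - G.div X), g Y := by
  refine Finset.sum_bij_ne_zero (fun S _ _ => S - X) ?_ ?_ ?_ fun _ _ _ => rfl
  · intro S h1 h2
    refine mem_sec.2 ⟨hg _ h2, ?_⟩
    rw [G.div_sub, (mem_sec.1 h1).2]
  · intro S _ _ T _ _ hST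
    exact sub_left_injective hST
  · intro Y h1 h2
    refine ⟨Y + X, mem_sec.2 ⟨fun e => ?_, ?_⟩, ?_, add_sub_cancel_right _ _⟩
    · have h3 := (mem_sec.1 h1).1 e
      have h4 := hX e
      rw [Pi.add_apply]
      push_cast
      rw [abs_le] at h3 h4 ⊢
      omega
    · rw [G.div_add, (mem_sec.1 h1).2, sub_add_cancel]
    · rwa [add_sub_cancel_right]

theorem sum_fib (G : Gr E V) {a : E → ℤ → ℝ} {R : ℕ} (h : LC a R) (P P' : V → ℤ)
    (f : (E → ℤ) → (E → ℤ) → ℝ) :
    ∑ X ∈ sec G R P, ∑ Y ∈ sec G R P', W a X * W a Y * f X Y =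
      ∑ S ∈ sec G (2 * R) (P + P'), ∑ X ∈ sec G R P, W (fib a S) X * f X (S - X) := by
  rw [Finset.sum_comm (s := sec G (2 * R) (P + P'))]
  refine Finset.sum_congr rfl fun X hX => ?_
  have h1 := tt_shift G (mem_sec.1 hX).1 (P + P') (fun Y => W a X * W a Y * f X Y) fun Y hY =>
    tt_mem_cube h (right_ne_zero_of_mul (left_ne_zero_of_mul hY))
  rw [(mem_sec.1 hX).2, add_sub_cancel_left] at h1
  rw [← h1]
  simp only [W_fib]

theorem dir_fib (G : Gr E V) {a : E → ℤ → ℝ} {R : ℕ} (h : LC a R) (D d : V → ℤ) (e : E)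
    (F : (E → ℤ) → ℝ) :
    ∑ S ∈ sec G (2 * R) D, Dir G R (fib a S) d e F =
      ∑ X ∈ mvs G R d e, √(W a X * W a (X + one e)) *
        (∑ C ∈ sec G R (D - G.div X), √(W a C * W a (C - one e))) * (F (X + one e) - F X) ^ 2 := by
  classical
  unfold Dir
  rw [Finset.sum_comm]
  refine Finset.sum_congr rfl fun X hX => ?_
  have hX' : ∀ e, |X e| ≤ R := mem_cube.1 (Finset.mem_filter.1 hX).1
  have h1 := tt_shift G hX' D (fun C => √(W a C * W a (C - one e))) fun Y hY =>
    tt_mem_cube h (fun h0 => hY (by simp [h0]))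
  rw [← h1, Finset.mul_sum, Finset.sum_mul]
  refine Finset.sum_congr rfl fun S _ => ?_
  rw [← Real.sqrt_mul (mul_nonneg (W_nonneg h _) (W_nonneg h _)), W_fib, W_fib, sub_add_eq_sub_sub]
  congr 2
  ring

/-- the tensor trick -/
theorem tt (G : Gr E V) {a : E → ℤ → ℝ} {R : ℕ} (h : LC a R) {P P' Q Q' : V → ℤ}
    (hPQ : P + P' = Q + Q') (hQ : IsDef (Q - Q')) :
    Zs G R a P * Zs G R a P' ≤ Zs G R a Q * Zs G R a Q' := by
  have hsum : ∀ {b : E → ℤ → ℝ}, LC b R → ∀ A A' : V → ℤ,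
      Zs G R b A * Zs G R b A' = ∑ S ∈ sec G (2 * R) (A + A'), Zs G R (fib b S) A := by
    intro b hb A A'
    have := sum_fib G hb A A' fun _ _ => 1
    simp only [mul_one] at this
    simp only [Zs]
    rw [Finset.sum_mul_sum, this]
  have hred : ∀ C : ℝ, (∀ (b : E → ℤ → ℝ) (S : E → ℤ), LC b R → Sym b S → G.div S = P + P' →
      Zs G R b P ≤ C * Zs G R b Q) → ∀ b : E → ℤ → ℝ, LC b R →
      Zs G R b P * Zs G R b P' ≤ C * (Zs G R b Q * Zs G R b Q') := by
    intro C hC b hb
    rw [hsum hb, hsum hb, ← hPQ, Finset.mul_sum]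
    exact Finset.sum_le_sum fun S hS => hC _ S (hb.fib S) (sym_fib b S) (mem_sec.1 hS).2
  have key : ∀ k : ℕ, ∃ C : ℝ, 0 ≤ C ∧ C ^ (2 ^ k) = ((cube E R).card : ℝ) ∧
      ∀ b : E → ℤ → ℝ, LC b R →
        Zs G R b P * Zs G R b P' ≤ C * (Zs G R b Q * Zs G R b Q') := by
    intro k
    induction k with
    | zero =>
      refine ⟨(cube E R).card, by positivity, by simp, hred _ fun b S hb hs hS => ?_⟩
      obtain ⟨X₀, h1, h2⟩ := exists_center G (hS.trans hPQ) hQ
      have h3 : W b X₀ ≤ Zs G R b Q := by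
        by_cases h0 : W b X₀ = 0
        · rw [h0]; exact Zs_nonneg G hb Q
        · exact Finset.single_le_sum (f := W b) (fun X _ => W_nonneg hb X)
            (mem_sec.2 ⟨tt_mem_cube hb h0, h1⟩)
      have h4 : Zs G R b P ≤ (sec G R P).card • W b X₀ :=
        Finset.sum_le_card_nsmul _ _ _ fun X _ =>
          Finset.prod_le_prod (fun e _ => hb.nonneg _ _) fun e _ => le_center hb hs e (h2 e) _
      have h5 : ((sec G R P).card : ℝ) ≤ (cube E R).card := by
        classical
        exact_mod_cast Finset.card_le_card fun X hX => mem_cube.2 (mem_sec.1 hX).1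
      rw [nsmul_eq_mul] at h4
      exact h4.trans (mul_le_mul h5 h3 (W_nonneg hb _) (by positivity))
    | succ k ih =>
      obtain ⟨C, hC0, hCk, hC⟩ := ih
      refine ⟨√C, Real.sqrt_nonneg _, ?_, hred _ fun b S hb hs hS => ?_⟩
      · rw [pow_succ', pow_mul, Real.sq_sqrt hC0, hCk]
      · have h1 := hC b hb
        have h2 : Zs G R b P' = Zs G R b P := by
          rw [← Zs_sym G hb hs P, hS, add_sub_cancel_left]
        have h3 : Zs G R b Q' = Zs G R b Q := by
          rw [← Zs_sym G hb hs Q, hS, hPQ, add_sub_cancel_left]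
        rw [h2, h3] at h1
        refine le_of_sq_le_sq ?_ (mul_nonneg (Real.sqrt_nonneg _) (Zs_nonneg G hb Q))
        rw [mul_pow, Real.sq_sqrt hC0]
        nlinarith
  by_contra hlt
  rw [not_le] at hlt
  have hy := mul_nonneg (Zs_nonneg G h Q) (Zs_nonneg G h Q')
  rcases hy.eq_or_lt with h0 | h0
  · obtain ⟨C, -, -, hC⟩ := key 0
    have := hC a h
    rw [← h0] at this hlt
    linarith
  · have hr : 1 < Zs G R a P * Zs G R a P' / (Zs G R a Q * Zs G R a Q') := (one_lt_div h0).2 hlt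
    obtain ⟨k, hk⟩ := pow_unbounded_of_one_lt ((cube E R).card : ℝ) hr
    obtain ⟨C, -, hCk, hC⟩ := key k
    have h1 := (div_le_iff₀ h0).2 (hC a h)
    have h2 := pow_le_pow_left₀ (by linarith) h1 (2 ^ k)
    have h3 := pow_le_pow_right₀ hr.le (Nat.lt_two_pow_self (n := k)).le
    linarith

theorem load_le (G : Gr E V) {a : E → ℤ → ℝ} {R : ℕ} {S : E → ℤ} (h : LC a R) (hs : Sym a S)
    {d d' : V → ℤ} (hS : G.div S = d + d') (hd : IsDef (d' - d)) (γ : V → ℤ) (e : E) :
    ∑ C ∈ sec G R γ, √(W a C * W a (C - one e)) ≤ Zs G R a d := by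
  have hZ : ∀ γ, Zs G R a γ ≤ Zs G R a d := by
    intro γ
    have h1 := tt G h (P := γ) (P' := G.div S - γ) (Q := d) (Q' := d')
      (by rw [hS]; ring) (by simpa using hd.neg)
    have h2 : Zs G R a d' = Zs G R a d := by
      rw [← Zs_sym G h hs d, hS, add_sub_cancel_left]
    rw [Zs_sym G h hs, h2] at h1
    exact le_of_sq_le_sq (by nlinarith) (Zs_nonneg G h d)
  have h1 : ∑ C ∈ sec G R γ, W a (C - one e) ≤ Zs G R a (γ - G.div (one e)) := by
    rw [← Finset.sum_image (s := sec G R γ) (g := fun C => C - one e) (f := W a)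
      fun _ _ _ _ h => sub_left_injective h]
    rw [← Finset.sum_filter_ne_zero]
    refine Finset.sum_le_sum_of_subset_of_nonneg (fun X hX => ?_) fun X _ _ => W_nonneg h X
    obtain ⟨hX, h0⟩ := Finset.mem_filter.1 hX
    obtain ⟨C, hC, rfl⟩ := Finset.mem_image.1 hX
    refine mem_sec.2 ⟨tt_mem_cube h h0, ?_⟩
    rw [G.div_sub, (mem_sec.1 hC).2]
  have h2 : ∑ C ∈ sec G R γ, √(W a C * W a (C - one e)) ≤
      ∑ C ∈ sec G R γ, (W a C + W a (C - one e)) / 2 := by
    refine Finset.sum_le_sum fun C _ => ?_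
    have h3 := W_nonneg h C
    have h4 := W_nonneg h (C - one e)
    exact Real.sqrt_le_iff.2 ⟨by positivity, by nlinarith [sq_nonneg (W a C - W a (C - one e))]⟩
  rw [← Finset.sum_div, Finset.sum_add_distrib] at h2
  have h5 := hZ γ
  have h6 := hZ (γ - G.div (one e))
  unfold Zs at *
  linarith

open Classical in
/-- weight of the other edges when `X e = y` -/
def marg (G : Gr E V) (R : ℕ) (a : E → ℤ → ℝ) (γ : V → ℤ) (e : E) (y : ℤ) : ℝ :=
  ∑ X ∈ (Fintype.piFinset fun e' => if e' = e then {y} else Finset.Icc (-(R : ℤ)) R).filter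
    (fun X => G.div X = γ), ∏ e' ∈ Finset.univ.erase e, a e' (X e')

theorem marg_nonneg (G : Gr E V) {a : E → ℤ → ℝ} {R : ℕ} (h : LC a R) (γ : V → ℤ) (e : E) (y : ℤ) :
    0 ≤ marg G R a γ e y := 
  Finset.sum_nonneg fun _ _ => Finset.prod_nonneg fun _ _ => h.nonneg _ _
theorem sum_marg (G : Gr E V) (a : E → ℤ → ℝ) (R : ℕ) (γ : V → ℤ) (e : E) (g : ℤ → ℝ) :
    ∑ X ∈ sec G R γ, W a X * g (X e) =
      ∑ y ∈ Finset.Icc (-(R : ℤ)) R, a e y * g y * marg G R a γ e y := by
  classical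
  rw [← Finset.sum_fiberwise_of_maps_to (s := sec G R γ) (t := Finset.Icc (-(R : ℤ)) R)
    (g := fun X => X e) fun X hX => Finset.mem_Icc.2 (abs_le.1 ((mem_sec.1 hX).1 e))]
  refine Finset.sum_congr rfl fun y hy => ?_
  rw [marg, Finset.mul_sum]
  refine Finset.sum_congr ?_ fun X hX => ?_
  · ext X
    simp only [Finset.mem_filter, mem_sec, Fintype.mem_piFinset]
    constructor
    · rintro ⟨⟨h1, h2⟩, h3⟩
      refine ⟨fun e' => ?_, h2⟩
      split_ifs with h4
      · subst h4; simpa using h3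
      · exact Finset.mem_Icc.2 (abs_le.1 (h1 e'))
    · rintro ⟨h1, h2⟩
      have h3 : X e = y := by simpa using h1 e
      refine ⟨⟨fun e' => ?_, h2⟩, h3⟩
      by_cases h4 : e' = e
      · subst h4; rw [h3]; exact abs_le.2 (Finset.mem_Icc.1 hy)
      · have := h1 e'
        rw [if_neg h4] at this
        exact abs_le.2 (Finset.mem_Icc.1 this)
  · have h3 : X e = y := by simpa using Fintype.mem_piFinset.1 (Finset.mem_filter.1 hX).1 e
    rw [W, ← Finset.mul_prod_erase _ _ (Finset.mem_univ e), h3]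
    ring
/-- the system with the edge `e` pinned at `0` -/
def ttPin (a : E → ℤ → ℝ) (e : E) : E → ℤ → ℝ :=
  Function.update a e fun t => if t = 0 then 1 else 0

theorem tt_lc_pin {a : E → ℤ → ℝ} {R : ℕ} (h : LC a R) (e : E) : LC (ttPin a e) R := by
  refine ⟨fun e' t => ?_, fun e' t ht => ?_, fun e' x y hxy => ?_⟩ <;> by_cases h1 : e' = e
  · subst h1; simp only [ttPin, Function.update_self]; split_ifs <;> norm_num
  · simp only [ttPin, Function.update_of_ne h1]; exact h.nonneg _ _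
  · subst h1
    simp only [ttPin, Function.update_self] at ht
    have : t = 0 := by
      by_contra h0
      exact ht (if_neg h0)
    simp [this]
  · simp only [ttPin, Function.update_of_ne h1] at ht; exact h.supp _ _ ht
  · subst h1
    simp only [ttPin, Function.update_self]
    split_ifs <;> first | omega | norm_num
  · simp only [ttPin, Function.update_of_ne h1]; exact h.lc _ _ _ hxy

theorem tt_W_pin (a : E → ℤ → ℝ) (e : E) (X : E → ℤ) :
    W (ttPin a e) X = (if X e = 0 then 1 else 0) * ∏ e' ∈ Finset.univ.erase e, a e' (X e') := by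
  rw [W, ← Finset.mul_prod_erase _ _ (Finset.mem_univ e)]
  simp only [ttPin, Function.update_self]
  congr 1
  refine Finset.prod_congr rfl fun e' he' => ?_
  rw [Function.update_of_ne (Finset.ne_of_mem_erase he')]

theorem tt_marg_eq (G : Gr E V) (R : ℕ) (a : E → ℤ → ℝ) (γ : V → ℤ) (e : E) (y : ℤ) :
    marg G R a γ e y = Zs G R (ttPin a e) (γ - y • G.div (one e)) := by
  classical
  have hoff : ∀ (X : E → ℤ) (e' : E), e' ≠ e → (X - y • one e) e' = X e' := by
    intro X e' h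
    simp [h]
  have hon : ∀ X : E → ℤ, (X - y • one e) e = X e - y := by
    intro X
    simp
  have hprod : ∀ X : E → ℤ, ∏ e' ∈ Finset.univ.erase e, a e' ((X - y • one e) e') =
      ∏ e' ∈ Finset.univ.erase e, a e' (X e') := fun X =>
    Finset.prod_congr rfl fun e' he' => by rw [hoff X e' (Finset.ne_of_mem_erase he')]
  unfold marg Zs
  refine Finset.sum_bij_ne_zero (fun X _ _ => X - y • one e) ?_ ?_ ?_ ?_
  · intro X h1 _
    obtain ⟨h2, h3⟩ := Finset.mem_filter.1 h1
    rw [Fintype.mem_piFinset] at h2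
    refine mem_sec.2 ⟨fun e' => ?_, by rw [G.div_sub, G.div_smul, h3]⟩
    by_cases h4 : e' = e
    · subst h4
      have h5 : X e' = y := by simpa using h2 e'
      rw [hon, h5]
      simp
    · have := h2 e'
      rw [if_neg h4] at this
      rw [hoff X e' h4]
      exact abs_le.2 (Finset.mem_Icc.1 this)
  · intro X _ _ Y _ _ hXY
    exact sub_left_injective hXY
  · intro Y h1 h2
    have h3 : Y = Y + y • one e - y • one e := (add_sub_cancel_right _ _).symm
    rw [tt_W_pin] at h2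
    have h4 : Y e = 0 := by
      by_contra h0
      exact h2 (by rw [if_neg h0, zero_mul])
    refine ⟨Y + y • one e, Finset.mem_filter.2 ⟨Fintype.mem_piFinset.2 fun e' => ?_, ?_⟩, ?_,
      h3.symm⟩
    · split_ifs with h5
      · subst h5; simp [h4]
      · have := (mem_sec.1 h1).1 e'
        rw [h3, hoff _ e' h5] at this
        exact Finset.mem_Icc.2 (abs_le.1 this)
    · rw [G.div_add, G.div_smul, (mem_sec.1 h1).2, sub_add_cancel]
    · rw [← hprod, ← h3]
      exact right_ne_zero_of_mul h2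
  · intro X h1 _
    have h5 : X e = y := by simpa using Fintype.mem_piFinset.1 (Finset.mem_filter.1 h1).1 e
    rw [tt_W_pin, hon, h5, sub_self, if_pos rfl, one_mul, hprod]


/-- midpoint log-concavity of the marginal -/
theorem marg_mid (G : Gr E V) {a : E → ℤ → ℝ} {R : ℕ} (h : LC a R) (γ : V → ℤ) (e : E)
    {x y z z' : ℤ} (hs : x + y = z + z') (hz : |z - z'| ≤ 1) :
    marg G R a γ e x * marg G R a γ e y ≤ marg G R a γ e z * marg G R a γ e z' := by
  simp only [tt_marg_eq]
  refine tt G (tt_lc_pin h e) ?_ ?_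
  · have : x • G.div (one e) + y • G.div (one e) = z • G.div (one e) + z' • G.div (one e) := by
      rw [← add_smul, ← add_smul, hs]
    linear_combination -this
  · have h1 : γ - z • G.div (one e) - (γ - z' • G.div (one e)) = (z' - z) • G.div (one e) := by
      rw [sub_smul]; ring
    have h2 : IsDef (G.div (one e)) := Or.inr ⟨_, _, G.div_one e⟩
    rw [h1]
    rw [abs_le] at hz
    have h3 : z' - z = 0 ∨ z' - z = 1 ∨ z' - z = -1 := by omega
    rcases h3 with h3 | h3 | h3 <;> rw [h3]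
    · exact Or.inl (zero_smul _ _)
    · rwa [one_smul]
    · rw [neg_smul, one_smul]; exact h2.neg

end Crest.Agent.R309
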