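import Crest.Agent.R309.Bridge
import Crest.Agent.R309.TT

/-!
# Row 309: Final
At the last stage half of the perfect weight is good.
* `tail_lc`: midpoint log-concavity gives an interval support containing `0` and decreasing ratios `g (y+1) / g y`; so `(g (y+1) / g y) ^ (y+1) ≤ exp ν` and
  `g (y+1) ≤ exp λ * g y` for `y ≥ r/2`, `λ = 2ν/r ≤ L/2`.  For each of the `ℓ + 1 ≥ r/(2ν)` points `y ∈ [r - ℓ, r]`, `ℓ = ⌊r/(2ν)⌋`:
  `g (r+u) ≤ e * exp (λ u) * g y`; `∑_{u ≥ 1} exp (-L u / 2) ≤ 2 / L`; `4 e ≤ 12`.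
* `final_le`: flows using a virtual edge weigh `≤ exp (3 s²) th ^ pLm ≤ exp (-7 s²)` in total (`pLm ≤ pL0 + pI`).  For the others `th ^ kF ≤ exp (2 κ m) W a X` with the
  `LC` system `a e t = exp (-psi e t)` on the box, pinned to `0` on virtual edges (radius `2 ^ (3 s + 3)`, `abs_le`), `W a ≤ 1`.  For a type `1, 2` edge `e` apply `tail_lc` to
  `g y = exp (-κ β |y|) * marg .. e y` and to `g (-y)` (`sum_marg`, `marg_mid`, `marg .. 0 ≥ 1`, `marg ≤ card box`; `ν = 3 s²`, `L = κ pP / R`,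
  `L r ≥ 34000 s⁵ / (24 s²)`): the weight of `{X e outside the window}` is at most `2 * 0.026 / s * Zs`.  Union bound: `Zs ≤ |GS| + 0.06 Zs`.
-/

set_option autoImplicit false

noncomputable section

namespace Crest.Agent.R309

open Finset Crest.Agent.Lib.PolyTime

theorem final_supp (g : ℤ → ℝ) (h0 : ∀ y, 0 ≤ g y)
    (hmid : ∀ x y z z' : ℤ, x + y = z + z' → |z - z'| ≤ 1 → g x * g y ≤ g z * g z') (n : ℕ) :
    ∀ x y : ℤ, y - x ≤ n → 0 < g x → 0 < g y → ∀ z, x ≤ z → z ≤ y → 0 < g z := by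
  induction n with
  | zero =>
    intro x y h hx _ z h1 h2
    obtain rfl : z = x := by omega
    exact hx
  | succ n ih =>
    intro x y h hx hy z h1 h2
    by_cases hxy : y - x ≤ 1
    · rcases (show z = x ∨ z = y by omega) with rfl | rfl <;> assumption
    have hm := hmid x y ((x + y) / 2) (x + y - (x + y) / 2) (by ring) (by rw [abs_le]; omega)
    have hp : 0 < g ((x + y) / 2) * g (x + y - (x + y) / 2) := (mul_pos hx hy).trans_le hm
    have hp1 : 0 < g ((x + y) / 2) := by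
      rcases (h0 ((x + y) / 2)).eq_or_lt with e | e
      · rw [← e, zero_mul] at hp; exact absurd hp (lt_irrefl _)
      · exact e
    have hp2 : 0 < g (x + y - (x + y) / 2) := (mul_pos_iff_of_pos_left hp1).1 hp
    by_cases hz : z ≤ (x + y) / 2
    · exact ih x _ (by push_cast at h; omega) hx hp1 z h1 hz
    · exact ih _ y (by push_cast at h; omega) hp2 hy z (by omega) h2

theorem final_grow (g : ℤ → ℝ)
    (hmid : ∀ x y z z' : ℤ, x + y = z + z' → |z - z'| ≤ 1 → g x * g y ≤ g z * g z') (lam : ℝ) (n : ℕ) :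
    (∀ z : ℤ, 0 ≤ z → z ≤ n + 1 → 0 < g z) → Real.exp lam * g n < g (n + 1) →
      Real.exp (lam * (n + 1)) * g 0 < g (n + 1) := by
  induction n with
  | zero => intro _ h; simpa using h
  | succ n ih =>
    intro hp h
    push_cast at hp h ⊢
    have h1 := hp n (by omega) (by omega)
    have h2 := hp (n + 1) (by omega) (by omega)
    have hm := hmid n (n + 1 + 1) (n + 1) (n + 1) (by ring) (by simp)
    have h3 : Real.exp lam * g n < g (n + 1) := by
      have : Real.exp lam * g n * g (n + 1) < g (n + 1) * g (n + 1) := by nlinarith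
      exact lt_of_mul_lt_mul_right this h2.le
    have h4 := ih (fun z hz hz' => hp z hz (by omega)) h3
    rw [mul_add lam, mul_one, Real.exp_add]
    have := Real.exp_pos lam
    nlinarith

theorem final_geom {L : ℝ} (hL : 0 < L) (U : ℕ) :
    ∑ u ∈ Finset.Icc 1 U, Real.exp (-(L / 2 * u)) ≤ 2 / L := by
  have key : ∑ u ∈ Finset.Icc 1 U, Real.exp (-(L / 2 * u)) ≤
      2 / L * (1 - Real.exp (-(L / 2 * U))) := by
    induction U with
    | zero => simp
    | succ U ih =>
      rw [Finset.sum_Icc_succ_top (by omega)]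
      have e : Real.exp (-(L / 2 * U)) = Real.exp (L / 2) * Real.exp (-(L / 2 * (U + 1 : ℕ))) := by
        rw [← Real.exp_add]; congr 1; push_cast; ring
      have h1 := Real.add_one_le_exp (L / 2)
      have h2 := Real.exp_pos (-(L / 2 * (U + 1 : ℕ)))
      have h3 : Real.exp (-(L / 2 * (U + 1 : ℕ))) ≤
          2 / L * (Real.exp (-(L / 2 * U)) - Real.exp (-(L / 2 * (U + 1 : ℕ)))) := by
        rw [e, div_mul_eq_mul_div 2 L, le_div_iff₀ hL]
        nlinarith
      linarith
  have := Real.exp_pos (-(L / 2 * U))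
  have h2 : 0 < 2 / L := by positivity
  nlinarith

theorem tail_lc (g : ℤ → ℝ) (h0 : ∀ y, 0 ≤ g y)
    (hmid : ∀ x y z z' : ℤ, x + y = z + z' → |z - z'| ≤ 1 → g x * g y ≤ g z * g z') (h1 : 1 ≤ g 0) {ν : ℝ}
    (hν : 2 ≤ ν) (hN : ∀ y, g y ≤ Real.exp ν) {r : ℕ} (hr : 0 < r) {L : ℝ} (hL : 4 * ν ≤ L * r) (U : ℕ) :
    ∑ u ∈ Finset.Icc 1 U, Real.exp (-(L * u)) * g (r + (u : ℕ)) ≤
      12 * ν / (L * r) * ∑ y ∈ Finset.Icc (0 : ℤ) r, g y := by
  have hr' : (0 : ℝ) < r := by exact_mod_cast hr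
  have hL0 : 0 < L := (mul_pos_iff_of_pos_right hr').1 (by linarith)
  set lam : ℝ := 2 * ν / r with hlam
  have hlam0 : 0 < lam := by positivity
  have hlamr : lam * r = 2 * ν := by rw [hlam]; field_simp
  have hlamL : lam ≤ L / 2 := by
    rw [hlam, div_le_iff₀ hr']; linarith
  have hA : ∀ n : ℕ, r ≤ 2 * (n + 1) → g (n + 1) ≤ Real.exp lam * g n := fun n hn => by
    by_contra hlt
    rw [not_le] at hlt
    have hp : 0 < g (n + 1) := (mul_nonneg (Real.exp_pos _).le (h0 _)).trans_lt hlt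
    have h2 := final_grow g hmid lam n (fun z hz hz' =>
      final_supp g h0 hmid (n + 1) 0 (n + 1) (by push_cast; omega) (by linarith) hp z hz hz') hlt
    have h3 : ν ≤ lam * (n + 1) := by
      have : (r : ℝ) ≤ 2 * (n + 1) := by exact_mod_cast hn
      nlinarith
    have h4 := Real.exp_le_exp.2 h3
    have h5 := hN (n + 1)
    have h6 := Real.exp_pos (lam * (n + 1))
    nlinarith
  have hB : ∀ n : ℕ, r ≤ 2 * (n + 1) → ∀ j : ℕ, g (n + j) ≤ Real.exp (lam * j) * g n := by
    intro n hn j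
    induction j with
    | zero => simp
    | succ j ih =>
      have := hA (n + j) (by omega)
      push_cast at this ⊢
      rw [← add_assoc, mul_add lam, mul_one, Real.exp_add, mul_comm (Real.exp _) (Real.exp lam),
        mul_assoc]
      exact this.trans (mul_le_mul_of_nonneg_left ih (Real.exp_pos _).le)
  set S := ∑ y ∈ Finset.Icc (0 : ℤ) r, g y with hS
  have hS0 : 0 ≤ S := Finset.sum_nonneg fun y _ => h0 y
  set l := ⌊(r : ℝ) / (2 * ν)⌋₊ with hl
  have hl1 : (l : ℝ) ≤ r / (2 * ν) := Nat.floor_le (by positivity)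
  have hl2 : (r : ℝ) / (2 * ν) < l + 1 := Nat.lt_floor_add_one _
  have hl3 : lam * l ≤ 1 := by
    rw [le_div_iff₀ (by linarith)] at hl1
    rw [hlam, div_mul_eq_mul_div, div_le_one hr']; linarith
  have hl4 : 4 * l ≤ r := by
    rw [le_div_iff₀ (by linarith)] at hl1
    have : (4 : ℝ) * l ≤ r := by nlinarith [Nat.cast_nonneg (α := ℝ) l]
    exact_mod_cast this
  have hl5 : 1 ≤ lam * (l + 1) := by
    rw [div_lt_iff₀ (by linarith)] at hl2
    rw [hlam, div_mul_eq_mul_div, one_le_div hr']; linarith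
  have hC : ∀ u : ℕ, g (r + u) ≤ 3 * lam * Real.exp (lam * u) * S := fun u => by
    have h2 : ∀ i ∈ Finset.range (l + 1), g (r + u) ≤ 3 * Real.exp (lam * u) * g (r - i) := by
      intro i hi
      have hi' : i ≤ l := by simpa [Nat.lt_succ_iff] using hi
      have h3 := hB (r - i) (by omega) (i + u)
      rw [Nat.cast_sub (by omega), Nat.cast_add, show (r : ℤ) - i + (i + u) = r + u by ring] at h3
      refine h3.trans (mul_le_mul_of_nonneg_right ?_ (h0 _))
      push_cast
      rw [mul_add, Real.exp_add]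
      refine mul_le_mul_of_nonneg_right ?_ (Real.exp_pos _).le
      have h4 : lam * i ≤ 1 :=
        (mul_le_mul_of_nonneg_left (by exact_mod_cast hi') hlam0.le).trans hl3
      exact (Real.exp_le_exp.2 h4).trans (Real.exp_one_lt_d9.le.trans (by norm_num))
    have h3 := Finset.sum_le_sum h2
    rw [Finset.sum_const, Finset.card_range, nsmul_eq_mul, ← Finset.mul_sum] at h3
    have h4 : ∑ i ∈ Finset.range (l + 1), g (r - i) ≤ S := by
      rw [← Finset.sum_image (s := Finset.range (l + 1)) (g := fun i : ℕ => (r : ℤ) - i) (f := g)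
        fun a _ b _ e => by simpa using e]
      refine Finset.sum_le_sum_of_subset_of_nonneg (fun y hy => ?_) fun y _ _ => h0 y
      obtain ⟨i, hi, rfl⟩ := Finset.mem_image.1 hy
      have hi' : i ≤ l := by simpa [Nat.lt_succ_iff] using hi
      rw [Finset.mem_Icc]; omega
    have h5 := h3.trans (mul_le_mul_of_nonneg_left h4 (by positivity))
    push_cast at h5
    calc g (r + u) ≤ lam * (l + 1) * g (r + u) := le_mul_of_one_le_left (h0 _) hl5
      _ = lam * ((l + 1) * g (r + u)) := by ring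
      _ ≤ lam * (3 * Real.exp (lam * u) * S) := mul_le_mul_of_nonneg_left h5 hlam0.le
      _ = _ := by ring
  calc ∑ u ∈ Finset.Icc 1 U, Real.exp (-(L * u)) * g (r + (u : ℕ))
      ≤ ∑ u ∈ Finset.Icc 1 U, 3 * lam * S * Real.exp (-(L / 2 * u)) := by
        refine Finset.sum_le_sum fun u _ => ?_
        have h2 : Real.exp (-(L * u)) * Real.exp (lam * u) ≤ Real.exp (-(L / 2 * u)) := by
          rw [← Real.exp_add, Real.exp_le_exp]
          nlinarith [Nat.cast_nonneg (α := ℝ) u]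
        calc _ ≤ Real.exp (-(L * u)) * (3 * lam * Real.exp (lam * u) * S) :=
              mul_le_mul_of_nonneg_left (hC u) (Real.exp_pos _).le
          _ = 3 * lam * S * (Real.exp (-(L * u)) * Real.exp (lam * u)) := by ring
          _ ≤ _ := mul_le_mul_of_nonneg_left h2 (by positivity)
    _ ≤ 3 * lam * S * (2 / L) := by
        rw [← Finset.mul_sum]
        exact mul_le_mul_of_nonneg_left (final_geom hL0 U) (by positivity)
    _ = _ := by rw [hlam]; field_simp; ring

/-- one side of the window -/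
theorem final_side (g F : ℤ → ℝ) (h0 : ∀ y, 0 ≤ g y)
    (hmid : ∀ x y z z' : ℤ, x + y = z + z' → |z - z'| ≤ 1 → g x * g y ≤ g z * g z') (h1 : 1 ≤ g 0) {ν : ℝ}
    (hν : 2 ≤ ν) (hN : ∀ y, g y ≤ Real.exp ν) {r : ℕ} (hr : 0 < r) {L : ℝ} (hL : 4 * ν ≤ L * r)
    {R : ℕ} (hR : r ≤ R) (hF : ∀ y, 0 ≤ F y)
    (hout : ∀ u : ℕ, F (r + u) ≤ Real.exp (-(L * u)) * g (r + u))
    (hin : ∀ y : ℤ, 0 ≤ y → y ≤ r → g y ≤ F y) :
    ∑ y ∈ Finset.Icc (-(R : ℤ)) R, (if (r : ℤ) < y then F y else 0) ≤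
      12 * ν / (L * r) * ∑ y ∈ Finset.Icc (-(R : ℤ)) R, F y := by
  calc ∑ y ∈ Finset.Icc (-(R : ℤ)) R, (if (r : ℤ) < y then F y else 0)
      ≤ ∑ u ∈ Finset.Icc 1 R, F (r + (u : ℕ)) := by
        rw [← Finset.sum_filter, ← Finset.sum_image (s := Finset.Icc 1 R)
          (g := fun u : ℕ => (r : ℤ) + u) (f := F) fun a _ b _ e => by simpa using e]
        refine Finset.sum_le_sum_of_subset_of_nonneg (fun y hy => ?_) fun y _ _ => hF y
        rw [Finset.mem_filter, Finset.mem_Icc] at hy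
        exact Finset.mem_image.2 ⟨(y - r).toNat, Finset.mem_Icc.2 (by omega), by omega⟩
    _ ≤ ∑ u ∈ Finset.Icc 1 R, Real.exp (-(L * u)) * g (r + (u : ℕ)) :=
        Finset.sum_le_sum fun u _ => hout u
    _ ≤ 12 * ν / (L * r) * ∑ y ∈ Finset.Icc (0 : ℤ) r, g y := tail_lc g h0 hmid h1 hν hN hr hL R
    _ ≤ _ := by
        refine mul_le_mul_of_nonneg_left ?_ (div_nonneg (by linarith) (by linarith))
        refine (Finset.sum_le_sum fun y hy => hin y (Finset.mem_Icc.1 hy).1
          (Finset.mem_Icc.1 hy).2).trans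
          (Finset.sum_le_sum_of_subset_of_nonneg (fun y hy => ?_) fun y _ _ => hF y)
        rw [Finset.mem_Icc] at hy ⊢; omega

theorem final_sum_neg (R : ℕ) (F : ℤ → ℝ) :
    ∑ y ∈ Finset.Icc (-(R : ℤ)) R, F (-y) = ∑ y ∈ Finset.Icc (-(R : ℤ)) R, F y :=
  Finset.sum_equiv (Equiv.neg ℤ) (fun y => by simp only [Finset.mem_Icc, Equiv.neg_apply]; omega)
    fun _ _ => rfl

namespace Inst

variable {I : Inst} {s k i : ℕ} {rt : ℕ → ℕ} {P : ℕ → Fin I.m → ℤ} {hs : List ℤ}

/-- the support of the final weights -/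
def FinS (I : Inst) (s k : ℕ) (e : Fin I.m) (t : ℤ) : Prop :=
  -(((I.ed e).lo + (I.ed e).ext s k : ℕ) : ℤ) ≤ t ∧ t ≤ (((I.ed e).hi + (I.ed e).ext s k : ℕ) : ℤ) ∧
    ((I.ed e).ty = 3 → t = 0)

open Classical in
/-- the final weights without virtual edges -/
def finA (I : Inst) (s k : ℕ) : Fin I.m → ℤ → ℝ := fun e t =>
  if I.FinS s k e t then Real.exp (-(I.ed e).psi s (pI s) t) else 0

theorem final_mem_boxF {X : Fin I.m → ℤ} : X ∈ I.boxF s k ↔ ∀ e : Fin I.m,
    -(((I.ed e).lo + (I.ed e).ext s k : ℕ) : ℤ) ≤ X e ∧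
      X e ≤ (((I.ed e).hi + (I.ed e).ext s k : ℕ) : ℤ) := by
  simp only [boxF, Fintype.mem_piFinset, Finset.mem_Icc]

theorem finA_nonneg (e : Fin I.m) (t : ℤ) : 0 ≤ I.finA s k e t := by
  unfold finA; split_ifs
  · exact (Real.exp_pos _).le
  · exact le_rfl

theorem finA_le (e : Fin I.m) (t : ℤ) : I.finA s k e t ≤ Real.exp (-(I.ed e).psi s (pI s) t) := by
  unfold finA; split_ifs
  · exact le_rfl
  · exact (Real.exp_pos _).le

theorem finA_le_one (hs : 20 ≤ s) (e : Fin I.m) (t : ℤ) : I.finA s k e t ≤ 1 :=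
  (finA_le e t).trans (Real.exp_le_one_iff.2 (neg_nonpos.2 (Edge.psi_nonneg hs _ _ _)))

theorem finS_of_ne {e : Fin I.m} {t : ℤ} (h : I.finA s k e t ≠ 0) : I.FinS s k e t := by
  by_contra h'
  exact h (if_neg h')

theorem finA_of {e : Fin I.m} {t : ℤ} (h : I.FinS s k e t) :
    I.finA s k e t = Real.exp (-(I.ed e).psi s (pI s) t) := if_pos h

theorem finS_zero (e : Fin I.m) : I.FinS s k e 0 := ⟨by omega, by omega, fun _ => rfl⟩

theorem finA_zero (e : Fin I.m) : I.finA s k e 0 = 1 := by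
  rw [finA_of (finS_zero e), Edge.psi_zero]; simp

theorem Valid.lc_finA (h : I.Valid s k rt P) : LC (I.finA s k) (2 ^ (3 * s + 3)) := by
  refine ⟨finA_nonneg, fun e t ht => ?_, fun e x y hxy => ?_⟩
  · have h1 := finS_of_ne ht
    have h2 : (Pi.single e t : Fin I.m → ℤ) ∈ I.boxF s k := final_mem_boxF.2 fun e' => by
      by_cases he : e' = e
      · subst he; rw [Pi.single_eq_same]; exact ⟨h1.1, h1.2.1⟩
      · rw [Pi.single_eq_of_ne he]; constructor <;> omega
    have := h.abs_le h2 e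
    rw [Pi.single_eq_same] at this
    exact_mod_cast this
  · by_cases hx : I.finA s k e x = 0
    · rw [hx, zero_mul]; exact mul_nonneg (finA_nonneg _ _) (finA_nonneg _ _)
    by_cases hy : I.finA s k e y = 0
    · rw [hy, mul_zero]; exact mul_nonneg (finA_nonneg _ _) (finA_nonneg _ _)
    obtain ⟨x1, x2, x3⟩ := finS_of_ne hx
    obtain ⟨y1, y2, y3⟩ := finS_of_ne hy
    have h3 : (I.ed e).ty ≠ 3 := fun h3 => by have := x3 h3; have := y3 h3; omega
    rw [finA_of ⟨x1, x2, x3⟩, finA_of ⟨y1, y2, y3⟩,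
      finA_of (t := x + 1) ⟨by omega, by omega, fun h => absurd h h3⟩,
      finA_of (t := y - 1) ⟨by omega, by omega, fun h => absurd h h3⟩, ← Real.exp_add,
      ← Real.exp_add, Real.exp_le_exp]
    have := Edge.psi_conv h.s_ge (I.ed e) (pI s) hxy
    linarith

theorem Valid.marg_le (h : I.Valid s k rt P) (R : ℕ) (e : Fin I.m) (y : ℤ) :
    marg I.gr R (I.finA s k) 0 e y ≤ Real.exp (3 * s ^ 2) := by
  classical
  refine le_trans ?_ h.card_box
  rw [tt_marg_eq, Zs]
  have h1 : ∀ e' t, 0 ≤ ttPin (I.finA s k) e e' t ∧ ttPin (I.finA s k) e e' t ≤ 1 ∧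
      (ttPin (I.finA s k) e e' t ≠ 0 → I.FinS s k e' t) := fun e' t => by
    by_cases he : e' = e
    · subst he
      simp only [ttPin, Function.update_self]
      split_ifs with ht
      · exact ⟨zero_le_one, le_rfl, fun _ => ht ▸ finS_zero e'⟩
      · exact ⟨le_rfl, zero_le_one, fun h => absurd rfl h⟩
    · simp only [ttPin, Function.update_of_ne he]
      exact ⟨finA_nonneg _ _, finA_le_one h.s_ge _ _, finS_of_ne⟩
  calc _ ≤ ∑ X ∈ sec I.gr R (0 - y • I.gr.div (one e)), (if X ∈ I.boxF s k then (1 : ℝ) else 0) := by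
        refine Finset.sum_le_sum fun X _ => ?_
        split_ifs with hX
        · exact Finset.prod_le_one (fun e' _ => (h1 _ _).1) fun e' _ => (h1 _ _).2.1
        · by_contra hlt
          refine hX (final_mem_boxF.2 fun e' => ?_)
          have := (h1 _ _).2.2 (Finset.prod_ne_zero_iff.1 (not_le.1 hlt).ne' e' (Finset.mem_univ _))
          exact ⟨this.1, this.2.1⟩
    _ ≤ _ := by
        rw [Finset.sum_boole]
        exact_mod_cast Finset.card_le_card fun X hX => (Finset.mem_filter.1 hX).2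

theorem one_le_marg (R : ℕ) (e : Fin I.m) : 1 ≤ marg I.gr R (I.finA s k) 0 e 0 := by
  classical
  unfold marg
  refine le_trans (le_of_eq ?_) (Finset.single_le_sum
    (f := fun X : Fin I.m → ℤ => ∏ e' ∈ Finset.univ.erase e, I.finA s k e' (X e'))
    (fun X _ => Finset.prod_nonneg fun e' _ => finA_nonneg _ _) (a := 0) ?_)
  · simp [finA_zero]
  · refine Finset.mem_filter.2 ⟨Fintype.mem_piFinset.2 fun e' => ?_, I.gr.div_zero⟩
    split_ifs <;> simp

/-- the weight outside the window of a big edge -/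
theorem Valid.final_edge (h : I.Valid s k rt P) {e : Fin I.m}
    (he : (I.ed e).ty = 1 ∨ (I.ed e).ty = 2) :
    ∑ X ∈ sec I.gr (2 ^ (3 * s + 3)) 0, W (I.finA s k) X *
      ((if ((I.ed e).hi : ℤ) < X e then 1 else 0) + (if ((I.ed e).lo : ℤ) < -X e then 1 else 0)) ≤
      6 / (100 * s) * Zs I.gr (2 ^ (3 * s + 3)) (I.finA s k) 0 := by
  set R : ℕ := 2 ^ (3 * s + 3) with hR
  set d := I.ed e with hd
  have hs : (20 : ℝ) ≤ s := by exact_mod_cast h.s_ge
  obtain ⟨b1, b2, b3⟩ := h.big e he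
  rw [← hd] at b1 b2 b3
  have hR0 : 0 < d.R := lt_of_lt_of_le (by have := h.s_ge; unfold pM; positivity) b1
  have hR0' : (0 : ℝ) < d.R := by exact_mod_cast hR0
  have hRR : d.R ≤ R := (h.R_le e).trans (Nat.pow_le_pow_right (by norm_num) (by omega))
  set c : ℝ := ka s * if d.ty = 2 then 0 else bet s (pI s) with hc
  have hc0 : 0 ≤ c := mul_nonneg (ka_pos s).le (by
    split_ifs
    · exact le_rfl
    · exact (bet_pos h.s_ge _).le)
  set L : ℝ := ka s * pP s / d.R with hL
  have hpsi : ∀ t : ℤ, d.psi s (pI s) t = c * |(t : ℝ)| + L * d.out t := fun t => by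
    rw [Edge.psi, if_neg (by omega), if_neg (show ¬ d.ty = 0 by omega), hc, hL]
    split_ifs <;> ring
  have hkp : 34000 * (s : ℝ) ^ 5 ≤ ka s * pP s := by
    have := ka_ge s
    unfold pP
    push_cast
    nlinarith [pow_pos (show (0 : ℝ) < s by linarith) 5]
  have hLr : ∀ r : ℕ, d.R ≤ 24 * s ^ 2 * r → 1200 * (s : ℝ) ^ 3 ≤ L * r := fun r hr => by
    have hr' : (d.R : ℝ) ≤ 24 * s ^ 2 * r := by exact_mod_cast hr
    rw [hL, div_mul_eq_mul_div, le_div_iff₀ hR0']
    have h1 : (0 : ℝ) ≤ r := Nat.cast_nonneg _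
    have h2 : (0 : ℝ) < s ^ 3 := by positivity
    calc 1200 * (s : ℝ) ^ 3 * d.R ≤ 1200 * (s : ℝ) ^ 3 * (24 * s ^ 2 * r) := by gcongr
      _ = 28800 * (s : ℝ) ^ 5 * r := by ring
      _ ≤ 34000 * (s : ℝ) ^ 5 * r := by gcongr; norm_num
      _ ≤ _ := by gcongr
  have hpos : ∀ r : ℕ, d.R ≤ 24 * s ^ 2 * r → 0 < r := fun r hr => by
    rcases Nat.eq_zero_or_pos r with rfl | h0
    · omega
    · exact h0
  have hfac : ∀ r : ℕ, d.R ≤ 24 * s ^ 2 * r → 12 * (3 * (s : ℝ) ^ 2) / (L * r) ≤ 3 / (100 * s) :=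
    fun r hr => by
      have h1 := hLr r hr
      have h2 : (0 : ℝ) < s ^ 3 := by positivity
      rw [div_le_div_iff₀ (by linarith) (by positivity)]
      nlinarith
  have h4 : ∀ r : ℕ, d.R ≤ 24 * s ^ 2 * r → 4 * (3 * (s : ℝ) ^ 2) ≤ L * r := fun r hr => by
    have h1 := hLr r hr
    nlinarith [sq_nonneg (s : ℝ)]
  set m : ℤ → ℝ := marg I.gr R (I.finA s k) 0 e with hm
  have hm0 : ∀ y, 0 ≤ m y := marg_nonneg _ h.lc_finA _ _
  set g : ℤ → ℝ := fun y => Real.exp (-(c * |(y : ℝ)|)) * m y with hg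
  have g0 : ∀ y, 0 ≤ g y := fun y => mul_nonneg (Real.exp_pos _).le (hm0 y)
  have gmid : ∀ x y z z' : ℤ, x + y = z + z' → |z - z'| ≤ 1 → g x * g y ≤ g z * g z' := by
    intro x y z z' e1 e2
    have h1 := marg_mid I.gr h.lc_finA 0 e e1 e2
    have h2 : |z| + |z'| ≤ |x| + |y| := by
      rw [_root_.abs_le] at e2
      have := le_abs_self x
      have := le_abs_self y
      have := neg_abs_le x
      have := neg_abs_le y
      rcases abs_cases z with ⟨a, _⟩ | ⟨a, _⟩ <;> rcases abs_cases z' with ⟨b, _⟩ | ⟨b, _⟩ <;>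
        omega
    have h3 : |(z : ℝ)| + |(z' : ℝ)| ≤ |(x : ℝ)| + |(y : ℝ)| := by exact_mod_cast h2
    have h5 : Real.exp (-(c * |(x : ℝ)|)) * Real.exp (-(c * |(y : ℝ)|)) ≤
        Real.exp (-(c * |(z : ℝ)|)) * Real.exp (-(c * |(z' : ℝ)|)) := by
      rw [← Real.exp_add, ← Real.exp_add, Real.exp_le_exp]
      nlinarith
    calc g x * g y = (Real.exp (-(c * |(x : ℝ)|)) * Real.exp (-(c * |(y : ℝ)|))) * (m x * m y) := by
          simp only [hg]; ring
      _ ≤ (Real.exp (-(c * |(z : ℝ)|)) * Real.exp (-(c * |(z' : ℝ)|))) * (m z * m z') :=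
          mul_le_mul h5 h1 (mul_nonneg (hm0 _) (hm0 _)) (by positivity)
      _ = g z * g z' := by simp only [hg]; ring
  have g1 : 1 ≤ g 0 := by simpa [hg] using one_le_marg R e
  have gN : ∀ y, g y ≤ Real.exp (3 * s ^ 2) := fun y =>
    (mul_le_of_le_one_left (hm0 y) (Real.exp_le_one_iff.2 (neg_nonpos.2 (by positivity)))).trans
      (h.marg_le R e y)
  set F : ℤ → ℝ := fun y => I.finA s k e y * m y with hF
  have F0 : ∀ y, 0 ≤ F y := fun y => mul_nonneg (finA_nonneg _ _) (hm0 y)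
  have Fout : ∀ y, F y ≤ Real.exp (-(L * d.out y)) * g y := fun y => by
    simp only [hF, hg]
    rw [← mul_assoc, ← Real.exp_add]
    refine mul_le_mul_of_nonneg_right ((finA_le e y).trans (le_of_eq ?_)) (hm0 y)
    rw [← hd, hpsi]; congr 1; ring
  have Fin : ∀ y : ℤ, -(d.lo : ℤ) ≤ y → y ≤ d.hi → g y ≤ F y := fun y y1 y2 => by
    simp only [hF, hg]
    rw [finA_of ⟨by rw [← hd]; omega, by rw [← hd]; omega, fun h3 => by rw [← hd] at h3; omega⟩,
      ← hd, hpsi, show d.out y = 0 by unfold Edge.out; omega]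
    simp
  have hν : (2 : ℝ) ≤ 3 * s ^ 2 := by nlinarith
  have hZ : Zs I.gr R (I.finA s k) 0 = ∑ y ∈ Finset.Icc (-(R : ℤ)) R, F y := by
    have := sum_marg I.gr (I.finA s k) R 0 e fun _ => 1
    simp only [mul_one] at this
    exact this
  have hZ0 : 0 ≤ ∑ y ∈ Finset.Icc (-(R : ℤ)) R, F y := Finset.sum_nonneg fun y _ => F0 y
  have s1 := (final_side g F g0 gmid g1 hν gN (hpos _ b3) (h4 _ b3) ((h.hi_le e).trans hRR) F0
    (fun u => by
      have := Fout (d.hi + u)
      rwa [show d.out (d.hi + u) = u by unfold Edge.out; omega] at this)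
    (fun y y1 y2 => Fin y (by omega) y2)).trans (mul_le_mul_of_nonneg_right (hfac _ b3) hZ0)
  have s2 := final_side (fun y => g (-y)) (fun y => F (-y)) (fun y => g0 _)
    (fun x y z z' e1 e2 => gmid _ _ _ _ (by omega) (by rw [_root_.abs_le] at e2 ⊢; omega))
    (by simpa using g1) hν (fun y => gN _) (hpos _ b2) (h4 _ b2) ((h.lo_le e).trans hRR)
    (fun y => F0 _) (fun u => by
      have := Fout (-(d.lo + u))
      rwa [show d.out (-(d.lo + u)) = u by unfold Edge.out; omega] at this)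
    (fun y y1 y2 => Fin (-y) (by omega) (by omega))
  rw [final_sum_neg R F] at s2
  have s3 := s2.trans (mul_le_mul_of_nonneg_right (hfac _ b2) hZ0)
  rw [← final_sum_neg] at s3
  simp only [neg_neg] at s3
  rw [sum_marg I.gr (I.finA s k) R 0 e fun y => (if (d.hi : ℤ) < y then 1 else 0) +
    (if (d.lo : ℤ) < -y then 1 else 0), hZ]
  calc _ = ∑ y ∈ Finset.Icc (-(R : ℤ)) R, (if (d.hi : ℤ) < y then F y else 0) +
        ∑ y ∈ Finset.Icc (-(R : ℤ)) R, (if (d.lo : ℤ) < -y then F y else 0) := by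
        rw [← Finset.sum_add_distrib]
        refine Finset.sum_congr rfl fun y _ => ?_
        simp only [hF, hm]
        split_ifs <;> ring
    _ ≤ _ := by
        refine (add_le_add s1 s3).trans (le_of_eq ?_)
        ring

theorem Valid.final_Zs (h : I.Valid s k rt P) :
    Zs I.gr (2 ^ (3 * s + 3)) (I.finA s k) 0 ≤ 100 / 94 * I.GS.card := by
  classical
  set R : ℕ := 2 ^ (3 * s + 3) with hR
  have hs : (20 : ℝ) ≤ s := by exact_mod_cast h.s_ge
  have hZ0 := Zs_nonneg I.gr h.lc_finA 0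
  let B : Finset (Fin I.m) := Finset.univ.filter fun e => (I.ed e).ty = 1 ∨ (I.ed e).ty = 2
  let χ : Fin I.m → (Fin I.m → ℤ) → ℝ := fun e X =>
    (if ((I.ed e).hi : ℤ) < X e then 1 else 0) + (if ((I.ed e).lo : ℤ) < -X e then 1 else 0)
  have hχ : ∀ e X, 0 ≤ χ e X := fun e X => by positivity
  have h1 : ∀ X ∈ sec I.gr R 0, W (I.finA s k) X ≤ (if X ∈ I.GS then 1 else 0) +
      ∑ e ∈ B, W (I.finA s k) X * χ e X := by
    intro X hX
    have hW := W_nonneg h.lc_finA X
    have hsum : 0 ≤ ∑ e ∈ B, W (I.finA s k) X * χ e X :=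
      Finset.sum_nonneg fun e _ => mul_nonneg hW (hχ e X)
    split_ifs with hG
    · have : W (I.finA s k) X ≤ 1 :=
        Finset.prod_le_one (fun e _ => finA_nonneg _ _) fun e _ => finA_le_one h.s_ge _ _
      linarith
    · rcases hW.eq_or_lt with h0 | h0
      · rw [← h0]; simp
      rw [mem_GS, not_and] at hG
      obtain ⟨e, he⟩ := not_forall.1 (hG (mem_sec.1 hX).2)
      obtain ⟨x1, x2, x3⟩ := finS_of_ne (Finset.prod_ne_zero_iff.1 h0.ne' e (Finset.mem_univ _))
      have h3 : (I.ed e).ty ≠ 3 := fun h3 => he (by rw [if_pos h3]; exact x3 h3)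
      rw [if_neg h3] at he
      have hB : e ∈ B := by
        refine Finset.mem_filter.2 ⟨Finset.mem_univ _, ?_⟩
        by_contra hb
        have : (I.ed e).ext s k = 0 := if_neg hb
        rw [this] at x1 x2
        exact he ⟨by simpa using x1, by simpa using x2⟩
      have h4 : 1 ≤ χ e X := by
        simp only [χ]
        split_ifs <;> first | omega | norm_num
      have h5 := Finset.single_le_sum (f := fun e => W (I.finA s k) X * χ e X)
        (fun e _ => mul_nonneg hW (hχ e X)) hB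
      have h6 := le_mul_of_one_le_right hW h4
      linarith
  have h2 := Finset.sum_le_sum h1
  rw [Finset.sum_add_distrib, Finset.sum_boole, Finset.sum_comm] at h2
  have h3 : (((sec I.gr R 0).filter fun X => X ∈ I.GS).card : ℝ) ≤ I.GS.card := by
    exact_mod_cast Finset.card_le_card fun X hX => (Finset.mem_filter.1 hX).2
  have h4 : ∑ e ∈ B, ∑ X ∈ sec I.gr R 0, W (I.finA s k) X * χ e X ≤
      B.card • (6 / (100 * s) * Zs I.gr R (I.finA s k) 0) :=
    Finset.sum_le_card_nsmul _ _ _ fun e he => h.final_edge (Finset.mem_filter.1 he).2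
  have h5 : (B.card : ℝ) ≤ s := by
    have : B.card ≤ s := (Finset.card_le_univ _).trans (by simpa using h.m_le)
    exact_mod_cast this
  have h6 : (B.card : ℝ) * (6 / (100 * s) * Zs I.gr R (I.finA s k) 0) ≤
      6 / 100 * Zs I.gr R (I.finA s k) 0 := by
    refine (mul_le_mul_of_nonneg_right h5 (by positivity)).trans (le_of_eq ?_)
    field_simp
  rw [nsmul_eq_mul] at h4
  change Zs I.gr R (I.finA s k) 0 ≤ _ at h2
  linarith

theorem Valid.final_le (h : I.Valid s k rt P) : I.ZZ s k (pI s) 0 ≤ 2 * I.GS.card := by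
  classical
  set R : ℕ := 2 ^ (3 * s + 3) with hR
  have hs : (20 : ℝ) ≤ s := by exact_mod_cast h.s_ge
  have h1 : ∀ X ∈ (I.boxF s k).filter (fun X => I.gr.div X = 0), th s ^ I.kF s (pI s) X ≤
      Real.exp (-(10 * s ^ 2 + 3)) + 3 / 2 * W (I.finA s k) X := by
    intro X hX
    have hW := W_nonneg h.lc_finA X
    rw [th_pow]
    by_cases hv : ∀ e : Fin I.m, (I.ed e).ty = 3 → X e = 0
    · have hb := final_mem_boxF.1 (Finset.mem_filter.1 hX).1
      have e1 : W (I.finA s k) X = Real.exp (-∑ e : Fin I.m, (I.ed e).psi s (pI s) (X e)) := by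
        rw [W, ← Finset.sum_neg_distrib, Real.exp_sum]
        exact Finset.prod_congr rfl fun e _ => finA_of ⟨(hb e).1, (hb e).2, hv e⟩
      have e2 : ∑ e : Fin I.m, ((I.ed e).psi s (pI s) (X e) - 2 * ka s) ≤ ka s * I.kF s (pI s) X := by
        rw [kF, Nat.cast_sum, Finset.mul_sum]
        exact Finset.sum_le_sum fun e _ => Edge.le_ke h.s_ge _ _ _
      rw [Finset.sum_sub_distrib, Finset.sum_const, Finset.card_univ, Fintype.card_fin,
        nsmul_eq_mul] at e2
      have e3 : (I.m : ℝ) ≤ s := by exact_mod_cast h.m_le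
      have e4 := ka_mul_le h.s_ge
      have e5 := ka_pos s
      have e6 : Real.exp (-(ka s * I.kF s (pI s) X)) ≤ Real.exp (1 / 25) * W (I.finA s k) X := by
        rw [e1, ← Real.exp_add, Real.exp_le_exp]
        nlinarith
      have e7 : Real.exp (1 / 25) ≤ 3 / 2 := by
        have := Real.exp_bound_div_one_sub_of_interval' (x := 1 / 25) (by norm_num) (by norm_num)
        linarith [show (1 : ℝ) / (1 - 1 / 25) ≤ 3 / 2 by norm_num]
      have := Real.exp_pos (-(10 * (s : ℝ) ^ 2 + 3))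
      nlinarith
    · obtain ⟨e, he⟩ := not_forall.1 hv
      obtain ⟨h3, hx⟩ := Classical.not_imp.1 he
      have e1 : pLm s ≤ I.kF s (pI s) X := by
        refine le_trans ?_ (Finset.single_le_sum (f := fun e : Fin I.m => (I.ed e).ke s (pI s) (X e))
          (fun _ _ => Nat.zero_le _) (Finset.mem_univ e))
        have := pLm_le h.s_ge
        simp only [Edge.ke, if_pos h3]
        rw [min_eq_right (by unfold pI; omega)]
        exact Nat.le_mul_of_pos_right _ (Int.natAbs_pos.2 hx)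
      have e2 : (pLm s : ℝ) ≤ I.kF s (pI s) X := by exact_mod_cast e1
      have e3 := ka_pLm_ge s
      have e4 : Real.exp (-(ka s * I.kF s (pI s) X)) ≤ Real.exp (-(10 * s ^ 2 + 3)) := by
        rw [Real.exp_le_exp]
        nlinarith [ka_pos s]
      linarith
  have h2 := Finset.sum_le_sum h1
  rw [Finset.sum_add_distrib, Finset.sum_const, nsmul_eq_mul, ← Finset.mul_sum] at h2
  have h3 : ∑ X ∈ (I.boxF s k).filter (fun X => I.gr.div X = 0), W (I.finA s k) X ≤
      Zs I.gr R (I.finA s k) 0 :=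
    Finset.sum_le_sum_of_subset_of_nonneg (fun X hX => mem_sec.2
      ⟨fun e => by exact_mod_cast h.abs_le (Finset.mem_filter.1 hX).1 e, (Finset.mem_filter.1 hX).2⟩)
      fun X _ _ => W_nonneg h.lc_finA X
  have h4 : (((I.boxF s k).filter (fun X => I.gr.div X = 0)).card : ℝ) *
      Real.exp (-(10 * s ^ 2 + 3)) ≤ 1 / 4 := by
    have e1 : (((I.boxF s k).filter (fun X => I.gr.div X = 0)).card : ℝ) ≤ Real.exp (3 * s ^ 2) :=
      le_trans (by exact_mod_cast Finset.card_filter_le _ _) h.card_box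
    refine (mul_le_mul_of_nonneg_right e1 (Real.exp_pos _).le).trans ?_
    rw [← Real.exp_add]
    have e2 : Real.exp (3 * s ^ 2 + -(10 * s ^ 2 + 3)) ≤ Real.exp (-3) :=
      Real.exp_le_exp.2 (by nlinarith [sq_nonneg (s : ℝ)])
    have e3 := Real.add_one_le_exp (3 : ℝ)
    rw [Real.exp_neg] at e2
    exact e2.trans ((inv_anti₀ (by norm_num) (by linarith : (4 : ℝ) ≤ Real.exp 3)).trans
      (by norm_num))
  have h5 := h.final_Zs
  have h6 : (1 : ℝ) ≤ I.GS.card := by
    exact_mod_cast Finset.card_pos.2 ⟨0, zero_mem_GS⟩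
  change I.ZZ s k (pI s) 0 ≤ _ at h2
  linarith

end Inst

end Crest.Agent.R309
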