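import Crest.Agent.R309.Bridge

/-!
# Row 309: Flat
The flat machine versus the structured description (deterministic list bookkeeping).
* `stage_eq`: (1) `pmix` steps from a time `τ` with `τ % pb = 0` inside stage `i` only change `Z` by `foldl mstep`; (2) one block of `pb` steps acts by `record` on the
  sample (plus `finish` for the last block); (3) induction on the number of blocks (`runM_append`, `blk`), describing `cnt`, `cA`, `cB`, `res` after `j` blocks.
* `run_eq`: invariant at time `τ ≤ pT`: `Z` (and `res`) has length `m` and is `inBox`; `hs`, `cnt` have length `n * n`, `|hs q| ≤ pL0 + (τ / pS) * (pJ / 2)`;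
  `cnt q, cA, cB ≤ τ % pS / pb` (or simply `≤ (τ % pS + 1) / pb ≤ pKs`); `num, den ≤ pKs ^ (τ / pS)`.  It gives `esize ≤ pB s` (`esize_list_le`,
  `esize_nat_le_of_le_two_pow`, `pKs_le`, `abs_le`; `esize` of `MS` unfolds to a sum by `rfl`/`esize_prod`).
-/

set_option autoImplicit false

noncomputable section

namespace Crest.Agent.R309

open Finset Crest.Agent.Lib.PolyTime

theorem flat_lt {K b j r : ℕ} (hj : j < K) (hr : r < b) : j * b + r < K * b :=
  calc j * b + r < j * b + b := by omega
    _ = (j + 1) * b := by ring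
    _ ≤ K * b := Nat.mul_le_mul_right _ hj

theorem flat_mod (K b i j : ℕ) {r : ℕ} (hr : r < b) : (i * (K * b) + j * b + r) % b = r := by
  rw [show i * (K * b) + j * b + r = r + b * (i * K + j) by ring, Nat.add_mul_mod_self_left,
    Nat.mod_eq_of_lt hr]

theorem flat_div {K b j r : ℕ} (i : ℕ) (hj : j < K) (hr : r < b) :
    (i * (K * b) + j * b + r) / (K * b) = i := by
  have h := flat_lt hj hr
  rw [show i * (K * b) + j * b + r = (j * b + r) + (K * b) * i by ring,
    Nat.add_mul_div_left _ _ (by omega), Nat.div_eq_of_lt h, zero_add]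

theorem flat_end {K r j : ℕ} (i : ℕ) (hj : j < K) :
    (i * (K * (r + 1)) + j * (r + 1) + r + 1) % (K * (r + 1)) = 0 ↔ j + 1 = K := by
  rw [show i * (K * (r + 1)) + j * (r + 1) + r + 1 = (j + 1) * (r + 1) + (K * (r + 1)) * i by ring,
    Nat.add_mul_mod_self_left]
  constructor
  · intro h
    by_contra hne
    have h1 : (j + 1) * (r + 1) < K * (r + 1) := Nat.mul_lt_mul_of_pos_right (by omega) (by omega)
    rw [Nat.mod_eq_of_lt h1] at h
    simp at h
  · rintro rfl
    exact Nat.mod_self _

namespace Inst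

variable {I : Inst} {s k i : ℕ} {rt : ℕ → ℕ} {P : ℕ → Fin I.m → ℤ} {hs : List ℤ}

theorem flat_step_mix {j r : ℕ} (hj : j < pKs s k) (hr : r < pmix s k) (x : MS) (u : ℕ) :
    I.step0 s k (i * pS s k + j * pb s k + r) x u =
      ⟨I.mstep s k (min i (pI s)) x.hs x.Z u, x.hs, x.cnt, x.cA, x.cB, x.num, x.den, x.res⟩ := by
  have hr' : r < pb s k := by unfold pb; omega
  simp only [step0, pS, flat_mod _ _ _ _ hr', flat_div i hj hr', if_pos hr]

theorem flat_step_rec {j : ℕ} (hj : j < pKs s k) (x : MS) (u : ℕ) :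
    I.step0 s k (i * pS s k + j * pb s k + pmix s k) x u =
      if j + 1 = pKs s k then I.finish s (I.record s (min i (pI s)) x u)
      else I.record s (min i (pI s)) x u := by
  have hr' : pmix s k < pb s k := by unfold pb; omega
  have h3 : (i * (pKs s k * pb s k) + j * pb s k + pmix s k + 1) % (pKs s k * pb s k) = 0 ↔
      j + 1 = pKs s k := flat_end i hj
  simp only [step0, pS, flat_mod _ _ _ _ hr', flat_div i hj hr', lt_irrefl, if_false, h3]

theorem flat_mix {j : ℕ} (hj : j < pKs s k) (us : List ℕ) : ∀ (r : ℕ) (x : MS),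
    r + us.length ≤ pmix s k → runM (I.step0 s k) (i * pS s k + j * pb s k + r) x us =
      ⟨us.foldl (I.mstep s k (min i (pI s)) x.hs) x.Z, x.hs, x.cnt, x.cA, x.cB, x.num, x.den,
        x.res⟩ := by
  induction us with
  | nil => intro r x _; rfl
  | cons u us ih =>
    intro r x h
    rw [List.length_cons] at h
    rw [runM_cons, flat_step_mix hj (by omega), add_assoc _ r, ih (r + 1) _ (by omega)]
    rfl

/-- the state after the samples `l` -/
def flatSt (I : Inst) (s i : ℕ) (hs : List ℤ) (num den : ℕ) (l : List (List ℤ × ℕ)) : MS :=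
  ⟨I.zeros, hs, I.cntOf l, l.countP fun p => I.alpha s i p.1 p.2,
    l.countP fun p => I.beta s i p.1 p.2, num, den,
    if i = pI s then (l.map Prod.fst).find? I.goodL else none⟩

theorem flat_cntOf (l : List (List ℤ × ℕ)) (p : List ℤ × ℕ) :
    (I.cntOf l).set (I.key p.1) ((I.cntOf l).getD (I.key p.1) 0 + 1) = I.cntOf (l ++ [p]) := by
  refine List.ext_getElem (by simp [cntOf]) fun q h1 h2 => ?_
  have hq : q < I.n * I.n := by simpa [cntOf] using h2
  rw [List.getElem_set]
  split_ifs with h
  · subst h
    simp [cntOf, List.getD_eq_getElem?_getD, List.getElem?_range hq]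
  · simp [cntOf, h]

theorem flat_toNat (b : Bool) : b.toNat = if b = true then 1 else 0 := by cases b <;> rfl

theorem flat_record (num den : ℕ) (l : List (List ℤ × ℕ)) (p : List ℤ × ℕ) :
    I.record s i ⟨p.1, hs, I.cntOf l, l.countP fun p => I.alpha s i p.1 p.2,
      l.countP fun p => I.beta s i p.1 p.2, num, den,
      if i = pI s then (l.map Prod.fst).find? I.goodL else none⟩ p.2 =
      I.flatSt s i hs num den (l ++ [p]) := by
  simp only [record, flatSt, flat_cntOf, List.countP_append, List.countP_singleton, flat_toNat,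
    List.map_append, List.find?_append, List.map_cons, List.map_nil, MS.mk.injEq, true_and]
  by_cases h : i = pI s
  · simp only [h, if_true, true_and]
    cases (l.map Prod.fst).find? I.goodL with
    | none => cases hg : I.goodL p.1 <;> simp [hg]
    | some y => simp
  · simp [h]

theorem flat_block {j : ℕ} (hj : j < pKs s k) (hi : i ≤ pI s) (num den : ℕ)
    (l : List (List ℤ × ℕ)) {us : List ℕ} (hus : us.length = pb s k) :
    runM (I.step0 s k) (i * pS s k + j * pb s k) (I.flatSt s i hs num den l) us =
      if j + 1 = pKs s k then I.finish s (I.flatSt s i hs num den (l ++ [I.sample s k i hs us]))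
      else I.flatSt s i hs num den (l ++ [I.sample s k i hs us]) := by
  have hlt : pmix s k < us.length := by rw [hus]; unfold pb; omega
  have e : us = us.take (pmix s k) ++ [us.getD (pmix s k) 0] := by
    rw [List.getD_eq_getElem _ _ hlt, List.take_append_getElem,
      List.take_of_length_le (i := pmix s k + 1) hus.le]
  have hl : (us.take (pmix s k)).length = pmix s k := by rw [List.length_take]; omega
  have h1 := flat_mix (I := I) (i := i) hj (us.take (pmix s k)) 0 (I.flatSt s i hs num den l)
    (by omega)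
  rw [add_zero] at h1
  conv_lhs => rw [e]
  rw [runM_append, h1, hl, runM_cons, runM_nil, flat_step_rec hj, min_eq_left hi,
    ← flat_record num den l (I.sample s k i hs us)]
  rfl

theorem flat_blocks (hi : i ≤ pI s) (num den : ℕ) {us : List ℕ} (hus : us.length = pS s k) (j : ℕ)
    (hj : j < pKs s k) :
    runM (I.step0 s k) (i * pS s k) (I.clean hs num den none) (us.take ((j + 1) * pb s k)) =
      if j + 1 = pKs s k then I.finish s (I.flatSt s i hs num den
        ((List.range (j + 1)).map fun j => I.sample s k i hs (blk (pb s k) j us)))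
      else I.flatSt s i hs num den
        ((List.range (j + 1)).map fun j => I.sample s k i hs (blk (pb s k) j us)) := by
  have hb : ∀ j < pKs s k, (blk (pb s k) j us).length = pb s k := fun j hj => by
    have : (j + 1) * pb s k ≤ pKs s k * pb s k := Nat.mul_le_mul_right _ hj
    rw [blk, List.length_take, List.length_drop, hus, pS]
    rw [add_mul, one_mul] at this
    omega
  induction j with
  | zero =>
    have e : I.clean hs num den none = I.flatSt s i hs num den [] := by
      simp [clean, flatSt, cnt0, cntOf]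
    have h := flat_block (I := I) (hs := hs) hj hi num den [] (hb 0 hj)
    rw [zero_mul, add_zero] at h
    rw [e, zero_add, one_mul]
    simpa [blk] using h
  | succ j ih =>
    have hl : (us.take ((j + 1) * pb s k)).length = (j + 1) * pb s k := by
      have : (j + 1) * pb s k ≤ pKs s k * pb s k := Nat.mul_le_mul_right _ hj.le
      rw [List.length_take, hus, pS]
      omega
    rw [add_mul (j + 1) 1, one_mul, List.take_add, runM_append, ih (by omega), if_neg hj.ne, hl]
    rw [List.range_succ (n := j + 1), List.map_append]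
    exact flat_block hj hi num den _ (hb _ hj)

theorem stage_eq (hK : 0 < pKs s k) (hi : i ≤ pI s) (hs : List ℤ) (num den : ℕ) {us : List ℕ}
    (hus : us.length = pS s k) :
    runM (I.step0 s k) (i * pS s k) (I.clean hs num den none) us =
      I.clean (I.newHs s k i hs us) (num * I.cntA s k i hs us) (den * I.cntB s k i hs us)
        (if i = pI s then I.first s k i hs us else none) := by
  obtain ⟨j, hj⟩ : ∃ j, pKs s k = j + 1 := ⟨pKs s k - 1, by omega⟩
  have h := flat_blocks (I := I) (hs := hs) hi num den hus j (by omega)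
  rw [if_pos hj.symm, ← hj, List.take_of_length_le (by rw [hus]; rfl)] at h
  rw [h]
  simp only [finish, flatSt, clean, newHs, cntA, cntB, first, samples, List.map_map]
  rfl

theorem HB.upd (h : I.HB s i hs) (hn : 0 < I.n) (cnt : List ℕ) : I.HB s (i + 1) (I.upd s hs cnt) := by
  refine ⟨by simp [Inst.upd], ?_, fun q => ?_⟩
  · simp [Inst.upd, List.getD_eq_getElem?_getD, List.getElem?_range (Nat.mul_pos hn hn)]
  · rcases lt_or_ge q (I.n * I.n) with hq | hq
    · have h1 := h.2.2 q
      simp only [Inst.upd, List.getD_eq_getElem?_getD, List.getElem?_map, List.getElem?_range hq,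
        Option.map_some, Option.getD_some] at h1 ⊢
      have h2 : (0 : ℤ) ≤ ((pJ s / 2 : ℕ) : ℤ) := Int.natCast_nonneg _
      rw [Nat.cast_add, Nat.cast_mul] at h1
      rw [Nat.cast_add, Nat.cast_mul, Nat.cast_add, Nat.cast_one, add_mul, one_mul]
      rw [abs_le] at h1 ⊢
      split_ifs <;> constructor <;> linarith [h1.1, h1.2]
    · rw [List.getD_eq_default _ _ (by simpa [Inst.upd] using hq), abs_zero]
      exact Int.natCast_nonneg _

/-- admissible points -/
def FlatOK (I : Inst) (s k : ℕ) (Z : List ℤ) : Prop := Z.length = I.m ∧ I.inBox s k Z = true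

theorem flat_ok_zeros : I.FlatOK s k I.zeros :=
  ⟨by simp [zeros], by rw [zeros_eq, inBox_ofFn]; exact zero_mem_boxF s k⟩

theorem FlatOK.mstep {Z : List ℤ} (h : I.FlatOK s k Z) (i : ℕ) (hs : List ℤ) (u : ℕ) :
    I.FlatOK s k (I.mstep s k i hs Z u) := by
  unfold Inst.mstep
  split_ifs with h1
  · exact h
  all_goals
    dsimp only
    split_ifs with h2
    · simp only [Bool.and_eq_true] at h2
      exact ⟨by simp, h2.1.1⟩
    · exact h

/-- the invariant in stage `i` after `j` samples -/
structure FlatInv (I : Inst) (s k i j : ℕ) (x : MS) : Prop where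
  Z : I.FlatOK s k x.Z
  res : ∀ Y, x.res = some Y → I.FlatOK s k Y
  hs : I.HB s i x.hs
  len : x.cnt.length = I.n * I.n
  cnt : ∀ c ∈ x.cnt, c ≤ j
  cA : x.cA ≤ j
  cB : x.cB ≤ j
  num : x.num ≤ pKs s k ^ i
  den : x.den ≤ pKs s k ^ i

theorem FlatInv.record {j : ℕ} {x : MS} (h : I.FlatInv s k i j x) (i' u : ℕ) :
    I.FlatInv s k i (j + 1) (I.record s i' x u) := by
  refine ⟨flat_ok_zeros, fun Y hY => ?_, h.hs, by simp [Inst.record, h.len], fun c hc => ?_,
    Nat.add_le_add h.cA (Bool.toNat_le _), Nat.add_le_add h.cB (Bool.toNat_le _), h.num, h.den⟩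
  · simp only [Inst.record] at hY
    split_ifs at hY
    · rw [← Option.some.inj hY]; exact h.Z
    · exact h.res Y hY
  · rcases List.mem_or_eq_of_mem_set hc with hc | rfl
    · exact (h.cnt c hc).trans (Nat.le_succ _)
    · refine Nat.succ_le_succ ?_
      rcases lt_or_ge (I.key x.Z) x.cnt.length with hq | hq
      · rw [List.getD_eq_getElem _ _ hq]; exact h.cnt _ (List.getElem_mem hq)
      · rw [List.getD_eq_default _ _ hq]; exact Nat.zero_le _

theorem FlatInv.finish {x : MS} (h : I.FlatInv s k i (pKs s k) x) (hn : 0 < I.n) :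
    I.FlatInv s k (i + 1) 0 (I.finish s x) :=
  ⟨h.Z, h.res, h.hs.upd hn _, by simp [Inst.finish, cnt0],
    fun c hc => (List.eq_of_mem_replicate hc).le, le_rfl, le_rfl,
    by rw [pow_succ]; exact Nat.mul_le_mul h.num h.cA,
    by rw [pow_succ]; exact Nat.mul_le_mul h.den h.cB⟩

theorem FlatOK.esize_le (h : I.Valid s k rt P) {Z : List ℤ} (hZ : I.FlatOK s k Z) :
    esize Z ≤ s * (18 * s + 32) + 1 := by
  have h1 : I.toF Z ∈ I.boxF s k := by rw [← inBox_ofFn, ofFn_toF hZ.1]; exact hZ.2
  have h2 : ∀ a ∈ Z, esize a ≤ 18 * s + 31 := fun a ha => by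
    rw [← ofFn_toF hZ.1, List.mem_ofFn] at ha
    obtain ⟨e, rfl⟩ := ha
    have h3 : (I.toF Z e).natAbs ≤ 2 ^ (3 * s + 3) := by
      have := h.abs_le h1 e
      rw [← Int.natCast_natAbs] at this
      exact_mod_cast this
    have := esize_nat_le_of_le_two_pow h3
    rw [esize_int]
    omega
  refine (esize_list_le h2).trans ?_
  have := Nat.mul_le_mul_right (18 * s + 31 + 1) (hZ.1.le.trans h.m_le)
  nlinarith

theorem FlatInv.esize_le (h : I.Valid s k rt P) {j : ℕ} {x : MS} (hx : I.FlatInv s k i j x)
    (hi : i ≤ pI s + 1) (hj : j ≤ pKs s k) : esize x ≤ pB s := by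
  have hs := h.s_ge
  have hK := pKs_le hs h.k_le
  have hnn := h.nn_le.trans h.m_le
  have e : esize x = esize x.Z + (esize x.hs + (esize x.cnt + (esize x.cA + (esize x.cB +
      (esize x.num + (esize x.den + esize x.res + 1) + 1) + 1) + 1) + 1) + 1) + 1 := rfl
  have h1 := hx.Z.esize_le h
  have h2 : esize x.res ≤ s * (18 * s + 32) + 3 := by
    cases hr : x.res with
    | none => simp
    | some Y => have := (hx.res Y hr).esize_le h; rw [esize_some]; omega
  have h3 : esize x.hs ≤ s * (6 * s + 128) + 1 := by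
    have h4 : pL0 s + i * (pJ s / 2) ≤ 2 ^ (s + 19) := by
      have a1 := pL0_le hs
      have a2 : pJ s / 2 ≤ 64 * s := by have := pJ_le hs; omega
      have a3 : i * (pJ s / 2) ≤ (4000 * s ^ 3 + 1) * (64 * s) := Nat.mul_le_mul hi a2
      have a4 := pow_four_le hs
      have a5 : 400 * s ^ 2 ≤ s ^ 4 := by
        rw [show s ^ 4 = s ^ 2 * s ^ 2 by ring]
        exact Nat.mul_le_mul_right _ (by nlinarith)
      rw [pow_add]
      nlinarith
    have h5 : ∀ a ∈ x.hs, esize a ≤ 6 * s + 127 := fun a ha => by
      obtain ⟨q, hq, rfl⟩ := List.getElem_of_mem ha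
      have h6 := hx.hs.2.2 q
      rw [List.getD_eq_getElem _ _ hq, ← Int.natCast_natAbs, Nat.cast_le] at h6
      have := esize_nat_le_of_le_two_pow (h6.trans h4)
      rw [esize_int]
      omega
    refine (esize_list_le h5).trans ?_
    have := Nat.mul_le_mul_right (6 * s + 127 + 1) (hx.hs.1.le.trans hnn)
    nlinarith
  have h4 : ∀ c ≤ j, esize c ≤ 60 * s + 7 := fun c hc => by
    have := esize_nat_le_of_le_two_pow ((hc.trans hj).trans hK)
    omega
  have h5 : esize x.cnt ≤ s * (60 * s + 8) + 1 := by
    refine (esize_list_le fun c hc => h4 c (hx.cnt c hc)).trans ?_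
    have := Nat.mul_le_mul_right (60 * s + 7 + 1) (hx.len.le.trans hnn)
    nlinarith
  have h6 : ∀ c ≤ pKs s k ^ i, esize c ≤ 6 * (10 * s * (4000 * s ^ 3 + 1)) + 7 := fun c hc => by
    refine esize_nat_le_of_le_two_pow (hc.trans ((Nat.pow_le_pow_left hK i).trans ?_))
    rw [← pow_mul]
    exact Nat.pow_le_pow_right (by norm_num) (Nat.mul_le_mul_left _ hi)
  have h7 := h4 _ hx.cA
  have h8 := h4 _ hx.cB
  have h9 := h6 _ hx.num
  have h10 := h6 _ hx.den
  have a5 : 400 * s ^ 2 ≤ s ^ 4 := by
    rw [show s ^ 4 = s ^ 2 * s ^ 2 by ring]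
    exact Nat.mul_le_mul_right _ (by nlinarith)
  have a6 : 20 * s ≤ s ^ 2 := by nlinarith
  rw [e, pB]
  nlinarith

theorem flat_run (h : I.Valid s k rt P) (us : List ℕ) : ∀ (i j r : ℕ) (x : MS), j < pKs s k →
    r ≤ pmix s k → I.FlatInv s k i j x → i * pS s k + j * pb s k + r + us.length ≤ pT s k →
    runM (I.step s k) (i * pS s k + j * pb s k + r) x us =
      runM (I.step0 s k) (i * pS s k + j * pb s k + r) x us := by
  induction us with
  | nil => intros; rfl
  | cons u us ih =>
    intro i j r x hj hr hx hT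
    have key : ∃ i' j' r', j' < pKs s k ∧ r' ≤ pmix s k ∧
        I.FlatInv s k i' j' (I.step0 s k (i * pS s k + j * pb s k + r) x u) ∧
        i * pS s k + j * pb s k + r + 1 = i' * pS s k + j' * pb s k + r' := by
      rcases hr.lt_or_eq with hr | rfl
      · refine ⟨i, j, r + 1, hj, hr, ?_, by ring⟩
        rw [flat_step_mix hj hr]
        exact ⟨hx.Z.mstep _ _ _, hx.res, hx.hs, hx.len, hx.cnt, hx.cA, hx.cB, hx.num, hx.den⟩
      · rw [flat_step_rec hj]
        split_ifs with hK
        · refine ⟨i + 1, 0, 0, by omega, Nat.zero_le _, FlatInv.finish ?_ h.n_pos, ?_⟩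
          · rw [← hK]; exact hx.record _ _
          · rw [pS, ← hK, pb]; ring
        · exact ⟨i, j + 1, 0, by omega, Nat.zero_le _, hx.record _ _, by rw [pb]; ring⟩
    obtain ⟨i', j', r', hj', hr', hx', e⟩ := key
    rw [List.length_cons] at hT
    have hi' : i' ≤ pI s + 1 := by
      have : i' * pS s k ≤ (pI s + 1) * pS s k := by rw [← pT]; omega
      exact Nat.le_of_mul_le_mul_right this (pS_pos h.s_ge)
    rw [runM_cons, runM_cons, step, cap, if_pos (hx'.esize_le h hi' hj'.le), e]
    exact ih i' j' r' _ hj' hr' hx' (by omega)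

theorem Valid.run_eq (h : I.Valid s k rt P) {us : List ℕ} (hus : us.length ≤ pT s k) :
    I.fin s k us = runM (I.step0 s k) 0 (I.clean (I.hs0 s) 1 1 none) us := by
  have hx : I.FlatInv s k 0 0 (I.clean (I.hs0 s) 1 1 none) := by
    refine ⟨flat_ok_zeros, fun Y hY => (by cases hY), ⟨by simp [clean, hs0], ?_, fun q => ?_⟩,
      by simp [clean, cnt0], fun c hc => (List.eq_of_mem_replicate hc).le, le_rfl, le_rfl,
      by simp [clean], by simp [clean]⟩
    · simp [clean, hs0, List.getD_eq_getElem?_getD,
        List.getElem?_range (Nat.mul_pos h.n_pos h.n_pos)]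
    · rcases lt_or_ge q (I.n * I.n) with hq | hq
      · simp only [clean, hs0, List.getD_eq_getElem?_getD, List.getElem?_map,
          List.getElem?_range hq, Option.map_some, Option.getD_some]
        split_ifs <;> simp
      · rw [List.getD_eq_default _ _ (by simpa [clean, hs0] using hq), abs_zero]
        exact Int.natCast_nonneg _
  have := flat_run h us 0 0 0 _ (pKs_pos h.s_ge) (Nat.zero_le _) hx (by simpa using hus)
  rw [fin, ini, cap, if_pos (hx.esize_le h (Nat.zero_le _) (Nat.zero_le _))]
  simpa using this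

end Inst

end Crest.Agent.R309
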