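import Crest.Agent.R309.Bridge

/-!
# Row 309: GoodSt
Every stage satisfies the hypotheses of the weak Poincaré inequality.  `κ = ka s`, `κ J ∈ [1, 1.01]`, `m ≤ s`.
* `smooth`: `sh e = if stp e > 1 then stp e else 0` off the tree; on a tree edge `t`: `sh t = 2 + 2 ∑ {stp e | stp e > 1, R e ≤ R t}` (`chi_tree`, `order`,
  `tree`), and `stp e * 8 s² pP ≤ J R e`, so `κ pP sh t / R t ≤ 1.01 (0.068 + 0.25) / s ≤ 1 / m`, `sh ≤ R`.  For types `1, 2`: `ψ t ≤ L + 1` gives
  `out t ≤ R (L + 1) / 34000`, so `t + r` stays in the box.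
* `range`: type `3`: `|t| ≤ 1`; type `0`: `|t| ≤ R ≤ pM ≤ pG`; type `1`: `bet |t| ≤ (L + 1) J`, `|t| pP / R ≤ pP + (L + 1) J`, and `le_stp`.
* `kink`: `psi_lip`, `exp_pL0_le`, `κ pP / R ≤ 1.01 * 34000 s⁵ / (10⁶ s⁶)`.   `tail`: `card_box`.   `lb`: `ZZ_lb`.
-/

set_option autoImplicit false

noncomputable section

namespace Crest.Agent.R309

open Finset Crest.Agent.Lib.PolyTime

section aux

variable {s k : ℕ}

theorem gs_cast_pP (s : ℕ) : (pP s : ℝ) = pJ s * (34000 * (s : ℝ) ^ 5) := by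
  simp [pP]

theorem gs_kaP_ge (s : ℕ) : 34000 * (s : ℝ) ^ 5 ≤ ka s * pP s := by
  rw [gs_cast_pP, ← mul_assoc]
  exact le_mul_of_one_le_left (by positivity) (ka_ge s)

theorem gs_kaP_le (s : ℕ) : ka s * pP s ≤ 34340 * (s : ℝ) ^ 5 := by
  rw [gs_cast_pP, ← mul_assoc]
  have := mul_le_mul_of_nonneg_right (ka_le s) (by positivity : (0 : ℝ) ≤ 34000 * (s : ℝ) ^ 5)
  linarith

theorem gs_out_ge (d : Edge) (t : ℤ) : t - d.hi ≤ d.out t ∧ -t - d.lo ≤ d.out t := by
  unfold Edge.out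
  omega

/-- the window part of the potential -/
theorem gs_psi_out (hs : 20 ≤ s) {d : Edge} (h : d.ty = 1 ∨ d.ty = 2) (i : ℕ) (t : ℤ) :
    ka s * (pP s * d.out t / d.R) ≤ d.psi s i t := by
  have hb := (bet_pos hs i).le
  unfold Edge.psi
  refine mul_le_mul_of_nonneg_left ?_ (ka_pos s).le
  rcases h with h | h
  · simp only [h, show ¬ (1 = 3) by norm_num, show ¬ (1 = 2) by norm_num,
      show ¬ (1 = 0) by norm_num, if_false]
    have : 0 ≤ bet s i * |(t : ℝ)| := by positivity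
    linarith
  · simp [h]

theorem gs_psi_bet (hs : 20 ≤ s) {d : Edge} (h : d.ty = 1) (i : ℕ) (t : ℤ) :
    ka s * (bet s i * |(t : ℝ)|) ≤ d.psi s i t := by
  unfold Edge.psi
  refine mul_le_mul_of_nonneg_left ?_ (ka_pos s).le
  simp only [h, show ¬ (1 = 3) by norm_num, show ¬ (1 = 2) by norm_num,
    show ¬ (1 = 0) by norm_num, if_false]
  have : 0 ≤ (pP s : ℝ) * d.out t / d.R := by positivity
  linarith

theorem gs_R_pos (hs : 20 ≤ s) {d : Edge} (hR : pM s ≤ d.R) : (10 : ℝ) ^ 6 * s ^ 6 ≤ d.R ∧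
    (0 : ℝ) < d.R := by
  have h1 : (10 : ℝ) ^ 6 * s ^ 6 ≤ d.R := by
    have : ((pM s : ℕ) : ℝ) ≤ d.R := by exact_mod_cast hR
    unfold pM at this
    exact_mod_cast this
  have hs0 : (0 : ℝ) < s := by exact_mod_cast (by omega : 0 < s)
  exact ⟨h1, lt_of_lt_of_le (by positivity) h1⟩

theorem gs_out_le (hs : 20 ≤ s) {d : Edge} (h : d.ty = 1 ∨ d.ty = 2) (hR : pM s ≤ d.R) {i : ℕ}
    {t : ℤ} (ht : d.psi s i t ≤ pL s k + 1) : d.out t ≤ d.R * (pL s k + 1) := by
  have h1 := (gs_psi_out hs h i t).trans ht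
  have hR0 := (gs_R_pos hs hR).2
  have hs1 : (1 : ℝ) ≤ s := by exact_mod_cast (by omega : 1 ≤ s)
  have h2 : (1 : ℝ) ≤ ka s * pP s := by
    refine le_trans ?_ (gs_kaP_ge s)
    have := one_le_pow₀ (n := 5) hs1
    linarith
  have h3 : (d.out t : ℝ) / d.R ≤ ka s * (pP s * d.out t / d.R) := by
    have : ka s * (pP s * d.out t / d.R) = (ka s * pP s) * ((d.out t : ℝ) / d.R) := by ring
    rw [this]
    exact le_mul_of_one_le_left (by positivity) h2
  have h4 := h3.trans h1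
  rw [div_le_iff₀ hR0] at h4
  have : (d.out t : ℝ) ≤ d.R * (pL s k + 1) := by linarith
  exact_mod_cast this

theorem gs_box (hs : 20 ≤ s) {d : Edge} (h : d.ty = 1 ∨ d.ty = 2) (hR : pM s ≤ d.R) {i : ℕ}
    {t r : ℤ} (ht : d.psi s i t ≤ pL s k + 1) (hr : |r| ≤ d.R) :
    -((d.lo + d.ext s k : ℕ) : ℤ) ≤ t + r ∧ t + r ≤ ((d.hi + d.ext s k : ℕ) : ℤ) := by
  have h1 := gs_out_le hs h hR ht
  have h2 := gs_out_ge d t
  have h3 : d.ext s k = d.R * (pL s k + 1) + d.R := by
    simp only [Edge.ext, h, if_true]; ring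
  rw [abs_le] at hr
  rw [h3]
  generalize d.R * (pL s k + 1) = a at *
  omega

/-- the size of a long step -/
theorem gs_stp_le (hs : 20 ≤ s) {d : Edge} {i : ℕ} (h : 1 < d.stp s i) :
    (d.stp s i : ℝ) * (8 * s ^ 2 * (34000 * s ^ 5)) ≤ d.R := by
  have h1 := Edge.stp_le hs h
  have hb := (bet_pos hs i).le
  have hJ : (0 : ℝ) < pJ s := by unfold pJ; positivity
  have h2 : (d.stp s i : ℝ) * (8 * s ^ 2 * pP s) ≤
      (d.stp s i : ℝ) * (8 * s ^ 2 * (bet s i * d.R + pP s)) := by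
    gcongr
    have : 0 ≤ bet s i * d.R := by positivity
    linarith
  have h3 := h2.trans h1
  rw [gs_cast_pP] at h3
  refine le_of_mul_le_mul_left ?_ hJ
  linarith

theorem gs_lip1 (hs : 20 ≤ s) {d : Edge} (hR : pM s ≤ d.R) {i : ℕ} (h : 1 < d.stp s i)
    (t : ℤ) {r : ℤ} (hr : |r| ≤ d.stp s i) :
    d.psi s i (t + r) ≤ d.psi s i t + 1 / s ∧ |r| ≤ d.R := by
  have hty := Edge.ty_of_stp h
  have hR0 := (gs_R_pos hs hR).2
  have hs1 : (20 : ℝ) ≤ s := by exact_mod_cast hs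
  have hr' : |(r : ℝ)| ≤ d.stp s i := by exact_mod_cast hr
  have hb := (bet_pos hs i).le
  have hk := (ka_pos s).le
  constructor
  · have h1 := Edge.psi_lip hs d (by omega) i (t + r) t
    simp only [hty, show ¬ (1 = 2) by norm_num, show ¬ (1 = 0) by norm_num, if_false, Int.cast_add,
      add_sub_cancel_left] at h1
    have h2 := Edge.stp_le hs h
    have h3 : (bet s i + (pP s : ℝ) / d.R) * d.stp s i ≤ pJ s / (8 * s ^ 2) := by
      rw [le_div_iff₀ (by positivity)]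
      refine le_of_mul_le_mul_right ?_ hR0
      have : (bet s i + (pP s : ℝ) / d.R) * d.stp s i * (8 * s ^ 2) * d.R =
          (d.stp s i : ℝ) * (8 * s ^ 2 * (bet s i * d.R + pP s)) := by field_simp
      rw [this]; exact h2
    have h4 : ka s * (bet s i + (pP s : ℝ) / d.R) * |(r : ℝ)| ≤ ka s * (pJ s / (8 * s ^ 2)) := by
      rw [mul_assoc]
      refine mul_le_mul_of_nonneg_left (le_trans ?_ h3) hk
      gcongr
    have h5 : ka s * (pJ s / (8 * s ^ 2)) ≤ 1 / s := by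
      rw [← mul_div_assoc, div_le_div_iff₀ (by positivity) (by positivity)]
      have := ka_le s
      nlinarith
    have := (abs_le.1 h1).2
    linarith
  · have h1 := gs_stp_le hs h
    have h2 : (d.stp s i : ℝ) ≤ d.R := by
      refine le_trans (le_mul_of_one_le_right (by positivity) ?_) h1
      have a1 := one_le_pow₀ (n := 5) (by linarith : (1 : ℝ) ≤ s)
      have a2 := one_le_pow₀ (n := 2) (by linarith : (1 : ℝ) ≤ s)
      nlinarith
    have : d.stp s i ≤ d.R := by exact_mod_cast h2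
    omega

theorem gs_lip2 (hs : 20 ≤ s) {d : Edge} (hty : d.ty = 2) (hR : pM s ≤ d.R) (i : ℕ) {N : ℕ}
    (hN : (N : ℝ) * (8 * s * (34000 * s ^ 5)) ≤ d.R) (t : ℤ) {r : ℤ}
    (hr : |r| ≤ ((2 + 2 * N : ℕ) : ℤ)) :
    d.psi s i (t + r) ≤ d.psi s i t + 1 / s ∧ |r| ≤ d.R := by
  obtain ⟨hR1, hR0⟩ := gs_R_pos hs hR
  have hs1 : (20 : ℝ) ≤ s := by exact_mod_cast hs
  have hr' : |(r : ℝ)| ≤ 2 + 2 * N := by exact_mod_cast hr
  have hk := (ka_pos s).le
  have a6 := one_le_pow₀ (n := 6) (by linarith : (1 : ℝ) ≤ s)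
  have hN' : (N : ℝ) * (272000 * s ^ 6) ≤ d.R := by
    have : (8 * s * (34000 * s ^ 5) : ℝ) = 272000 * s ^ 6 := by ring
    rwa [this] at hN
  constructor
  · have h1 := Edge.psi_lip hs d (by omega) i (t + r) t
    simp only [hty, show ¬ (2 = 0) by norm_num, if_false, if_true, Int.cast_add,
      add_sub_cancel_left, zero_add] at h1
    have h4 : ka s * ((pP s : ℝ) / d.R) * |(r : ℝ)| ≤ 34340 * s ^ 5 / d.R * (2 + 2 * N) := by
      rw [← mul_div_assoc]
      exact mul_le_mul (div_le_div_of_nonneg_right (gs_kaP_le s) hR0.le) hr' (abs_nonneg _)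
        (by positivity)
    have h5 : (34340 : ℝ) * s ^ 5 / d.R * (2 + 2 * N) ≤ 1 / s := by
      rw [div_mul_eq_mul_div, div_le_div_iff₀ hR0 (by positivity)]
      have : (34340 : ℝ) * s ^ 5 * (2 + 2 * N) * s = 68680 * s ^ 6 + 68680 * (N * s ^ 6) := by ring
      rw [this]
      nlinarith
    have := (abs_le.1 h1).2
    linarith
  · have h2 : (2 + 2 * N : ℝ) ≤ d.R := by
      have : (N : ℝ) ≤ N * s ^ 6 := le_mul_of_one_le_right (by positivity) a6
      nlinarith
    have : 2 + 2 * N ≤ d.R := by exact_mod_cast h2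
    omega

theorem gs_range1 (hs : 20 ≤ s) {d : Edge} (hty : d.ty = 1) (hR : pM s ≤ d.R) (hlo : d.lo ≤ d.R)
    (hhi : d.hi ≤ d.R) {i : ℕ} {t : ℤ} (ht : d.psi s i t ≤ pL s k + 1) :
    |(t : ℝ)| ≤ pG s k * d.stp s i := by
  obtain ⟨hR1, hR0⟩ := gs_R_pos hs hR
  have hJ : (0 : ℝ) < pJ s := by unfold pJ; positivity
  have hb := (bet_pos hs i).le
  have hk := ka_ge s
  have key : ∀ x : ℝ, 0 ≤ x → ka s * x ≤ pL s k + 1 → x ≤ (pL s k + 1) * pJ s := fun x hx h => by
    have h1 := mul_le_mul_of_nonneg_right h hJ.le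
    have h2 : x ≤ (ka s * pJ s) * x := le_mul_of_one_le_left hx hk
    nlinarith
  have h1 := key _ (by positivity) ((gs_psi_bet hs hty i t).trans ht)
  have h2 := key _ (by positivity) ((gs_psi_out hs (Or.inl hty) i t).trans ht)
  rw [div_le_iff₀ hR0] at h2
  have h3 : |(t : ℝ)| ≤ d.R + d.out t := by
    have := gs_out_ge d t
    have h' : |t| ≤ d.R + d.out t := by rw [abs_le]; omega
    exact_mod_cast h'
  have h4 := Edge.le_stp hs hty i
  have hP : (0 : ℝ) ≤ pP s := by positivity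
  have h5 : (bet s i * d.R + pP s) * |(t : ℝ)| ≤
      (pJ s * d.R) * (2 * pL s k + 2 + 34000 * s ^ 5) := by
    have e1 := mul_le_mul_of_nonneg_left h1 hR0.le
    have e2 := mul_le_mul_of_nonneg_left h3 hP
    have e3 : (pP s : ℝ) * d.R = pJ s * d.R * (34000 * s ^ 5) := by rw [gs_cast_pP]; ring
    nlinarith
  have h6 : (pJ s * d.R) * |(t : ℝ)| ≤ (pJ s * d.R) * (pG s k * d.stp s i) := by
    calc (pJ s * d.R) * |(t : ℝ)| ≤ (4 * d.stp s i * (8 * s ^ 2 * (bet s i * d.R + pP s))) *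
          |(t : ℝ)| := mul_le_mul_of_nonneg_right h4 (abs_nonneg _)
      _ = 32 * s ^ 2 * d.stp s i * ((bet s i * d.R + pP s) * |(t : ℝ)|) := by ring
      _ ≤ 32 * s ^ 2 * d.stp s i * ((pJ s * d.R) * (2 * pL s k + 2 + 34000 * s ^ 5)) := by
          gcongr
      _ = (pJ s * d.R) * (pG s k * d.stp s i) := by
          simp only [pG]; push_cast; ring
  exact le_of_mul_le_mul_left h6 (by positivity)

theorem gs_pM_le (hs : 20 ≤ s) : pM s ≤ pG s k := by
  unfold pM pG
  have h1 : s ^ 6 ≤ s ^ 7 := Nat.pow_le_pow_right (by omega) (by norm_num)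
  have h2 : 32 * s ^ 2 * (34000 * s ^ 5) ≤ 32 * s ^ 2 * (2 * pL s k + 2 + 34000 * s ^ 5) :=
    Nat.mul_le_mul_left _ (by omega)
  have h3 : 32 * s ^ 2 * (34000 * s ^ 5) = 1088000 * s ^ 7 := by ring
  omega

theorem gs_one_le_pM (hs : 20 ≤ s) : 1 ≤ pM s := by
  unfold pM
  have : 0 < s := by omega
  exact Nat.succ_le_of_lt (by positivity)

theorem gs_kink (hs : 20 ≤ s) {d : Edge} (h3 : d.ty ≠ 3) (hR : d.ty ≠ 0 → pM s ≤ d.R) (i : ℕ)
    (t : ℤ) : Real.exp (|d.psi s i (t + 1) - d.psi s i t| + 3) ≤ pK s := by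
  have hs1 : (20 : ℝ) ≤ s := by exact_mod_cast hs
  have h1 := Edge.psi_lip hs d h3 i (t + 1) t
  simp only [Int.cast_add, add_sub_cancel_left, Int.cast_one, abs_one, mul_one] at h1
  have hk := (ka_pos s).le
  have a1 : ka s * (if d.ty = 2 then 0 else bet s i) ≤ ka s * pL0 s := by
    refine mul_le_mul_of_nonneg_left ?_ hk
    split_ifs
    · positivity
    · exact bet_le hs i
  have a2 : ka s * (if d.ty = 0 then 0 else (pP s : ℝ) / d.R) ≤ 1 := by
    split_ifs with h0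
    · simp
    · obtain ⟨hR1, hR0⟩ := gs_R_pos hs (hR h0)
      rw [← mul_div_assoc, div_le_one hR0]
      refine (gs_kaP_le s).trans (le_trans ?_ hR1)
      have : (s : ℝ) ^ 5 ≤ s ^ 6 := pow_le_pow_right₀ (by linarith) (by norm_num)
      have : (0 : ℝ) ≤ s ^ 5 := by positivity
      linarith
  have a3 : |d.psi s i (t + 1) - d.psi s i t| + 3 ≤ ka s * pL0 s + 4 := by
    rw [mul_add] at h1; linarith
  refine (Real.exp_le_exp.2 a3).trans ?_
  rw [Real.exp_add]
  have a4 : Real.exp 4 ≤ 81 := by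
    have : Real.exp 4 = Real.exp 1 ^ 4 := by rw [← Real.exp_nat_mul]; norm_num
    rw [this]
    have h := Real.exp_one_lt_three.le
    calc Real.exp 1 ^ 4 ≤ 3 ^ 4 := by gcongr
      _ = 81 := by norm_num
  have a5 := exp_pL0_le hs
  calc Real.exp (ka s * pL0 s) * Real.exp 4 ≤ (256 * s ^ 2) * 81 := by gcongr
    _ ≤ pK s := by
      simp only [pK]; push_cast
      have : (s : ℝ) ^ 2 ≤ s ^ 3 := pow_le_pow_right₀ (by linarith) (by norm_num)
      have : (0 : ℝ) ≤ s ^ 2 := by positivity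
      linarith

end aux

namespace Inst

variable {I : Inst} {s k i : ℕ} {rt : ℕ → ℕ} {P : ℕ → Fin I.m → ℤ} {hs : List ℤ}

/-- the sum of the long steps that can cross the tree edge `t` -/
def gs_N (I : Inst) (s i : ℕ) (t : Fin I.m) : ℕ :=
  ∑ e : Fin I.m, if 1 < (I.ed e).stp s i ∧ (I.ed e).R ≤ (I.ed t).R then (I.ed e).stp s i else 0

/-- the shift bounds -/
def gs_sh (I : Inst) (s i : ℕ) (t : Fin I.m) : ℕ :=
  if (I.ed t).ty = 2 then 2 + 2 * I.gs_N s i t
  else if 1 < (I.ed t).stp s i then (I.ed t).stp s i else 0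

theorem gs_N_le (h : I.Valid s k rt P) (t : Fin I.m) :
    (I.gs_N s i t : ℝ) * (8 * s * (34000 * s ^ 5)) ≤ (I.ed t).R := by
  have hs := h.s_ge
  have hs0 : (0 : ℝ) < s := by exact_mod_cast (by omega : 0 < s)
  refine le_of_mul_le_mul_left ?_ hs0
  have h1 : (I.gs_N s i t : ℝ) * (8 * s ^ 2 * (34000 * s ^ 5)) ≤ ∑ _e : Fin I.m, ((I.ed t).R : ℝ) := by
    unfold gs_N
    push_cast
    rw [Finset.sum_mul]
    refine Finset.sum_le_sum fun e _ => ?_
    split_ifs with he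
    · exact (gs_stp_le hs he.1).trans (by exact_mod_cast he.2)
    · simp
  rw [Finset.sum_const, Finset.card_univ, Fintype.card_fin, nsmul_eq_mul] at h1
  have h2 : (I.m : ℝ) * (I.ed t).R ≤ s * (I.ed t).R := by
    gcongr
    exact h.m_le
  nlinarith

theorem gs_shift (h : I.Valid s k rt P) {w v : ℕ} (hw : w < I.n) (hv : v < I.n) {g : Fin I.m → ℕ}
    (hg : ∀ e, g e ≤ (I.ed e).stp s i ∧ ((I.ed e).stp s i = 1 → g e = 0)) (t : Fin I.m) :
    |(P v - P w + ∑ e, (g e : ℤ) • I.chiF P e) t| ≤ (I.gs_sh s i t : ℤ) := by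
  simp only [Pi.add_apply, Pi.sub_apply, Finset.sum_apply, Pi.smul_apply, smul_eq_mul]
  unfold gs_sh
  split_ifs with h2 h1
  · have a1 := h.P_le v hv t
    have a2 := h.P_le w hw t
    have a3 : |∑ e, (g e : ℤ) * I.chiF P e t| ≤ 2 * (I.gs_N s i t : ℤ) := by
      refine (Finset.abs_sum_le_sum_abs _ _).trans ?_
      unfold gs_N
      push_cast
      rw [Finset.mul_sum]
      refine Finset.sum_le_sum fun e _ => ?_
      by_cases hc : I.chiF P e t = 0
      · rw [hc, mul_zero, abs_zero]; positivity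
      by_cases hg0 : g e = 0
      · rw [hg0, Nat.cast_zero, zero_mul, abs_zero]; positivity
      have hne : t ≠ e := by
        rintro rfl
        exact hc (by rw [h.tree t h2]; rfl)
      have hst : 1 < (I.ed e).stp s i := by
        have b1 := Edge.stp_pos (I.ed e) s i
        have b2 := (hg e).2
        by_contra hn
        exact hg0 (b2 (by omega))
      have hR := h.order e t (Edge.ty_of_stp hst) hc
      rw [if_pos ⟨hst, hR⟩, abs_mul, Nat.abs_cast, mul_comm]
      have b3 : (g e : ℤ) ≤ (I.ed e).stp s i := by exact_mod_cast (hg e).1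
      exact mul_le_mul (h.chi_tree hne hc).2 b3 (by positivity) (by norm_num)
    rw [abs_le] at a1 a2 a3 ⊢
    push_cast
    constructor <;> linarith [a1.1, a1.2, a2.1, a2.2, a3.1, a3.2]
  all_goals
    have a1 : P v t = 0 := by by_contra hn; exact h2 (h.P_tree v hv t hn)
    have a2 : P w t = 0 := by by_contra hn; exact h2 (h.P_tree w hw t hn)
    have a3 : ∑ e, (g e : ℤ) * I.chiF P e t = g t := by
      rw [Finset.sum_eq_single t]
      · rw [h.chi_self h2, mul_one]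
      · intro e _ hne
        have : I.chiF P e t = 0 := by
          by_contra hn
          exact h2 (h.chi_tree hne.symm hn).1
        rw [this, mul_zero]
      · simp
    rw [a1, a2, a3, sub_zero, zero_add, Nat.abs_cast]
  · exact_mod_cast (hg t).1
  · have b1 := Edge.stp_pos (I.ed t) s i
    rw [(hg t).2 (by omega)]

theorem gs_smooth (h : I.Valid s k rt P) (e : Fin I.m) {t r : ℤ}
    (h1 : -(((I.ed e).lo + (I.ed e).ext s k : ℕ) : ℤ) ≤ t)
    (h2 : t ≤ (((I.ed e).hi + (I.ed e).ext s k : ℕ) : ℤ))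
    (ht : (I.ed e).psi s i t ≤ pL s k + 1) (hr : |r| ≤ (I.gs_sh s i e : ℤ)) :
    -(((I.ed e).lo + (I.ed e).ext s k : ℕ) : ℤ) ≤ t + r ∧
      t + r ≤ (((I.ed e).hi + (I.ed e).ext s k : ℕ) : ℤ) ∧
      (I.ed e).psi s i (t + r) ≤ (I.ed e).psi s i t + 1 / (I.m : ℝ) := by
  have hs := h.s_ge
  have hm : (1 : ℝ) / s ≤ 1 / I.m := by
    have h0 : (0 : ℝ) < I.m := by exact_mod_cast h.m_pos
    exact one_div_le_one_div_of_le h0 (by exact_mod_cast h.m_le)
  unfold gs_sh at hr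
  split_ifs at hr with a2 a1
  · have hR := (h.big e (Or.inr a2)).1
    obtain ⟨b1, b2⟩ := gs_lip2 hs a2 hR i (gs_N_le h e) t hr
    obtain ⟨b3, b4⟩ := gs_box hs (Or.inr a2) hR ht b2
    exact ⟨b3, b4, by linarith⟩
  · have a3 := Edge.ty_of_stp a1
    have hR := (h.big e (Or.inl a3)).1
    obtain ⟨b1, b2⟩ := gs_lip1 hs hR a1 t hr
    obtain ⟨b3, b4⟩ := gs_box hs (Or.inl a3) hR ht b2
    exact ⟨b3, b4, by linarith⟩
  · have : r = 0 := by simpa using hr
    subst this
    rw [add_zero]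
    exact ⟨h1, h2, le_add_of_nonneg_right (by positivity)⟩

theorem gs_range (h : I.Valid s k rt P) (e : Fin I.m) (hc : I.chiF P e ≠ 0) {t : ℤ}
    (h1 : -(((I.ed e).lo + (I.ed e).ext s k : ℕ) : ℤ) ≤ t)
    (h2 : t ≤ (((I.ed e).hi + (I.ed e).ext s k : ℕ) : ℤ))
    (ht : (I.ed e).psi s i t ≤ pL s k + 1) : |(t : ℝ)| ≤ pG s k * (I.ed e).stp s i := by
  have hs := h.s_ge
  have n2 : (I.ed e).ty ≠ 2 := fun h2 => hc (h.tree e h2)
  by_cases a1 : (I.ed e).ty = 1
  · exact gs_range1 hs a1 (h.big e (Or.inl a1)).1 (h.lo_le e) (h.hi_le e) ht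
  have hx : (I.ed e).ext s k = 0 := by simp [Edge.ext, a1, n2]
  rw [hx] at h1 h2
  have b1 := gs_pM_le (k := k) hs
  have b2 := gs_one_le_pM hs
  have b3 : |t| ≤ pG s k := by
    rw [abs_le]
    have c1 := h.lo_le e
    have c2 := h.hi_le e
    have c3 := h.ty_le e
    by_cases a3 : (I.ed e).ty = 3
    · have := h.virt e a3
      omega
    · have := h.small e (by omega)
      omega
  have b4 : |(t : ℝ)| ≤ pG s k := by exact_mod_cast b3
  refine b4.trans (le_mul_of_one_le_right (by positivity) ?_)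
  exact_mod_cast Edge.stp_pos (I.ed e) s i

theorem Valid.good (h : I.Valid s k rt P) (hW : I.HW s k i rt hs) :
    (I.mkSt s k i rt P hs).Good (pL s k) (pA s) (pG s k) (pK s) (11 * s ^ 2)
      (Real.exp (-(2 * k + 80 * s ^ 2))) := by
  have hs := h.s_ge
  have hs1 : (20 : ℝ) ≤ s := by exact_mod_cast hs
  have hk0 : (0 : ℝ) ≤ k := by positivity
  refine
    { forest := h.forest i _
      conv := fun e x y _ hxy _ => Edge.psi_conv hs _ i hxy
      ψ_nonneg := fun e t => Edge.psi_nonneg hs _ i t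
      ψ_zero := fun e => Edge.psi_zero _ s i
      φ_le := fun e t => Edge.ke_le hs _ i t
      le_φ := fun e t => ?_
      smooth := ⟨I.gs_sh s i, fun w hw v hv g hg e =>
        gs_shift h (Finset.mem_range.1 hw) (Finset.mem_range.1 hv) hg e, fun e t r h1 h2 ht hr => ?_⟩
      range := fun e hc t h1 h2 ht => gs_range h e hc h1 h2 ht
      kink := fun e => ?_
      hh_zero := mkSt_hh_zero hW.1.2.1
      hw := fun γ hγ => ?_
      lb := fun γ hγ => ?_
      tail := ?_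
      ε_le := ?_
      one_le := ?_ }
  · refine le_trans ?_ (Edge.le_ke hs (I.ed e) i t)
    rw [Fintype.card_fin]
    have h0 : (0 : ℝ) < I.m := by exact_mod_cast h.m_pos
    have h1 : (I.m : ℝ) ≤ s := by exact_mod_cast h.m_le
    have h2 : 2 * ka s ≤ 1 / (I.m : ℝ) := by
      rw [le_div_iff₀ h0]
      have := ka_mul_le hs
      have := mul_le_mul_of_nonneg_left h1 (ka_pos s).le
      linarith
    exact sub_le_sub_left h2 _
  · rw [Fintype.card_fin]
    exact gs_smooth h e h1 h2 ht hr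
  · by_cases a3 : (I.ed e).ty = 3
    · left
      have hx : (I.ed e).ext s k = 0 := by simp [Edge.ext, a3]
      have := h.virt e a3
      simp only [mkSt, hx, this.1, this.2]
      norm_num
    · right
      intro t _ _
      have := h.ty_le e
      exact gs_kink hs a3 (fun h0 => (h.big e (by omega)).1) i t
  · obtain ⟨w, hw, v, hv, e1, e2, rfl⟩ := mkSt_isR.1 hγ
    rw [mkSt_Z, mkSt_Z]
    exact hW.2 w hw v hv e1 e2
  · obtain ⟨w, hw, v, hv, e1, e2, rfl⟩ := mkSt_isR.1 hγ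
    rw [mkSt_Z]
    exact h.ZZ_lb i hw hv
  · rw [mkSt_box]
    refine (mul_le_mul_of_nonneg_right h.card_box (Real.exp_pos _).le).trans ?_
    rw [← Real.exp_add, Real.exp_le_exp]
    simp only [pL]
    push_cast
    nlinarith
  · have h1 : Real.exp (-(2 * k + 80 * s ^ 2)) ≤ Real.exp (-1) := by
      rw [Real.exp_le_exp]; nlinarith
    refine h1.trans ?_
    rw [Real.exp_neg, one_div]
    refine inv_anti₀ (by norm_num) ?_
    have := Real.add_one_le_exp (1 : ℝ)
    linarith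
  · have h0 : 0 < s := by omega
    refine ⟨?_, ?_, ?_, by positivity⟩
    · exact_mod_cast Nat.succ_le_of_lt (by unfold pA; positivity : 0 < pA s)
    · exact_mod_cast (gs_one_le_pM hs).trans (gs_pM_le (k := k) hs)
    · exact_mod_cast Nat.succ_le_of_lt (by unfold pK; positivity : 0 < pK s)

theorem Valid.CP_le (h : I.Valid s k rt P) :
    (I.mkSt s k i rt P hs).CP (pA s) (pG s k) (pK s) ≤ pC s k := by
  have h1 : (I.n : ℝ) ≤ s := by exact_mod_cast h.n_le
  have h2 : (I.m : ℝ) ≤ s := by exact_mod_cast h.m_le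
  have e : (I.mkSt s k i rt P hs).vs.card = I.n := Finset.card_range _
  unfold St.CP pC
  rw [e, Fintype.card_fin]
  push_cast
  gcongr
  norm_num

end Inst

end Crest.Agent.R309
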