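import Crest.Agent.R309.Bridge

/-!
# Row 309: Kernel
The step `mstep` realises the operator `St.T (pM2 s)`.
* `move_iff`: `div Y = div X + j • uv (rt src) (rt tgt)` (`St.div_chi`); if `j > 1` then the edge has type `1` and the roots agree.  So `div Y` is a sum of two
  root defects; its `ℓ¹` norm on `range n` is `≤ 2` iff it is again a root defect (case analysis on the coincidences of the four roots).
* `dmax`: edge `e`: type `3`: `≤ pLm`; otherwise `psi_lip`, `ke_le`, `le_ke` (`j = 1`, or `stp_le`); other edges are tree edges with `|chi| ≤ 2` and change by at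
  most `10` (`big`, `order`, `stp_le`); holes: `≤ 2 (pL0 + pI * pJ / 2)`.  Sum `≤ 10 ^ 6 s ^ 4`.
* `kernel`: `2 ^ pr s = 2 ^ (10 s) * pJ ^ pD`; `avgN_mul` separates the coin `u / 2 ^ (10 s)` from the low part, which is split as `2 * 2 * pM2 * …`;
  `stp_dvd`, `avgN_mod`.  The acceptance probability is `th ^ Δ.toNat = min 1 (exp (H X - H Y))` (`mkSt_H`, `th_pow`).
-/

set_option autoImplicit false

noncomputable section

namespace Crest.Agent.R309

open Finset Crest.Agent.Lib.PolyTime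

theorem kn_sum_range (n : ℕ) (g : ℕ → ℕ) : ((List.range n).map g).sum = ∑ x ∈ range n, g x := by
  induction n with
  | zero => rfl
  | succ n ih => rw [List.range_succ, List.map_append, List.sum_append, ih, sum_range_succ]; simp

theorem kn_uv_le (n w v : ℕ) : ∑ x ∈ range n, (uv w v x).natAbs ≤ 2 := by
  have h1 : ∀ x, (uv w v x).natAbs ≤ (if w = x then 1 else 0) + (if v = x then 1 else 0) := by
    intro x
    rw [uv_apply]
    split_ifs <;> simp
  refine (sum_le_sum fun x _ => h1 x).trans ?_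
  rw [sum_add_distrib, sum_ite_eq, sum_ite_eq]
  split_ifs <;> omega

theorem kn_four {n w v a b : ℕ} (hw : w < n) (hv : v < n) (ha : a < n) (hb : b < n) (h1 : w ≠ v)
    (h2 : a ≠ b) (h3 : w ≠ b) (h4 : a ≠ v) :
    ∑ x ∈ range n, ((uv w v + uv a b) x).natAbs = 4 := by
  have e : ∀ x, ((uv w v + uv a b) x).natAbs = (if w = x then 1 else 0) + (if v = x then 1 else 0) +
      (if a = x then 1 else 0) + (if b = x then 1 else 0) := by
    intro x
    rw [Pi.add_apply, uv_apply, uv_apply]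
    split_ifs <;> simp_all
  simp only [e, sum_add_distrib, sum_ite_eq, mem_range, hw, hv, ha, hb, if_true]

theorem kn_avg4 (M N : ℕ) (G : ℕ → ℕ → ℕ → ℕ → ℝ) :
    avgN (2 * (2 * (M * N))) (fun x => G (x % 2) (x / 2 % 2) (x / 2 / 2 % M) (x / 2 / 2 / M)) =
      avgN 2 fun b => avgN 2 fun σ => avgN M fun e => avgN N fun r => G b σ e r := by
  rw [avgN_mul 2 (2 * (M * N)) fun b y => G b (y % 2) (y / 2 % M) (y / 2 / M)]
  congr 1
  funext b
  rw [avgN_mul 2 (M * N) fun σ z => G b σ (z % M) (z / M)]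
  congr 1
  funext σ
  exact avgN_mul M N fun e r => G b σ e r

theorem kn_avg2 (g : ℕ → ℝ) : avgN 2 g = (g 0 + g 1) / 2 := by
  simp [avgN, sum_range_succ]

theorem kn_avg_fin {m M : ℕ} (h : m ≤ M) (a : Fin m → ℝ) :
    avgN M (fun e => if h : e < m then a ⟨e, h⟩ else 0) = (∑ e, a e) / M := by
  unfold avgN
  congr 1
  rw [← sum_subset (range_subset_range.2 h) fun x _ hx => dif_neg (by simpa using hx),
    ← Fin.sum_univ_eq_sum_range (fun e => if h : e < m then a ⟨e, h⟩ else 0) m]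
  exact sum_congr rfl fun e _ => dif_pos e.2

theorem kn_sum_Icc (n : ℕ) (g : ℕ → ℝ) : ∑ j ∈ Icc 1 n, g j = ∑ r ∈ range n, g (r + 1) := by
  induction n with
  | zero => simp
  | succ n ih => rw [sum_Icc_succ_top (by omega), ih, sum_range_succ]

theorem kn_mod_div {a b N : ℕ} (h : a * b ∣ N) (u : ℕ) : u % N / a % b = u / a % b := by
  rw [← Nat.mod_mul_right_div_self, ← Nat.mod_mul_right_div_self, Nat.mod_mod_of_dvd _ h]

theorem kn_ke_lip {s : ℕ} (hs : 20 ≤ s) (d : Edge) (h3 : d.ty ≠ 3) (i : ℕ) (x y : ℤ) :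
    (d.ke s i y : ℝ) - d.ke s i x ≤ 2 + ((if d.ty = 2 then 0 else bet s i) +
      (if d.ty = 0 then 0 else (pP s : ℝ) / d.R)) * |(y : ℝ) - x| := by
  have h1 := d.ke_le hs i y
  have h2 := d.le_ke hs i x
  have h3 := (le_abs_self _).trans (d.psi_lip hs h3 i y x)
  have h4 := ka_pos s
  refine le_of_mul_le_mul_left ?_ h4
  nlinarith

theorem kn_pP_div {s R : ℕ} (hs : 20 ≤ s) (hR : pM s ≤ R) : (pP s : ℝ) / R ≤ 5 := by
  have h1 : pP s ≤ 5 * R := by
    have h2 := pJ_le hs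
    unfold pM at hR
    unfold pP
    calc pJ s * (34000 * s ^ 5) ≤ 128 * s * (34000 * s ^ 5) := Nat.mul_le_mul_right _ h2
      _ = 4352000 * s ^ 6 := by ring
      _ ≤ 5 * R := by omega
  have h3 : (pP s : ℝ) ≤ 5 * R := by exact_mod_cast h1
  exact div_le_of_le_mul₀ (by positivity) (by norm_num) h3

theorem kn_pM_pos {s : ℕ} (hs : 20 ≤ s) : 0 < pM s := by
  unfold pM; positivity

namespace Inst

variable {I : Inst} {s k i : ℕ} {rt : ℕ → ℕ} {P : ℕ → Fin I.m → ℤ} {hs : List ℤ}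

theorem Valid.move_iff (h : I.Valid s k rt P) {X : Fin I.m → ℤ} (hX : X ∈ (I.mkSt s k i rt P hs).Om)
    (e : Fin I.m) {j : ℤ} (hj : |j| ≤ (I.ed e).stp s i) :
    (I.inBox s k (List.ofFn (X + j • I.chiF P e)) && I.okDef (List.ofFn (X + j • I.chiF P e))) = true ↔
      X + j • I.chiF P e ∈ (I.mkSt s k i rt P hs).Om := by
  rw [Bool.and_eq_true, inBox_ofFn, St.mx_mem_Om, mkSt_box]
  refine and_congr_right fun _ => ?_
  obtain ⟨w, hw, v, hv, rw', rv, hγ⟩ := mkSt_isR.1 ((St.mx_mem_Om _).1 hX).2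
  have hF := h.forest i hs
  have hc : I.gr.div (I.chiF P e) = uv (rt (I.ed e).src) (rt (I.ed e).tgt) := St.div_chi _ hF e
  have hγ' : I.gr.div X = uv w v := hγ
  obtain ⟨a, ha, b, hb, ra, rb, hd⟩ : ∃ a < I.n, ∃ b < I.n, rt a = a ∧ rt b = b ∧
      I.gr.div (X + j • I.chiF P e) = uv w v + uv a b := by
    rw [Gr.div_add, Gr.div_smul, hγ', hc]
    have s1 := h.src_lt e
    have s2 := h.tgt_lt e
    by_cases h1 : 1 < (I.ed e).stp s i
    · refine ⟨w, hw, w, hw, rw', rw', ?_⟩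
      rw [h.same e (Edge.ty_of_stp h1), uv_self, uv_self, smul_zero]
    · have h2 : j = 0 ∨ j = 1 ∨ j = -1 := by
        have := _root_.abs_le.1 hj
        omega
      rcases h2 with rfl | rfl | rfl
      · exact ⟨w, hw, w, hw, rw', rw', by rw [uv_self, zero_smul]⟩
      · exact ⟨_, h.rt_lt _ s1, _, h.rt_lt _ s2, h.rt_rt _ s1, h.rt_rt _ s2, by rw [one_smul]⟩
      · exact ⟨_, h.rt_lt _ s2, _, h.rt_lt _ s1, h.rt_rt _ s2, h.rt_rt _ s1,
          by rw [neg_smul, one_smul, uv_neg]⟩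
  change _ ↔ (I.mkSt s k i rt P hs).IsR (I.gr.div (X + j • I.chiF P e))
  rw [mkSt_isR, okDef, decide_eq_true_eq, divL_ofFn, List.map_map, kn_sum_range, hd]
  simp only [Function.comp_def]
  constructor
  · intro hle
    by_cases h1 : w = v
    · exact ⟨a, ha, b, hb, ra, rb, by rw [h1, uv_self, zero_add]⟩
    by_cases h2 : a = b
    · exact ⟨w, hw, v, hv, rw', rv, by rw [h2, uv_self, add_zero]⟩
    by_cases h3 : w = b
    · exact ⟨a, ha, v, hv, ra, rv, by rw [h3, add_comm, uv_add]⟩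
    by_cases h4 : a = v
    · exact ⟨w, hw, b, hb, rw', rb, by rw [h4, uv_add]⟩
    rw [kn_four hw hv ha hb h1 h2 h3 h4] at hle
    omega
  · rintro ⟨w', -, v', -, -, -, e'⟩
    rw [e']
    exact kn_uv_le _ _ _

theorem Valid.kn_coef (h : I.Valid s k rt P) (i : ℕ) {e t : Fin I.m} (ht : I.chiF P e t ≠ 0)
    (h3 : (I.ed t).ty ≠ 3) :
    ((if (I.ed t).ty = 2 then 0 else bet s i) +
      (if (I.ed t).ty = 0 then 0 else (pP s : ℝ) / (I.ed t).R)) * (I.ed e).stp s i ≤ pL0 s + 5 := by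
  have hs := h.s_ge
  have b0 := bet_pos hs i
  have b1 := bet_le hs i
  have c1 : (if (I.ed t).ty = 2 then 0 else bet s i) ≤ bet s i := by split_ifs <;> linarith
  by_cases h1 : 1 < (I.ed e).stp s i
  · have ty := Edge.ty_of_stp h1
    have hR := h.order e t ty ht
    have hR0 : 0 < (I.ed e).R := (kn_pM_pos hs).trans_le (h.big e (Or.inl ty)).1
    have hR0' : (0 : ℝ) < (I.ed e).R := by exact_mod_cast hR0
    have c2 : (if (I.ed t).ty = 0 then 0 else (pP s : ℝ) / (I.ed t).R) ≤ (pP s : ℝ) / (I.ed e).R := by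
      split_ifs
      · positivity
      · exact div_le_div_of_nonneg_left (by positivity) hR0' (by exact_mod_cast hR)
    have h4 := Edge.stp_le hs h1
    have h5 : (pJ s : ℝ) ≤ 128 * s := by exact_mod_cast pJ_le hs
    have h6 : (20 : ℝ) ≤ s := by exact_mod_cast hs
    have h7 : (bet s i + (pP s : ℝ) / (I.ed e).R) * (I.ed e).stp s i ≤ 1 := by
      have e1 : (bet s i + (pP s : ℝ) / (I.ed e).R) * (I.ed e).stp s i =
          ((I.ed e).stp s i : ℝ) * (8 * s ^ 2 * (bet s i * (I.ed e).R + pP s)) /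
            (8 * s ^ 2 * (I.ed e).R) := by
        field_simp
      rw [e1, div_le_one (by positivity)]
      refine h4.trans (mul_le_mul_of_nonneg_right ?_ hR0'.le)
      nlinarith
    have h8 : (0 : ℝ) ≤ pL0 s := by positivity
    refine le_trans (mul_le_mul_of_nonneg_right (add_le_add c1 c2) (by positivity)) ?_
    linarith
  · have e1 : (I.ed e).stp s i = 1 := by have := (I.ed e).stp_pos s i; omega
    have c2 : (if (I.ed t).ty = 0 then 0 else (pP s : ℝ) / (I.ed t).R) ≤ 5 := by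
      split_ifs with h0
      · norm_num
      · have := h.ty_le t
        exact kn_pP_div hs (h.big t (by omega)).1
    rw [e1]
    push_cast
    linarith

theorem Valid.kn_edge (h : I.Valid s k rt P) (i : ℕ) (X : Fin I.m → ℤ) (e : Fin I.m) {j : ℤ}
    (hj : |j| ≤ (I.ed e).stp s i) (t : Fin I.m) :
    ((I.ed t).ke s i ((X + j • I.chiF P e) t) : ℝ) - (I.ed t).ke s i (X t) ≤ 1400 * s ^ 3 := by
  have hs := h.s_ge
  have h6 : (20 : ℝ) ≤ s := by exact_mod_cast hs
  simp only [Pi.add_apply, Pi.smul_apply, smul_eq_mul]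
  by_cases ht : I.chiF P e t = 0
  · rw [ht, mul_zero, add_zero, sub_self]; positivity
  have he2 : (I.ed e).ty ≠ 2 := fun h2 => ht (by rw [h.tree e h2]; rfl)
  by_cases h3 : (I.ed t).ty = 3
  · have hte : t = e := by
      by_contra hne
      have := (h.chi_tree hne ht).1
      omega
    subst hte
    have e1 : (I.ed t).stp s i = 1 := by simp [Edge.stp, h3]
    rw [h.chi_self he2, mul_one]
    rw [e1] at hj
    have h1 : (X t + j).natAbs ≤ (X t).natAbs + 1 := by
      have := _root_.abs_le.1 hj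
      omega
    have h2 : (I.ed t).ke s i (X t + j) ≤ (I.ed t).ke s i (X t) + 1300 * s ^ 3 := by
      simp only [Edge.ke, h3, if_true]
      calc _ ≤ min (pL0 s + i) (pLm s) * ((X t).natAbs + 1) := Nat.mul_le_mul_left _ h1
        _ ≤ _ := by
          rw [mul_add, mul_one]
          exact Nat.add_le_add_left ((min_le_right _ _).trans (pLm_le hs)) _
    have h4 : ((I.ed t).ke s i (X t + j) : ℝ) ≤ (I.ed t).ke s i (X t) + 1300 * s ^ 3 := by
      exact_mod_cast h2
    have : (0 : ℝ) ≤ s ^ 3 := by positivity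
    linarith
  · have hc : |I.chiF P e t| ≤ 2 := by
      by_cases hte : t = e
      · subst hte; rw [h.chi_self he2]; norm_num
      · exact (h.chi_tree hte ht).2
    have h1 := kn_ke_lip hs (I.ed t) h3 i (X t) (X t + j * I.chiF P e t)
    have h2 := h.kn_coef i ht h3
    have h4 : |((X t + j * I.chiF P e t : ℤ) : ℝ) - (X t : ℤ)| ≤ 2 * (I.ed e).stp s i := by
      have : |X t + j * I.chiF P e t - X t| ≤ 2 * (I.ed e).stp s i := by
        rw [add_sub_cancel_left, abs_mul, mul_comm]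
        exact mul_le_mul hc hj (abs_nonneg _) (by norm_num)
      exact_mod_cast this
    have b0 := bet_pos hs i
    have c0 : 0 ≤ (if (I.ed t).ty = 2 then 0 else bet s i) +
        (if (I.ed t).ty = 0 then 0 else (pP s : ℝ) / (I.ed t).R) := by
      refine add_nonneg ?_ ?_ <;> split_ifs <;> positivity
    have h5 := mul_le_mul_of_nonneg_left h4 c0
    have h7 : (pL0 s : ℝ) ≤ 128 * s * (s + 4) := by exact_mod_cast pL0_le hs
    have h8 : 2 + 2 * (128 * (s : ℝ) * (s + 4) + 5) ≤ 1400 * s ^ 3 := by nlinarith [sq_nonneg (s : ℝ)]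
    linarith

theorem Valid.dmax (h : I.Valid s k rt P) (hi : i ≤ pI s) (hB : I.HB s i hs) {X : Fin I.m → ℤ}
    (hX : X ∈ I.boxF s k) (e : Fin I.m) {j : ℤ} (hj : |j| ≤ (I.ed e).stp s i)
    (hY : X + j • I.chiF P e ∈ I.boxF s k) :
    I.enH s i hs (List.ofFn (X + j • I.chiF P e)) - I.enH s i hs (List.ofFn X) ≤ pD s := by
  have hs' := h.s_ge
  have h6 : (20 : ℝ) ≤ s := by exact_mod_cast hs'
  have h1 : (I.kF s i (X + j • I.chiF P e) : ℝ) - I.kF s i X ≤ s * (1400 * s ^ 3) := by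
    unfold kF
    push_cast
    rw [← sum_sub_distrib]
    refine (sum_le_card_nsmul _ _ _ fun t _ => h.kn_edge i X e hj t).trans ?_
    rw [card_univ, Fintype.card_fin, nsmul_eq_mul]
    exact mul_le_mul_of_nonneg_right (by exact_mod_cast h.m_le) (by positivity)
  have h2 : pL0 s + i * (pJ s / 2) ≤ 128 * s * (s + 4) + 4000 * s ^ 3 * (64 * s) := by
    have := pJ_le hs'
    exact Nat.add_le_add (pL0_le hs') (Nat.mul_le_mul hi (by omega))
  have h3 : ∀ q, |((hs.getD q 0 : ℤ) : ℝ)| ≤ 128 * s * (s + 4) + 4000 * s ^ 3 * (64 * s) := by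
    intro q
    have := (hB.2.2 q).trans (Int.ofNat_le.2 h2)
    exact_mod_cast this
  have h4 := _root_.abs_le.1 (h3 (I.key (List.ofFn (X + j • I.chiF P e))))
  have h5 := _root_.abs_le.1 (h3 (I.key (List.ofFn X)))
  have h7 : ((I.enH s i hs (List.ofFn (X + j • I.chiF P e)) - I.enH s i hs (List.ofFn X) : ℤ) : ℝ) ≤
      ((pD s : ℤ) : ℝ) := by
    unfold enH pD
    rw [kTot_ofFn, kTot_ofFn]
    push_cast
    have h8 : (s : ℝ) * (s + 4) ≤ s ^ 4 := by
      have a1 : (s : ℝ) * (s + 4) ≤ 2 * s ^ 2 := by nlinarith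
      have a2 : (2 : ℝ) ≤ s ^ 2 := by nlinarith
      have a3 := mul_le_mul_of_nonneg_right a2 (sq_nonneg (s : ℝ))
      nlinarith
    have h9 : (0 : ℝ) ≤ (s : ℝ) ^ 4 := by positivity
    nlinarith
  exact_mod_cast h7

theorem _root_.Crest.Agent.R309.coin_avg' (s : ℕ) {Δ : ℕ} (hΔ : Δ ≤ pD s) :
    avgN (pJ s ^ pD s) (fun c => ind (c < (pJ s - 1) ^ min Δ (pD s) * pJ s ^ (pD s - Δ))) = th s ^ Δ := by
  have hJ : 0 < pJ s := by unfold pJ; positivity
  have e : pJ s ^ pD s = pJ s ^ Δ * pJ s ^ (pD s - Δ) := by rw [← pow_add]; congr 1; omega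
  rw [min_eq_left hΔ, avgN_lt (by
    rw [e]; exact Nat.mul_le_mul_right _ (Nat.pow_le_pow_left (by omega) _)), e]
  have hJ' : (0 : ℝ) < pJ s := by exact_mod_cast hJ
  have e2 : th s = ((pJ s : ℝ) - 1) / pJ s := by unfold th; field_simp
  rw [e2, div_pow]
  push_cast [Nat.cast_sub hJ]
  field_simp

theorem _root_.Crest.Agent.R309.coin_avg (s : ℕ) {Δ : ℕ} (hΔ : Δ ≤ pD s) :
    avgN (2 ^ pr s) (fun u => ind (coin s Δ u = true)) = th s ^ Δ := by
  simp only [coin, decide_eq_true_eq]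
  rw [two_pow_pr, avgN_mul (2 ^ (10 * s)) (pJ s ^ pD s)
    fun _ c => ind (c < (pJ s - 1) ^ min Δ (pD s) * pJ s ^ (pD s - Δ))]
  simp only [coin_avg' s hΔ]
  exact avgN_const (by positivity) _

/-- the signed step -/
def kjz (σ r : ℕ) : ℤ := (if σ = 0 then 1 else -1) * ((r + 1 : ℕ) : ℤ)

theorem abs_kjz (σ : ℕ) {r N : ℕ} (hN : 1 ≤ N) : |kjz σ (r % N)| ≤ (N : ℤ) := by
  have := Nat.mod_lt r (show 0 < N by omega)
  unfold kjz
  split_ifs <;> rw [abs_le] <;> constructor <;> omega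

open Classical in
/-- the result of a proposed move -/
def kmv (I : Inst) (s k i : ℕ) (rt : ℕ → ℕ) (P : ℕ → Fin I.m → ℤ) (hs : List ℤ) (X Y : Fin I.m → ℤ)
    (c : ℕ) : Fin I.m → ℤ :=
  if Y ∈ (I.mkSt s k i rt P hs).Om ∧
    c < (pJ s - 1) ^ min (I.enH s i hs (List.ofFn Y) - I.enH s i hs (List.ofFn X)).toNat (pD s) *
      pJ s ^ (pD s - (I.enH s i hs (List.ofFn Y) - I.enH s i hs (List.ofFn X)).toNat) then Y else X

theorem Valid.mstep_eq (h : I.Valid s k rt P) {X : Fin I.m → ℤ} (hX : X ∈ (I.mkSt s k i rt P hs).Om)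
    {u : ℕ} (h0 : u % 2 ≠ 0) (e : Fin I.m) (he : u / 4 % pM2 s = e) :
    I.mstep s k i hs (List.ofFn X) u = List.ofFn (I.kmv s k i rt P hs X
      (X + kjz (u / 2 % 2) (u / (4 * pM2 s) % (I.ed e).stp s i) • I.chiF P e) (u / 2 ^ (10 * s))) := by
  have hY : ∀ j : ℤ, ((List.range I.m).map fun t => (List.ofFn X).getD t 0 + j * (I.ed e).chi.getD t 0) =
      List.ofFn (X + j • I.chiF P e) := by
    intro j
    refine List.ext_getElem (by simp) fun t h1 h2 => ?_
    have ht : t < I.m := by simpa using h1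
    have e1 := getD_ofFn X ⟨t, ht⟩
    have e2 := h.chi e ⟨t, ht⟩
    simp only at e1 e2
    simp only [List.getElem_map, List.getElem_range, List.getElem_ofFn, e1, e2, Pi.add_apply,
      Pi.smul_apply, smul_eq_mul]
  have hm := h.move_iff hX e (abs_kjz (u / 2 % 2) (r := u / (4 * pM2 s)) ((I.ed e).stp_pos s i))
  unfold mstep
  rw [if_neg (by rw [he]; have := e.2; omega), he]
  simp only [hY]
  unfold kmv
  unfold kjz at hm ⊢
  rw [apply_ite List.ofFn]
  refine if_congr ?_ rfl rfl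
  rw [Bool.and_eq_true, hm, coin, decide_eq_true_eq]

theorem mstep_eq_self {u : ℕ} (Z : List ℤ) (h0 : u % 2 = 0 ∨ I.m ≤ u / 4 % pM2 s) :
    I.mstep s k i hs Z u = Z := by
  unfold mstep
  rw [if_pos h0]

theorem Valid.kmv_avg (h : I.Valid s k rt P) (hi : i ≤ pI s) (hB : I.HB s i hs) {X : Fin I.m → ℤ}
    (hX : X ∈ (I.mkSt s k i rt P hs).Om) (f : (Fin I.m → ℤ) → ℝ) (e : Fin I.m) {j : ℤ}
    (hj : |j| ≤ (I.ed e).stp s i) :
    avgN (pJ s ^ pD s) (fun c => f (I.kmv s k i rt P hs X (X + j • I.chiF P e) c)) =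
      f X + (I.mkSt s k i rt P hs).acc X (X + j • I.chiF P e) * (f (X + j • I.chiF P e) - f X) := by
  have hJ : 0 < pJ s ^ pD s := by unfold pJ; positivity
  set Y := X + j • I.chiF P e with hYd
  unfold St.acc
  by_cases hY : Y ∈ (I.mkSt s k i rt P hs).Om
  · have hd := h.dmax hi hB ((St.mx_mem_Om _).1 hX).1 e hj ((St.mx_mem_Om _).1 hY).1
    rw [← hYd] at hd
    set D := I.enH s i hs (List.ofFn Y) - I.enH s i hs (List.ofFn X) with hD
    have e1 : ∀ c, f (I.kmv s k i rt P hs X Y c) = f X + (f Y - f X) *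
        ind (c < (pJ s - 1) ^ min D.toNat (pD s) * pJ s ^ (pD s - D.toNat)) := by
      intro c
      unfold kmv
      by_cases hc : c < (pJ s - 1) ^ min D.toNat (pD s) * pJ s ^ (pD s - D.toNat)
      · rw [if_pos ⟨hY, hc⟩, ind_of hc]; ring
      · rw [if_neg fun h => hc h.2, ind_of_not hc]; ring
    simp only [e1]
    rw [avgN_add, avgN_const hJ, avgN_mul_left, coin_avg' s (by omega), if_pos hY, mul_comm,
      mkSt_H, mkSt_H, th_pow]
    congr 2
    have e2 : ka s * (I.enH s i hs (List.ofFn X) : ℝ) - ka s * I.enH s i hs (List.ofFn Y) =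
        -(ka s * D) := by rw [hD]; push_cast; ring
    rw [e2]
    have hk := ka_pos s
    rcases le_total 0 D with h0 | h0
    · have e3 : ((D.toNat : ℕ) : ℝ) = D := by exact_mod_cast Int.toNat_of_nonneg h0
      have h1 : (0 : ℝ) ≤ D := by exact_mod_cast h0
      rw [e3, min_eq_right (Real.exp_le_one_iff.2 (by nlinarith))]
    · have e3 : D.toNat = 0 := by omega
      have h1 : (D : ℝ) ≤ 0 := by exact_mod_cast h0
      rw [e3, min_eq_left (Real.one_le_exp (by nlinarith))]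
      simp
  · have e1 : ∀ c, I.kmv s k i rt P hs X Y c = X := fun c => by
      unfold kmv; rw [if_neg fun h => hY h.1]
    simp only [e1]
    rw [avgN_const hJ, if_neg hY]; ring

theorem Valid.mstep_mem (h : I.Valid s k rt P) {X : Fin I.m → ℤ} (hX : X ∈ (I.mkSt s k i rt P hs).Om)
    (u : ℕ) : ∃ Y ∈ (I.mkSt s k i rt P hs).Om, I.mstep s k i hs (List.ofFn X) u = List.ofFn Y := by
  by_cases h0 : u % 2 = 0 ∨ I.m ≤ u / 4 % pM2 s
  · exact ⟨X, hX, mstep_eq_self _ h0⟩
  · push Not at h0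
    refine ⟨_, ?_, h.mstep_eq hX h0.1 ⟨_, h0.2⟩ rfl⟩
    unfold kmv
    split_ifs with hc
    · exact hc.1
    · exact hX

theorem Valid.kernel (h : I.Valid s k rt P) (hi : i ≤ pI s) (hB : I.HB s i hs) {X : Fin I.m → ℤ}
    (hX : X ∈ (I.mkSt s k i rt P hs).Om) (f : (Fin I.m → ℤ) → ℝ) :
    avgN (2 ^ pr s) (fun u => f (I.toF (I.mstep s k i hs (List.ofFn X) u))) =
      (I.mkSt s k i rt P hs).T (pM2 s) f X := by
  have hs' := h.s_ge
  have hJ : 0 < pJ s ^ pD s := by unfold pJ; positivity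
  have hM : 0 < pM2 s := by unfold pM2; positivity
  have hdvd : ∀ e : Fin I.m, 4 * pM2 s * (I.ed e).stp s i ∣ 2 ^ (10 * s) := fun e =>
    (I.ed e).stp_dvd hs' (h.R_le e) i
  have hd0 : 4 * pM2 s ∣ 2 ^ (10 * s) := (Dvd.intro _ rfl).trans (hdvd ⟨0, h.m_pos⟩)
  obtain ⟨N, hN⟩ := hd0
  have hN0 : 0 < N := Nat.pos_of_ne_zero fun e => by
    rw [e, mul_zero] at hN; exact absurd hN (by positivity)
  have hdN : ∀ e : Fin I.m, (I.ed e).stp s i ∣ N := fun e =>
    Nat.dvd_of_mul_dvd_mul_left (show 0 < 4 * pM2 s by omega) (hN ▸ hdvd e)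
  set σ := I.mkSt s k i rt P hs with hσ
  let F : ℕ → ℕ → ℝ := fun x c => if x % 2 = 0 then f X else
    if h : x / 4 % pM2 s < I.m then f (I.kmv s k i rt P hs X
      (X + kjz (x / 2 % 2) (x / (4 * pM2 s) % (I.ed (x / 4 % pM2 s)).stp s i) • I.chiF P ⟨_, h⟩) c)
    else f X
  let a : Fin I.m → ℤ → ℝ := fun e j => σ.acc X (X + j • I.chiF P e) * (f (X + j • I.chiF P e) - f X)
  let G : ℕ → ℕ → ℕ → ℕ → ℝ := fun b t e r => if b = 0 then 0 else
    if h : e < I.m then a ⟨e, h⟩ (kjz t (r % (I.ed e).stp s i)) else 0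
  have e1 : ∀ u, f (I.toF (I.mstep s k i hs (List.ofFn X) u)) =
      F (u % 2 ^ (10 * s)) (u / 2 ^ (10 * s)) := by
    intro u
    have m1 : u % 2 ^ (10 * s) % 2 = u % 2 :=
      Nat.mod_mod_of_dvd _ (hN ▸ ⟨2 * pM2 s * N, by ring⟩)
    have m2 : u % 2 ^ (10 * s) / 2 % 2 = u / 2 % 2 := kn_mod_div (hN ▸ ⟨pM2 s * N, by ring⟩) u
    have m3 : u % 2 ^ (10 * s) / 4 % pM2 s = u / 4 % pM2 s := kn_mod_div (hN ▸ ⟨N, rfl⟩) u
    simp only [F, m1, m2, m3]
    split_ifs with c1 c2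
    · rw [mstep_eq_self _ (Or.inl c1), toF_ofFn]
    · rw [h.mstep_eq hX c1 ⟨_, c2⟩ rfl, toF_ofFn, kn_mod_div (hdvd ⟨_, c2⟩) u]
    · rw [mstep_eq_self _ (Or.inr (not_lt.1 c2)), toF_ofFn]
  have e2 : ∀ x, avgN (pJ s ^ pD s) (fun c => F x c) =
      f X + G (x % 2) (x / 2 % 2) (x / 2 / 2 % pM2 s) (x / 2 / 2 / pM2 s) := by
    intro x
    have d1 : x / 2 / 2 = x / 4 := by omega
    have d2 : x / 4 / pM2 s = x / (4 * pM2 s) := Nat.div_div_eq_div_mul _ _ _
    simp only [F, G, d1, d2]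
    split_ifs with c1 c2
    · rw [avgN_const hJ, add_zero]
    · exact h.kmv_avg hi hB hX f ⟨_, c2⟩ (abs_kjz _ ((I.ed _).stp_pos s i))
    · rw [avgN_const hJ, add_zero]
  have e3 : ∀ t, avgN (pM2 s) (fun e => avgN N fun r => G 1 t e r) =
      (∑ e : Fin I.m, (∑ r ∈ range ((I.ed e).stp s i), a e (kjz t r)) / (I.ed e).stp s i) / pM2 s := by
    intro t
    rw [← kn_avg_fin (h.m_le.trans (lt_pM2 s).le)]
    congr 1
    funext e
    simp only [G, one_ne_zero, if_false]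
    split_ifs with c
    · exact avgN_mod hN0 (hdN ⟨e, c⟩) fun r => a ⟨e, c⟩ (kjz t r)
    · exact avgN_const hN0 _
  have e4 : ∀ t, avgN (pM2 s) (fun e => avgN N fun r => G 0 t e r) = 0 := by
    intro t
    simp only [G, if_true]
    rw [avgN_congr fun _ _ => avgN_const hN0 (0 : ℝ), avgN_const hM]
  simp only [e1]
  rw [two_pow_pr, avgN_mul]
  simp only [e2]
  rw [avgN_add, avgN_const (by positivity), hN,
    show 4 * pM2 s * N = 2 * (2 * (pM2 s * N)) by ring, kn_avg4, kn_avg2, kn_avg2, kn_avg2, e3, e3,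
    e4, e4]
  unfold St.T
  congr 1
  have hM' : (0 : ℝ) < pM2 s := by exact_mod_cast hM
  rw [← add_div, ← add_div, ← sum_add_distrib, zero_add, zero_add, div_div, div_div, sum_div]
  refine sum_congr rfl fun e _ => ?_
  have hst : (0 : ℝ) < (I.ed e).stp s i := by exact_mod_cast (I.ed e).stp_pos s i
  rw [kn_sum_Icc, ← add_div, ← sum_add_distrib, div_div, sum_div]
  refine sum_congr rfl fun r _ => ?_
  have k0 : kjz 0 r = ((r + 1 : ℕ) : ℤ) := by simp [kjz]
  have k1 : kjz 1 r = -((r + 1 : ℕ) : ℤ) := by simp [kjz]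
  simp only [a, k0, k1, neg_smul, ← sub_eq_add_neg]
  change _ = 1 / (4 * (pM2 s : ℝ) * ((I.ed e).stp s i : ℝ)) *
    (σ.acc X (X + ((r + 1 : ℕ) : ℤ) • I.chiF P e) * (f (X + ((r + 1 : ℕ) : ℤ) • I.chiF P e) - f X) +
      σ.acc X (X - ((r + 1 : ℕ) : ℤ) • I.chiF P e) * (f (X - ((r + 1 : ℕ) : ℤ) • I.chiF P e) - f X))
  field_simp
  ring

end Inst

end Crest.Agent.R309
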