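import Crest.Agent.R309.Prep
import Crest.Agent.R309.Flow

/-!
# Row 309: Kruskal
Invariant of `kStep` after processing the prefix `l` of `ord` (induction with `List.reverseRecOn`, or on `foldl` with a generalised invariant): the fields of `KInv` for `l`, plus
(i) `rt v = rt w → |P v t - P w t| ≤ 1`, (ii) `t ∈ tr → rt (src t) = rt (tgt t)` (contained in `same`), (iii) `P v t ≠ 0 → rt (src t) = rt v`.
In a merge the three vectors `P v - P a`, `one e`, `P b` have disjoint supports (by (iii); `e ∉ tr` since its ends have different roots), so `clamp` is inactive; differences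
`P v - P w` inside an old component do not change.
-/

set_option autoImplicit false

noncomputable section

namespace Crest.Agent.R309

open Finset Crest.Agent.Lib.PolyTime

namespace Net

/-- what Kruskal's algorithm achieves -/
structure KInv (N : Net) (R : ℕ → ℕ) (l : List ℕ) (K : KS) : Prop where
  rt_lt : ∀ v < N.n, K.rt v < N.n
  rt_rt : ∀ v < N.n, K.rt (K.rt v) = K.rt v
  div_P : ∀ v < N.n, N.gr.div (fun t => K.P v t) = uv v (K.rt v)
  P_rt : ∀ v < N.n, ∀ t, K.P (K.rt v) t = 0
  P_le : ∀ v < N.n, ∀ t, |K.P v t| ≤ 1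
  P_tree : ∀ v < N.n, ∀ t, K.P v t ≠ 0 → t ∈ K.2.2
  tr_sub : ∀ t ∈ K.2.2, t ∈ l
  tree : ∀ e ∈ K.2.2, ∀ t, (if t = e then 1 else 0) - K.P (N.src e) t + K.P (N.tgt e) t = 0
  same : ∀ e ∈ l, K.rt (N.src e) = K.rt (N.tgt e)
  order : ∀ e ∈ l, ∀ t, K.P (N.src e) t ≠ K.P (N.tgt e) t → R e ≤ R t

/-- the strengthened invariant -/
structure KInv' (N : Net) (R : ℕ → ℕ) (l : List ℕ) (K : KS) : Prop extends N.KInv R l K where
  diff : ∀ v < N.n, ∀ w < N.n, K.rt v = K.rt w → ∀ t, |K.P v t - K.P w t| ≤ 1
  supp : ∀ v < N.n, ∀ t, K.P v t ≠ 0 → K.rt (N.src t) = K.rt v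

theorem kr_getD {α : Type} (n : ℕ) (f : ℕ → α) (d : α) {v : ℕ} (hv : v < n) :
    ((List.range n).map f).getD v d = f v := by
  rw [List.getD_eq_getElem _ _ (by simpa using hv)]
  simp

theorem kr_getD' {α : Type} (n : ℕ) (f : ℕ → α) (d : α) {v : ℕ} (hv : n ≤ v) :
    ((List.range n).map f).getD v d = d :=
  List.getD_eq_default _ _ (by simpa using hv)

theorem kr_clamp {x : ℤ} (hx : |x| ≤ 1) : clamp x = x := by
  rw [abs_le] at hx
  unfold clamp
  omega

theorem kInv_nil (N : Net) (R : ℕ → ℕ) : N.KInv' R [] (N.kruskal []) := by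
  have hrt : ∀ v < N.n, (N.kruskal []).rt v = v := fun v hv => by
    have := kr_getD N.n id 0 hv
    rw [List.map_id] at this
    exact this
  have hP : ∀ v t, (N.kruskal []).P v t = 0 := fun v t => by
    simp only [kruskal, List.foldl_nil, KS.P, List.getD_eq_getElem?_getD, List.getElem?_replicate]
    split_ifs
    · simp only [Option.getD_some, List.getElem?_replicate]
      split_ifs <;> rfl
    · rfl
  refine ⟨⟨fun v hv => by rwa [hrt v hv], fun v hv => by rw [hrt v hv, hrt v hv], fun v hv => ?_,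
    fun v _ t => hP _ _, fun v _ t => by simp [hP], fun v _ t ht => absurd (hP v t) ht,
    fun t ht => ?_, fun e he => ?_, by simp, by simp⟩, fun v _ w _ _ t => by simp [hP],
    fun v _ t ht => absurd (hP v t) ht⟩
  · rw [hrt v hv, uv_self]
    simp only [hP]
    exact N.gr.div_zero
  · simp [kruskal] at ht
  · simp [kruskal] at he

theorem kInv_step {N : Net} {b : ℕ} (h : N.WF b) {R : ℕ → ℕ} {l : List ℕ} {K : KS} {e : ℕ}
    (I : N.KInv' R l K) (hl : ∀ t ∈ l, t < N.m) (he : e < N.m) (hR : ∀ t ∈ l, R e ≤ R t) :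
    N.KInv' R (l ++ [e]) (N.kStep K e) := by
  have ha := h.src_lt e he
  have hb := h.tgt_lt e he
  by_cases hAB : K.rt (N.src e) = K.rt (N.tgt e)
  · have hK : N.kStep K e = K := by simp [kStep, hAB]
    rw [hK]
    refine ⟨⟨I.rt_lt, I.rt_rt, I.div_P, I.P_rt, I.P_le, I.P_tree,
      fun t ht => List.mem_append_left _ (I.tr_sub t ht), I.tree, fun e' he' => ?_,
      fun e' he' t ht => ?_⟩, I.diff, I.supp⟩
    · rcases List.mem_append.mp he' with h1 | h1
      · exact I.same e' h1
      · rw [List.mem_singleton.mp h1]; exact hAB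
    · rcases List.mem_append.mp he' with h1 | h1
      · exact I.order e' h1 t ht
      · rw [List.mem_singleton.mp h1] at ht ⊢
        by_cases h2 : K.P (N.src e) t = 0
        · exact hR t (I.tr_sub t (I.P_tree _ hb t fun h3 => ht (h2.trans h3.symm)))
        · exact hR t (I.tr_sub t (I.P_tree _ ha t h2))
  -- a merge
  have hPe : ∀ x < N.n, K.P x e = 0 := fun x hx => by
    by_contra h0
    exact hAB (I.same e (I.tr_sub e (I.P_tree x hx e h0)))
  have hPm : ∀ x < N.n, ∀ t, N.m ≤ t → K.P x t = 0 := fun x hx t ht => by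
    by_contra h0
    exact absurd (hl t (I.tr_sub t (I.P_tree x hx t h0))) (not_lt.mpr ht)
  have key : ∀ v < N.n, K.rt v = K.rt (N.src e) → ∀ w < N.n, K.rt w = K.rt (N.tgt e) → ∀ t,
      |K.P v t - K.P (N.src e) t + (if t = e then 1 else 0) + K.P (N.tgt e) t - K.P w t| ≤ 1 := by
    intro v hv hvA w hw hwB t
    by_cases hte : t = e
    · subst hte
      simp [hPe v hv, hPe _ ha, hPe _ hb, hPe w hw]
    · rw [if_neg hte]
      by_cases h1 : K.rt (N.src t) = K.rt (N.src e)
      · have h2 : K.P (N.tgt e) t = 0 := by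
          by_contra h0
          exact hAB (h1.symm.trans (I.supp _ hb t h0))
        have h3 : K.P w t = 0 := by
          by_contra h0
          exact hAB (h1.symm.trans ((I.supp _ hw t h0).trans hwB))
        simpa [h2, h3] using I.diff v hv _ ha hvA t
      · have h2 : K.P (N.src e) t = 0 := by
          by_contra h0
          exact h1 (I.supp _ ha t h0)
        have h3 : K.P v t = 0 := by
          by_contra h0
          exact h1 ((I.supp _ hv t h0).trans hvA)
        simpa [h2, h3] using I.diff _ hb w hw hwB.symm t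
  have hB := I.rt_lt _ hb
  have hBB := I.rt_rt _ hb
  have hrt : ∀ v < N.n, (N.kStep K e).rt v =
      if K.rt v = K.rt (N.src e) then K.rt (N.tgt e) else K.rt v := fun v hv => by
    simp only [kStep, if_neg hAB]
    exact kr_getD N.n _ 0 hv
  have hP : ∀ v < N.n, ∀ t, (N.kStep K e).P v t = if K.rt v = K.rt (N.src e) then
      K.P v t - K.P (N.src e) t + (if t = e then 1 else 0) + K.P (N.tgt e) t else K.P v t := by
    intro v hv t
    simp only [kStep, if_neg hAB]
    rw [KS.P]
    dsimp only
    rw [kr_getD N.n _ [] hv]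
    split_ifs with h1 h2
    · rw [kr_getD N.m _ 0 (h2 ▸ he), if_pos h2]
      apply kr_clamp
      have := key v hv h1 _ hB hBB t
      rwa [I.P_rt _ hb, sub_zero, if_pos h2] at this
    · by_cases ht : t < N.m
      · rw [kr_getD N.m _ 0 ht, if_neg h2]
        apply kr_clamp
        have := key v hv h1 _ hB hBB t
        rwa [I.P_rt _ hb, sub_zero, if_neg h2] at this
      · rw [kr_getD' N.m _ 0 (not_lt.mp ht), hPm v hv t (not_lt.mp ht),
          hPm _ ha t (not_lt.mp ht), hPm _ hb t (not_lt.mp ht)]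
        simp
    · rfl
  have htr : (N.kStep K e).2.2 = e :: K.2.2 := by simp only [kStep, if_neg hAB]
  generalize N.kStep K e = K' at hrt hP htr
  have hAB' : K.rt (N.tgt e) ≠ K.rt (N.src e) := fun h0 => hAB h0.symm
  have hrtB : K'.rt (N.tgt e) = K.rt (N.tgt e) := by rw [hrt _ hb, if_neg hAB']
  have hrtA : K'.rt (N.src e) = K.rt (N.tgt e) := by rw [hrt _ ha, if_pos rfl]
  have hcong : ∀ v < N.n, ∀ w < N.n, K.rt v = K.rt w → K'.rt v = K'.rt w := fun v hv w hw hvw => by
    rw [hrt v hv, hrt w hw, hvw]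
  have hdiff : ∀ v < N.n, ∀ w < N.n, K.rt v = K.rt w → ∀ t,
      K'.P v t - K'.P w t = K.P v t - K.P w t := fun v hv w hw hvw t => by
    rw [hP v hv, hP w hw, hvw]
    split_ifs <;> ring
  have hPtree : ∀ v < N.n, ∀ t, K'.P v t ≠ 0 → t ∈ K'.2.2 := by
    intro v hv t ht
    rw [htr, List.mem_cons]
    by_contra hn
    rw [not_or] at hn
    have hz : ∀ x < N.n, K.P x t = 0 := fun x hx => by
      by_contra h0
      exact hn.2 (I.P_tree x hx t h0)
    apply ht
    rw [hP v hv, hz v hv, hz _ ha, hz _ hb, if_neg hn.1]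
    simp
  have htrs : ∀ t ∈ K'.2.2, t ∈ l ++ [e] := by
    intro t ht
    rw [htr, List.mem_cons] at ht
    rcases ht with h1 | h1
    · simp [h1]
    · exact List.mem_append_left _ (I.tr_sub t h1)
  refine ⟨⟨fun v hv => ?_, fun v hv => ?_, fun v hv => ?_, fun v hv t => ?_, fun v hv t => ?_,
    hPtree, htrs, fun e' he' t => ?_, fun e' he' => ?_, fun e' he' t ht => ?_⟩,
    fun v hv w hw hvw t => ?_, fun v hv t ht => ?_⟩
  · rw [hrt v hv]
    split_ifs
    · exact hB
    · exact I.rt_lt v hv
  · rw [hrt v hv]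
    split_ifs with h1
    · rw [hrt _ hB, hBB, if_neg hAB']
    · rw [hrt _ (I.rt_lt v hv), I.rt_rt v hv, if_neg h1]
  · rw [hrt v hv]
    simp only [hP v hv]
    split_ifs with h1
    · have e1 : (fun t : Fin N.m => K.P v t - K.P (N.src e) t + (if (t : ℕ) = e then 1 else 0) +
          K.P (N.tgt e) t) = (fun t : Fin N.m => K.P v t) - (fun t : Fin N.m => K.P (N.src e) t) +
          one (⟨e, he⟩ : Fin N.m) + (fun t : Fin N.m => K.P (N.tgt e) t) := by
        funext t
        simp only [Pi.add_apply, Pi.sub_apply, one, Pi.single_apply, Fin.ext_iff]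
      rw [e1, Gr.div_add, Gr.div_add, Gr.div_sub, I.div_P v hv, I.div_P _ ha, I.div_P _ hb,
        Gr.div_one, h1]
      simp only [gr, uv]
      abel
    · exact I.div_P v hv
  · rw [hrt v hv]
    split_ifs with h1
    · rw [hP _ hB, hBB, if_neg hAB', I.P_rt _ hb]
    · rw [hP _ (I.rt_lt v hv), I.rt_rt v hv, if_neg h1, I.P_rt v hv]
  · rw [hP v hv]
    by_cases h1 : K.rt v = K.rt (N.src e)
    · rw [if_pos h1]
      have := key v hv h1 _ hB hBB t
      rwa [I.P_rt _ hb, sub_zero] at this
    · rw [if_neg h1]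
      exact I.P_le v hv t
  · rw [htr, List.mem_cons] at he'
    rcases he' with h1 | h1
    · subst h1
      rw [hP _ ha, hP _ hb, if_pos rfl, if_neg hAB']
      ring
    · have h2 := I.tr_sub e' h1
      have := hdiff _ (h.src_lt e' (hl e' h2)) _ (h.tgt_lt e' (hl e' h2)) (I.same e' h2) t
      have := I.tree e' h1 t
      linarith
  · rcases List.mem_append.mp he' with h1 | h1
    · exact hcong _ (h.src_lt e' (hl e' h1)) _ (h.tgt_lt e' (hl e' h1)) (I.same e' h1)
    · rw [List.mem_singleton.mp h1, hrtA, hrtB]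
  · rcases List.mem_append.mp he' with h1 | h1
    · refine I.order e' h1 t fun h2 => ht ?_
      have := hdiff _ (h.src_lt e' (hl e' h1)) _ (h.tgt_lt e' (hl e' h1)) (I.same e' h1) t
      linarith
    · rw [List.mem_singleton.mp h1] at ht ⊢
      have h3 : t ∈ K'.2.2 := by
        by_cases h2 : K'.P (N.src e) t = 0
        · exact hPtree _ hb t fun h3 => ht (h2.trans h3.symm)
        · exact hPtree _ ha t h2
      rcases List.mem_append.mp (htrs t h3) with h4 | h4
      · exact hR t h4
      · rw [List.mem_singleton.mp h4]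
  · by_cases h0 : K.rt v = K.rt w
    · rw [hdiff v hv w hw h0]
      exact I.diff v hv w hw h0 t
    · rw [hrt v hv, hrt w hw] at hvw
      rw [hP v hv, hP w hw]
      by_cases h1 : K.rt v = K.rt (N.src e)
      · have h2 : K.rt w ≠ K.rt (N.src e) := fun h2 => h0 (h1.trans h2.symm)
        rw [if_pos h1, if_neg h2] at hvw ⊢
        exact key v hv h1 w hw hvw.symm t
      · by_cases h2 : K.rt w = K.rt (N.src e)
        · rw [if_neg h1, if_pos h2] at hvw ⊢
          rw [abs_sub_comm]
          exact key w hw h2 v hv hvw t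
        · rw [if_neg h1, if_neg h2] at hvw
          exact absurd hvw h0
  · have hs : ∀ x < N.n, K.P x t ≠ 0 → K'.rt (N.src t) = K'.rt x := fun x hx h0 =>
      hcong _ (h.src_lt t (hl t (I.tr_sub t (I.P_tree x hx t h0)))) x hx (I.supp x hx t h0)
    rw [hP v hv] at ht
    by_cases h1 : K.rt v = K.rt (N.src e)
    · rw [if_pos h1] at ht
      have hv' : K'.rt v = K.rt (N.tgt e) := by rw [hrt v hv, if_pos h1]
      by_cases h2 : K.P v t = 0
      · by_cases h3 : K.P (N.src e) t = 0
        · by_cases h4 : t = e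
          · rw [h4, hrtA, hv']
          · rw [h2, h3, if_neg h4] at ht
            rw [hs _ hb (by simpa using ht), hrtB, hv']
        · rw [hs _ ha h3, hrtA, hv']
      · exact hs v hv h2
    · rw [if_neg h1] at ht
      exact hs v hv ht

theorem kruskal_spec {N : Net} {b : ℕ} (h : N.WF b) (R : ℕ → ℕ) {l : List ℕ} (hl : ∀ e ∈ l, e < N.m)
    (hs : l.Pairwise fun e e' => R e' ≤ R e) : N.KInv R l (N.kruskal l) := by
  suffices H : N.KInv' R l (N.kruskal l) from H.toKInv
  induction l using List.reverseRecOn with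
  | nil => exact kInv_nil N R
  | append_singleton l e ih =>
    rw [List.pairwise_append] at hs
    have hk : N.kruskal (l ++ [e]) = N.kStep (N.kruskal l) e := by
      simp only [kruskal, List.foldl_append, List.foldl_cons, List.foldl_nil]
    rw [hk]
    exact kInv_step h (ih (fun t ht => hl t (List.mem_append_left _ ht)) hs.1)
      (fun t ht => hl t (List.mem_append_left _ ht)) (hl e (by simp))
      (fun t ht => hs.2.2 t ht e (by simp))

end Net

end Crest.Agent.R309
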