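import Crest.Agent.R309.TT

/-!
# Row 309: Load
The sharp load bound for a strongly log-concave edge.  Put `r = exp (-η e / 4) ≤ 1/5`, `c = ⌊S e / 2⌋`.
(1) `a e (t+1) ≤ r² * a e t` for `S e ≤ 2 t` (`t = S e/2`: `a(t+1)² = a(t+1) a(t-1) ≤ r⁴ a(t)²`; otherwise `SC` and
`step_down`: `a t ≤ a (t-1)`).
(2) `∑_C √(W C * W (C - one e)) = ∑_y √(a e y * a e (y-1)) * marg γ e y`.
(3) `marg γ e y ≤ p := marg d e c = marg d e (S e - c)`: with `a'` = `a` pinned at `e` to the indicator of `0`, `S'` = `S` with `S' e = 0`,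
`marg γ e y = Zs a' (γ - y • ξ)`, `ξ = div (one e)`; `Zs_sym` and `tt` with `Q = d - c • ξ`, `Q' = d - (S e - c) • ξ`.
(4) `S e` odd: `Z d ≥ 2 a(c) p`, `∑_y √(a y a (y-1)) ≤ a(c) (1 + 2 r/(1-r²))`; `S e` even: `Z d ≥ a(c) p`, sum `≤ a(c) 2 r/(1-r²)`.
`load_grd`: let `η → ∞` in `load_strong` (`sc_grd`).
-/

set_option autoImplicit false
set_option linter.unusedSectionVars false

noncomputable section

namespace Crest.Agent.R309

open Finset

variable {E V : Type} [Fintype E] [DecidableEq E] [DecidableEq V]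

/-! ### auxiliary lemmas -/

theorem ld_W_split (a : E → ℤ → ℝ) (X : E → ℤ) (e : E) :
    W a X = a e (X e) * ∏ e' ∈ Finset.univ.erase e, a e' (X e') := by
  unfold W
  exact (Finset.mul_prod_erase _ (fun e' => a e' (X e')) (Finset.mem_univ e)).symm

theorem ld_W_add (a : E → ℤ → ℝ) (X : E → ℤ) (e : E) :
    W a (X + one e) = a e (X e + 1) * ∏ e' ∈ Finset.univ.erase e, a e' (X e') := by
  rw [ld_W_split a _ e]
  congr 1
  · simp [one]
  · refine Finset.prod_congr rfl fun e' he' => ?_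
    have : e' ≠ e := (Finset.mem_erase.1 he').1
    simp [one, this]

theorem ld_W_sub (a : E → ℤ → ℝ) (X : E → ℤ) (e : E) :
    W a (X - one e) = a e (X e - 1) * ∏ e' ∈ Finset.univ.erase e, a e' (X e') := by
  rw [ld_W_split a _ e]
  congr 1
  · simp [one]
  · refine Finset.prod_congr rfl fun e' he' => ?_
    have : e' ≠ e := (Finset.mem_erase.1 he').1
    simp [one, this]

/-- geometric decay away from the centre -/
theorem ld_decay {a : E → ℤ → ℝ} {R : ℕ} {S : E → ℤ} {η : E → ℝ} (h : LC a R) (hs : Sym a S)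
    (hc : SC a η) (e : E) {t : ℤ} (ht : S e ≤ 2 * t) :
    a e (t + 1) ≤ Real.exp (-η e / 2) * a e t := by
  have h1 : a e (t + 1) ≤ a e (t - 1) := by
    rcases ht.eq_or_lt with h0 | h0
    · have := hs e (t + 1)
      rw [show S e - (t + 1) = t - 1 by omega] at this
      exact this.ge
    · have h2 := step_down h hs e (t := t) (by omega)
      have h3 := step_down h hs e (t := t - 1) (by omega)
      rw [sub_add_cancel] at h3
      exact h2.trans h3
  have h2 := hc e t
  have h3 : Real.exp (-η e) = Real.exp (-η e / 2) ^ 2 := by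
    rw [← Real.exp_nat_mul]; congr 1; push_cast; ring
  have h4 : a e (t + 1) ^ 2 ≤ (Real.exp (-η e / 2) * a e t) ^ 2 := by
    rw [mul_pow, ← h3]
    calc a e (t + 1) ^ 2 = a e (t + 1) * a e (t + 1) := by ring
      _ ≤ a e (t - 1) * a e (t + 1) := mul_le_mul_of_nonneg_right h1 (h.nonneg _ _)
      _ ≤ _ := h2
  exact (pow_le_pow_iff_left₀ (h.nonneg _ _)
    (mul_nonneg (Real.exp_pos _).le (h.nonneg _ _)) two_ne_zero).1 h4

/-- telescoping tail bound -/
theorem ld_tail (A b : ℤ → ℝ) {κ : ℝ} (y₀ : ℤ) (hA : ∀ t, 0 ≤ A t) (hb0 : ∀ y, 0 ≤ b y)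
    (hb : ∀ y, y₀ ≤ y → b (y + 1) ≤ κ * (A y - A (y + 1))) (hκ : 0 ≤ κ) (T : Finset ℤ)
    (hT : ∀ y ∈ T, y₀ < y) : ∑ y ∈ T, b y ≤ κ * A y₀ := by
  obtain ⟨N, hN⟩ : ∃ N : ℕ, ∀ y ∈ T, y < y₀ + 1 + N := by
    obtain ⟨M, hM⟩ := T.bddAbove
    refine ⟨(M - y₀).toNat, fun y hy => ?_⟩
    have := hM (Finset.mem_coe.2 hy)
    omega
  have hsub : T ⊆ (Finset.range N).image fun k : ℕ => y₀ + k + 1 := by
    intro y hy
    have h1 := hT y hy
    have h2 := hN y hy
    refine Finset.mem_image.2 ⟨(y - y₀ - 1).toNat, Finset.mem_range.2 (by omega), by omega⟩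
  have key : ∀ n : ℕ, ∑ k ∈ Finset.range n, b (y₀ + k + 1) ≤ κ * (A y₀ - A (y₀ + n)) := by
    intro n
    induction n with
    | zero => simp
    | succ n ih =>
      rw [Finset.sum_range_succ]
      have := hb (y₀ + n) (by omega)
      push_cast
      rw [← add_assoc]
      linarith
  calc ∑ y ∈ T, b y ≤ ∑ y ∈ (Finset.range N).image fun k : ℕ => y₀ + k + 1, b y :=
        Finset.sum_le_sum_of_subset_of_nonneg hsub fun y _ _ => hb0 y
    _ = ∑ k ∈ Finset.range N, b (y₀ + k + 1) := by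
        rw [Finset.sum_image]
        intro x _ y _ hxy
        simp only at hxy
        omega
    _ ≤ κ * (A y₀ - A (y₀ + N)) := key N
    _ ≤ κ * A y₀ := mul_le_mul_of_nonneg_left (by linarith [hA (y₀ + N)]) hκ

theorem ld_r_le {η : ℝ} (h7 : 7 ≤ η) : Real.exp (-η / 4) ≤ 1 / 5 := by
  have h1 : Real.exp (-η / 4) ≤ Real.exp (-(7 / 4)) := Real.exp_le_exp.2 (by linarith)
  have h2 : (5 : ℝ) ≤ Real.exp (7 / 4) := by
    have h3 := Real.quadratic_le_exp_of_nonneg (x := 7 / 8) (by norm_num)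
    have h4 : Real.exp (7 / 4) = Real.exp (7 / 8) * Real.exp (7 / 8) := by
      rw [← Real.exp_add]; norm_num
    rw [h4]
    nlinarith
  rw [Real.exp_neg] at h1
  refine h1.trans ?_
  rw [one_div]
  exact inv_anti₀ (by norm_num) h2

/-- `a` pinned at the edge `e` to the indicator of `0` -/
def ldPin (a : E → ℤ → ℝ) (e : E) : E → ℤ → ℝ :=
  fun e' t => if e' = e then (if t = 0 then 1 else 0) else a e' t

theorem ld_pin_lc {a : E → ℤ → ℝ} {R : ℕ} (h : LC a R) (e : E) : LC (ldPin a e) R := by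
  refine ⟨fun e' t => ?_, fun e' t ht => ?_, fun e' x y hxy => ?_⟩
  · unfold ldPin
    split_ifs
    · norm_num
    · norm_num
    · exact h.nonneg _ _
  · unfold ldPin at ht
    split_ifs at ht with h1 h2
    · simp [h2]
    · exact absurd rfl ht
    · exact h.supp _ _ ht
  · unfold ldPin
    by_cases he : e' = e
    · simp only [he, if_true]
      split_ifs <;> first | omega | norm_num
    · simp only [he, if_false]
      exact h.lc _ _ _ hxy

theorem ld_pin_sym {a : E → ℤ → ℝ} {S : E → ℤ} (hs : Sym a S) (e : E) :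
    Sym (ldPin a e) (S - S e • one e) := by
  intro e' t
  unfold ldPin
  by_cases he : e' = e
  · subst he
    simp [one]
  · simp only [he, if_false]
    have : (S - S e • one e : E → ℤ) e' = S e' := by simp [one, he]
    rw [this]
    exact hs e' t

theorem ld_marg_eq (G : Gr E V) (R : ℕ) (a : E → ℤ → ℝ) (γ : V → ℤ) (e : E) (y : ℤ) :
    marg G R a γ e y = Zs G R (ldPin a e) (γ - y • G.div (one e)) := by
  classical
  have hW : ∀ X : E → ℤ, W (ldPin a e) X =
      if X e = 0 then ∏ e' ∈ Finset.univ.erase e, a e' (X e') else 0 := by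
    intro X
    rw [ld_W_split _ _ e]
    have : ∏ e' ∈ Finset.univ.erase e, ldPin a e e' (X e') =
        ∏ e' ∈ Finset.univ.erase e, a e' (X e') := by
      refine Finset.prod_congr rfl fun e' he' => ?_
      have : e' ≠ e := (Finset.mem_erase.1 he').1
      simp [ldPin, this]
    rw [this]
    by_cases hX : X e = 0 <;> simp [ldPin, hX]
  unfold marg Zs
  simp only [hW]
  rw [← Finset.sum_filter]
  refine Finset.sum_nbij' (fun X => X - y • one e) (fun X => X + y • one e) ?_ ?_ ?_ ?_ ?_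
  · intro X hX
    simp only [Finset.mem_filter, Fintype.mem_piFinset] at hX
    obtain ⟨h1, h2⟩ := hX
    have h3 : X e = y := by simpa using h1 e
    refine Finset.mem_filter.2 ⟨mem_sec.2 ⟨fun e' => ?_, ?_⟩, ?_⟩
    · by_cases he : e' = e
      · subst he
        simp [one, h3]
      · have := h1 e'
        simp only [he, if_false, Finset.mem_Icc] at this
        have h4 : (X - y • one e : E → ℤ) e' = X e' := by simp [one, he]
        rw [h4]
        exact abs_le.2 this
    · rw [G.div_sub, G.div_smul, h2]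
    · simp [one, h3]
  · intro X hX
    obtain ⟨h1, h3⟩ := Finset.mem_filter.1 hX
    obtain ⟨h1, h2⟩ := mem_sec.1 h1
    simp only [Finset.mem_filter, Fintype.mem_piFinset]
    refine ⟨fun e' => ?_, ?_⟩
    · by_cases he : e' = e
      · subst he
        simp [one, h3]
      · have h4 : (X + y • one e : E → ℤ) e' = X e' := by simp [one, he]
        simp only [he, if_false, Finset.mem_Icc, h4]
        exact abs_le.1 (h1 e')
    · rw [G.div_add, G.div_smul, h2, sub_add_cancel]
  · intro X _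
    simp
  · intro X _
    simp
  · intro X _
    refine Finset.prod_congr rfl fun e' he' => ?_
    have he : e' ≠ e := (Finset.mem_erase.1 he').1
    simp [one, he]

/-- every marginal is at most the central one -/
theorem ld_marg_le (G : Gr E V) {a : E → ℤ → ℝ} {R : ℕ} {S : E → ℤ} (h : LC a R) (hs : Sym a S)
    {d : V → ℤ} (hS : G.div S = d + d) (e : E) {c : ℤ} (hc : S e = 2 * c ∨ S e = 2 * c + 1) :
    marg G R a d e (S e - c) = marg G R a d e c ∧
      ∀ γ y, marg G R a γ e y ≤ marg G R a d e c := by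
  have hl := ld_pin_lc h e
  have hy := ld_pin_sym hs e
  have hdiv : G.div (S - S e • one e) = d + d - S e • G.div (one e) := by
    rw [G.div_sub, G.div_smul, hS]
  have h1 : Zs G R (ldPin a e) (d - (S e - c) • G.div (one e)) =
      Zs G R (ldPin a e) (d - c • G.div (one e)) := by
    rw [← Zs_sym G hl hy (d - c • G.div (one e)), hdiv]
    congr 1
    module
  refine ⟨by rw [ld_marg_eq, ld_marg_eq, h1], fun γ y => ?_⟩
  rw [ld_marg_eq, ld_marg_eq]
  set P := γ - y • G.div (one e) with hP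
  have h2 := tt G hl (P := P) (P' := G.div (S - S e • one e) - P)
    (Q := d - c • G.div (one e)) (Q' := d - (S e - c) • G.div (one e))
    (by rw [hdiv]; module) (by
      rcases hc with hc | hc
      · left
        rw [hc]
        module
      · right
        refine ⟨G.src e, G.tgt e, ?_⟩
        rw [hc, ← G.div_one]
        module)
  rw [Zs_sym G hl hy, h1] at h2
  exact (mul_self_le_mul_self_iff (Zs_nonneg G hl _) (Zs_nonneg G hl _)).2 h2

theorem ld_sum_sqrt (G : Gr E V) {a : E → ℤ → ℝ} {R : ℕ} (h : LC a R) (γ : V → ℤ) (e : E) :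
    ∑ C ∈ sec G R γ, √(W a C * W a (C - one e)) =
      ∑ y ∈ Finset.Icc (-(R : ℤ)) R, √(a e y * a e (y - 1)) * marg G R a γ e y := by
  have hg : ∀ y, a e y * (√(a e y * a e (y - 1)) / a e y) = √(a e y * a e (y - 1)) := by
    intro y
    by_cases h0 : a e y = 0
    · simp [h0]
    · field_simp
  have := sum_marg G a R γ e fun y => √(a e y * a e (y - 1)) / a e y
  simp only [hg] at this
  rw [← this]
  refine Finset.sum_congr rfl fun C _ => ?_
  rw [ld_W_sub, ld_W_split a C e]
  have hP : 0 ≤ ∏ e' ∈ Finset.univ.erase e, a e' (C e') :=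
    Finset.prod_nonneg fun e' _ => h.nonneg _ _
  set P := ∏ e' ∈ Finset.univ.erase e, a e' (C e')
  rw [show a e (C e) * P * (a e (C e - 1) * P) = a e (C e) * a e (C e - 1) * (P * P) by ring,
    Real.sqrt_mul' _ (mul_self_nonneg P), Real.sqrt_mul_self hP]
  calc √(a e (C e) * a e (C e - 1)) * P
      = a e (C e) * (√(a e (C e) * a e (C e - 1)) / a e (C e)) * P := by rw [hg]
    _ = _ := by ring

theorem ld_Zs_marg (G : Gr E V) (a : E → ℤ → ℝ) (R : ℕ) (γ : V → ℤ) (e : E) :
    Zs G R a γ = ∑ y ∈ Finset.Icc (-(R : ℤ)) R, a e y * marg G R a γ e y := by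
  have := sum_marg G a R γ e fun _ => 1
  simpa [Zs] using this

/-- the one-dimensional sum -/
theorem ld_sum_one {a : E → ℤ → ℝ} {R : ℕ} {S : E → ℤ} {η : E → ℝ} (h : LC a R) (hs : Sym a S)
    (hc : SC a η) (e : E) (hη : 7 ≤ η e) {c : ℤ} (hSc : S e = 2 * c ∨ S e = 2 * c + 1) (T : Finset ℤ) :
    ∑ y ∈ T, √(a e y * a e (y - 1)) ≤
      ((if S e = 2 * c then 0 else 1) + 2 * (25 / 24 * Real.exp (-η e / 4))) * a e c := by
  set r := Real.exp (-η e / 4) with hr
  have hr0 : 0 < r := Real.exp_pos _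
  have hr5 : r ≤ 1 / 5 := ld_r_le hη
  have hr2 : Real.exp (-η e / 2) = r ^ 2 := by
    rw [hr, ← Real.exp_nat_mul]; congr 1; push_cast; ring
  set b : ℤ → ℝ := fun y => √(a e y * a e (y - 1)) with hb
  have hb0 : ∀ y, 0 ≤ b y := fun y => Real.sqrt_nonneg _
  have hbs : ∀ y, b (S e + 1 - y) = b y := by
    intro y
    simp only [hb]
    rw [show S e + 1 - y = S e - (y - 1) by ring, hs e (y - 1),
      show S e - (y - 1) - 1 = S e - y by ring, hs e y, mul_comm]
  have hstep : ∀ y, S e - c ≤ y → b (y + 1) ≤ 25 / 24 * r * (a e y - a e (y + 1)) := by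
    intro y hy
    have h1 := ld_decay h hs hc e (t := y) (by omega)
    rw [hr2] at h1
    have h0 := h.nonneg e y
    have h2 : b (y + 1) ≤ r * a e y := by
      simp only [hb, add_sub_cancel_right]
      refine Real.sqrt_le_iff.2 ⟨by positivity, ?_⟩
      calc a e (y + 1) * a e y ≤ r ^ 2 * a e y * a e y := mul_le_mul_of_nonneg_right h1 h0
        _ = _ := by ring
    have h3 : r ^ 2 * a e y ≤ 1 / 25 * a e y :=
      mul_le_mul_of_nonneg_right (by nlinarith) h0
    have h4 : a e y ≤ 25 / 24 * (a e y - a e (y + 1)) := by linarith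
    calc b (y + 1) ≤ r * a e y := h2
      _ ≤ r * (25 / 24 * (a e y - a e (y + 1))) := mul_le_mul_of_nonneg_left h4 hr0.le
      _ = _ := by ring
  have htail : ∀ T' : Finset ℤ, (∀ y ∈ T', S e - c < y) → ∑ y ∈ T', b y ≤ 25 / 24 * r * a e c := by
    intro T' hT'
    have := ld_tail (a e) b (S e - c) (h.nonneg e) hb0 hstep (by positivity) T' hT'
    rwa [hs e c] at this
  have hup := htail (T.filter fun y => S e - c < y) fun y hy => (Finset.mem_filter.1 hy).2
  have hlo : ∑ y ∈ T.filter (fun y => y ≤ c), b y ≤ 25 / 24 * r * a e c := by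
    have := htail ((T.filter fun y => y ≤ c).image fun y => S e + 1 - y) (by
      intro y hy
      obtain ⟨z, hz, rfl⟩ := Finset.mem_image.1 hy
      have := (Finset.mem_filter.1 hz).2
      omega)
    rw [Finset.sum_image (by intro x _ y _ hxy; simp only at hxy; omega)] at this
    simpa only [hbs] using this
  have hmid : ∑ y ∈ T.filter (fun y => c < y ∧ y ≤ S e - c), b y ≤
      (if S e = 2 * c then 0 else 1) * a e c := by
    split_ifs with h2
    · rw [Finset.filter_eq_empty_iff.2 (by intro y _; omega)]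
      simp
    · have hS : S e = 2 * c + 1 := hSc.resolve_left h2
      calc _ ≤ ∑ y ∈ ({c + 1} : Finset ℤ), b y := by
            refine Finset.sum_le_sum_of_subset_of_nonneg ?_ fun y _ _ => hb0 y
            intro y hy
            have := (Finset.mem_filter.1 hy).2
            rw [Finset.mem_singleton]
            omega
        _ = 1 * a e c := by
            rw [Finset.sum_singleton, one_mul]
            simp only [hb, add_sub_cancel_right]
            have := hs e c
            rw [show S e - c = c + 1 by omega] at this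
            rw [this, Real.sqrt_mul_self (h.nonneg _ _)]
  have hsplit : ∑ y ∈ T, b y = ∑ y ∈ T.filter (fun y => S e - c < y), b y +
      ∑ y ∈ T.filter (fun y => y ≤ c), b y + ∑ y ∈ T.filter (fun y => c < y ∧ y ≤ S e - c), b y := by
    simp only [Finset.sum_filter, ← Finset.sum_add_distrib]
    refine Finset.sum_congr rfl fun y _ => ?_
    split_ifs <;> first | omega | ring
  change ∑ y ∈ T, b y ≤ _
  rw [hsplit]
  linarith

theorem load_strong (G : Gr E V) {a : E → ℤ → ℝ} {R : ℕ} {S : E → ℤ} {η : E → ℝ} (h : LC a R)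
    (hs : Sym a S) (hc : SC a η) {d : V → ℤ} (hS : G.div S = d + d) (γ : V → ℤ) (e : E)
    (hη : 7 ≤ η e) :
    2 * ∑ C ∈ sec G R γ, √(W a C * W a (C - one e)) ≤
      (1 + 3 * Real.exp (-η e / 4)) * Zs G R a d := by
  obtain ⟨c, hSc⟩ : ∃ c : ℤ, S e = 2 * c ∨ S e = 2 * c + 1 := ⟨S e / 2, by omega⟩
  obtain ⟨hm1, hm2⟩ := ld_marg_le G h hs hS e hSc
  have h1 := ld_sum_one h hs hc e hη hSc (Finset.Icc (-(R : ℤ)) R)
  have hr0 : 0 < Real.exp (-η e / 4) := Real.exp_pos _
  have hr5 := ld_r_le hη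
  set r := Real.exp (-η e / 4)
  have hp : 0 ≤ marg G R a d e c := marg_nonneg G h _ _ _
  set p := marg G R a d e c with hpdef
  have hac := h.nonneg e c
  have h2 : ∑ C ∈ sec G R γ, √(W a C * W a (C - one e)) ≤
      ((if S e = 2 * c then 0 else 1) + 2 * (25 / 24 * r)) * a e c * p := by
    rw [ld_sum_sqrt G h]
    calc _ ≤ ∑ y ∈ Finset.Icc (-(R : ℤ)) R, √(a e y * a e (y - 1)) * p :=
          Finset.sum_le_sum fun y _ => mul_le_mul_of_nonneg_left (hm2 γ y) (Real.sqrt_nonneg _)
      _ = (∑ y ∈ Finset.Icc (-(R : ℤ)) R, √(a e y * a e (y - 1))) * p := by rw [Finset.sum_mul]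
      _ ≤ _ := mul_le_mul_of_nonneg_right h1 hp
  have hZ0 := Zs_nonneg G h d
  have hterm : ∀ y, 0 ≤ a e y * marg G R a d e y := fun y =>
    mul_nonneg (h.nonneg _ _) (marg_nonneg G h _ _ _)
  have h3 : (if S e = 2 * c then 1 else 2) * (a e c * p) ≤ Zs G R a d := by
    by_cases h0 : a e c = 0
    · simpa [h0] using hZ0
    have hcR : c ∈ Finset.Icc (-(R : ℤ)) R := Finset.mem_Icc.2 (abs_le.1 (h.supp e c h0))
    have hcR' : S e - c ∈ Finset.Icc (-(R : ℤ)) R :=
      Finset.mem_Icc.2 (abs_le.1 (h.supp e _ (by rw [hs e c]; exact h0)))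
    rw [ld_Zs_marg G a R d e]
    split_ifs with h2
    · rw [one_mul]
      exact Finset.single_le_sum (f := fun y => a e y * marg G R a d e y) (fun y _ => hterm y) hcR
    · have hne : c ≠ S e - c := by omega
      calc 2 * (a e c * p) = ∑ y ∈ ({c, S e - c} : Finset ℤ), a e y * marg G R a d e y := by
            rw [Finset.sum_pair hne, hm1, hs e c]; ring
        _ ≤ _ := by
            refine Finset.sum_le_sum_of_subset_of_nonneg ?_ fun y _ _ => hterm y
            intro y hy
            rcases Finset.mem_insert.1 hy with rfl | hy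
            · exact hcR
            · rw [Finset.mem_singleton.1 hy]; exact hcR'
  have hq : 0 ≤ a e c * p := mul_nonneg hac hp
  set q := a e c * p with hqdef
  rw [mul_assoc, ← hqdef] at h2
  split_ifs at h2 h3
  · have : (1 + 3 * r) * (1 * q) ≤ (1 + 3 * r) * Zs G R a d :=
      mul_le_mul_of_nonneg_left h3 (by positivity)
    nlinarith
  · have : (1 + 3 * r) * (2 * q) ≤ (1 + 3 * r) * Zs G R a d :=
      mul_le_mul_of_nonneg_left h3 (by positivity)
    nlinarith

theorem load_grd (G : Gr E V) {R : ℕ} {S : E → ℤ} (hR : S ∈ cube E (2 * R)) {d : V → ℤ}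
    (hS : G.div S = d + d) (γ : V → ℤ) (e : E) :
    2 * ∑ C ∈ sec G R γ, √(W (grd S) C * W (grd S) (C - one e)) ≤ Zs G R (grd S) d := by
  have h1 : Filter.Tendsto (fun η : ℝ => Real.exp (-η / 4)) Filter.atTop (nhds 0) := by
    refine Real.tendsto_exp_atBot.comp ?_
    exact Filter.tendsto_neg_atTop_atBot.atBot_div_const (by norm_num)
  have h2 : Filter.Tendsto (fun η : ℝ => (1 + 3 * Real.exp (-η / 4)) * Zs G R (grd S) d)
      Filter.atTop (nhds ((1 + 3 * 0) * Zs G R (grd S) d)) :=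
    ((h1.const_mul 3).const_add 1).mul_const _
  rw [mul_zero, add_zero, one_mul] at h2
  refine ge_of_tendsto h2 ?_
  filter_upwards [Filter.eventually_ge_atTop (7 : ℝ)] with η hη
  exact load_strong G (lc_grd hR) (sym_grd S) (sc_grd S fun _ => η) hS γ e hη

theorem one_le_Gh {η : ℝ} : 1 ≤ Gh η := by
  unfold Gh
  have h1 : 0 < Real.exp (-η / 4) := Real.exp_pos _
  exact one_le_mul_of_one_le_of_one_le (by linarith) (le_max_left _ _)

theorem Gh_two_mul_le {η : ℝ} (h : 0 < η) : Gh (2 * η) ≤ Gh η := by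
  unfold Gh
  have h1 : Real.exp (-(2 * η) / 4) ≤ Real.exp (-η / 4) := Real.exp_le_exp.2 (by linarith)
  have h2 : 14 / (2 * η) ≤ 14 / η := div_le_div_of_nonneg_left (by norm_num) h (by linarith)
  exact mul_le_mul (by linarith) (max_le_max le_rfl h2) (le_trans zero_le_one (le_max_left _ _))
    (by positivity)

theorem Gh_small {η : ℝ} (h : 0 < η) (h7 : η < 7) : 2 * Gh (2 * η) ≤ Gh η := by
  unfold Gh
  have h1 : Real.exp (-(2 * η) / 4) ≤ Real.exp (-η / 4) := Real.exp_le_exp.2 (by linarith)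
  have h2 : 1 ≤ 14 / (2 * η) := (one_le_div (by positivity)).2 (by linarith)
  have h3 : 14 / η = 2 * (14 / (2 * η)) := by field_simp
  rw [max_eq_right h2, max_eq_right (by linarith), h3]
  nlinarith

theorem Gh_large {η : ℝ} (h7 : 7 ≤ η) : (1 + 3 * Real.exp (-η / 4)) * Gh (2 * η) ≤ Gh η := by
  unfold Gh
  have h1 : 14 / (2 * η) ≤ 1 := (div_le_one (by linarith)).2 (by linarith)
  have h2 : Real.exp (-(2 * η) / 4) = Real.exp (-η / 4) ^ 2 := by
    rw [← Real.exp_nat_mul]; congr 1; push_cast; ring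
  have hr0 : 0 < Real.exp (-η / 4) := Real.exp_pos _
  have hr5 := ld_r_le h7
  rw [max_eq_left h1, h2, mul_one]
  set r := Real.exp (-η / 4)
  calc (1 + 3 * r) * (1 + 5 * r ^ 2) ≤ (1 + 5 * r) * 1 := by
        have : 5 * r + 15 * r ^ 2 ≤ 2 := by nlinarith
        nlinarith
    _ ≤ _ := mul_le_mul_of_nonneg_left (le_max_left _ _) (by positivity)

theorem Gh_le {η : ℝ} (h : 0 < η) : Gh η ≤ 6 * (1 + 14 / η) := by
  unfold Gh
  have h1 : Real.exp (-η / 4) ≤ 1 := Real.exp_le_one_iff.2 (by linarith)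
  have h2 : 0 ≤ 14 / η := by positivity
  exact mul_le_mul (by linarith) (max_le (by linarith) (by linarith))
    (le_trans zero_le_one (le_max_left _ _)) (by norm_num)

/-- excited states are light -/
theorem excited_le {a : E → ℤ → ℝ} {R : ℕ} {S : E → ℤ} {η : E → ℝ} (h : LC a R) (hs : Sym a S)
    (hc : SC a η) {η₀ : ℝ} (h0 : ∀ e, η₀ ≤ η e) (h0' : 0 ≤ η₀) {X₀ : E → ℤ}
    (hX₀ : ∀ e, |2 * X₀ e - S e| ≤ 1) (X : E → ℤ) :
    W a X₀ * W (grd S) X ≤ W a X ∧
      W a X ≤ W a X₀ * W (grd S) X + Real.exp (-η₀ / 2) * W a X₀ := by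
  have _ := h0'
  have hW0 := W_nonneg h X₀
  by_cases hX : ∀ e, |2 * X e - S e| ≤ 1
  · have h1 : W (grd S) X = 1 := Finset.prod_eq_one fun e _ => by simp [grd, hX e]
    have h2 : W a X = W a X₀ := Finset.prod_congr rfl fun e _ =>
      le_antisymm (le_center h hs e (hX₀ e) _) (le_center h hs e (hX e) _)
    rw [h1, h2, mul_one]
    exact ⟨le_rfl, le_add_of_nonneg_right (by positivity)⟩
  · push Not at hX
    obtain ⟨e, he⟩ := hX
    have h1 : W (grd S) X = 0 :=
      Finset.prod_eq_zero (Finset.mem_univ e) (by simp [grd, not_le.2 he])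
    rw [h1, mul_zero, zero_add]
    refine ⟨W_nonneg h X, ?_⟩
    have hfar : ∀ t, S e + 2 ≤ 2 * t → a e t ≤ Real.exp (-η₀ / 2) * a e (X₀ e) := by
      intro t ht
      have h2 := ld_decay h hs hc e (t := t - 1) (by omega)
      rw [sub_add_cancel] at h2
      refine h2.trans (mul_le_mul (Real.exp_le_exp.2 (by linarith [h0 e]))
        (le_center h hs e (hX₀ e) _) (h.nonneg _ _) (Real.exp_pos _).le)
    have h3 : a e (X e) ≤ Real.exp (-η₀ / 2) * a e (X₀ e) := by
      rcases lt_abs.1 he with h4 | h4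
      · exact hfar _ (by omega)
      · rw [← hs e (X e)]
        exact hfar _ (by omega)
    rw [ld_W_split a X e, ld_W_split a X₀ e, ← mul_assoc]
    exact mul_le_mul h3
      (Finset.prod_le_prod (fun e' _ => h.nonneg _ _) fun e' _ => le_center h hs e' (hX₀ e') _)
      (Finset.prod_nonneg fun e' _ => h.nonneg _ _)
      (mul_nonneg (Real.exp_pos _).le (h.nonneg _ _))

theorem ld_kink {a : E → ℤ → ℝ} {R : ℕ} {K : ℝ} (h : LC a R) (hK : KC a K) (hK0 : 0 ≤ K)
    (X Y : E → ℤ) (e : E) :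
    √(W a X * W a (X + one e)) * √(W a Y * W a (Y - one e)) ≤ K * (W a X * W a Y) := by
  have hX := W_nonneg h X
  have hY := W_nonneg h Y
  rw [← Real.sqrt_mul (mul_nonneg hX (W_nonneg h _))]
  refine Real.sqrt_le_iff.2 ⟨by positivity, ?_⟩
  have hP : 0 ≤ ∏ e' ∈ Finset.univ.erase e, a e' (X e') :=
    Finset.prod_nonneg fun e' _ => h.nonneg _ _
  have hQ : 0 ≤ ∏ e' ∈ Finset.univ.erase e, a e' (Y e') :=
    Finset.prod_nonneg fun e' _ => h.nonneg _ _
  rw [ld_W_add, ld_W_sub, ld_W_split a X e, ld_W_split a Y e]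
  set P := ∏ e' ∈ Finset.univ.erase e, a e' (X e')
  set Q := ∏ e' ∈ Finset.univ.erase e, a e' (Y e')
  have hxy : 0 ≤ a e (X e) * a e (Y e) := mul_nonneg (h.nonneg _ _) (h.nonneg _ _)
  have key : a e (X e) * a e (Y e) * (a e (X e + 1) * a e (Y e - 1)) ≤
      a e (X e) * a e (Y e) * (K ^ 2 * (a e (X e) * a e (Y e))) := by
    rcases hxy.eq_or_lt with h0 | h0
    · rw [← h0]; simp
    · exact mul_le_mul_of_nonneg_left (hK e _ _ h0) hxy
  calc _ = a e (X e) * a e (Y e) * (a e (X e + 1) * a e (Y e - 1)) * (P * Q) ^ 2 := by ring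
    _ ≤ a e (X e) * a e (Y e) * (K ^ 2 * (a e (X e) * a e (Y e))) * (P * Q) ^ 2 :=
        mul_le_mul_of_nonneg_right key (sq_nonneg _)
    _ = _ := by ring

theorem ld_W_le_Zs (G : Gr E V) {a : E → ℤ → ℝ} {R : ℕ} (h : LC a R) (X : E → ℤ) :
    W a X ≤ Zs G R a (G.div X) := by
  by_cases hX : X ∈ cube E R
  · exact Finset.single_le_sum (f := W a) (fun Y _ => W_nonneg h Y)
      (mem_sec.2 ⟨mem_cube.1 hX, rfl⟩)
  · rw [W_eq_zero h hX]
    exact Zs_nonneg G h _

theorem ld_shift_le (G : Gr E V) {a : E → ℤ → ℝ} {R : ℕ} (h : LC a R) (γ : V → ℤ) (D : E → ℤ) :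
    ∑ C ∈ sec G R γ, W a (C - D) ≤ Zs G R a (γ - G.div D) := by
  classical
  rw [← Finset.sum_image (s := sec G R γ) (g := fun C => C - D) (f := W a)
    (fun x _ y _ hxy => sub_left_injective hxy)]
  unfold Zs
  rw [← Finset.sum_filter_ne_zero]
  refine Finset.sum_le_sum_of_subset_of_nonneg ?_ fun Y _ _ => W_nonneg h Y
  intro Y hY
  obtain ⟨h1, h2⟩ := Finset.mem_filter.1 hY
  obtain ⟨C, hC, rfl⟩ := Finset.mem_image.1 h1
  refine mem_sec.2 ⟨mem_cube.1 ?_, by rw [G.div_sub, (mem_sec.1 hC).2]⟩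
  by_contra h3
  exact h2 (W_eq_zero h h3)

/-- top-level load: conversion to the Metropolis conductance -/
theorem load_top (G : Gr E V) {a : E → ℤ → ℝ} {R : ℕ} {K : ℝ} (h : LC a R) (hK : KC a K) (hK0 : 0 ≤ K)
    {d d' : V → ℤ} (hd : IsDef (d' - d)) (X : E → ℤ) (hX : X ∈ cube E R) (e : E) :
    √(W a X * W a (X + one e)) * ∑ C ∈ sec G R (d + d' - G.div X), √(W a C * W a (C - one e)) ≤
      K * (Zs G R a d * Zs G R a d') * mu G R a e X := by
  have _ := hX
  have hZZ : 0 ≤ Zs G R a d * Zs G R a d' := mul_nonneg (Zs_nonneg G h _) (Zs_nonneg G h _)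
  -- the general conversion
  have conv : ∀ Y : E → ℤ, 0 < W a Y → K * (W a Y * Zs G R a (d + d' - G.div Y)) ≤
      K * (Zs G R a d * Zs G R a d') * (W a Y / Zs G R a (G.div Y)) := by
    intro Y hY
    have hZ : 0 < Zs G R a (G.div Y) := hY.trans_le (ld_W_le_Zs G h Y)
    have h1 := tt G h (P := G.div Y) (P' := d + d' - G.div Y) (Q := d') (Q' := d) (by abel) hd
    rw [mul_assoc]
    refine mul_le_mul_of_nonneg_left ?_ hK0
    rw [mul_div_assoc', le_div_iff₀ hZ]
    calc W a Y * Zs G R a (d + d' - G.div Y) * Zs G R a (G.div Y)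
        = Zs G R a (G.div Y) * Zs G R a (d + d' - G.div Y) * W a Y := by ring
      _ ≤ Zs G R a d' * Zs G R a d * W a Y := mul_le_mul_of_nonneg_right h1 hY.le
      _ = _ := by ring
  by_cases h0 : W a X * W a (X + one e) = 0
  · rw [h0, Real.sqrt_zero, zero_mul]
    refine mul_nonneg (mul_nonneg hK0 hZZ) (le_min ?_ ?_) <;>
      exact div_nonneg (W_nonneg h _) (Zs_nonneg G h _)
  have hX1 : 0 < W a X := (W_nonneg h _).lt_of_ne' (left_ne_zero_of_mul h0)
  have hX2 : 0 < W a (X + one e) := (W_nonneg h _).lt_of_ne' (right_ne_zero_of_mul h0)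
  unfold mu
  rw [mul_min_of_nonneg _ _ (mul_nonneg hK0 hZZ), Finset.mul_sum]
  refine le_min (le_trans ?_ (conv X hX1)) (le_trans ?_ (conv _ hX2))
  · unfold Zs
    rw [Finset.mul_sum, Finset.mul_sum]
    exact Finset.sum_le_sum fun C _ => ld_kink h hK hK0 X C e
  · have h1 := ld_shift_le G h (d + d' - G.div X) (one e)
    rw [show d + d' - G.div X - G.div (one e) = d + d' - G.div (X + one e) by
      rw [G.div_add]; abel] at h1
    refine le_trans ?_ (mul_le_mul_of_nonneg_left (mul_le_mul_of_nonneg_left h1 hX2.le) hK0)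
    rw [Finset.mul_sum, Finset.mul_sum]
    refine Finset.sum_le_sum fun C _ => ?_
    have := ld_kink h hK hK0 (C - one e) (X + one e) e
    rw [sub_add_cancel, add_sub_cancel_right] at this
    calc _ = √(W a (C - one e) * W a C) * √(W a (X + one e) * W a X) := by
          rw [mul_comm (W a C), mul_comm (W a X), mul_comm]
      _ ≤ _ := this
      _ = _ := by ring

end Crest.Agent.R309
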