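import Crest.Agent.R309.Alg

/-!
# Row 309: PTAlg
The machine is polynomial-time.  Use `Lib.PolyTime` (`fun_prop`, tactic `pt`); projections and constructors of the structures through
`PT.of_enc_eq_out` (their codes are the codes of the tuples); `esize x = (enc x).bits.length` (`PT.encBits`).  Prove one `@[fun_prop]` lemma per definition
(exponents need `PB`: `pj`, `pD`, `min _ (pI s)`, `Nat.log`, `pD s - Δ`).
-/

set_option autoImplicit false
set_option linter.unusedVariables false

noncomputable section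

namespace Crest.Agent.R309

open Finset Crest.Agent.Lib.PolyTime

variable {α : Type} [Enc α] {s k i τ u : α → ℕ} {I : α → Inst} {x : α → MS}

theorem pt_mkEdge {a b c d e f : α → ℕ} {g : α → List ℤ} (ha : PT a) (hb : PT b) (hc : PT c) (hd : PT d)
    (he : PT e) (hf : PT f) (hg : PT g) : PT fun p => (⟨a p, b p, c p, d p, e p, f p, g p⟩ : Edge) :=
  (show PT fun p => (a p, b p, c p, d p, e p, f p, g p) by fun_prop).of_enc_eq_out fun _ => rfl
theorem pt_mkInst {n : α → ℕ} {es : α → List Edge} (hn : PT n) (hes : PT es) :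
    PT fun p => (⟨n p, es p⟩ : Inst) := (hn.prodMk hes).of_enc_eq_out fun _ => rfl

namespace PTAlg

section Proj

variable {d : α → Edge}

theorem edge_split (hd : PT d) :
    PT fun a => ((d a).src, (d a).tgt, (d a).lo, (d a).hi, (d a).R, (d a).ty, (d a).chi) :=
  hd.of_enc_eq_out fun _ => rfl
@[fun_prop] theorem src (hd : PT d) : PT fun a => (d a).src := (edge_split hd).fst
@[fun_prop] theorem tgt (hd : PT d) : PT fun a => (d a).tgt := (edge_split hd).snd.fst
@[fun_prop] theorem lo (hd : PT d) : PT fun a => (d a).lo := (edge_split hd).snd.snd.fst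
@[fun_prop] theorem hi (hd : PT d) : PT fun a => (d a).hi := (edge_split hd).snd.snd.snd.fst
@[fun_prop] theorem R (hd : PT d) : PT fun a => (d a).R := (edge_split hd).snd.snd.snd.snd.fst
@[fun_prop] theorem ty (hd : PT d) : PT fun a => (d a).ty := (edge_split hd).snd.snd.snd.snd.snd.fst
@[fun_prop] theorem chi (hd : PT d) : PT fun a => (d a).chi :=
  (edge_split hd).snd.snd.snd.snd.snd.snd

theorem inst_split (hI : PT I) : PT fun a => ((I a).n, (I a).es) := hI.of_enc_eq_out fun _ => rfl
@[fun_prop] theorem n (hI : PT I) : PT fun a => (I a).n := (inst_split hI).fst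
@[fun_prop] theorem es (hI : PT I) : PT fun a => (I a).es := (inst_split hI).snd
@[fun_prop] theorem m (hI : PT I) : PT fun a => (I a).m := (es hI).length
@[fun_prop] theorem mB (hI : PT I) : PB fun a => (I a).m := PB.length (es hI)

theorem ms_split (hx : PT x) : PT fun a =>
    ((x a).Z, (x a).hs, (x a).cnt, (x a).cA, (x a).cB, (x a).num, (x a).den, (x a).res) :=
  hx.of_enc_eq_out fun _ => rfl
@[fun_prop] theorem Z (hx : PT x) : PT fun a => (x a).Z := (ms_split hx).fst
@[fun_prop] theorem hs (hx : PT x) : PT fun a => (x a).hs := (ms_split hx).snd.fst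
@[fun_prop] theorem cnt (hx : PT x) : PT fun a => (x a).cnt := (ms_split hx).snd.snd.fst
@[fun_prop] theorem cA (hx : PT x) : PT fun a => (x a).cA := (ms_split hx).snd.snd.snd.fst
@[fun_prop] theorem cB (hx : PT x) : PT fun a => (x a).cB := (ms_split hx).snd.snd.snd.snd.fst
@[fun_prop] theorem num (hx : PT x) : PT fun a => (x a).num :=
  (ms_split hx).snd.snd.snd.snd.snd.fst
@[fun_prop] theorem den (hx : PT x) : PT fun a => (x a).den :=
  (ms_split hx).snd.snd.snd.snd.snd.snd.fst
@[fun_prop] theorem res (hx : PT x) : PT fun a => (x a).res :=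
  (ms_split hx).snd.snd.snd.snd.snd.snd.snd

theorem mkMS {a b : α → List ℤ} {c : α → List ℕ} {d e f g : α → ℕ} {h : α → Option (List ℤ)}
    (ha : PT a) (hb : PT b) (hc : PT c) (hd : PT d) (he : PT e) (hf : PT f) (hg : PT g)
    (hh : PT h) : PT fun p => (⟨a p, b p, c p, d p, e p, f p, g p, h p⟩ : MS) :=
  (show PT fun p => (a p, b p, c p, d p, e p, f p, g p, h p) by fun_prop).of_enc_eq_out
    fun _ => rfl

end Proj

section Par

attribute [local irreducible] pj pJ pL0 pLm pQ pI pP pL pA pK pG pC pM2 pmix pDn pKs pD pb pS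

@[fun_prop] theorem pjT (hs : PT s) : PT fun a => pj (s a) := by unfold pj; fun_prop
@[fun_prop] theorem pjB (hs : PT s) : PB fun a => pj (s a) := by unfold pj; fun_prop
@[fun_prop] theorem pJT (hs : PT s) : PT fun a => pJ (s a) := by unfold pJ; fun_prop
@[fun_prop] theorem pL0T (hs : PT s) : PT fun a => pL0 (s a) := by unfold pL0; fun_prop
@[fun_prop] theorem pLmT (hs : PT s) : PT fun a => pLm (s a) := by unfold pLm; fun_prop
@[fun_prop] theorem pQT (hs : PT s) : PT fun a => pQ (s a) := by unfold pQ; fun_prop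
@[fun_prop] theorem pIT (hs : PT s) : PT fun a => pI (s a) := by unfold pI; fun_prop
@[fun_prop] theorem pIB (hs : PB s) : PB fun a => pI (s a) := by unfold pI; fun_prop
@[fun_prop] theorem pPT (hs : PT s) : PT fun a => pP (s a) := by unfold pP; fun_prop
@[fun_prop] theorem pLT (hs : PT s) (hk : PT k) : PT fun a => pL (s a) (k a) := by
  unfold pL; fun_prop
@[fun_prop] theorem pLB (hs : PB s) (hk : PB k) : PB fun a => pL (s a) (k a) := by
  unfold pL; fun_prop
@[fun_prop] theorem pAT (hs : PT s) : PT fun a => pA (s a) := by unfold pA; fun_prop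
@[fun_prop] theorem pAB (hs : PB s) : PB fun a => pA (s a) := by unfold pA; fun_prop
@[fun_prop] theorem pKT (hs : PT s) : PT fun a => pK (s a) := by unfold pK; fun_prop
@[fun_prop] theorem pKB (hs : PB s) : PB fun a => pK (s a) := by unfold pK; fun_prop
@[fun_prop] theorem pGT (hs : PT s) (hk : PT k) : PT fun a => pG (s a) (k a) := by
  unfold pG; fun_prop
@[fun_prop] theorem pGB (hs : PB s) (hk : PB k) : PB fun a => pG (s a) (k a) := by
  unfold pG; fun_prop
@[fun_prop] theorem pCT (hs : PT s) (hk : PT k) : PT fun a => pC (s a) (k a) := by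
  unfold pC; fun_prop
@[fun_prop] theorem pCB (hs : PB s) (hk : PB k) : PB fun a => pC (s a) (k a) := by
  unfold pC; fun_prop
@[fun_prop] theorem pM2T (hs : PT s) : PT fun a => pM2 (s a) := by unfold pM2; fun_prop
@[fun_prop] theorem pmixT (hs : PT s) (hk : PT k) : PT fun a => pmix (s a) (k a) := by
  unfold pmix; fun_prop
@[fun_prop] theorem pmixB (hs : PB s) (hk : PB k) : PB fun a => pmix (s a) (k a) := by
  unfold pmix; fun_prop
@[fun_prop] theorem pDnT (hs : PT s) : PT fun a => pDn (s a) := by unfold pDn; fun_prop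
@[fun_prop] theorem pDnB (hs : PB s) : PB fun a => pDn (s a) := by unfold pDn; fun_prop
@[fun_prop] theorem pKsT (hs : PT s) (hk : PT k) : PT fun a => pKs (s a) (k a) := by
  unfold pKs; fun_prop
@[fun_prop] theorem pKsB (hs : PB s) (hk : PB k) : PB fun a => pKs (s a) (k a) := by
  unfold pKs; fun_prop
@[fun_prop] theorem pDT (hs : PT s) : PT fun a => pD (s a) := by unfold pD; fun_prop
@[fun_prop] theorem pDB (hs : PB s) : PB fun a => pD (s a) := by unfold pD; fun_prop
@[fun_prop] theorem pbT (hs : PT s) (hk : PT k) : PT fun a => pb (s a) (k a) := by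
  unfold pb; fun_prop
@[fun_prop] theorem pbB (hs : PB s) (hk : PB k) : PB fun a => pb (s a) (k a) := by
  unfold pb; fun_prop
@[fun_prop] theorem pST (hs : PT s) (hk : PT k) : PT fun a => pS (s a) (k a) := by
  unfold pS; fun_prop
@[fun_prop] theorem pSB (hs : PB s) (hk : PB k) : PB fun a => pS (s a) (k a) := by
  unfold pS; fun_prop
@[fun_prop] theorem pBT (hs : PT s) : PT fun a => pB (s a) := by unfold pB; fun_prop

end Par

section Chain

attribute [local irreducible] pj pJ pL0 pLm pQ pI pP pL pA pK pG pC pM2 pmix pDn pKs pD pb pS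

variable {d : α → Edge} {t : α → ℤ} {Z γ h : α → List ℤ} {e i' Δ : α → ℕ} {c : α → List ℕ}

@[fun_prop] theorem ed (hI : PT I) (he : PT e) : PT fun a => (I a).ed (e a) := by
  unfold Inst.ed; fun_prop
@[fun_prop] theorem out (hd : PT d) (ht : PT t) : PT fun a => (d a).out (t a) := by
  unfold Edge.out; fun_prop
@[fun_prop] theorem ke (hd : PT d) (hs : PT s) (hi : PT i) (hi' : PB i) (ht : PT t) :
    PT fun a => (d a).ke (s a) (i a) (t a) := by
  unfold Edge.ke; fun_prop
@[fun_prop] theorem ext (hd : PT d) (hs : PT s) (hk : PT k) :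
    PT fun a => (d a).ext (s a) (k a) := by
  unfold Edge.ext; fun_prop
@[fun_prop] theorem stp (hd : PT d) (hs : PT s) (hi : PT i) (hi' : PB i) :
    PT fun a => (d a).stp (s a) (i a) := by
  unfold Edge.stp; fun_prop
@[fun_prop] theorem zeros (hI : PT I) : PT fun a => (I a).zeros := by
  unfold Inst.zeros; fun_prop
@[fun_prop] theorem kTot (hI : PT I) (hs : PT s) (hi : PT i) (hi' : PB i) (hZ : PT Z) :
    PT fun a => (I a).kTot (s a) (i a) (Z a) := by
  unfold Inst.kTot; fun_prop
@[fun_prop] theorem inBox (hI : PT I) (hs : PT s) (hk : PT k) (hZ : PT Z) :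
    PT fun a => (I a).inBox (s a) (k a) (Z a) := by
  unfold Inst.inBox; fun_prop
@[fun_prop] theorem divL (hI : PT I) (hn : PB fun a => (I a).n) (hZ : PT Z) :
    PT fun a => (I a).divL (Z a) := by
  unfold Inst.divL; fun_prop
@[fun_prop] theorem keyL (hI : PT I) (hγ : PT γ) : PT fun a => (I a).keyL (γ a) := by
  unfold Inst.keyL; fun_prop
theorem key (hI : PT I) (hn : PB fun a => (I a).n) (hZ : PT Z) :
    PT fun a => (I a).key (Z a) := keyL hI (divL hI hn hZ)
theorem okDef (hI : PT I) (hn : PB fun a => (I a).n) (hZ : PT Z) :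
    PT fun a => (I a).okDef (Z a) := by
  have := divL hI hn hZ
  unfold Inst.okDef; fun_prop
theorem enH (hI : PT I) (hn : PB fun a => (I a).n) (hs : PT s) (hi : PT i) (hi' : PB i)
    (hh : PT h) (hZ : PT Z) : PT fun a => (I a).enH (s a) (i a) (h a) (Z a) :=
  (kTot hI hs hi hi' hZ).int_natCast.int_add (hh.getD (key hI hn hZ) (PT.const 0))
@[fun_prop] theorem coinT (hs : PT s) (hs' : PB s) (hΔ : PT Δ) (hu : PT u) :
    PT fun a => coin (s a) (Δ a) (u a) := by
  unfold coin; fun_prop
theorem mstep (hI : PT I) (hn : PB fun a => (I a).n) (hs : PT s) (hs' : PB s) (hk : PT k)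
    (hi : PT i) (hi' : PB i) (hh : PT h) (hZ : PT Z) (hu : PT u) :
    PT fun a => (I a).mstep (s a) (k a) (i a) (h a) (Z a) (u a) := by
  have hd : PT fun a => (I a).ed (u a / 4 % pM2 (s a)) := by fun_prop
  have hj : PT fun a => ((if u a / 2 % 2 = 0 then 1 else -1) *
      ((u a / (4 * pM2 (s a)) % ((I a).ed (u a / 4 % pM2 (s a))).stp (s a) (i a) + 1 : ℕ) : ℤ) : ℤ) := by
    fun_prop
  have hY : ∀ {j : α → ℤ} {d : α → Edge}, PT j → PT d → PT fun a =>
      (List.range (I a).m).map fun t => (Z a).getD t 0 + j a * (d a).chi.getD t 0 := by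
    intro j d hj hd
    fun_prop
  have hY' := hY hj hd
  exact PT.ite (by fun_prop) hZ (PT.ite (PT.eq_true (((inBox hI hs hk hY').band
    (okDef hI hn hY')).band (coinT hs hs'
      ((enH hI hn hs hi hi' hh hY').int_sub (enH hI hn hs hi hi' hh hZ)).int_toNat hu))) hY' hZ)
theorem divZero (hI : PT I) (hn : PB fun a => (I a).n) (hZ : PT Z) :
    PT fun a => ((I a).divL (Z a)).all fun x => x == 0 :=
  (divL hI hn hZ).all (by fun_prop)
theorem goodL (hI : PT I) (hn : PB fun a => (I a).n) (hZ : PT Z) :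
    PT fun a => (I a).goodL (Z a) :=
  (divZero hI hn hZ).band (by fun_prop)
theorem ovl (hI : PT I) (hn : PB fun a => (I a).n) (hs : PT s) (hs' : PB s) (hi : PT i)
    (hi' : PB i) (hj : PT i') (hj' : PB i') (hZ : PT Z) (hu : PT u) :
    PT fun a => (I a).ovl (s a) (i a) (i' a) (Z a) (u a) :=
  (((divZero hI hn hZ).band (by fun_prop)).band (by fun_prop)).band (by fun_prop)
theorem alpha (hI : PT I) (hn : PB fun a => (I a).n) (hs : PT s) (hs' : PB s) (hi : PT i)
    (hi' : PB i) (hZ : PT Z) (hu : PT u) : PT fun a => (I a).alpha (s a) (i a) (Z a) (u a) :=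
  PT.ite (by fun_prop) (goodL hI hn hZ)
    (ovl hI hn hs hs' hi hi' (i' := fun a => i a + 1) (by fun_prop) (by fun_prop) hZ hu)
theorem beta (hI : PT I) (hn : PB fun a => (I a).n) (hs : PT s) (hs' : PB s) (hi : PT i)
    (hi' : PB i) (hZ : PT Z) (hu : PT u) : PT fun a => (I a).beta (s a) (i a) (Z a) (u a) :=
  PT.ite (by fun_prop) (by fun_prop)
    (ovl hI hn hs hs' hi hi' (i' := fun a => i a - 1) (by fun_prop) (by fun_prop) hZ hu)
theorem cnt0 (hI : PT I) (hn : PB fun a => (I a).n) : PT fun a => (I a).cnt0 :=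
  PT.replicate (by fun_prop) (hn.mul hn) (PT.const 0)
theorem rangeNN (hI : PT I) (hn : PB fun a => (I a).n) :
    PT fun a => List.range ((I a).n * (I a).n) := PT.range (by fun_prop) (hn.mul hn)
theorem hs0 (hI : PT I) (hn : PB fun a => (I a).n) (hs : PT s) : PT fun a => (I a).hs0 (s a) :=
  (rangeNN hI hn).map (by fun_prop)
theorem upd (hI : PT I) (hn : PB fun a => (I a).n) (hs : PT s) (hh : PT h) (hc : PT c) :
    PT fun a => (I a).upd (s a) (h a) (c a) :=
  (rangeNN hI hn).map (by fun_prop)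
theorem record (hI : PT I) (hn : PB fun a => (I a).n) (hs : PT s) (hs' : PB s) (hi : PT i)
    (hi' : PB i) (hx : PT x) (hu : PT u) : PT fun a => (I a).record (s a) (i a) (x a) (u a) :=
  have hk := key hI hn (PTAlg.Z hx)
  mkMS (zeros hI) (PTAlg.hs hx)
    ((cnt hx).set hk (((cnt hx).getD hk (PT.const 0)).nat_add (PT.const 1)))
    ((cA hx).nat_add (alpha hI hn hs hs' hi hi' (PTAlg.Z hx) hu).toNat)
    ((cB hx).nat_add (beta hI hn hs hs' hi hi' (PTAlg.Z hx) hu).toNat) (num hx) (den hx)
    (PT.ite (PT.and (by fun_prop) (PT.and (by fun_prop) (goodL hI hn (PTAlg.Z hx)).eq_true))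
      (PTAlg.Z hx).some (res hx))
theorem finish (hI : PT I) (hn : PB fun a => (I a).n) (hs : PT s) (hx : PT x) :
    PT fun a => (I a).finish (s a) (x a) :=
  mkMS (PTAlg.Z hx) (upd hI hn hs (PTAlg.hs hx) (cnt hx)) (cnt0 hI hn) (PT.const 0) (PT.const 0)
    ((num hx).nat_mul (cA hx)) ((den hx).nat_mul (cB hx)) (res hx)
theorem step0 (hs : PT s) (hs' : PB s) (hk : PT k) (hI : PT I) (hn : PB fun a => (I a).n)
    (hτ : PT τ) (hx : PT x) (hu : PT u) :
    PT fun a => (I a).step0 (s a) (k a) (τ a) (x a) (u a) :=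
  have hi : PT fun a => min (τ a / pS (s a) (k a)) (pI (s a)) := by fun_prop
  have hi' : PB fun a => min (τ a / pS (s a) (k a)) (pI (s a)) := (pIB hs').min_right
  have hr := record hI hn hs hs' hi hi' hx hu
  PT.ite (by fun_prop)
    (mkMS (mstep hI hn hs hs' hk hi hi' (PTAlg.hs hx) (PTAlg.Z hx) hu) (PTAlg.hs hx) (cnt hx)
      (cA hx) (cB hx) (num hx) (den hx) (res hx))
    (PT.ite (by fun_prop) (finish hI hn hs hr) hr)
theorem capT (hs : PT s) (hx : PT x) : PT fun a => cap (s a) (x a) :=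
  have he : PT fun a => esize (x a) := hx.encBits.length.of_eq fun _ => Tr.length_bits _
  PT.ite (he.nat_le (pBT hs)) hx (PT.const _)

end Chain

end PTAlg

theorem pt_num (hx : PT x) : PT fun a => (x a).num := PTAlg.num hx
theorem pt_den (hx : PT x) : PT fun a => (x a).den := PTAlg.den hx
theorem pt_pM (hs : PT s) : PT fun a => pM (s a) := by unfold pM; fun_prop
theorem pt_pT (hs : PT s) (hs' : PB s) (hk : PT k) : PT fun a => pT (s a) (k a) := by
  unfold pT; fun_prop
theorem pb_pT (hs' : PB s) (hk' : PB k) : PB fun a => pT (s a) (k a) := by unfold pT; fun_prop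
theorem pt_pr (hs : PT s) : PT fun a => pr (s a) := by unfold pr; fun_prop
theorem pb_pr (hs' : PB s) : PB fun a => pr (s a) :=
  ((PB.const 10).mul hs').add
    (((hs'.mono fun _ => Nat.log_le_self 2 _).add (PB.const 7)).mul (PTAlg.pDB hs'))
theorem pt_pB (hs : PT s) : PT fun a => pB (s a) := PTAlg.pBT hs
theorem pb_pB (hs' : PB s) : PB fun a => pB (s a) := by unfold pB; fun_prop
theorem esize_cap_le (s : ℕ) (x : MS) : esize (cap s x) ≤ pB s := by
  unfold cap
  split_ifs with h
  · exact h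
  · have : esize (⟨[], [], [], 0, 0, 0, 0, none⟩ : MS) = esize
        (([] : List ℤ), ([] : List ℤ), ([] : List ℕ), 0, 0, 0, 0, (none : Option (List ℤ))) := rfl
    rw [this]
    simp [pB]
theorem pt_ini (hs : PT s) (hs' : PB s) (hI : PT I) (hn : PB fun a => (I a).n) :
    PT fun a => (I a).ini (s a) :=
  PTAlg.capT hs (PTAlg.mkMS (PTAlg.zeros hI) (PTAlg.hs0 hI hn hs) (PTAlg.cnt0 hI hn) (PT.const 0)
    (PT.const 0) (PT.const 1) (PT.const 1) (PT.const none))
theorem pt_outZ (hI : PT I) (hx : PT x) : PT fun a => (I a).outZ (x a) :=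
  (PTAlg.res hx).option_getD (PTAlg.zeros hI)
theorem pt_step (hs : PT s) (hs' : PB s) (hk : PT k) (hI : PT I) (hn : PB fun a => (I a).n) (hτ : PT τ)
    (hx : PT x) (hu : PT u) : PT fun a => (I a).step (s a) (k a) (τ a) (x a) (u a) :=
  PTAlg.capT hs (PTAlg.step0 hs hs' hk hI hn hτ hx hu)

end Crest.Agent.R309
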