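import Crest.Agent.R309.Prep
import Crest.Agent.R309.PTAlg

/-!
# Row 309: PTPrep
The preprocessing is polynomial-time.  One `@[fun_prop]` lemma per definition.  Networks are taken
in the subtype `NS` (`n ≤ m + 1`), so that the number of vertices is polynomially bounded.
* `bfs`: `PT.iterate_inv` with the invariant: length `≤ n`, every label is `none` or a list of length `≤ m` with entries in `{0, 1, -1}`.
* `maxflow`, `center`: `PT.iterate_grow` (`bq ≤ 2 ^ (b + 1)`; cycles have length `≤ m` and entries in `{0, ±1}` unconditionally).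
* `kruskal`: `PT.foldl` (roots `≤ n`, entries clamped; the tree list grows by one element per step).
-/

set_option autoImplicit false

noncomputable section

namespace Crest.Agent.R309

open Finset Crest.Agent.Lib.PolyTime

namespace PTPrep

/-! ### Size bounds -/

/-- short lists with entries in `{0, 1, -1}` -/
def Sm (m : ℕ) (p : List ℤ) : Prop := p.length ≤ m ∧ ∀ x ∈ p, x.natAbs ≤ 1

theorem Sm.esize_le {m : ℕ} {p : List ℤ} (h : Sm m p) : esize p ≤ m * 14 + 1 := by
  have h1 := esize_list_le (l := p) (B := 13) fun x hx => by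
    have := esize_nat_mono (h.2 x hx)
    rw [esize_int]
    simp only [esize_nat_one] at this
    omega
  have := h.1
  nlinarith

theorem Sm.set {m : ℕ} {p : List ℤ} (h : Sm m p) (e : ℕ) (σ : Bool) : Sm m (p.set e (sgn σ)) :=
  ⟨by simpa using h.1, fun x hx => by
    rcases List.mem_or_eq_of_mem_set hx with hx | rfl
    · exact h.2 x hx
    · cases σ <;> simp [sgn]⟩

theorem sm_zero (m : ℕ) : Sm m (List.replicate m 0) :=
  ⟨by simp, fun x hx => by rw [List.eq_of_mem_replicate hx]; simp⟩

theorem sm_nil (m : ℕ) : Sm m [] := ⟨by simp, by simp⟩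

/-- invariant of the labels -/
def Lab (n m : ℕ) (lab : List (Option (List ℤ))) : Prop :=
  lab.length ≤ n ∧ ∀ o ∈ lab, ∀ p, o = some p → Sm m p

theorem Lab.getD {n m : ℕ} {lab : List (Option (List ℤ))} (h : Lab n m lab) (v e : ℕ) (σ : Bool)
    (p : List ℤ) (hp : ((lab.getD v none).map fun p => p.set e (sgn σ)) = some p) : Sm m p := by
  obtain ⟨q, hq, rfl⟩ := Option.map_eq_some_iff.1 hp
  refine Sm.set (h.2 (lab.getD v none) ?_ q hq) e σ
  rcases lt_or_ge v lab.length with hv | hv
  · rw [List.getD_eq_getElem _ _ hv]; exact List.getElem_mem hv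
  · rw [List.getD_eq_default _ _ hv] at hq; cases hq

theorem Lab.esize_le {n m : ℕ} {lab : List (Option (List ℤ))} (h : Lab n m lab) :
    esize lab ≤ n * (m * 14 + 4) + 1 := by
  have h1 := esize_list_le (l := lab) (B := m * 14 + 3) fun o ho => by
    cases o with
    | none => simp
    | some p => have := (h.2 _ ho p rfl).esize_le; simp only [esize_some]; omega
  exact h1.trans (by have := h.1; gcongr)

theorem lab_ini (N : Net) (v : ℕ) :
    Lab N.n N.m ((List.replicate N.n none).set v (some (List.replicate N.m 0))) :=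
  ⟨by simp, fun o ho p hp => by
    rcases List.mem_or_eq_of_mem_set ho with ho | rfl
    · rw [List.eq_of_mem_replicate ho] at hp; cases hp
    · cases hp; exact sm_zero _⟩

theorem Lab.step {N : Net} {lab : List (Option (List ℤ))} (h : Lab N.n N.m lab) (X : List ℤ)
    (e B : ℕ) : Lab N.n N.m (N.bfsStep X e B lab) := by
  unfold Net.bfsStep
  generalize List.find? _ N.arcs = o
  cases o with
  | none => exact h
  | some a =>
    refine ⟨by simpa using h.1, fun o ho p hp => ?_⟩
    rcases List.mem_or_eq_of_mem_set ho with ho | rfl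
    · exact h.2 o ho p hp
    · exact h.getD _ _ _ p hp

theorem lab_bfs (N : Net) (X : List ℤ) (a : ℕ × Bool) (B : ℕ) : Lab N.n N.m (N.bfs X a B) :=
  Function.Iterate.rec (Lab N.n N.m) (lab_ini N _) (fun _ h => h.step X a.1 B) _

theorem sm_cyc {N : Net} {X : List ℤ} {a : ℕ × Bool} {B : ℕ} {C : List ℤ}
    (h : N.cyc X a B = some C) : Sm N.m C := by
  unfold Net.cyc at h
  split_ifs at h
  exact (lab_bfs N X a B).getD _ _ _ C h

theorem esize_zipWith_le (t : ℕ) (X C : List ℤ) (hC : ∀ x ∈ C, x.natAbs ≤ 1) :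
    esize (List.zipWith (fun x c : ℤ => x + (t : ℤ) * c) X C) ≤
      esize X + C.length * (esize t + 6) := by
  induction X generalizing C with
  | nil => simp
  | cons x X ih =>
    cases C with
    | nil => have := esize_pos (x :: X); simpa using this
    | cons c C =>
      have h1 := ih C fun y hy => hC y (List.mem_cons_of_mem _ hy)
      have h2 := esize_int_add_le x (t * c)
      have h3 : esize ((t : ℤ) * c) ≤ esize (t : ℤ) := esize_int_mono (by
        rw [Int.natAbs_mul]
        exact mul_le_of_le_one_right (Nat.zero_le _) (hC c List.mem_cons_self))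
      simp only [List.zipWith_cons_cons, esize_cons, List.length_cons, esize_int_natCast] at h3 ⊢
      rw [add_mul]
      omega

theorem esize_aug_le (N : Net) (X : List ℤ) (a : ℕ × Bool) (B t : ℕ) :
    esize (N.aug X a B t) ≤ esize X + N.m * (esize t + 6) := by
  unfold Net.aug
  cases h : N.cyc X a B with
  | none => simp
  | some C =>
    have h1 := sm_cyc h
    exact (esize_zipWith_le t X C h1.2).trans (by have := h1.1; gcongr)

theorem bq_le (N : Net) (b : ℕ) (X : List ℤ) (a : ℕ × Bool) : N.bq b X a ≤ 2 ^ (b + 1) :=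
  (Nat.div_le_self _ _).trans (Nat.pow_le_pow_right (by norm_num)
    (List.findIdx_le_length.trans (by simp)))

theorem esize_aug_le' (N : Net) (X : List ℤ) (a : ℕ × Bool) (B : ℕ) {t b : ℕ}
    (ht : t ≤ 2 ^ (b + 1)) : esize (N.aug X a B t) ≤ esize X + N.m * (6 * b + 19) :=
  (esize_aug_le N X a B t).trans (by
    have := esize_nat_le_of_le_two_pow ht
    exact Nat.add_le_add_left (Nat.mul_le_mul_left _ (by omega)) _)

/-- invariant of the forest data -/
def KI (n m : ℕ) (K : KS) : Prop :=
  K.1.length ≤ n ∧ (∀ x ∈ K.1, x ≤ n) ∧ K.2.1.length ≤ n ∧ ∀ p ∈ K.2.1, Sm m p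

theorem KI.rt_le {n m : ℕ} {K : KS} (h : KI n m K) (v : ℕ) : K.rt v ≤ n := by
  unfold KS.rt
  rcases lt_or_ge v K.1.length with hv | hv
  · rw [List.getD_eq_getElem _ _ hv]; exact h.2.1 _ (List.getElem_mem hv)
  · rw [List.getD_eq_default _ _ hv]; exact Nat.zero_le _

theorem KI.sm {n m : ℕ} {K : KS} (h : KI n m K) (v : ℕ) : Sm m (K.2.1.getD v []) := by
  rcases lt_or_ge v K.2.1.length with hv | hv
  · rw [List.getD_eq_getElem _ _ hv]; exact h.2.2.2 _ (List.getElem_mem hv)
  · rw [List.getD_eq_default _ _ hv]; exact sm_nil _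

theorem KI.step {N : Net} {K : KS} (h : KI N.n N.m K) (e : ℕ) :
    KI N.n N.m (N.kStep K e) ∧ esize (N.kStep K e).2.2 ≤ esize K.2.2 + esize e + 1 := by
  unfold Net.kStep
  split_ifs
  · exact ⟨h, by omega⟩
  · refine ⟨⟨by simp, fun x hx => ?_, by simp, fun p hp => ?_⟩, by simp only [esize_cons]; omega⟩
    · obtain ⟨v, -, rfl⟩ := List.mem_map.1 hx
      split_ifs <;> exact h.rt_le _
    · obtain ⟨v, -, rfl⟩ := List.mem_map.1 hp
      split_ifs
      · refine ⟨by simp, fun x hx => ?_⟩
        obtain ⟨t, -, rfl⟩ := List.mem_map.1 hx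
        unfold clamp
        omega
      · exact h.sm v

theorem KI.foldl {N : Net} (l : List ℕ) {K : KS} (h : KI N.n N.m K) :
    KI N.n N.m (l.foldl N.kStep K) ∧ esize (l.foldl N.kStep K).2.2 ≤ esize K.2.2 + esize l := by
  induction l generalizing K with
  | nil => exact ⟨h, by simp⟩
  | cons e l ih =>
    obtain ⟨h1, h2⟩ := h.step e
    obtain ⟨h3, h4⟩ := ih h1
    exact ⟨h3, by simp only [List.foldl_cons, esize_cons]; omega⟩

theorem KI.esize_le {n m : ℕ} {K : KS} (h : KI n m K) :
    esize K ≤ n * (6 * n + 2) + n * (m * 14 + 2) + esize K.2.2 + 4 := by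
  have h1 : esize K.1 ≤ n * (6 * n + 2) + 1 :=
    (esize_list_le (B := 6 * n + 1) fun x hx =>
      (esize_nat_mono (h.2.1 x hx)).trans (esize_nat_le_self n)).trans (by have := h.1; gcongr)
  have h2 : esize K.2.1 ≤ n * (m * 14 + 2) + 1 :=
    (esize_list_le (B := m * 14 + 1) fun p hp => (h.2.2.2 p hp).esize_le).trans
      (by have := h.2.2.1; gcongr)
  rw [esize_prod, esize_prod]
  omega

theorem ki_ini (n m : ℕ) : KI n m (List.range n, List.replicate n (List.replicate m 0), []) :=
  ⟨by simp, fun x hx => (List.mem_range.1 hx).le, by simp, fun p hp => by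
    rw [List.eq_of_mem_replicate hp]; exact sm_zero _⟩

/-! ### Networks -/

variable {α : Type} [Enc α]

section Gen

variable {N : α → Net} {e v t : α → ℕ} {c : α → ℕ × Bool} {X Z : α → List ℤ} {K : α → KS}

theorem net_split (hN : PT N) : PT fun a => ((N a).n, (N a).es, (N a).l, (N a).u) :=
  hN.of_enc_eq_out fun _ => rfl
@[fun_prop] theorem nT (hN : PT N) : PT fun a => (N a).n := (net_split hN).fst
@[fun_prop] theorem esT (hN : PT N) : PT fun a => (N a).es := (net_split hN).snd.fst
@[fun_prop] theorem lT (hN : PT N) : PT fun a => (N a).l := (net_split hN).snd.snd.fst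
@[fun_prop] theorem uT (hN : PT N) : PT fun a => (N a).u := (net_split hN).snd.snd.snd
@[fun_prop] theorem mT (hN : PT N) : PT fun a => (N a).m := (esT hN).length
@[fun_prop] theorem mB (hN : PT N) : PB fun a => (N a).m := PB.length (esT hN)
@[fun_prop] theorem sgnT {σ : α → Bool} (h : PT σ) : PT fun a => sgn (σ a) := by
  unfold sgn; fun_prop
@[fun_prop] theorem clampT {x : α → ℤ} (h : PT x) : PT fun a => clamp (x a) := by
  unfold clamp; fun_prop
@[fun_prop] theorem rtT (hK : PT K) (hv : PT v) : PT fun a => (K a).rt (v a) := by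
  unfold KS.rt; fun_prop
@[fun_prop] theorem PT' (hK : PT K) (hv : PT v) (ht : PT t) : PT fun a => (K a).P (v a) (t a) := by
  unfold KS.P; fun_prop
@[fun_prop] theorem srcT (hN : PT N) (he : PT e) : PT fun a => (N a).src (e a) := by
  unfold Net.src; fun_prop
@[fun_prop] theorem tgtT (hN : PT N) (he : PT e) : PT fun a => (N a).tgt (e a) := by
  unfold Net.tgt; fun_prop
@[fun_prop] theorem tlT (hN : PT N) (hc : PT c) : PT fun a => (N a).tl (c a) := by
  unfold Net.tl; fun_prop
@[fun_prop] theorem hdT (hN : PT N) (hc : PT c) : PT fun a => (N a).hd (c a) := by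
  unfold Net.hd; fun_prop
@[fun_prop] theorem resT (hN : PT N) (hX : PT X) (hc : PT c) :
    PT fun a => (N a).res (X a) (c a) := by
  unfold Net.res; fun_prop
@[fun_prop] theorem arcsT (hN : PT N) : PT fun a => (N a).arcs := by
  unfold Net.arcs; fun_prop
@[fun_prop] theorem bfsStepT {lab : α → List (Option (List ℤ))} (hN : PT N) (hX : PT X) (he : PT e)
    (ht : PT t) (hl : PT lab) : PT fun a => (N a).bfsStep (X a) (e a) (t a) (lab a) := by
  unfold Net.bfsStep; fun_prop
@[fun_prop] theorem addLT (hN : PT N) (hX : PT X) (hZ : PT Z) :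
    PT fun a => (N a).addL (X a) (Z a) := by
  unfold Net.addL; fun_prop

end Gen

/-- networks with few vertices -/
abbrev NS : Type := {N : Net // N.n ≤ N.m + 1}

section Small

variable {N : α → NS} {e v w t b s : α → ℕ} {c : α → ℕ × Bool} {X : α → List ℤ} {K : α → KS}

@[fun_prop] theorem nB (hN : PT N) : PB fun a => (N a).1.n :=
  ((mB hN.subtypeVal).add (PB.const 1)).mono fun a => (N a).2

@[fun_prop] theorem bfsT (hN : PT N) (hX : PT X) (hc : PT c) (ht : PT t) :
    PT fun a => (N a).1.bfs (X a) (c a) (t a) :=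
  PT.iterate_inv (f := fun a => (N a).1.bfsStep (X a) (c a).1 (t a))
    (fun a => (N a).1.n * ((N a).1.m * 14 + 4) + 1) (fun a => Lab (N a).1.n (N a).1.m)
    (by fun_prop) (by fun_prop) (by fun_prop) (by fun_prop) (by fun_prop)
    (fun a => lab_ini _ _) (fun a _ h => h.step _ _ _) fun a _ h => h.esize_le

@[fun_prop] theorem cycT (hN : PT N) (hX : PT X) (hc : PT c) (ht : PT t) :
    PT fun a => (N a).1.cyc (X a) (c a) (t a) := by
  unfold Net.cyc; fun_prop

@[fun_prop] theorem bqT (hN : PT N) (hb : PT b) (hb' : PB b) (hX : PT X) (hc : PT c) :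
    PT fun a => (N a).1.bq (b a) (X a) (c a) := by
  have h1 : PT fun p : α × ℕ => 2 ^ min p.2 (b p.1) :=
    PT.nat_pow (PT.const 2) (by fun_prop) (PB.min_right (by fun_prop))
  have h2 : PT fun p : α × ℕ =>
      ((N p.1).1.cyc (X p.1) (c p.1) (2 ^ min p.2 (b p.1))).isNone :=
    (cycT (by fun_prop) (by fun_prop) (by fun_prop) h1).isNone
  have h3 : PT fun a => List.range (b a + 1) := by fun_prop
  exact (PT.nat_pow (PT.const 2) (h3.findIdx h2) (PB.findIdx h3)).nat_div (PT.const 2)

@[fun_prop] theorem augT (hN : PT N) (hX : PT X) (hc : PT c) (hv : PT v) (ht : PT t) :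
    PT fun a => (N a).1.aug (X a) (c a) (v a) (t a) := by
  unfold Net.aug; fun_prop

@[fun_prop] theorem maxStepT (hN : PT N) (hb : PT b) (hb' : PB b) (he : PT e) (hX : PT X) :
    PT fun a => (N a).1.maxStep (b a) (e a) (X a) := by
  unfold Net.maxStep; fun_prop

@[fun_prop] theorem maxflowT (hN : PT N) (hb : PT b) (hb' : PB b) (he : PT e) :
    PT fun a => (N a).1.maxflow (b a) (e a) :=
  PT.iterate_grow (f := fun a => (N a).1.maxStep (b a) (e a))
    (fun a => (N a).1.m * (6 * b a + 19)) (by fun_prop) (by fun_prop) (by fun_prop) (by fun_prop)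
    (by fun_prop) fun a X => esize_aug_le' _ _ _ _ (bq_le _ _ _ _)

@[fun_prop] theorem cenStepT (hN : PT N) (hb : PT b) (hb' : PB b) (hX : PT X) :
    PT fun a => (N a).1.cenStep (b a) (X a) := by
  unfold Net.cenStep; fun_prop

theorem esize_cenStep_le (N : Net) (b : ℕ) (X : List ℤ) :
    esize (N.cenStep b X) ≤ esize X + N.m * (6 * b + 19) := by
  unfold Net.cenStep
  generalize List.find? _ N.arcs = o
  cases o with
  | none => exact Nat.le_add_right _ _
  | some a => exact esize_aug_le' _ _ _ _ ((Nat.div_le_self _ _).trans (bq_le _ _ _ _))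

@[fun_prop] theorem centerT (hN : PT N) (hb : PT b) (hb' : PB b) (hX : PT X) :
    PT fun a => (N a).1.center (b a) (X a) :=
  PT.iterate_grow (f := fun a => (N a).1.cenStep (b a))
    (fun a => (N a).1.m * (6 * b a + 19)) (by fun_prop) (by fun_prop) hX (by fun_prop)
    (by fun_prop) fun a X => esize_cenStep_le _ _ _

@[fun_prop] theorem kStepT (hN : PT N) (hK : PT K) (he : PT e) :
    PT fun a => (N a).1.kStep (K a) (e a) := by
  unfold Net.kStep; fun_prop

@[fun_prop] theorem kruskalT {l : α → List ℕ} (hN : PT N) (hl : PT l) :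
    PT fun a => (N a).1.kruskal (l a) :=
  PT.foldl (f := fun a => (N a).1.kStep)
    (fun a => (N a).1.n * (6 * (N a).1.n + 2) + (N a).1.n * ((N a).1.m * 14 + 2) + esize (l a) + 5)
    hl (by fun_prop) (by fun_prop) (by fun_prop) fun a i => by
      obtain ⟨h1, h2⟩ := KI.foldl ((l a).take i) (ki_ini (N a).1.n (N a).1.m)
      have h3 := h1.esize_le
      have h4 := esize_sublist (List.take_sublist i (l a))
      simp only [esize_nil] at h2
      omega

@[fun_prop] theorem RRT (hN : PT N) (hb : PT b) (hb' : PB b) (hX : PT X) (he : PT e) :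
    PT fun a => (N a).1.RR (b a) (X a) (e a) := by
  unfold Net.RR; fun_prop

attribute [local fun_prop] pt_pM pt_mkEdge pt_mkInst
attribute [local irreducible] pM

@[fun_prop] theorem ordT (hN : PT N) (hs : PT s) (hb : PT b) (hb' : PB b) (hX : PT X) :
    PT fun a => (N a).1.ord (s a) (b a) (X a) := by
  unfold Net.ord; fun_prop

@[fun_prop] theorem chiLT (hN : PT N) (hK : PT K) (hv : PT v) (hw : PT w) (he : PT e) :
    PT fun a => (N a).1.chiL (K a) (v a) (w a) (e a) := by
  unfold Net.chiL; fun_prop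

theorem mkInstT (hN : PT N) (hs : PT s) (hb : PT b) (hb' : PB b) (hX : PT X) :
    PT fun a => (N a).1.mkInst (s a) (b a) (X a) := by
  have hK : PT fun a => (N a).1.kruskal ((N a).1.ord (s a) (b a) (X a)) := by fun_prop
  unfold Net.mkInst
  generalize hK' : (fun a => (N a).1.kruskal ((N a).1.ord (s a) (b a) (X a))) = K at hK
  have e : ∀ a, (N a).1.kruskal ((N a).1.ord (s a) (b a) (X a)) = K a := fun a => congrFun hK' a
  simp only [e]
  fun_prop

end Small

/-! ### Tables -/

variable {T : α → Tab} {s : α → ℕ}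

theorem tab_split (hT : PT T) : PT fun a => ((T a).rs, (T a).cs, (T a).bs) :=
  hT.of_enc_eq_out fun _ => rfl
@[fun_prop] theorem rsT (hT : PT T) : PT fun a => (T a).rs := (tab_split hT).fst
@[fun_prop] theorem csT (hT : PT T) : PT fun a => (T a).cs := (tab_split hT).snd.fst
@[fun_prop] theorem bsT (hT : PT T) : PT fun a => (T a).bs := (tab_split hT).snd.snd
@[fun_prop] theorem nrT (hT : PT T) : PT fun a => (T a).nr := (rsT hT).length
@[fun_prop] theorem ncT (hT : PT T) : PT fun a => (T a).nc := (csT hT).length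
@[fun_prop] theorem nrB (hT : PT T) : PB fun a => (T a).nr := PB.length (rsT hT)
@[fun_prop] theorem ncB (hT : PT T) : PB fun a => (T a).nc := PB.length (csT hT)
@[fun_prop] theorem tesT (hT : PT T) : PT fun a => (T a).es := by unfold Tab.es; fun_prop
@[fun_prop] theorem upT (hT : PT T) : PT fun a => (T a).up := by unfold Tab.up; fun_prop
@[fun_prop] theorem lowT (hT : PT T) : PT fun a => (T a).low := by unfold Tab.low; fun_prop
@[fun_prop] theorem e0T (hT : PT T) : PT fun a => (T a).e0 := by unfold Tab.e0; fun_prop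

theorem es_len (T : Tab) : T.nr + T.nc + 2 ≤ T.es.length + 1 := by
  simp only [Tab.es, List.length_append, List.length_map, List.length_range, List.length_singleton]
  omega

theorem net0T (hT : PT T) : PT fun a => (⟨(T a).net0, es_len _⟩ : NS) :=
  (show PT fun a => ((T a).nr + (T a).nc + 2, (T a).es, ([] : List ℤ), (T a).up) by
    fun_prop).of_enc_eq_out fun _ => rfl

theorem net1T (hT : PT T) : PT fun a => (⟨(T a).net1, es_len _⟩ : NS) :=
  (show PT fun a => ((T a).nr + (T a).nc + 2, (T a).es, (T a).low, (T a).up) by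
    fun_prop).of_enc_eq_out fun _ => rfl

theorem X0T (hs : PT s) (hs' : PB s) (hT : PT T) : PT fun a => (T a).X0 (s a) :=
  (maxflowT (N := fun a => (⟨(T a).net0, es_len _⟩ : NS)) (b := s) (e := fun a => (T a).e0)
    (net0T hT) hs hs' (e0T hT)).of_eq fun _ => rfl

theorem X1T (hs : PT s) (hs' : PB s) (hT : PT T) : PT fun a => (T a).X1 (s a) :=
  (centerT (N := fun a => (⟨(T a).net1, es_len _⟩ : NS)) (b := s) (X := fun a => (T a).X0 (s a))
    (net1T hT) hs hs' (X0T hs hs' hT)).of_eq fun _ => rfl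

theorem cellsT {Y : α → List ℤ} (hT : PT T) (hY : PT Y) : PT fun a => (T a).cells (Y a) := by
  unfold Tab.cells; fun_prop

end PTPrep

variable {α : Type} [Enc α] {s : α → ℕ} {T : α → Tab}

theorem pt_mkTab {a b c : α → List ℕ} (ha : PT a) (hb : PT b) (hc : PT c) :
    PT fun p => (⟨a p, b p, c p⟩ : Tab) :=
  (ha.prodMk (hb.prodMk hc)).of_enc_eq_out fun _ => rfl
theorem pt_feas (hs : PT s) (hs' : PB s) (hT : PT T) : PT fun a => (T a).feas (s a) :=
  (((PTPrep.rsT hT).nat_sum).beq (PTPrep.csT hT).nat_sum).band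
    (((PTPrep.X0T hs hs' hT).getD (PTPrep.e0T hT) (PT.const 0)).beq
      (PTPrep.rsT hT).nat_sum.int_natCast)
theorem pt_inst (hs : PT s) (hs' : PB s) (hT : PT T) : PT fun a => (T a).inst (s a) :=
  (PTPrep.mkInstT (N := fun a => (⟨(T a).net1, PTPrep.es_len _⟩ : PTPrep.NS)) (s := s) (b := s)
    (X := fun a => (T a).X1 (s a)) (PTPrep.net1T hT) hs hs hs'
    (PTPrep.X1T hs hs' hT)).of_eq fun _ => rfl
theorem pb_inst_n (hT : PT T) : PB fun a => ((T a).inst (s a)).n :=
  ((PTPrep.nrB hT).add (PTPrep.ncB hT)).add (PB.const 2)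
theorem pt_dec {Z : α → List ℤ} (hs : PT s) (hs' : PB s) (hT : PT T) (hZ : PT Z) :
    PT fun a => (T a).dec (s a) (Z a) :=
  PTPrep.cellsT hT (PTPrep.addLT (PTPrep.net1T hT).subtypeVal (PTPrep.X1T hs hs' hT) hZ)

end Crest.Agent.R309
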