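import Crest.Agent.R309.Alg
import Crest.Prelude.Def_Tables

/-!
# Row 309: Prep
Preprocessing (definitions).  A network has bounds `l ≤ X ≤ u` on circulations `X`.  An arc `a = (e, σ)` is the edge `e` forwards (`σ = true`) or backwards.
* `cyc X a B`: a `{0, ±1}` cycle through `a` all of whose arcs have residual capacity `≥ B` (breadth-first search with path vectors);  `bq`: a power of two `B` with success
  such that `2 B` fails;  `maxflow`: maximise the flow on one edge;  `center`: move to a point where every edge that can move far in one direction has slack in both;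
  `kruskal`: spanning forest of the big edges by decreasing scale;  `mkInst`: the instance of the annealing algorithm.
* `Tab`: margins and bounds; `net0`, `net1`: the networks whose circulations are the partial / full tables.
-/

set_option autoImplicit false

noncomputable section

namespace Crest.Agent.R309

open Finset Crest.Agent.Lib.PolyTime

structure Net where
  n : ℕ
  es : List (ℕ × ℕ)
  l : List ℤ
  u : List ℤ

instance : Enc Net := Enc.ofInj (fun N => (N.n, N.es, N.l, N.u)) (fun a b h => by cases a; cases b; simp_all)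

def sgn (σ : Bool) : ℤ := if σ = true then 1 else -1

def clamp (x : ℤ) : ℤ := max (-1) (min 1 x)

/-- roots, paths to the roots, tree edges -/
abbrev KS : Type := List ℕ × List (List ℤ) × List ℕ

def KS.rt (K : KS) (v : ℕ) : ℕ := K.1.getD v 0
def KS.P (K : KS) (v t : ℕ) : ℤ := (K.2.1.getD v []).getD t 0

namespace Net

variable (N : Net)

abbrev m : ℕ := N.es.length
def src (e : ℕ) : ℕ := (N.es.getD e (0, 0)).1
def tgt (e : ℕ) : ℕ := (N.es.getD e (0, 0)).2
/-- tail of an arc -/
def tl (a : ℕ × Bool) : ℕ := if a.2 = true then N.src a.1 else N.tgt a.1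
/-- head of an arc -/
def hd (a : ℕ × Bool) : ℕ := if a.2 = true then N.tgt a.1 else N.src a.1
/-- residual capacity -/
def res (X : List ℤ) (a : ℕ × Bool) : ℤ :=
  if a.2 = true then N.u.getD a.1 0 - X.getD a.1 0 else X.getD a.1 0 - N.l.getD a.1 0
def arcs : List (ℕ × Bool) := (List.range N.m).flatMap fun e => [(e, true), (e, false)]

def bfsStep (X : List ℤ) (e₀ B : ℕ) (lab : List (Option (List ℤ))) : List (Option (List ℤ)) :=
  (N.arcs.find? fun a => a.1 != e₀ && decide ((B : ℤ) ≤ N.res X a) && (lab.getD (N.tl a) none).isSome &&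
    (lab.getD (N.hd a) none).isNone).elim lab fun a =>
      lab.set (N.hd a) ((lab.getD (N.tl a) none).map fun p => p.set a.1 (sgn a.2))

def bfs (X : List ℤ) (a : ℕ × Bool) (B : ℕ) : List (Option (List ℤ)) :=
  (N.bfsStep X a.1 B)^[N.n] ((List.replicate N.n none).set (N.hd a) (some (List.replicate N.m 0)))

def cyc (X : List ℤ) (a : ℕ × Bool) (B : ℕ) : Option (List ℤ) :=
  if (B : ℤ) ≤ N.res X a then ((N.bfs X a B).getD (N.tl a) none).map fun p => p.set a.1 (sgn a.2) else none

def bq (b : ℕ) (X : List ℤ) (a : ℕ × Bool) : ℕ :=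
  2 ^ ((List.range (b + 1)).findIdx fun p => (N.cyc X a (2 ^ min p b)).isNone) / 2

/-- push `t` units along the cycle -/
def aug (X : List ℤ) (a : ℕ × Bool) (B t : ℕ) : List ℤ :=
  (N.cyc X a B).elim X fun C => List.zipWith (fun x c => x + t * c) X C

def maxStep (b e₀ : ℕ) (X : List ℤ) : List ℤ := N.aug X (e₀, true) (N.bq b X (e₀, true)) (N.bq b X (e₀, true))

def maxflow (b e₀ : ℕ) : List ℤ := (N.maxStep b e₀)^[2 * N.m * (b + 1)] (List.replicate N.m 0)

def cenStep (b : ℕ) (X : List ℤ) : List ℤ :=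
  (N.arcs.find? fun a => decide (3 * (N.res X (a.1, !a.2) + 1) ≤ ((N.bq b X a / (2 * N.m) : ℕ) : ℤ))).elim X
    fun a => N.aug X a (N.bq b X a) (N.bq b X a / (2 * N.m))

def center (b : ℕ) (X : List ℤ) : List ℤ := (N.cenStep b)^[2 * N.m * b + 1] X

def kStep (K : KS) (e : ℕ) : KS :=
  if K.rt (N.src e) = K.rt (N.tgt e) then K else
    ((List.range N.n).map fun v => if K.rt v = K.rt (N.src e) then K.rt (N.tgt e) else K.rt v,
      (List.range N.n).map fun v => if K.rt v = K.rt (N.src e) then (List.range N.m).map fun t =>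
        clamp (K.P v t - K.P (N.src e) t + (if t = e then 1 else 0) + K.P (N.tgt e) t) else K.2.1.getD v [],
      e :: K.2.2)

def kruskal (ord : List ℕ) : KS :=
  ord.foldl N.kStep (List.range N.n, List.replicate N.n (List.replicate N.m 0), [])

/-- the scale of an edge -/
def RR (b : ℕ) (X : List ℤ) (e : ℕ) : ℕ := 2 * N.m * max (N.bq b X (e, true)) (N.bq b X (e, false))

def ord (s b : ℕ) (X : List ℤ) : List ℕ :=
  ((List.range N.m).filter fun e => decide (pM s ≤ N.RR b X e)).insertionSort fun e e' => N.RR b X e' ≤ N.RR b X e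

def chiL (K : KS) (v w e : ℕ) : List ℤ :=
  (List.range (N.m + N.n * N.n)).map fun t => (if t = e then 1 else 0) - K.P v t + K.P w t

def mkInst (s b : ℕ) (X : List ℤ) : Inst :=
  let K := N.kruskal (N.ord s b X)
  ⟨N.n, ((List.range N.m).map fun e => ⟨N.src e, N.tgt e, min (N.res X (e, false)).toNat (N.RR b X e),
      min (N.res X (e, true)).toNat (N.RR b X e), N.RR b X e,
      if N.RR b X e < pM s then 0 else if e ∈ K.2.2 then 2 else 1, N.chiL K (N.src e) (N.tgt e) e⟩) ++
    (List.range (N.n * N.n)).map fun q => ⟨q / N.n, q % N.n, 0, 1, 1, 3, N.chiL K (q / N.n) (q % N.n) (N.m + q)⟩⟩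

def addL (X Z : List ℤ) : List ℤ := (List.range N.m).map fun e => X.getD e 0 + Z.getD e 0

def gr : Gr (Fin N.m) ℕ := ⟨fun e => N.src e, fun e => N.tgt e⟩

def toF (X : List ℤ) : Fin N.m → ℤ := fun e => X.getD e 0

/-- feasible circulations -/
def Feas (X : List ℤ) : Prop :=
  X.length = N.m ∧ N.gr.div (N.toF X) = 0 ∧ ∀ e < N.m, N.l.getD e 0 ≤ X.getD e 0 ∧ X.getD e 0 ≤ N.u.getD e 0

structure WF (b : ℕ) : Prop where
  n_pos : 0 < N.n
  src_lt : ∀ e < N.m, N.src e < N.n
  tgt_lt : ∀ e < N.m, N.tgt e < N.n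
  cap_lt : ∀ e < N.m, N.u.getD e 0 - N.l.getD e 0 < 2 ^ b

/-- no centering move is available -/
def Centered (b : ℕ) (X : List ℤ) : Prop :=
  ∀ a : ℕ × Bool, a.1 < N.m → ((N.bq b X a / (2 * N.m) : ℕ) : ℤ) < 3 * (N.res X (a.1, !a.2) + 1)

end Net

/-- margins and (row-major) bounds -/
structure Tab where
  rs : List ℕ
  cs : List ℕ
  bs : List ℕ

instance : Enc Tab := Enc.ofInj (fun T => (T.rs, T.cs, T.bs)) (fun a b h => by cases a; cases b; simp_all)

namespace Tab

variable (T : Tab)

abbrev nr : ℕ := T.rs.length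
abbrev nc : ℕ := T.cs.length

def es : List (ℕ × ℕ) :=
  ((List.range (T.nr * T.nc)).map fun q => (q / T.nc, T.nr + q % T.nc)) ++
    ((List.range T.nr).map fun i => (T.nr + T.nc, i)) ++
    ((List.range T.nc).map fun j => (T.nr + j, T.nr + T.nc + 1)) ++ [(T.nr + T.nc + 1, T.nr + T.nc)]

def up : List ℤ :=
  (((List.range (T.nr * T.nc)).map fun q => T.bs.getD q 0) ++ T.rs ++ T.cs ++ [T.rs.sum]).map fun x : ℕ => (x : ℤ)

def low : List ℤ :=
  (List.replicate (T.nr * T.nc) 0 ++ T.rs ++ T.cs ++ [T.rs.sum]).map fun x : ℕ => (x : ℤ)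

def net0 : Net := ⟨T.nr + T.nc + 2, T.es, [], T.up⟩
def net1 : Net := ⟨T.nr + T.nc + 2, T.es, T.low, T.up⟩
def e0 : ℕ := T.nr * T.nc + T.nr + T.nc
def X0 (s : ℕ) : List ℤ := T.net0.maxflow s T.e0
def feas (s : ℕ) : Bool := T.rs.sum == T.cs.sum && (T.X0 s).getD T.e0 0 == (T.rs.sum : ℤ)
def X1 (s : ℕ) : List ℤ := T.net1.center s (T.X0 s)
def inst (s : ℕ) : Inst := T.net1.mkInst s s (T.X1 s)
def cells (Y : List ℤ) : List ℕ := (List.range (T.nr * T.nc)).map fun e => (Y.getD e 0).toNat
def dec (s : ℕ) (Z : List ℤ) : List ℕ := T.cells (T.net1.addL (T.X1 s) Z)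

/-- `y` is a table (row-major) -/
def IsTab (y : List ℕ) : Prop :=
  y.length = T.nr * T.nc ∧ (∀ e < T.nr * T.nc, y.getD e 0 ≤ T.bs.getD e 0) ∧
    (∀ i < T.nr, ∑ j ∈ range T.nc, y.getD (i * T.nc + j) 0 = T.rs.getD i 0) ∧
    ∀ j < T.nc, ∑ i ∈ range T.nr, y.getD (i * T.nc + j) 0 = T.cs.getD j 0

open Classical in
def tabs : Finset (List ℕ) :=
  ((Fintype.piFinset fun e : Fin (T.nr * T.nc) => range (T.bs.getD e 0 + 1)).image List.ofFn).filter T.IsTab

/-- `s` is large enough -/
structure OK (s : ℕ) : Prop where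
  s_ge : 20 ≤ s
  size : 2 * (T.nr + T.nc + 2) ^ 2 ≤ s
  rs_lt : T.rs.sum < 2 ^ s
  cs_lt : T.cs.sum < 2 ^ s
  bs_lt : ∀ x ∈ T.bs, x < 2 ^ s

end Tab

/-- a matrix, row by row -/
def flat {m n : ℕ} (X : Fin m → Fin n → ℕ) : List ℕ := (List.ofFn fun i => List.ofFn (X i)).flatten

/-- input of the machines: `s`, `k` in unary and the margins -/
abbrev In : Type := List Unit × List Unit × Tab

/-- the sampler -/
def mS : Mach In MS (List ℕ) where
  ini a := (a.2.2.inst a.1.length).ini a.1.length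
  step a := (a.2.2.inst a.1.length).step a.1.length a.2.1.length
  out a x := a.2.2.dec a.1.length ((a.2.2.inst a.1.length).outZ x)
  T a := pT a.1.length a.2.1.length
  r a := pr a.1.length
  B a := pB a.1.length

/-- the counter -/
def mC : Mach In MS ℚ where
  ini := mS.ini
  step := mS.step
  out a x := if a.2.2.feas a.1.length = true then (x.num : ℚ) / x.den else 0
  T := mS.T
  r := mS.r
  B := mS.B

end Crest.Agent.R309
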