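import Crest.Agent.Lib.PolyTime.More
import Crest.Prelude.Def_FinProb

/-!
# Row 309: Prob
Finite uniform averages: `avgN N g` over `u < N`, `avgL N T g` over lists of `T` independent numbers `< N`.
* `avgN_mul`: `Finset.sum_product'` and the bijection `u ↦ (u % a, u / a)` (or `Finset.range` + induction on `b`, `Finset.sum_range_add`-like).
* `avgN_digs`: induction on `T` with `avgN_mul` (`digs N (T+1) U = U % N :: digs N T (U / N)`).
* `uniformProb_eq_avgN`: `ω ↦ ofBits (List.ofFn ω)` is a bijection `(Fin R → Bool) ≃ range (2^R)` (injective on lists of equal length,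
  `ofBits_lt`, cardinalities).
* `hoeff`: `exp x ≤ 1 + x + x²` for `|x| ≤ 1` (`Real.abs_exp_sub_one_sub_id_le`), so `avgL exp (λ (f - μ)) ≤ exp (λ²)`; induction on `K`
  with `avgL_append` (`blk b 0 (us ++ us') = us`, `blk b (j+1) (us ++ us') = blk b j us'`); Markov with `λ = ± δ / 2`.
* `first_le`: induction on `K`: `P (K+1) ≤ p + (1 - q) P K`.
-/

set_option autoImplicit false

noncomputable section

namespace Crest.Agent.R309

open Finset

/-- uniform average over `range N` -/
def avgN (N : ℕ) (g : ℕ → ℝ) : ℝ := (∑ u ∈ range N, g u) / N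

/-- average over lists of `T` independent uniform numbers below `N` -/
def avgL (N : ℕ) : ℕ → (List ℕ → ℝ) → ℝ
  | 0, g => g []
  | T + 1, g => avgN N fun u => avgL N T fun us => g (u :: us)

/-- a list of `T` numbers below `N` -/
def Tape (N T : ℕ) (us : List ℕ) : Prop := us.length = T ∧ ∀ u ∈ us, u < N

/-- the first `T` digits of `U` in base `N` -/
def digs (N T U : ℕ) : List ℕ := (List.range T).map fun τ => U / N ^ τ % N

open Classical in
/-- indicator -/
def ind (p : Prop) : ℝ := if p then 1 else 0

/-- block number `j` of length `b` -/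
def blk (b j : ℕ) (us : List ℕ) : List ℕ := (us.drop (j * b)).take b

/-- run a time-dependent machine from time `τ` -/
def runM {σ : Type} (step : ℕ → σ → ℕ → σ) (τ : ℕ) (st : σ) (us : List ℕ) : σ :=
  (us.zipIdx τ).foldl (fun st p => step p.2 st p.1) st

theorem ind_nonneg (p : Prop) : 0 ≤ ind p := by
  unfold ind; split_ifs <;> norm_num

theorem ind_le_one (p : Prop) : ind p ≤ 1 := by
  unfold ind; split_ifs <;> norm_num

theorem ind_of {p : Prop} (h : p) : ind p = 1 := by
  unfold ind; rw [if_pos h]

theorem ind_of_not {p : Prop} (h : ¬ p) : ind p = 0 := by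
  unfold ind; rw [if_neg h]

theorem ind_mono {p q : Prop} (h : p → q) : ind p ≤ ind q := by
  by_cases hp : p
  · rw [ind_of hp, ind_of (h hp)]
  · rw [ind_of_not hp]; exact ind_nonneg q

theorem ind_or_le (p q : Prop) : ind (p ∨ q) ≤ ind p + ind q := by
  by_cases hp : p
  · rw [ind_of hp]; linarith [ind_le_one (p ∨ q), ind_nonneg q]
  · rw [ind_of_not hp, zero_add]; exact ind_mono fun h => h.resolve_left hp

theorem ind_not (p : Prop) : ind (¬ p) = 1 - ind p := by
  by_cases hp : p
  · rw [ind_of hp, ind_of_not (not_not.2 hp), sub_self]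
  · rw [ind_of_not hp, ind_of hp, sub_zero]


theorem avgN_const {N : ℕ} (hN : 0 < N) (c : ℝ) : avgN N (fun _ => c) = c := by
  have : (N : ℝ) ≠ 0 := by positivity
  simp only [avgN, sum_const, card_range, nsmul_eq_mul]
  field_simp

theorem avgN_mono {N : ℕ} {f g : ℕ → ℝ} (h : ∀ u < N, f u ≤ g u) : avgN N f ≤ avgN N g := 
  div_le_div_of_nonneg_right (sum_le_sum fun u hu => h u (mem_range.1 hu)) (Nat.cast_nonneg N)

theorem avgN_congr {N : ℕ} {f g : ℕ → ℝ} (h : ∀ u < N, f u = g u) : avgN N f = avgN N g := by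
  unfold avgN
  rw [sum_congr rfl fun u hu => h u (mem_range.1 hu)]

theorem avgN_add (N : ℕ) (f g : ℕ → ℝ) : avgN N (fun u => f u + g u) = avgN N f + avgN N g := by
  simp only [avgN, sum_add_distrib, add_div]

theorem avgN_mul_left (N : ℕ) (c : ℝ) (f : ℕ → ℝ) : avgN N (fun u => c * f u) = c * avgN N f := by
  simp only [avgN, ← mul_sum, mul_div_assoc]

theorem avgN_sum {ι : Type} (N : ℕ) (t : Finset ι) (f : ι → ℕ → ℝ) :
    avgN N (fun u => ∑ i ∈ t, f i u) = ∑ i ∈ t, avgN N (f i) := by
  simp only [avgN]
  rw [sum_comm, sum_div]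

theorem avgN_mul (a b : ℕ) (g : ℕ → ℕ → ℝ) :
    avgN (a * b) (fun u => g (u % a) (u / a)) = avgN a fun x => avgN b fun y => g x y := by
  have key : ∑ u ∈ range (a * b), g (u % a) (u / a) = ∑ y ∈ range b, ∑ x ∈ range a, g x y := by
    induction b with
    | zero => simp
    | succ b ih =>
      rw [Nat.mul_succ, sum_range_add, ih, sum_range_succ]
      congr 1
      refine sum_congr rfl fun x hx => ?_
      have hx' := mem_range.1 hx
      rw [Nat.mul_add_mod, Nat.mod_eq_of_lt hx', Nat.mul_add_div (by omega), Nat.div_eq_of_lt hx',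
        add_zero]
  simp only [avgN]
  rw [key, sum_comm, ← sum_div, div_div, Nat.cast_mul, mul_comm (a : ℝ)]

theorem avgN_mod {a N : ℕ} (hN : 0 < N) (h : a ∣ N) (g : ℕ → ℝ) :
    avgN N (fun u => g (u % a)) = avgN a g := by
  obtain ⟨b, rfl⟩ := h
  have hb : 0 < b := Nat.pos_of_mul_pos_left hN
  rw [avgN_mul a b fun x _ => g x]
  exact avgN_congr fun x _ => avgN_const hb _

theorem avgN_lt {a N : ℕ} (h : a ≤ N) : avgN N (fun u => ind (u < a)) = (a : ℝ) / N := by
  unfold avgN
  congr 1
  rw [← sum_subset (range_subset_range.2 h) fun u _ hu => ind_of_not (by simpa using hu),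
    sum_congr rfl fun u hu => ind_of (mem_range.1 hu)]
  simp


theorem avgL_const {N : ℕ} (hN : 0 < N) (T : ℕ) (c : ℝ) : avgL N T (fun _ => c) = c := by
  induction T with
  | zero => rfl
  | succ T ih => simp only [avgL, ih]; exact avgN_const hN c

theorem Tape.cons {N T u : ℕ} {us : List ℕ} (h : Tape N T us) (hu : u < N) :
    Tape N (T + 1) (u :: us) :=
  ⟨by rw [List.length_cons, h.1], fun v hv => by
    rcases List.mem_cons.1 hv with rfl | hv
    · exact hu
    · exact h.2 v hv⟩

theorem avgL_mono {N T : ℕ} {f g : List ℕ → ℝ} (h : ∀ us, Tape N T us → f us ≤ g us) :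
    avgL N T f ≤ avgL N T g := by
  induction T generalizing f g with
  | zero => exact h [] ⟨rfl, by simp⟩
  | succ T ih => exact avgN_mono fun u hu => ih fun us hus => h _ (hus.cons hu)

theorem avgL_congr {N T : ℕ} {f g : List ℕ → ℝ} (h : ∀ us, Tape N T us → f us = g us) :
    avgL N T f = avgL N T g := 
  le_antisymm (avgL_mono fun us hus => (h us hus).le) (avgL_mono fun us hus => (h us hus).ge)

theorem avgL_add (N T : ℕ) (f g : List ℕ → ℝ) :
    avgL N T (fun us => f us + g us) = avgL N T f + avgL N T g := by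
  induction T generalizing f g with
  | zero => rfl
  | succ T ih => simp only [avgL, ih, avgN_add]

theorem avgL_mul_left (N T : ℕ) (c : ℝ) (f : List ℕ → ℝ) :
    avgL N T (fun us => c * f us) = c * avgL N T f := by
  induction T generalizing f with
  | zero => rfl
  | succ T ih => simp only [avgL, ih, avgN_mul_left]

theorem avgL_sum {ι : Type} (N T : ℕ) (t : Finset ι) (f : ι → List ℕ → ℝ) :
    avgL N T (fun us => ∑ i ∈ t, f i us) = ∑ i ∈ t, avgL N T (f i) := by
  induction T generalizing f with
  | zero => rfl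
  | succ T ih => simp only [avgL, ih, avgN_sum]

theorem avgL_append (N T T' : ℕ) (g : List ℕ → ℝ) :
    avgL N (T + T') g = avgL N T fun us => avgL N T' fun us' => g (us ++ us') := by
  induction T generalizing g with
  | zero => simp only [zero_add, avgL, List.nil_append]
  | succ T ih =>
    rw [Nat.add_right_comm]
    simp only [avgL, ih, List.cons_append]

theorem avgL_one (N : ℕ) (g : List ℕ → ℝ) : avgL N 1 g = avgN N fun u => g [u] := rfl

theorem tape_digs {N : ℕ} (hN : 0 < N) (T U : ℕ) : Tape N T (digs N T U) := 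
  ⟨by simp [digs], fun u hu => by
    obtain ⟨τ, -, rfl⟩ := List.mem_map.1 hu
    exact Nat.mod_lt _ hN⟩

theorem digs_succ (N T U : ℕ) : digs N (T + 1) U = U % N :: digs N T (U / N) := by
  simp only [digs, List.range_succ_eq_map, List.map_cons, pow_zero, Nat.div_one, List.map_map]
  congr 1
  refine List.map_congr_left fun τ _ => ?_
  simp only [Function.comp, Nat.succ_eq_add_one, pow_succ', Nat.div_div_eq_div_mul]

theorem avgN_digs {N c : ℕ} (hN : 0 < N) (hc : 0 < c) (T : ℕ) (g : List ℕ → ℝ) :
    avgN (N ^ T * c) (fun U => g (digs N T U)) = avgL N T g := by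
  induction T generalizing g with
  | zero => simpa [digs, avgL] using avgN_const hc (g [])
  | succ T ih =>
    simp only [digs_succ]
    rw [pow_succ', mul_assoc, avgN_mul N (N ^ T * c) fun x y => g (x :: digs N T y)]
    exact avgN_congr fun x _ => ih fun us => g (x :: us)

theorem ofBits_inj : ∀ l l' : List Bool, l.length = l'.length →
    Lib.PolyTime.ofBits l = Lib.PolyTime.ofBits l' → l = l'
  | [], [], _, _ => rfl
  | [], _ :: _, h, _ => by simp at h
  | _ :: _, [], h, _ => by simp at h
  | b :: l, b' :: l', h, h' => by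
    simp only [Lib.PolyTime.ofBits_cons] at h'
    have h1 : b = b' := by simpa using congrArg Nat.bodd h'
    have h2 : Lib.PolyTime.ofBits l = Lib.PolyTime.ofBits l' := by
      simpa using congrArg Nat.div2 h'
    rw [h1, ofBits_inj l l' (by simpa using h) h2]

theorem uniformProb_eq_avgN (R : ℕ) (p : ℕ → Prop) :
    Crest.FinProb.uniformProb {ω : Fin R → Bool | p (Lib.PolyTime.ofBits (List.ofFn ω))} =
      avgN (2 ^ R) fun U => ind (p U) := by
  classical
  have hinj : Function.Injective fun ω : Fin R → Bool => Lib.PolyTime.ofBits (List.ofFn ω) :=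
    fun ω ω' h => List.ofFn_injective (ofBits_inj _ _ (by simp) h)
  have himg : (univ : Finset (Fin R → Bool)).image
      (fun ω => Lib.PolyTime.ofBits (List.ofFn ω)) = range (2 ^ R) := by
    refine eq_of_subset_of_card_le (fun u hu => ?_) ?_
    · obtain ⟨ω, -, rfl⟩ := mem_image.1 hu
      have := Lib.PolyTime.ofBits_lt (List.ofFn ω)
      rw [List.length_ofFn] at this
      exact mem_range.2 this
    · rw [card_image_of_injective _ hinj]; simp
  unfold Crest.FinProb.uniformProb avgN
  rw [← himg, sum_image fun ω _ ω' _ h => hinj h]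
  congr 1
  · rw [card_filter, Nat.cast_sum]
    refine sum_congr rfl fun ω _ => ?_
    simp only [Set.mem_ofPred_eq]
    split_ifs with h
    · rw [ind_of h, Nat.cast_one]
    · rw [ind_of_not h, Nat.cast_zero]
  · simp


theorem runM_nil {σ : Type} (step : ℕ → σ → ℕ → σ) (τ : ℕ) (st : σ) : runM step τ st [] = st := rfl
theorem runM_cons {σ : Type} (step : ℕ → σ → ℕ → σ) (τ : ℕ) (st : σ) (u : ℕ) (us : List ℕ) :
    runM step τ st (u :: us) = runM step (τ + 1) (step τ st u) us := by
  simp only [runM, List.zipIdx_cons, List.foldl_cons]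

theorem runM_append {σ : Type} (step : ℕ → σ → ℕ → σ) (τ : ℕ) (st : σ) (us us' : List ℕ) :
    runM step τ st (us ++ us') = runM step (τ + us.length) (runM step τ st us) us' := by
  simp only [runM, List.zipIdx_append, List.foldl_append]

theorem tape_blk {N K b j : ℕ} {us : List ℕ} (h : Tape N (K * b) us) (hj : j < K) :
    Tape N b (blk b j us) := by
  refine ⟨?_, fun u hu => h.2 u (List.mem_of_mem_drop (List.mem_of_mem_take hu))⟩
  have : (j + 1) * b ≤ K * b := Nat.mul_le_mul_right b hj
  rw [blk, List.length_take, List.length_drop, h.1]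
  rw [Nat.succ_mul] at this
  omega


theorem blk_zero_append {N b : ℕ} {us : List ℕ} (h : Tape N b us) (us' : List ℕ) :
    blk b 0 (us ++ us') = us := by
  rw [blk, zero_mul, List.drop_zero, ← h.1, List.take_left]

theorem blk_succ_append {N b : ℕ} {us : List ℕ} (h : Tape N b us) (j : ℕ) (us' : List ℕ) :
    blk b (j + 1) (us ++ us') = blk b j us' := by
  rw [blk, blk, Nat.succ_mul, add_comm, ← List.drop_drop, List.drop_left' h.1]

theorem mgf_one {N : ℕ} (hN : 0 < N) (b : ℕ) (f : List ℕ → ℝ) (hf : ∀ us, 0 ≤ f us ∧ f us ≤ 1)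
    {l : ℝ} (hl : |l| ≤ 1) :
    avgL N b (fun us => Real.exp (l * (f us - avgL N b f))) ≤ Real.exp (l ^ 2) := by
  set μ := avgL N b f with hμ
  have hμ0 : 0 ≤ μ := (avgL_const hN b 0).ge.trans (avgL_mono fun us _ => (hf us).1)
  have hμ1 : μ ≤ 1 := (avgL_mono fun us _ => (hf us).2).trans (avgL_const hN b 1).le
  have h : avgL N b (fun us => Real.exp (l * (f us - μ))) ≤
      avgL N b fun us => (1 + l ^ 2 - l * μ) + l * f us := by
    refine avgL_mono fun us _ => ?_
    have h1 : |f us - μ| ≤ 1 := abs_le.2 ⟨by linarith [(hf us).1], by linarith [(hf us).2]⟩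
    have h2 : |l * (f us - μ)| ≤ 1 := by
      rw [abs_mul]; exact mul_le_one₀ hl (abs_nonneg _) h1
    have h3 := (abs_le.1 (Real.abs_exp_sub_one_sub_id_le h2)).2
    have h4 : (f us - μ) ^ 2 ≤ 1 := by rw [← sq_abs]; exact pow_le_one₀ (abs_nonneg _) h1
    have h5 : (l * (f us - μ)) ^ 2 ≤ l ^ 2 := by
      rw [mul_pow]; exact mul_le_of_le_one_right (sq_nonneg l) h4
    linarith
  rw [avgL_add, avgL_const hN, avgL_mul_left, ← hμ] at h
  linarith [Real.add_one_le_exp (l ^ 2)]

theorem mgf_blocks {N : ℕ} (hN : 0 < N) (b : ℕ) (f : List ℕ → ℝ) (hf : ∀ us, 0 ≤ f us ∧ f us ≤ 1)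
    {l : ℝ} (hl : |l| ≤ 1) (K : ℕ) :
    avgL N (K * b) (fun us => Real.exp (l * (∑ j ∈ range K, f (blk b j us) - K * avgL N b f))) ≤
      Real.exp (K * l ^ 2) := by
  set μ := avgL N b f
  induction K with
  | zero => simp [avgL]
  | succ K ih =>
    rw [Nat.succ_mul, add_comm, avgL_append]
    calc _ = avgL N b fun us => Real.exp (l * (f us - μ)) * avgL N (K * b)
          (fun us' => Real.exp (l * (∑ j ∈ range K, f (blk b j us') - K * μ))) := by
          refine avgL_congr fun us hus => ?_
          refine Eq.trans (avgL_congr fun us' _ => ?_) (avgL_mul_left _ _ _ _)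
          rw [sum_range_succ', blk_zero_append hus, ← Real.exp_add]
          simp only [blk_succ_append hus]
          congr 1
          push_cast; ring
      _ ≤ avgL N b fun us => Real.exp (K * l ^ 2) * Real.exp (l * (f us - μ)) :=
          avgL_mono fun us _ => by
            rw [mul_comm]; exact mul_le_mul_of_nonneg_right ih (Real.exp_pos _).le
      _ ≤ Real.exp (K * l ^ 2) * Real.exp (l ^ 2) := by
          rw [avgL_mul_left]
          exact mul_le_mul_of_nonneg_left (mgf_one hN b f hf hl) (Real.exp_pos _).le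
      _ = _ := by rw [← Real.exp_add]; congr 1; push_cast; ring

/-- Hoeffding-type bound for `K` independent blocks -/
theorem hoeff {N : ℕ} (hN : 0 < N) (K b : ℕ) (f : List ℕ → ℝ) (hf : ∀ us, 0 ≤ f us ∧ f us ≤ 1) {δ : ℝ}
    (h0 : 0 ≤ δ) (h1 : δ ≤ 1) :
    avgL N (K * b) (fun us => ind (δ * K < |∑ j ∈ range K, f (blk b j us) - K * avgL N b f|)) ≤
      2 * Real.exp (-(K * δ ^ 2) / 4) := by
  set μ := avgL N b f
  have hl : |δ / 2| ≤ 1 := by rw [abs_of_nonneg (by positivity)]; linarith
  have hl' : |-(δ / 2)| ≤ 1 := by rwa [abs_neg]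
  have hA := mgf_blocks hN b f hf hl K
  have hB := mgf_blocks hN b f hf hl' K
  have hm : avgL N (K * b) (fun us => ind (δ * K < |∑ j ∈ range K, f (blk b j us) - K * μ|)) ≤
      avgL N (K * b) fun us => Real.exp (-(δ / 2 * (δ * K))) *
        Real.exp (δ / 2 * (∑ j ∈ range K, f (blk b j us) - K * μ)) +
        Real.exp (-(δ / 2 * (δ * K))) *
        Real.exp (-(δ / 2) * (∑ j ∈ range K, f (blk b j us) - K * μ)) := by
    refine avgL_mono fun us _ => ?_
    set S := ∑ j ∈ range K, f (blk b j us) - K * μ
    rw [← Real.exp_add, ← Real.exp_add]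
    by_cases h : δ * K < |S|
    · rw [ind_of h]
      rcases lt_abs.1 h with h | h
      · have : 1 ≤ Real.exp (-(δ / 2 * (δ * K)) + δ / 2 * S) := Real.one_le_exp (by nlinarith)
        linarith [Real.exp_pos (-(δ / 2 * (δ * K)) + -(δ / 2) * S)]
      · have : 1 ≤ Real.exp (-(δ / 2 * (δ * K)) + -(δ / 2) * S) := Real.one_le_exp (by nlinarith)
        linarith [Real.exp_pos (-(δ / 2 * (δ * K)) + δ / 2 * S)]
    · rw [ind_of_not h]; positivity
  rw [avgL_add, avgL_mul_left, avgL_mul_left] at hm
  have he : Real.exp (-(δ / 2 * (δ * K))) * Real.exp (K * (δ / 2) ^ 2) =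
      Real.exp (-(K * δ ^ 2) / 4) := by
    rw [← Real.exp_add]; congr 1; ring
  rw [neg_sq] at hB
  have h2 := mul_le_mul_of_nonneg_left hA (Real.exp_pos (-(δ / 2 * (δ * K)))).le
  have h3 := mul_le_mul_of_nonneg_left hB (Real.exp_pos (-(δ / 2 * (δ * K)))).le
  linarith


/-- the first success among independent blocks -/
theorem first_le {β : Type} {N : ℕ} (hN : 0 < N) (K b : ℕ) (sm : List ℕ → β) (good : β → Bool) (y : β)
    {p q : ℝ} (hq : 0 < q) (hp : avgL N b (fun us => ind (sm us = y)) ≤ p)
    (hq' : q ≤ avgL N b (fun us => ind (good (sm us) = true))) :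
    avgL N (K * b) (fun us => ind (((List.range K).map fun j => sm (blk b j us)).find? good = some y)) ≤
      p / q := by
  have hp0 : 0 ≤ p :=
    ((avgL_const hN b 0).ge.trans (avgL_mono fun us _ => ind_nonneg _)).trans hp
  have hpq : 0 ≤ p / q := div_nonneg hp0 hq.le
  induction K with
  | zero =>
    simp only [zero_mul, avgL, List.range_zero, List.map_nil, List.find?_nil]
    rw [ind_of_not (by simp)]; exact hpq
  | succ K ih =>
    rw [Nat.succ_mul, add_comm, avgL_append]
    calc _ ≤ avgL N b fun us => (ind (sm us = y) + p / q) +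
          (-(p / q)) * ind (good (sm us) = true) := by
          refine avgL_mono fun us hus => ?_
          have e : ∀ us', ((List.range (K + 1)).map fun j => sm (blk b j (us ++ us'))) =
              sm us :: (List.range K).map fun j => sm (blk b j us') := by
            intro us'
            simp only [List.range_succ_eq_map, List.map_cons, List.map_map, blk_zero_append hus]
            congr 1
            exact List.map_congr_left fun j _ => by
              simp only [Function.comp, Nat.succ_eq_add_one, blk_succ_append hus]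
          simp only [e]
          by_cases hg : good (sm us) = true
          · simp only [List.find?_cons_of_pos hg, Option.some.injEq, avgL_const hN, ind_of hg]
            linarith
          · simp only [List.find?_cons_of_neg hg, ind_of_not hg]
            linarith [ind_nonneg (sm us = y)]
      _ ≤ p / q := by
          rw [avgL_add, avgL_add, avgL_const hN, avgL_mul_left]
          have h1 : p / q * q = p := div_mul_cancel₀ p hq.ne'
          nlinarith [mul_le_mul_of_nonneg_left hq' hpq]


end Crest.Agent.R309
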