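import Crest.Agent.R309.Prob
import Crest.Prelude.Def_WordRAMProb

/-!
# Row 309: RamC
Compilation of stack programs (`Lib.PolyTime.Prog`) to the word RAM.  Stack `k < N` lives at the addresses `base + k + N * i`
(`i = 0`: sentinel `0`; a bit `b` is stored as `1 + b`), register `8 + k` points to its top, register `2` holds `N`, register `4` holds `1`,
register `3` is scratch.
* `comp_exec`: induction on the derivation of `Exec` (use `Exec.length_le` for the address bounds, `length_comp`, and
  `List.getElem?_append_left/right` to locate the sub-programs).  Different stacks have different addresses modulo `N`.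
-/

set_option autoImplicit false

noncomputable section

namespace Crest.Agent.R309

open Finset Crest.WordRAM Crest.Agent.Lib.PolyTime

/-- register number `j` -/
def rg (N j : ℕ) : Fin (N + 8) := Fin.ofNat (N + 8) j

/-- length of the compiled code -/
def clen : Prog → ℕ
  | .skip => 0
  | .push _ _ => 3
  | .seq p q => clen p + clen q
  | .case _ p q r => 6 + clen r + clen q + clen p
  | .loop _ q r => 6 + clen r + clen q

/-- the compiled code, placed at position `off` -/
def comp (N : ℕ) : Prog → ℕ → List (Instr (N + 8))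
  | .skip, _ => []
  | .push k b, _ => [.add (rg N (8 + k)) (rg N (8 + k)) (rg N 2), .const (rg N 3) (1 + b.toNat),
      .store (rg N 3) (rg N (8 + k))]
  | .seq p q, off => comp N p off ++ comp N q (off + clen p)
  | .case k p q r, off => [.load (rg N 3) (rg N (8 + k)), .jumpIfZero (rg N 3) (off + 6 + clen r + clen q),
      .sub (rg N (8 + k)) (rg N (8 + k)) (rg N 2), .jumpIfEq (rg N 3) (rg N 4) (off + 5 + clen r)] ++
      comp N r (off + 4) ++ [.jump (off + 6 + clen r + clen q + clen p)] ++ comp N q (off + 5 + clen r) ++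
      [.jump (off + 6 + clen r + clen q + clen p)] ++ comp N p (off + 6 + clen r + clen q)
  | .loop k q r, off => [.load (rg N 3) (rg N (8 + k)), .jumpIfZero (rg N 3) (off + 6 + clen r + clen q),
      .sub (rg N (8 + k)) (rg N (8 + k)) (rg N 2), .jumpIfEq (rg N 3) (rg N 4) (off + 5 + clen r)] ++
      comp N r (off + 4) ++ [.jump off] ++ comp N q (off + 5 + clen r) ++ [.jump off]

/-- the configuration `c` represents the stacks `S k`, `k < N` -/
structure Rep (N base : ℕ) (c : Cfg (N + 8)) (S : Store) : Prop where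
  r2 : c.regs (rg N 2) = N
  r4 : c.regs (rg N 4) = 1
  ptr : ∀ k < N, c.regs (rg N (8 + k)) = base + k + N * (S k).length
  bot : ∀ k < N, c.mem (base + k) = 0
  cell : ∀ k < N, ∀ i < (S k).length,
    c.mem (base + k + N * ((S k).length - i)) = 1 + ((S k).getD i false).toNat

theorem length_comp (N : ℕ) (p : Prog) (off : ℕ) : (comp N p off).length = clen p := by
  induction p generalizing off with
  | skip => rfl
  | push k b => rfl
  | seq p q ihp ihq => simp [comp, clen, ihp, ihq]
  | case k p q r ihp ihq ihr => simp [comp, clen, ihp, ihq, ihr]; omega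
  | loop k q r ihq ihr => simp [comp, clen, ihq, ihr]; omega

theorem rg_eq_iff {N i j : ℕ} (hi : i < N + 8) (hj : j < N + 8) : rg N i = rg N j ↔ i = j := by
  simp [rg, Fin.ext_iff, Fin.ofNat, Nat.mod_eq_of_lt hi, Nat.mod_eq_of_lt hj]

theorem wr_ne {N i j : ℕ} (hi : i < N + 8) (hj : j < N + 8) (h : i ≠ j) (R : Fin (N + 8) → ℕ)
    (v : ℕ) : writeReg R (rg N j) v (rg N i) = R (rg N i) := by
  simp [writeReg, rg_eq_iff hi hj, h]

theorem wr_eq {r : ℕ} (d : Fin r) (R : Fin r → ℕ) (v : ℕ) : writeReg R d v d = v := by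
  simp [writeReg]

theorem addr_inj {N k k' x y : ℕ} (hk : k < N) (hk' : k' < N) (h : k + N * x = k' + N * y) :
    k = k' ∧ x = y := by
  have h1 : k = k' := by
    have := congrArg (· % N) h
    simpa [Nat.add_mul_mod_self_left, Nat.mod_eq_of_lt hk, Nat.mod_eq_of_lt hk'] using this
  subst h1
  exact ⟨rfl, Nat.eq_of_mul_eq_mul_left (by omega) (Nat.add_left_cancel h)⟩

/-- the list `L` sits in `code` at position `off` -/
def At {α : Type} (code : List α) (off : ℕ) (L : List α) : Prop :=
  ∀ i < L.length, code[off + i]? = L[i]?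

theorem At.append {α : Type} {code L L' : List α} {off : ℕ} (h : At code off (L ++ L')) :
    At code off L ∧ At code (off + L.length) L' := by
  constructor
  · intro i hi
    rw [h i (by simp; omega), List.getElem?_append_left hi]
  · intro i hi
    rw [add_assoc, h _ (by simp; omega), List.getElem?_append_right (by omega)]
    simp

theorem At.cons {α : Type} {code L : List α} {a : α} {off : ℕ} (h : At code off (a :: L)) :
    code[off]? = some a ∧ At code (off + 1) L :=
  ⟨by simpa using h 0 (by simp), (At.append (L := [a]) h).2⟩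

/-- `c` reaches `c'` in `T` steps and keeps the frame -/
structure RC (N base w : ℕ) (code : List (Instr (N + 8))) (T : ℕ) (c c' : Cfg (N + 8)) : Prop where
  run : ∀ ρ, (step ⟨N + 8, code⟩ w ρ)^[T] c = c'
  halted : c'.halted = false
  drawn : c'.drawn = c.drawn
  mem : ∀ a < base, c'.mem a = c.mem a
  regs : ∀ j < 8, j ≠ 3 → c'.regs (rg N j) = c.regs (rg N j)

section steps
variable {N base w : ℕ} {code : List (Instr (N + 8))} {c c' c'' : Cfg (N + 8)} {T T' : ℕ}
  {S : Store}

theorem RC.refl (h : c.halted = false) : RC N base w code 0 c c :=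
  ⟨fun _ => rfl, h, rfl, fun _ _ => rfl, fun _ _ _ => rfl⟩

theorem RC.trans (h : RC N base w code T c c') (h' : RC N base w code T' c' c'') :
    RC N base w code (T + T') c c'' :=
  ⟨fun ρ => by rw [add_comm T T', Function.iterate_add_apply, h.run, h'.run], h'.halted,
    h'.drawn.trans h.drawn, fun a ha => (h'.mem a ha).trans (h.mem a ha),
    fun j hj h3 => (h'.regs j hj h3).trans (h.regs j hj h3)⟩

theorem Rep.pc (h : Rep N base c S) (l : ℕ) : Rep N base { c with pc := l } S :=
  ⟨h.r2, h.r4, h.ptr, h.bot, h.cell⟩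

theorem Rep.r3 (h : Rep N base c S) (l v : ℕ) :
    Rep N base { c with pc := l, regs := writeReg c.regs (rg N 3) v } S :=
  ⟨(wr_ne (j := 3) (by omega) (by omega) (by omega) _ v).trans h.r2,
    (wr_ne (j := 3) (by omega) (by omega) (by omega) _ v).trans h.r4,
    fun k hk => (wr_ne (j := 3) (by omega) (by omega) (by omega) _ v).trans (h.ptr k hk), h.bot,
    h.cell⟩

theorem rc_jump {l : ℕ} (hh : c.halted = false) (hc : code[c.pc]? = some (.jump l)) :
    RC N base w code 1 c { c with pc := l } :=
  ⟨fun ρ => by simp [step, hh, hc], hh, rfl, fun _ _ => rfl, fun _ _ _ => rfl⟩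

theorem rc_jz {l : ℕ} {a : Fin (N + 8)} (hh : c.halted = false)
    (hc : code[c.pc]? = some (.jumpIfZero a l)) :
    RC N base w code 1 c { c with pc := if c.regs a = 0 then l else c.pc + 1 } :=
  ⟨fun ρ => by simp [step, hh, hc], hh, rfl, fun _ _ => rfl, fun _ _ _ => rfl⟩

theorem rc_jeq {l : ℕ} {a b : Fin (N + 8)} (hh : c.halted = false)
    (hc : code[c.pc]? = some (.jumpIfEq a b l)) :
    RC N base w code 1 c { c with pc := if c.regs a = c.regs b then l else c.pc + 1 } :=
  ⟨fun ρ => by simp [step, hh, hc], hh, rfl, fun _ _ => rfl, fun _ _ _ => rfl⟩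

theorem rc_reg {j v : ℕ} (hh : c.halted = false) (hj : j < N + 8) (hj' : j = 3 ∨ 8 ≤ j)
    (hs : ∀ ρ, step ⟨N + 8, code⟩ w ρ c =
      { c with pc := c.pc + 1, regs := writeReg c.regs (rg N j) v }) :
    RC N base w code 1 c { c with pc := c.pc + 1, regs := writeReg c.regs (rg N j) v } :=
  ⟨hs, hh, rfl, fun _ _ => rfl, fun i hi h3 => wr_ne (by omega) hj (by omega) _ _⟩

theorem rc_store {s a : Fin (N + 8)} (hh : c.halted = false)
    (hc : code[c.pc]? = some (.store s a)) (ha : base ≤ c.regs a) :
    RC N base w code 1 c { c with pc := c.pc + 1, mem := writeMem c.mem (c.regs a) (c.regs s) } :=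
  ⟨fun ρ => by simp [step, hh, hc], hh, rfl,
    fun x hx => by simp only [writeMem]; rw [if_neg (by omega)], fun _ _ _ => rfl⟩

theorem head_nil {k L1 : ℕ} {L : List (Instr (N + 8))} (hk : k < N) (hh : c.halted = false)
    (hR : Rep N base c S) (hS : S k = [])
    (hA : At code c.pc (.load (rg N 3) (rg N (8 + k)) :: .jumpIfZero (rg N 3) L1 :: L)) :
    ∃ c', RC N base w code 2 c c' ∧ c'.pc = L1 ∧ Rep N base c' S := by
  obtain ⟨a1, hA⟩ := hA.cons
  obtain ⟨a2, -⟩ := hA.cons
  have e : c.mem (c.regs (rg N (8 + k))) = 0 := by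
    rw [hR.ptr k hk, hS]; simpa using hR.bot k hk
  have s1 : RC N base w code 1 c _ :=
    rc_reg (j := 3) (v := 0) hh (by omega) (Or.inl rfl) fun ρ => by simp [step, hh, a1, e]
  have s2 := rc_jz (base := base) (w := w) s1.halted a2
  exact ⟨_, s1.trans s2, by simp [wr_eq], (hR.r3 _ _).pc _⟩

theorem head_cons {k L1 L2 : ℕ} {b : Bool} {l : List Bool} (hk : k < N) (hh : c.halted = false)
    (hR : Rep N base c S) (hS : S k = b :: l)
    (hA : At code c.pc [.load (rg N 3) (rg N (8 + k)), .jumpIfZero (rg N 3) L1,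
      .sub (rg N (8 + k)) (rg N (8 + k)) (rg N 2), .jumpIfEq (rg N 3) (rg N 4) L2]) :
    ∃ c', RC N base w code 4 c c' ∧ c'.pc = (if b then c.pc + 4 else L2) ∧
      Rep N base c' (Function.update S k l) := by
  obtain ⟨a1, hA⟩ := hA.cons
  obtain ⟨a2, hA⟩ := hA.cons
  obtain ⟨a3, hA⟩ := hA.cons
  obtain ⟨a4, -⟩ := hA.cons
  have e : c.mem (c.regs (rg N (8 + k))) = 1 + b.toNat := by
    have := hR.cell k hk 0 (by simp [hS])
    rw [hR.ptr k hk]; simpa [hS] using this
  have s1 : RC N base w code 1 c _ :=
    rc_reg (j := 3) (v := 1 + b.toNat) hh (by omega) (Or.inl rfl) fun ρ => by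
      simp [step, hh, a1, e]
  have R1 := hR.r3 (c.pc + 1) (1 + b.toNat)
  have s2 := rc_jz (base := base) (w := w) s1.halted a2
  simp only [wr_eq] at s2
  rw [if_neg (by omega)] at s2
  have R2 := R1.pc (c.pc + 1 + 1)
  have s3 : RC N base w code 1 _ _ :=
    rc_reg (j := 8 + k) (v := base + k + N * l.length) s2.halted (by omega) (Or.inr (by omega))
      fun ρ => by
        have e1 := R2.ptr k hk
        have e2 := R2.r2
        simp only [hS, List.length_cons] at e1 e2
        have e3 : base + k + N * (l.length + 1) - N = base + k + N * l.length := by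
          rw [mul_add]; omega
        simp only [step, hh, a3, e1, e2, e3, Bool.false_eq_true, if_false]
  have s4 := rc_jeq (base := base) (w := w) s3.halted a4
  refine ⟨_, ((s1.trans s2).trans s3).trans s4, ?_, Rep.pc ?_ _⟩
  · have e1 : writeReg (writeReg c.regs (rg N 3) (1 + b.toNat)) (rg N (8 + k))
        (base + k + N * l.length) (rg N 3) = 1 + b.toNat := by
      rw [wr_ne (by omega) (by omega) (by omega), wr_eq]
    have e2 : writeReg (writeReg c.regs (rg N 3) (1 + b.toNat)) (rg N (8 + k))
        (base + k + N * l.length) (rg N 4) = 1 :=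
      (wr_ne (by omega) (by omega) (by omega) _ _).trans R1.r4
    simp only [e1, e2]
    cases b <;> simp
  · refine ⟨(wr_ne (by omega) (by omega) (by omega) _ _).trans R1.r2,
      (wr_ne (by omega) (by omega) (by omega) _ _).trans R1.r4, fun k' hk' => ?_, hR.bot,
      fun k' hk' i hi => ?_⟩
    · by_cases e : k' = k
      · subst e; simp [wr_eq]
      · rw [Function.update_of_ne e]
        exact (wr_ne (by omega) (by omega) (by omega) _ _).trans (R1.ptr k' hk')
    · by_cases e : k' = k
      · subst e
        simp only [Function.update_self] at hi ⊢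
        have := hR.cell k' hk' (i + 1) (by simp [hS, hi])
        simpa [hS] using this
      · rw [Function.update_of_ne e] at hi ⊢
        exact hR.cell k' hk' i hi

theorem push_run {k : ℕ} {b : Bool} (hw : 2 < 2 ^ w) (hk : k < N) (hh : c.halted = false)
    (hR : Rep N base c S) (hb : base + k + N * ((S k).length + 1) < 2 ^ w)
    (hA : At code c.pc [.add (rg N (8 + k)) (rg N (8 + k)) (rg N 2),
      .const (rg N 3) (1 + b.toNat), .store (rg N 3) (rg N (8 + k))]) :
    ∃ c', RC N base w code 3 c c' ∧ c'.pc = c.pc + 3 ∧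
      Rep N base c' (Function.update S k (b :: S k)) := by
  obtain ⟨a1, hA⟩ := hA.cons
  obtain ⟨a2, hA⟩ := hA.cons
  obtain ⟨a3, -⟩ := hA.cons
  have s1 : RC N base w code 1 c _ :=
    rc_reg (j := 8 + k) (v := base + k + N * ((S k).length + 1)) hh (by omega)
      (Or.inr (by omega)) fun ρ => by
        have e3 : (base + k + N * (S k).length + N) % 2 ^ w =
            base + k + N * ((S k).length + 1) := by
          rw [← Nat.mod_eq_of_lt hb]; congr 1; ring
        simp only [step, hh, a1, hR.ptr k hk, hR.r2, e3, Bool.false_eq_true, if_false]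
  have s2 : RC N base w code 1 _ _ :=
    rc_reg (j := 3) (v := 1 + b.toNat) s1.halted (by omega) (Or.inl rfl) fun ρ => by
      have e3 : (1 + b.toNat) % 2 ^ w = 1 + b.toNat :=
        Nat.mod_eq_of_lt (by have := b.toNat_le; omega)
      simp only [step, hh, a2, e3, Bool.false_eq_true, if_false]
  have e1 : writeReg (writeReg c.regs (rg N (8 + k)) (base + k + N * ((S k).length + 1)))
      (rg N 3) (1 + b.toNat) (rg N (8 + k)) = base + k + N * ((S k).length + 1) := by
    rw [wr_ne (by omega) (by omega) (by omega), wr_eq]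
  have s3 := rc_store (base := base) (w := w) s2.halted a3 (by simp only [e1]; omega)
  simp only [e1, wr_eq] at s3
  refine ⟨_, (s1.trans s2).trans s3, rfl, ?_, ?_, fun k' hk' => ?_, fun k' hk' => ?_,
    fun k' hk' i hi => ?_⟩
  · exact ((wr_ne (j := 3) (by omega) (by omega) (by omega) _ (1 + b.toNat)).trans
      (wr_ne (j := 8 + k) (by omega) (by omega) (by omega) _ _)).trans hR.r2
  · exact ((wr_ne (j := 3) (by omega) (by omega) (by omega) _ (1 + b.toNat)).trans
      (wr_ne (j := 8 + k) (by omega) (by omega) (by omega) _ _)).trans hR.r4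
  · by_cases e : k' = k
    · subst e; simpa using e1
    · rw [Function.update_of_ne e]
      exact ((wr_ne (j := 3) (by omega) (by omega) (by omega) _ (1 + b.toNat)).trans
        (wr_ne (j := 8 + k) (by omega) (by omega) (by omega) _ _)).trans (hR.ptr k' hk')
  · simp only [writeMem]
    rw [if_neg, hR.bot k' hk']
    intro e
    have := (addr_inj (x := 0) (y := (S k).length + 1) hk' hk (by omega)).2
    omega
  · simp only [writeMem]
    by_cases e : k' = k
    · subst e
      simp only [Function.update_self, List.length_cons] at hi ⊢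
      cases i with
      | zero => simp
      | succ i =>
        rw [if_neg]
        · simpa using hR.cell k' hk' i (by omega)
        · intro e
          have := (addr_inj (x := (S k').length + 1 - (i + 1)) (y := (S k').length + 1) hk' hk'
            (by omega)).2
          omega
    · rw [Function.update_of_ne e] at hi ⊢
      rw [if_neg, hR.cell k' hk' i hi]
      intro e'
      exact e (addr_inj (x := (S k').length - i) (y := (S k).length + 1) hk' hk (by omega)).1

end steps

theorem bd_mono {N base w : ℕ} {a b : ℕ → ℕ} (h : ∀ k < N, base + k + N * a k < 2 ^ w)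
    (hab : ∀ k, b k ≤ a k) : ∀ k < N, base + k + N * b k < 2 ^ w := fun k hk =>
  lt_of_le_of_lt (Nat.add_le_add_left (Nat.mul_le_mul_left _ (hab k)) _) (h k hk)

theorem len_pop {S : Store} {k : ℕ} {b : Bool} {l : List Bool} (h : S k = b :: l) (j : ℕ) :
    (Function.update S k l j).length ≤ (S j).length := by
  by_cases e : j = k
  · subst e; simp [h]
  · rw [Function.update_of_ne e]

theorem comp_exec_aux {N base w : ℕ} (code : List (Instr (N + 8))) (hw : 2 < 2 ^ w) {p : Prog}
    {S S' : Store} {t : ℕ} (h : Exec p S S' t) : ∀ (c : Cfg (N + 8)), p.bound ≤ N →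
    At code c.pc (comp N p c.pc) → c.halted = false → Rep N base c S →
    (∀ k < N, base + k + N * ((S k).length + t) < 2 ^ w) →
    ∃ T ≤ 5 * t, ∃ c' : Cfg (N + 8), RC N base w code T c c' ∧ c'.pc = c.pc + clen p ∧
      Rep N base c' S' := by
  induction h with
  | skip S => exact fun c _ _ hh hR _ => ⟨0, by omega, c, RC.refl hh, rfl, hR⟩
  | push k b S =>
    intro c hb hA hh hR hbd
    have hk : k < N := hb
    obtain ⟨c', h1, h2, h3⟩ := push_run hw hk hh hR (hbd k hk) hA
    exact ⟨3, by omega, c', h1, h2, h3⟩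
  | @seq p q S S' S'' t t' e1 _ ih1 ih2 =>
    intro c hb hA hh hR hbd
    simp only [Prog.bound, max_le_iff] at hb
    obtain ⟨A1, A2⟩ := At.append hA
    rw [length_comp] at A2
    obtain ⟨T1, t1, c1, r1, p1, R1⟩ := ih1 c hb.1 A1 hh hR (bd_mono hbd fun k => by omega)
    obtain ⟨T2, t2, c2, r2, p2, R2⟩ := ih2 c1 hb.2 (by rw [p1]; exact A2) r1.halted R1
      (bd_mono hbd fun k => by have := e1.length_le k; omega)
    exact ⟨T1 + T2, by omega, c2, r1.trans r2, by rw [p2, p1, clen, add_assoc], R2⟩
  | @caseNil k p q r S S' t hS _ ih =>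
    intro c hb hA hh hR hbd
    simp only [Prog.bound, max_le_iff] at hb
    obtain ⟨c1, r1, p1, R1⟩ := head_nil (w := w) (by omega) hh hR hS hA
    obtain ⟨A1, A2⟩ := At.append hA
    simp only [List.length_append, length_comp, List.length_cons, List.length_nil] at A2
    obtain ⟨T2, t2, c2, r2, p2, R2⟩ := ih c1 (by omega)
      (by rw [p1]; convert A2 using 1; omega) r1.halted R1 (bd_mono hbd fun k => by omega)
    exact ⟨2 + T2, by omega, c2, r1.trans r2, by rw [p2, p1, clen]; omega, R2⟩
  | @caseFalse k p q r S S' t l hS _ ih =>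
    intro c hb hA hh hR hbd
    simp only [Prog.bound, max_le_iff] at hb
    obtain ⟨A1, -⟩ := At.append hA
    obtain ⟨A1, A5⟩ := At.append A1
    obtain ⟨A1, A4⟩ := At.append A1
    obtain ⟨A1, -⟩ := At.append A1
    obtain ⟨A1, -⟩ := At.append A1
    simp only [List.length_append, length_comp, List.length_cons, List.length_nil] at A4 A5
    obtain ⟨c1, r1, p1, R1⟩ := head_cons (w := w) (by omega) hh hR hS A1
    simp only [Bool.false_eq_true, if_false] at p1
    obtain ⟨T2, t2, c2, r2, p2, R2⟩ := ih c1 (by omega)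
      (by rw [p1]; convert A4 using 1; omega) r1.halted R1
      (bd_mono hbd fun j => by have := len_pop hS j; omega)
    have r3 := rc_jump (base := base) (w := w) r2.halted
      (by rw [p2, p1]; convert A5.cons.1 using 2; omega)
    exact ⟨4 + T2 + 1, by omega, _, (r1.trans r2).trans r3, by simp only [clen]; omega, R2.pc _⟩
  | @caseTrue k p q r S S' t l hS _ ih =>
    intro c hb hA hh hR hbd
    simp only [Prog.bound, max_le_iff] at hb
    obtain ⟨A1, -⟩ := At.append hA
    obtain ⟨A1, -⟩ := At.append A1
    obtain ⟨A1, -⟩ := At.append A1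
    obtain ⟨A1, A3⟩ := At.append A1
    obtain ⟨A1, A2⟩ := At.append A1
    simp only [List.length_append, length_comp, List.length_cons, List.length_nil] at A2 A3
    obtain ⟨c1, r1, p1, R1⟩ := head_cons (w := w) (by omega) hh hR hS A1
    simp only [if_true] at p1
    obtain ⟨T2, t2, c2, r2, p2, R2⟩ := ih c1 (by omega)
      (by rw [p1]; exact A2) r1.halted R1
      (bd_mono hbd fun j => by have := len_pop hS j; omega)
    have r3 := rc_jump (base := base) (w := w) r2.halted
      (by rw [p2, p1]; convert A3.cons.1 using 2; omega)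
    exact ⟨4 + T2 + 1, by omega, _, (r1.trans r2).trans r3, by simp only [clen]; omega, R2.pc _⟩
  | @loopNil k q r S hS =>
    intro c hb hA hh hR hbd
    simp only [Prog.bound, max_le_iff] at hb
    obtain ⟨c1, r1, p1, R1⟩ := head_nil (w := w) (by omega) hh hR hS hA
    exact ⟨2, by omega, c1, r1, by rw [p1, clen]; omega, R1⟩
  | @loopFalse k q r S S' S'' t t' l hS e1 _ ih1 ih2 =>
    intro c hb hA hh hR hbd
    have hb0 := hb
    simp only [Prog.bound, max_le_iff] at hb
    obtain ⟨A1, A5⟩ := At.append hA
    obtain ⟨A1, A4⟩ := At.append A1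
    obtain ⟨A1, -⟩ := At.append A1
    obtain ⟨A1, -⟩ := At.append A1
    simp only [List.length_append, length_comp, List.length_cons, List.length_nil] at A4 A5
    obtain ⟨c1, r1, p1, R1⟩ := head_cons (w := w) (by omega) hh hR hS A1
    simp only [Bool.false_eq_true, if_false] at p1
    obtain ⟨T2, t2, c2, r2, p2, R2⟩ := ih1 c1 (by omega)
      (by rw [p1]; convert A4 using 1; omega) r1.halted R1
      (bd_mono hbd fun j => by have := len_pop hS j; omega)
    have r3 := rc_jump (base := base) (w := w) r2.halted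
      (by rw [p2, p1]; convert A5.cons.1 using 2; omega)
    obtain ⟨T4, t4, c4, r4, p4, R4⟩ := ih2 { c2 with pc := c.pc } hb0 hA r3.halted (R2.pc _)
      (bd_mono hbd fun j => by have := len_pop hS j; have := e1.length_le j; omega)
    exact ⟨4 + T2 + 1 + T4, by omega, _, ((r1.trans r2).trans r3).trans r4, p4, R4⟩
  | @loopTrue k q r S S' S'' t t' l hS e1 _ ih1 ih2 =>
    intro c hb hA hh hR hbd
    have hb0 := hb
    simp only [Prog.bound, max_le_iff] at hb
    obtain ⟨A1, -⟩ := At.append hA
    obtain ⟨A1, -⟩ := At.append A1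
    obtain ⟨A1, A3⟩ := At.append A1
    obtain ⟨A1, A2⟩ := At.append A1
    simp only [List.length_append, length_comp, List.length_cons, List.length_nil] at A2 A3
    obtain ⟨c1, r1, p1, R1⟩ := head_cons (w := w) (by omega) hh hR hS A1
    simp only [if_true] at p1
    obtain ⟨T2, t2, c2, r2, p2, R2⟩ := ih1 c1 (by omega)
      (by rw [p1]; exact A2) r1.halted R1
      (bd_mono hbd fun j => by have := len_pop hS j; omega)
    have r3 := rc_jump (base := base) (w := w) r2.halted
      (by rw [p2, p1]; convert A3.cons.1 using 2; omega)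
    obtain ⟨T4, t4, c4, r4, p4, R4⟩ := ih2 { c2 with pc := c.pc } hb0 hA r3.halted (R2.pc _)
      (bd_mono hbd fun j => by have := len_pop hS j; have := e1.length_le j; omega)
    exact ⟨4 + T2 + 1 + T4, by omega, _, ((r1.trans r2).trans r3).trans r4, p4, R4⟩
  | mono _ hle ih =>
    intro c hb hA hh hR hbd
    obtain ⟨T, hT, h⟩ := ih c hb hA hh hR (bd_mono hbd fun k => by omega)
    exact ⟨T, by omega, h⟩

theorem comp_exec {N base w : ℕ} (code : List (Instr (N + 8))) (hw : 2 < 2 ^ w) {p : Prog} {S S' : Store}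
    {t : ℕ} (h : Exec p S S' t) : ∀ (off : ℕ) (c : Cfg (N + 8)), p.bound ≤ N →
    (∀ i < clen p, code[off + i]? = (comp N p off)[i]?) → c.pc = off → c.halted = false → Rep N base c S →
    (∀ k < N, base + k + N * ((S k).length + t) < 2 ^ w) →
    ∃ T ≤ 5 * t, ∃ c' : Cfg (N + 8), (∀ ρ, (step ⟨N + 8, code⟩ w ρ)^[T] c = c') ∧ c'.pc = off + clen p ∧
      c'.halted = false ∧ c'.drawn = c.drawn ∧ Rep N base c' S' ∧ (∀ a < base, c'.mem a = c.mem a) ∧
      ∀ j < 8, j ≠ 3 → c'.regs (rg N j) = c.regs (rg N j) := by
  intro off c hb hA hpc hh hR hbd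
  subst hpc
  obtain ⟨T, hT, c', r, hp, R⟩ := comp_exec_aux code hw h c hb
    (fun i hi => hA i (by rwa [length_comp] at hi)) hh hR hbd
  exact ⟨T, hT, c', r.run, hp, r.halted, r.drawn, R, r.mem, r.regs⟩

end Crest.Agent.R309
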