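import Crest.Agent.R309.RamC

/-!
# Row 309: RamD
The driver: a word-RAM program that repeats rounds.  `N = max n p.bound + 1`, `base = |x|` (register `0`).
Invariant `St c` at the start of a round: `pc = 0`, not halted, register `0` is `|x|`, `mem i = x[i]` for `i < |x|`, `mem (|x| + k) = 0` for `k < N`.
A round: set registers `2, 4` and the pointers `8 + k := |x| + k` (all stacks empty); push on stack `0` the bits of `natCode |x|`, `natCode x[0]`, …
(loop: `while a ≠ 0: push true; push (a % 2); a := a / 2`; `push false` twice), draw `U` and push `natCode U`; run `comp N p`; pop the flag; if it is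
`false` jump to `0`; otherwise set register `1` above the top of stack `0`, parse the words (most significant bit first) and store them there,
count them in register `0`, halt when the stack is empty.  Small pieces (`push`) may be reused from `comp`/`comp_exec`; prove one lemma per loop
in the style of `comp_exec` (`∃ T ≤ .., ∃ c', ∀ ρ, step^[T] c = c' ∧ ..`).  You are free in the choice of the code and of `C`.
-/

set_option autoImplicit false

noncomputable section

namespace Crest.Agent.R309

open Finset Crest.WordRAM Crest.Agent.Lib.PolyTime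

/-- code of a word, most significant bit first -/
def wordCode (a : ℕ) : List Bool := (a.bits.reverse.flatMap fun b => [true, b]) ++ [false]

/-- code of the result of a round -/
def outCode : Option (List ℕ) → List Bool
  | none => [false]
  | some y => true :: y.flatMap wordCode

/-- `P` works in rounds: draw one word `U`, after at most `τ U` steps halt with output `y` if `G U = some y`, start again otherwise -/
def Rounds (P : Program) (w : ℕ) (x : List ℕ) (G : ℕ → Option (List ℕ)) (τ : ℕ → ℕ) : Prop :=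
  ∃ St : Cfg P.numRegs → Prop, St (init P w x) ∧ ∀ c, St c → c.halted = false ∧ ∀ U < 2 ^ w,
    ∃ T, 1 ≤ T ∧ T ≤ τ U ∧ ∃ c' : Cfg P.numRegs,
      (∀ ρ : ℕ → ℕ, ρ c.drawn % 2 ^ w = U → (step P w ρ)^[T] c = c') ∧ c'.drawn = c.drawn + 1 ∧
      (G U = none → St c') ∧ ∀ y, G U = some y → c'.halted = true ∧ c'.output = y

namespace RamD

/-- `seg` is the part of `code` that starts at `off` -/
def At {r : ℕ} (code : List (Instr r)) (off : ℕ) (seg : List (Instr r)) : Prop :=
  ∀ i < seg.length, code[off + i]? = seg[i]?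

theorem at_nil {r : ℕ} (code : List (Instr r)) (off : ℕ) : At code off [] ↔ True := by
  simp [At]

theorem at_cons {r : ℕ} {code : List (Instr r)} {off : ℕ} {a : Instr r} {s : List (Instr r)} :
    At code off (a :: s) ↔ code[off]? = some a ∧ At code (off + 1) s := by
  constructor
  · intro h
    refine ⟨by simpa using h 0 (by simp), fun i hi => ?_⟩
    have := h (i + 1) (by simpa using hi)
    rw [show off + 1 + i = off + (i + 1) by omega, this]; simp
  · rintro ⟨h1, h2⟩ i hi
    cases i with
    | zero => simpa using h1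
    | succ i =>
      have := h2 i (by simpa using hi)
      rw [show off + (i + 1) = off + 1 + i by omega, this]; simp

theorem at_append {r : ℕ} {code : List (Instr r)} {s s' : List (Instr r)} : ∀ {off : ℕ},
    At code off (s ++ s') ↔ At code off s ∧ At code (off + s.length) s' := by
  induction s with
  | nil => simp [at_nil]
  | cons a s ih =>
    intro off
    simp only [List.cons_append, at_cons, ih, List.length_cons, and_assoc]
    rw [show off + 1 + s.length = off + (s.length + 1) by omega]

theorem at_self {r : ℕ} (code : List (Instr r)) : At code 0 code := fun i _ => by simp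

variable {N w : ℕ} {code : List (Instr (N + 8))} {Q : (ℕ → ℕ) → Prop}

/-- within `T` steps a configuration with `Post` is reached, the same for all streams in `Q` -/
def Reach (code : List (Instr (N + 8))) (w : ℕ) (Q : (ℕ → ℕ) → Prop) (c : Cfg (N + 8)) (T : ℕ)
    (Post : Cfg (N + 8) → Prop) : Prop :=
  ∃ T' ≤ T, ∃ c', (∀ ρ, Q ρ → (step ⟨N + 8, code⟩ w ρ)^[T'] c = c') ∧ Post c'

/-- a running configuration -/
def Is (pc d : ℕ) (P : (Fin (N + 8) → ℕ) → (ℕ → ℕ) → Prop) (c : Cfg (N + 8)) : Prop :=
  c.pc = pc ∧ c.halted = false ∧ c.drawn = d ∧ P c.regs c.mem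

variable {c : Cfg (N + 8)} {T T' : ℕ} {Post : Cfg (N + 8) → Prop} {pc d : ℕ}
  {R : Fin (N + 8) → ℕ} {M : ℕ → ℕ}

theorem Reach.done (h : Post c) : Reach code w Q c 0 Post := ⟨0, le_rfl, c, fun _ _ => rfl, h⟩

theorem Reach.mono (h : Reach code w Q c T Post) (hT : T ≤ T') : Reach code w Q c T' Post := by
  obtain ⟨t, ht, h⟩ := h
  exact ⟨t, ht.trans hT, h⟩

theorem Reach.bind {P : (Fin (N + 8) → ℕ) → (ℕ → ℕ) → Prop} (h : Reach code w Q c T (Is pc d P))
    (k : ∀ R M, P R M → Reach code w Q ⟨pc, false, R, M, d⟩ T' Post) :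
    Reach code w Q c (T + T') Post := by
  obtain ⟨t, ht, ⟨pc', ha, R, M, d'⟩, h1, h2, h3, h4, h5⟩ := h
  simp only at h2 h3 h4 h5
  subst h2 h3 h4
  obtain ⟨t', ht', c', h6, h7⟩ := k R M h5
  refine ⟨t' + t, by omega, c', fun ρ hρ => ?_, h7⟩
  rw [Function.iterate_add_apply, h1 ρ hρ, h6 ρ hρ]

theorem Reach.last {P : (Fin (N + 8) → ℕ) → (ℕ → ℕ) → Prop} (h : Reach code w Q c T (Is pc d P))
    (k : ∀ R M, P R M → Post ⟨pc, false, R, M, d⟩) : Reach code w Q c T Post :=
  h.bind (T' := 0) fun R M hP => Reach.done (k R M hP)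

theorem Reach.one {c₁ : Cfg (N + 8)} (h : ∀ ρ, Q ρ → step ⟨N + 8, code⟩ w ρ c = c₁)
    (k : Reach code w Q c₁ T Post) : Reach code w Q c (T + 1) Post := by
  obtain ⟨t, ht, c', h1, h2⟩ := k
  refine ⟨t + 1, by omega, c', fun ρ hρ => ?_, h2⟩
  rw [Function.iterate_succ_apply, h ρ hρ, h1 ρ hρ]

variable {r a b : Fin (N + 8)} {v : ℕ}

theorem Reach.const (h : code[pc]? = some (.const r v)) (hv : v < 2 ^ w)
    (k : Reach code w Q ⟨pc + 1, false, writeReg R r v, M, d⟩ T Post) :
    Reach code w Q ⟨pc, false, R, M, d⟩ (T + 1) Post :=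
  Reach.one (fun ρ _ => by simp [step, h, Nat.mod_eq_of_lt hv]) k

theorem Reach.copy (h : code[pc]? = some (.copy r a)) (hv : R a = v)
    (k : Reach code w Q ⟨pc + 1, false, writeReg R r v, M, d⟩ T Post) :
    Reach code w Q ⟨pc, false, R, M, d⟩ (T + 1) Post :=
  Reach.one (fun ρ _ => by simp [step, h, hv]) k

theorem Reach.add (h : code[pc]? = some (.add r a b)) (v : ℕ) (hv : R a + R b = v) (hw : v < 2 ^ w)
    (k : Reach code w Q ⟨pc + 1, false, writeReg R r v, M, d⟩ T Post) :
    Reach code w Q ⟨pc, false, R, M, d⟩ (T + 1) Post :=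
  Reach.one (fun ρ _ => by simp [step, h, hv, Nat.mod_eq_of_lt hw]) k

theorem Reach.sub (h : code[pc]? = some (.sub r a b)) (v : ℕ) (hv : R a - R b = v)
    (k : Reach code w Q ⟨pc + 1, false, writeReg R r v, M, d⟩ T Post) :
    Reach code w Q ⟨pc, false, R, M, d⟩ (T + 1) Post :=
  Reach.one (fun ρ _ => by simp [step, h, hv]) k

theorem Reach.quot (h : code[pc]? = some (.quot r a b)) (v : ℕ) (hv : R a / R b = v)
    (k : Reach code w Q ⟨pc + 1, false, writeReg R r v, M, d⟩ T Post) :
    Reach code w Q ⟨pc, false, R, M, d⟩ (T + 1) Post :=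
  Reach.one (fun ρ _ => by simp [step, h, hv]) k

theorem Reach.rem (h : code[pc]? = some (.rem r a b)) (v : ℕ) (hv : R a % R b = v)
    (k : Reach code w Q ⟨pc + 1, false, writeReg R r v, M, d⟩ T Post) :
    Reach code w Q ⟨pc, false, R, M, d⟩ (T + 1) Post :=
  Reach.one (fun ρ _ => by simp [step, h, hv]) k

theorem Reach.load (h : code[pc]? = some (.load r a)) (v : ℕ) (hv : M (R a) = v)
    (k : Reach code w Q ⟨pc + 1, false, writeReg R r v, M, d⟩ T Post) :
    Reach code w Q ⟨pc, false, R, M, d⟩ (T + 1) Post :=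
  Reach.one (fun ρ _ => by simp [step, h, hv]) k

theorem Reach.store (h : code[pc]? = some (.store r a)) (u v : ℕ) (hu : R a = u) (hv : R r = v)
    (k : Reach code w Q ⟨pc + 1, false, R, writeMem M u v, d⟩ T Post) :
    Reach code w Q ⟨pc, false, R, M, d⟩ (T + 1) Post :=
  Reach.one (fun ρ _ => by simp [step, h, hu, hv]) k

theorem Reach.jump (h : code[pc]? = some (.jump v))
    (k : Reach code w Q ⟨v, false, R, M, d⟩ T Post) :
    Reach code w Q ⟨pc, false, R, M, d⟩ (T + 1) Post :=
  Reach.one (fun ρ _ => by simp [step, h]) k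

theorem Reach.jzY (h : code[pc]? = some (.jumpIfZero a v)) (hv : R a = 0)
    (k : Reach code w Q ⟨v, false, R, M, d⟩ T Post) :
    Reach code w Q ⟨pc, false, R, M, d⟩ (T + 1) Post :=
  Reach.one (fun ρ _ => by simp [step, h, hv]) k

theorem Reach.jzN (h : code[pc]? = some (.jumpIfZero a v)) (hv : R a ≠ 0)
    (k : Reach code w Q ⟨pc + 1, false, R, M, d⟩ T Post) :
    Reach code w Q ⟨pc, false, R, M, d⟩ (T + 1) Post :=
  Reach.one (fun ρ _ => by simp [step, h, hv]) k

theorem Reach.jeY (h : code[pc]? = some (.jumpIfEq a b v)) (hv : R a = R b)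
    (k : Reach code w Q ⟨v, false, R, M, d⟩ T Post) :
    Reach code w Q ⟨pc, false, R, M, d⟩ (T + 1) Post :=
  Reach.one (fun ρ _ => by simp [step, h, hv]) k

theorem Reach.jeN (h : code[pc]? = some (.jumpIfEq a b v)) (hv : R a ≠ R b)
    (k : Reach code w Q ⟨pc + 1, false, R, M, d⟩ T Post) :
    Reach code w Q ⟨pc, false, R, M, d⟩ (T + 1) Post :=
  Reach.one (fun ρ _ => by simp [step, h, hv]) k

theorem Reach.rand (h : code[pc]? = some (.rand r)) (hv : ∀ ρ, Q ρ → ρ d % 2 ^ w = v)
    (k : Reach code w Q ⟨pc + 1, false, writeReg R r v, M, d + 1⟩ T Post) :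
    Reach code w Q ⟨pc, false, R, M, d⟩ (T + 1) Post :=
  Reach.one (fun ρ hρ => by simp [step, h, hv ρ hρ]) k

theorem Reach.halt (h : code[pc]? = some .halt)
    (k : Post ⟨pc, true, R, M, d⟩) : Reach code w Q ⟨pc, false, R, M, d⟩ 1 Post :=
  Reach.one (fun ρ _ => by simp [step, h]) (Reach.done k)

theorem rg_inj {j j' : ℕ} (hj : j < N + 8) (hj' : j' < N + 8) : rg N j = rg N j' ↔ j = j' := by
  simp [rg, Fin.ext_iff, Fin.ofNat, Nat.mod_eq_of_lt hj, Nat.mod_eq_of_lt hj']

theorem wr_same (R : Fin (N + 8) → ℕ) (r : Fin (N + 8)) (v : ℕ) : writeReg R r v r = v := by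
  simp [writeReg]

theorem wr_ne' (R : Fin (N + 8) → ℕ) {j j' : ℕ} (v : ℕ) (h : j' ≠ j) (hj : j < N + 8)
    (hj' : j' < N + 8) : writeReg R (rg N j) v (rg N j') = R (rg N j') := by
  simp [writeReg, rg_inj hj' hj, h]

theorem wr_ne (hN : 0 < N) (R : Fin (N + 8) → ℕ) (j j' : ℕ) (v : ℕ) (h : j' ≠ j) (hj : j < 9)
    (hj' : j' < 9) : writeReg R (rg N j) v (rg N j') = R (rg N j') :=
  wr_ne' R v h (by omega) (by omega)

/-- invariant of the first half of a round -/
structure A (N : ℕ) (x : List ℕ) (R : Fin (N + 8) → ℕ) (M : ℕ → ℕ) (S : Store) : Prop where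
  rep : Rep N x.length ⟨0, false, R, M, 0⟩ S
  r0 : R (rg N 0) = x.length
  r7 : R (rg N 7) = 2
  mem : ∀ j < x.length, M j = x.getD j 0

variable {x : List ℕ} {S S' : Store}

theorem A.wr (h : A N x R M S) (j : ℕ) (hj : j = 3 ∨ j = 5 ∨ j = 6) (v : ℕ) :
    A N x (writeReg R (rg N j) v) M S := by
  refine ⟨⟨?_, ?_, fun k hk => ?_, h.rep.bot, h.rep.cell⟩, ?_, ?_, h.mem⟩
  · exact (wr_ne' R v (by omega) (by omega) (by omega)).trans h.rep.r2
  · exact (wr_ne' R v (by omega) (by omega) (by omega)).trans h.rep.r4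
  · exact (wr_ne' R v (by omega) (by omega) (by omega)).trans (h.rep.ptr k hk)
  · exact (wr_ne' R v (by omega) (by omega) (by omega)).trans h.r0
  · exact (wr_ne' R v (by omega) (by omega) (by omega)).trans h.r7

theorem A.comp {p : Prog} {t : ℕ} (h : A N x R M S) (hc : At code pc (comp N p pc))
    (hw : 2 < 2 ^ w) (he : Exec p S S' t) (hp : p.bound ≤ N)
    (hb : ∀ k < N, x.length + k + N * ((S k).length + t) < 2 ^ w) :
    Reach code w Q ⟨pc, false, R, M, d⟩ (5 * t) (Is (pc + clen p) d fun R' M' =>
      A N x R' M' S' ∧ R' (rg N 5) = R (rg N 5) ∧ R' (rg N 6) = R (rg N 6)) := by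
  obtain ⟨t', ht', c', h1, h2, h3, h4, h5, h6, h7⟩ := comp_exec (base := x.length) code hw he pc
    ⟨pc, false, R, M, d⟩ hp (fun i hi => hc i (by rwa [length_comp])) rfl rfl
    ⟨h.rep.r2, h.rep.r4, h.rep.ptr, h.rep.bot, h.rep.cell⟩ hb
  refine ⟨t', ht', c', fun ρ _ => h1 ρ, h2, h3, h4,
    ⟨⟨h5.r2, h5.r4, h5.ptr, h5.bot, h5.cell⟩, ?_, ?_, fun j hj => ?_⟩,
    h7 5 (by omega) (by omega), h7 6 (by omega) (by omega)⟩
  · exact (h7 0 (by omega) (by omega)).trans h.r0
  · exact (h7 7 (by omega) (by omega)).trans h.r7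
  · exact (h6 j hj).trans (h.mem j hj)

/-- only stack `0` is used -/
def st (l : List Bool) : Store := Function.update (fun _ => []) 0 l

theorem A.push {l : List Bool} {bt : Bool} (h : A N x R M (st l)) (hN : 0 < N)
    (hc : At code pc (R309.comp N (.push 0 bt) pc)) (hw : 2 < 2 ^ w)
    (hb : x.length + N + N * (l.length + 1) < 2 ^ w) :
    Reach code w Q ⟨pc, false, R, M, d⟩ 5 (Is (pc + 3) d fun R' M' =>
      A N x R' M' (st (bt :: l)) ∧ R' (rg N 5) = R (rg N 5) ∧ R' (rg N 6) = R (rg N 6)) := by
  have he : Exec (.push 0 bt) (st l) (st (bt :: l)) 1 := by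
    have := Exec.push 0 bt (st l)
    simpa [st] using this
  refine h.comp hc hw he hN fun k hk => ?_
  have : (st l k).length ≤ l.length := by
    by_cases hk0 : k = 0
    · simp [st, hk0]
    · simp [st, hk0]
  have := Nat.mul_le_mul_left N (show (st l k).length + 1 ≤ l.length + 1 by omega)
  omega

/-- push the code of register `5` -/
def natC (N off : ℕ) : List (Instr (N + 8)) :=
  .jumpIfZero (rg N 5) (off + 15) :: (comp N (.push 0 true) (off + 1) ++
    (.rem (rg N 3) (rg N 5) (rg N 7) :: .quot (rg N 5) (rg N 5) (rg N 7) ::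
      .jumpIfZero (rg N 3) (off + 11) :: (comp N (.push 0 true) (off + 7) ++ (.jump off ::
        (comp N (.push 0 false) (off + 11) ++ (.jump off :: (comp N (.push 0 false) (off + 15) ++
          comp N (.push 0 false) (off + 18))))))))

theorem length_natC (N off : ℕ) : (natC N off).length = 21 := by
  simp [natC, comp]

theorem bits_cons {n : ℕ} (h : n ≠ 0) : n.bits = decide (n % 2 = 1) :: (n / 2).bits := by
  conv_lhs => rw [← Nat.bit_decide_mod_two_eq_one_shiftRight_one n]
  rw [Nat.bits_append_bit]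
  · simp [Nat.shiftRight_one]
  · intro h0
    rw [Nat.shiftRight_one] at h0
    simp; omega

theorem nat_exec (hN : 0 < N) (hw : 2 < 2 ^ w) (hc : At code pc (natC N pc)) :
    ∀ (bs : List Bool) (n : ℕ) (l : List Bool) (R : Fin (N + 8) → ℕ) (M : ℕ → ℕ), n.bits = bs →
    R (rg N 5) = n → A N x R M (st l) → x.length + N + N * (l.length + (2 * bs.length + 2)) < 2 ^ w →
    Reach code w Q ⟨pc, false, R, M, d⟩ (15 * bs.length + 11) (Is (pc + 21) d fun R' M' =>
      A N x R' M' (st (((bs.map fun b => [true, b]).flatten ++ [false, false]).reverse ++ l)) ∧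
        R' (rg N 6) = R (rg N 6)) := by
  simp only [natC, at_cons, at_append, length_comp, clen, add_assoc, Nat.reduceAdd] at hc
  obtain ⟨c0, c1, c4, c5, c6, c7, c10, c11, c14, c15, c18⟩ := hc
  intro bs
  induction bs with
  | nil =>
    intro n l R M hn h5 hA hb
    have hn0 : n = 0 := by
      by_contra h
      rw [bits_cons h] at hn
      simp at hn
    simp only [List.length_nil] at hb
    apply Reach.mono (T := 5 + 5 + 1)
    · refine Reach.jzY c0 (h5.trans hn0) ?_
      refine (hA.push hN c15 hw (by nlinarith)).bind ?_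
      rintro R1 M1 ⟨hA1, -, e1⟩
      refine (hA1.push hN c18 hw (by simpa using hb)).last ?_
      rintro R2 M2 ⟨hA2, -, e2⟩
      exact ⟨rfl, rfl, rfl, by simpa using hA2, e2.trans e1⟩
    · simp
  | cons bt bs ih =>
    intro n l R M hn h5 hA hb
    have hn0 : n ≠ 0 := by
      rintro rfl
      simp at hn
    rw [bits_cons hn0, List.cons.injEq] at hn
    obtain ⟨hbt, hbs⟩ := hn
    simp only [List.length_cons] at hb
    apply Reach.mono (T := 5 + (5 + (15 * bs.length + 11 + 0 + 1) + 1 + 1 + 1) + 1)
    · refine Reach.jzN c0 (h5 ▸ hn0) ?_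
      refine (hA.push hN c1 hw (by nlinarith)).bind ?_
      rintro R1 M1 ⟨hA1, e5, e6⟩
      refine Reach.rem c4 (n % 2) (by rw [e5, h5, hA1.r7]) ?_
      refine Reach.quot c5 (n / 2) (by simp [wr_ne hN, e5, h5, hA1.r7]) ?_
      have hA2 := (hA1.wr 3 (by omega) (n % 2)).wr 5 (by omega) (n / 2)
      have fin : ∀ (R3 : Fin (N + 8) → ℕ) (M3 : ℕ → ℕ), A N x R3 M3 (st (bt :: true :: l)) →
          R3 (rg N 5) = n / 2 → R3 (rg N 6) = R (rg N 6) →
          Reach code w Q ⟨pc, false, R3, M3, d⟩ (15 * bs.length + 11 + 0) (Is (pc + 21) d fun R' M' =>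
            A N x R' M' (st ((((bt :: bs).map fun b => [true, b]).flatten ++
              [false, false]).reverse ++ l)) ∧ R' (rg N 6) = R (rg N 6)) := by
        intro R3 M3 hA3 f5 f6
        refine (ih (n / 2) (bt :: true :: l) R3 M3 hbs f5 hA3 (by
          simp only [List.length_cons]
          rw [show l.length + 1 + 1 + (2 * bs.length + 2) = l.length + (2 * (bs.length + 1) + 2) by
            ring]
          exact hb)).bind ?_
        rintro R4 M4 ⟨hA4, g6⟩
        exact Reach.done ⟨rfl, rfl, rfl, by simpa using hA4, g6.trans f6⟩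
      have hb2 : x.length + N + N * ((true :: l).length + 1) < 2 ^ w := by
        simp only [List.length_cons]; nlinarith
      by_cases h2 : n % 2 = 1
      · have hbt' : bt = true := by simpa [h2] using hbt.symm
        subst hbt'
        refine Reach.jzN c6 (by simp [wr_ne hN, wr_same, h2]) ?_
        refine (hA2.push hN c7 hw hb2).bind ?_
        rintro R3 M3 ⟨hA3, f5, f6⟩
        refine Reach.jump c10 ?_
        exact fin R3 M3 hA3 (by simp [f5, wr_same]) (by simp [f6, wr_ne hN, e6])
      · have hbt' : bt = false := by simpa [h2] using hbt.symm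
        subst hbt'
        refine Reach.jzY c6 (by simp [wr_ne hN, wr_same]; omega) ?_
        refine (hA2.push hN c11 hw hb2).bind ?_
        rintro R3 M3 ⟨hA3, f5, f6⟩
        refine Reach.jump c14 ?_
        exact fin R3 M3 hA3 (by simp [f5, wr_same]) (by simp [f6, wr_ne hN, e6])
    · simp only [List.length_cons]; omega

theorem bits_len {n : ℕ} (h : n < 2 ^ w) : n.bits.length ≤ w := by
  rw [Nat.size_eq_bits_len]; exact Nat.size_le.2 h

theorem natCode_len {n : ℕ} (h : n < 2 ^ w) : (Crest.Enc.natCode n).length ≤ 2 * w + 2 := by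
  have h1 := bits_len h
  have : ∀ bs : List Bool, ((bs.map fun b => [true, b]).flatten).length = 2 * bs.length := by
    intro bs
    induction bs with
    | nil => simp
    | cons b bs ih => simp only [List.map_cons, List.flatten_cons, List.length_append, ih,
        List.length_cons, List.length_nil]; omega
  simp only [Crest.Enc.natCode, List.length_append, this, List.length_cons, List.length_nil]
  omega

theorem nat_exec' (hN : 0 < N) (hw : 2 < 2 ^ w) (hc : At code pc (natC N pc)) {n : ℕ}
    {l : List Bool} (hn : n < 2 ^ w) (h5 : R (rg N 5) = n) (hA : A N x R M (st l))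
    (hb : x.length + N + N * (l.length + (2 * w + 2)) < 2 ^ w) :
    Reach code w Q ⟨pc, false, R, M, d⟩ (15 * w + 11) (Is (pc + 21) d fun R' M' =>
      A N x R' M' (st ((Crest.Enc.natCode n).reverse ++ l)) ∧ R' (rg N 6) = R (rg N 6)) := by
  have h1 := bits_len hn
  refine (nat_exec hN hw hc n.bits n l R M rfl h5 hA ?_).mono (by omega)
  have := Nat.mul_le_mul_left N
    (show l.length + (2 * n.bits.length + 2) ≤ l.length + (2 * w + 2) by omega)
  omega

/-- push the codes of the input words -/
def listC (N off : ℕ) : List (Instr (N + 8)) :=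
  .jumpIfEq (rg N 6) (rg N 0) (off + 25) :: .load (rg N 5) (rg N 6) ::
    .add (rg N 6) (rg N 6) (rg N 4) :: (natC N (off + 3) ++ [.jump off])

theorem length_listC (N off : ℕ) : (listC N off).length = 25 := by
  simp [listC, length_natC]

theorem list_exec (hN : 0 < N) (hw : 2 < 2 ^ w) (hc : At code pc (listC N pc))
    (hx : ∀ a ∈ x, a < 2 ^ w) :
    ∀ (rest pre : List ℕ) (l : List Bool) (R : Fin (N + 8) → ℕ) (M : ℕ → ℕ), x = pre ++ rest →
    R (rg N 6) = pre.length → A N x R M (st l) →
    x.length + N + N * (l.length + rest.length * (2 * w + 2)) < 2 ^ w →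
    Reach code w Q ⟨pc, false, R, M, d⟩ (rest.length * (15 * w + 15) + 1) (Is (pc + 25) d fun R' M' =>
      A N x R' M' (st ((rest.map Crest.Enc.natCode).flatten.reverse ++ l))) := by
  simp only [listC, at_cons, at_append, length_natC, add_assoc, Nat.reduceAdd] at hc
  obtain ⟨c0, c1, c2, c3, c24, -⟩ := hc
  intro rest
  induction rest with
  | nil =>
    intro pre l R M hpre h6 hA hb
    apply Reach.mono (T := 0 + 1)
    · refine Reach.jeY c0 (by rw [h6, hA.r0, hpre]; simp) ?_
      exact Reach.done ⟨rfl, rfl, rfl, by simpa using hA⟩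
    · simp
  | cons n rest ih =>
    intro pre l R M hpre h6 hA hb
    have hlen : x.length = pre.length + rest.length + 1 := by rw [hpre]; simp; omega
    have hn : n < 2 ^ w := hx n (by rw [hpre]; simp)
    have hcl := natCode_len hn
    simp only [List.length_cons] at hb
    apply Reach.mono (T := 15 * w + 11 + (rest.length * (15 * w + 15) + 1 + 1) + 1 + 1 + 1)
    · refine Reach.jeN c0 (by rw [h6, hA.r0]; omega) ?_
      refine Reach.load c1 n (by rw [h6, hA.mem _ (by omega), hpre]; simp) ?_
      refine Reach.add c2 (pre.length + 1)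
        (by simp [wr_ne hN, h6, show R (rg N 4) = 1 from hA.rep.r4]) (by omega) ?_
      refine (nat_exec' hN hw c3 hn (by simp [wr_ne hN, wr_same])
        ((hA.wr 5 (by omega) _).wr 6 (by omega) _) (by
          have := Nat.mul_le_mul_left N (show l.length + (2 * w + 2) ≤
            l.length + (rest.length + 1) * (2 * w + 2) by nlinarith)
          omega)).bind ?_
      rintro R1 M1 ⟨hA1, e6⟩
      refine Reach.jump c24 ?_
      refine (ih (pre ++ [n]) _ R1 M1 (by simp [hpre]) (by simp [e6, wr_same]) hA1 ?_).last ?_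
      · have := Nat.mul_le_mul_left N
          (show ((Crest.Enc.natCode n).reverse ++ l).length + rest.length * (2 * w + 2) ≤
            l.length + (rest.length + 1) * (2 * w + 2) by
              simp only [List.length_append, List.length_reverse]; nlinarith)
        omega
      · intro R2 M2 hA2
        exact ⟨rfl, rfl, rfl, by simpa using hA2⟩
    · simp only [List.length_cons]; nlinarith

/-- set the stack pointers -/
def iniC (N : ℕ) : ℕ → List (Instr (N + 8))
  | 0 => []
  | m + 1 => iniC N m ++ [.const (rg N (8 + m)) m, .add (rg N (8 + m)) (rg N (8 + m)) (rg N 0)]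

theorem length_iniC (N m : ℕ) : (iniC N m).length = 2 * m := by
  induction m with
  | zero => rfl
  | succ m ih => simp [iniC, ih]; omega

theorem ini_exec {base : ℕ} (hb : base + N < 2 ^ w) (h0 : R (rg N 0) = base) :
    ∀ m ≤ N, At code pc (iniC N m) →
    Reach code w Q ⟨pc, false, R, M, d⟩ (2 * m) (Is (pc + 2 * m) d fun R' M' =>
      M' = M ∧ (∀ j < 8, R' (rg N j) = R (rg N j)) ∧ ∀ k < m, R' (rg N (8 + k)) = base + k) := by
  intro m
  induction m with
  | zero => exact fun _ _ => Reach.done ⟨rfl, rfl, rfl, rfl, fun _ _ => rfl, by simp⟩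
  | succ m ih =>
    intro hm hc
    simp only [iniC, at_cons, at_append, length_iniC] at hc
    obtain ⟨c0, c1, c2, -⟩ := hc
    apply Reach.mono (T := 2 * m + (0 + 1 + 1))
    · refine (ih (by omega) c0).bind ?_
      rintro R1 M1 ⟨rfl, e1, e2⟩
      refine Reach.const c1 (by omega) ?_
      refine Reach.add c2 (base + m) (by
        rw [wr_same, wr_ne' _ _ (by omega) (by omega) (by omega), e1 0 (by omega), h0, add_comm])
        (by omega) ?_
      refine Reach.done ⟨by simp only; omega, rfl, rfl, rfl, fun j hj => ?_, fun k hk => ?_⟩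
      · simp only
        rw [wr_ne' _ _ (by omega) (by omega) (by omega), wr_ne' _ _ (by omega) (by omega) (by omega),
          e1 j hj]
      · simp only
        by_cases hkm : k = m
        · rw [hkm, wr_same]
        · rw [wr_ne' _ _ (by omega) (by omega) (by omega),
            wr_ne' _ _ (by omega) (by omega) (by omega), e2 k (by omega)]
    · omega

/-- stack `0` in the memory -/
def Stk (N base : ℕ) (M : ℕ → ℕ) : List Bool → Prop
  | [] => M base = 0
  | b :: l => M (base + N * (l.length + 1)) = 1 + b.toNat ∧ Stk N base M l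

theorem Stk.of_cell {base : ℕ} (h0 : M base = 0) : ∀ l : List Bool,
    (∀ i < l.length, M (base + N * (l.length - i)) = 1 + (l.getD i false).toNat) → Stk N base M l
  | [], _ => h0
  | b :: l, h => ⟨by simpa using h 0 (by simp), Stk.of_cell h0 l fun i hi => by
      simpa using h (i + 1) (by simpa using hi)⟩

theorem Stk.write {base u v : ℕ} : ∀ {l : List Bool}, Stk N base M l → base + N * l.length < u →
    Stk N base (writeMem M u v) l
  | [], h, hu => by
      simp only [Stk, writeMem] at h ⊢
      rw [if_neg (by omega), h]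
  | b :: l, h, hu => by
      simp only [List.length_cons] at hu
      refine ⟨?_, Stk.write h.2 (by nlinarith)⟩
      simp only [writeMem]
      rw [if_neg (by omega), h.1]

/-- invariant of the output phase -/
structure B (N base s : ℕ) (R : Fin (N + 8) → ℕ) (M : ℕ → ℕ) (l : List Bool) (ys : List ℕ) : Prop where
  r2 : R (rg N 2) = N
  r4 : R (rg N 4) = 1
  r8 : R (rg N 8) = base + N * l.length
  stk : Stk N base M l
  r1 : R (rg N 1) = s
  r6 : R (rg N 6) = s + ys.length
  r0 : R (rg N 0) = ys.length
  out : ∀ j < ys.length, M (s + j) = ys.getD j 0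
  hs : base + N * l.length < s

/-- parse the words on stack `0` -/
def parseC (N off : ℕ) : List (Instr (N + 8)) :=
  [.load (rg N 3) (rg N 8), .jumpIfZero (rg N 3) (off + 16), .const (rg N 5) 0,
    .load (rg N 3) (rg N 8), .sub (rg N 8) (rg N 8) (rg N 2), .jumpIfEq (rg N 3) (rg N 4) (off + 12),
    .load (rg N 3) (rg N 8), .sub (rg N 8) (rg N 8) (rg N 2), .sub (rg N 3) (rg N 3) (rg N 4),
    .add (rg N 5) (rg N 5) (rg N 5), .add (rg N 5) (rg N 5) (rg N 3), .jump (off + 3),
    .store (rg N 5) (rg N 6), .add (rg N 6) (rg N 6) (rg N 4), .add (rg N 0) (rg N 0) (rg N 4),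
    .jump off, .halt]

/-- value of a bit string, most significant bit first -/
def val (bs : List Bool) (n : ℕ) : ℕ := bs.foldl (fun a b => 2 * a + b.toNat) n

theorem le_val (bs : List Bool) : ∀ n, n ≤ val bs n := by
  induction bs with
  | nil => exact fun n => le_rfl
  | cons b bs ih => exact fun n => le_trans (by omega) (ih (2 * n + b.toNat))

theorem val_bits (n : ℕ) : val n.bits.reverse 0 = n := by
  rw [val, List.foldl_reverse]
  induction n using Nat.strong_induction_on with
  | _ n ih =>
    by_cases h : n = 0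
    · simp [h]
    · rw [bits_cons h, List.foldr_cons, ih (n / 2) (by omega)]
      by_cases h2 : n % 2 = 1
      · simp [h2]; omega
      · simp [h2]; omega

theorem word_exec {base s : ℕ} {ys : List ℕ} {l : List Bool} (hN : 0 < N)
    (hc : At code pc (parseC N pc)) :
    ∀ (bs : List Bool) (n : ℕ) (R : Fin (N + 8) → ℕ),
    B N base s R M ((bs.flatMap fun b => [true, b]) ++ false :: l) ys → R (rg N 5) = n →
    val bs n < 2 ^ w →
    Reach code w Q ⟨pc + 3, false, R, M, d⟩ (9 * bs.length + 3) (Is (pc + 12) d fun R' M' =>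
      B N base s R' M' l ys ∧ R' (rg N 5) = val bs n) := by
  simp only [parseC, at_cons, add_assoc, Nat.reduceAdd] at hc
  obtain ⟨-, -, -, c3, c4, c5, c6, c7, c8, c9, c10, c11, -⟩ := hc
  intro bs
  induction bs with
  | nil =>
    intro n R hB h5 hv
    obtain ⟨r2, r4, r8, stk, r1, r6, r0, out, hs⟩ := hB
    simp only [List.flatMap_nil, List.nil_append, List.length_cons, Stk] at r8 stk hs
    apply Reach.mono (T := 0 + 1 + 1 + 1)
    · refine Reach.load c3 1 (by rw [r8, stk.1]; rfl) ?_
      refine Reach.sub c4 (base + N * l.length) (by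
        simp only [wr_ne hN, ne_eq, Nat.reduceEqDiff, not_false_eq_true, Nat.reduceLT, r8, r2]
        rw [mul_add]; omega) ?_
      refine Reach.jeY c5 (by simp [wr_ne hN, wr_same, r4]) ?_
      refine Reach.done ⟨rfl, rfl, rfl, ⟨?_, ?_, ?_, stk.2, ?_, ?_, ?_, out, by nlinarith⟩, ?_⟩ <;>
        simp [wr_ne hN, wr_same, val, *]
    · simp
  | cons bt bs ih =>
    intro n R hB h5 hv
    obtain ⟨r2, r4, r8, stk, r1, r6, r0, out, hs⟩ := hB
    simp only [List.flatMap_cons, List.cons_append, List.nil_append, List.length_cons, Stk]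
      at r8 stk hs
    set l' := (bs.flatMap fun b => [true, b]) ++ false :: l
    have hv' : val bs (2 * n + bt.toNat) < 2 ^ w := hv
    have hle := le_val bs (2 * n + bt.toNat)
    apply Reach.mono (T := 9 * bs.length + 3 + 1 + 1 + 1 + 1 + 1 + 1 + 1 + 1 + 1)
    · refine Reach.load c3 2 (by rw [r8, stk.1]; rfl) ?_
      refine Reach.sub c4 (base + N * (l'.length + 1)) (by
        simp only [wr_ne hN, ne_eq, Nat.reduceEqDiff, not_false_eq_true, Nat.reduceLT, r8, r2]
        rw [mul_add]; omega) ?_
      refine Reach.jeN c5 (by simp [wr_ne hN, wr_same, r4]) ?_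
      refine Reach.load c6 (1 + bt.toNat) (by rw [wr_same, stk.2.1]) ?_
      refine Reach.sub c7 (base + N * l'.length) (by
        simp only [wr_ne hN, wr_same, ne_eq, Nat.reduceEqDiff, not_false_eq_true, Nat.reduceLT, r2]
        rw [mul_add]; omega) ?_
      refine Reach.sub c8 bt.toNat (by simp [wr_ne hN, wr_same, r4]) ?_
      refine Reach.add c9 (2 * n) (by simp [wr_ne hN, h5]; omega) (by omega) ?_
      refine Reach.add c10 (2 * n + bt.toNat) (by simp [wr_ne hN, wr_same]) (by omega) ?_
      refine Reach.jump c11 ?_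
      refine ih (2 * n + bt.toNat) _ ⟨?_, ?_, ?_, stk.2.2, ?_, ?_, ?_, out, by nlinarith⟩
        (wr_same _ _ _) hv' <;> simp [wr_ne hN, wr_same, r2, r4, r1, r6, r0]
    · simp only [List.length_cons]; omega

theorem reg_eq (c : Cfg (N + 8)) {j : ℕ} (hj : j < 8) : c.reg j = c.regs (rg N j) := by
  have h : j < N + 8 := by omega
  simp [Cfg.reg, h, rg, Fin.ofNat, Nat.mod_eq_of_lt h]

theorem parse_exec {base s : ℕ} (hN : 0 < N) (hc : At code pc (parseC N pc)) :
    ∀ (y ys : List ℕ) (R : Fin (N + 8) → ℕ) (M : ℕ → ℕ), B N base s R M (y.flatMap wordCode) ys →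
    (∀ a ∈ y, a < 2 ^ w) → s + ys.length + y.length < 2 ^ w →
    Reach code w Q ⟨pc, false, R, M, d⟩ (10 * (y.flatMap wordCode).length + 3) fun c' =>
      c'.drawn = d ∧ c'.halted = true ∧ c'.output = ys ++ y := by
  have hc' := hc
  simp only [parseC, at_cons, add_assoc, Nat.reduceAdd] at hc'
  obtain ⟨c0, c1, c2, -, -, -, -, -, -, -, -, -, c12, c13, c14, c15, c16, -⟩ := hc'
  intro y
  induction y with
  | nil =>
    intro ys R M hB hy hb
    obtain ⟨r2, r4, r8, stk, r1, r6, r0, out, hs⟩ := hB
    simp only [List.flatMap_nil, List.length_nil, Stk, mul_zero, add_zero] at r8 stk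
    apply Reach.mono (T := 1 + 1 + 1)
    · refine Reach.load c0 0 (by rw [r8, stk]) ?_
      refine Reach.jzY c1 (wr_same _ _ _) ?_
      refine Reach.halt c16 ⟨rfl, rfl, ?_⟩
      rw [Cfg.output, reg_eq _ (by omega : 0 < 8), reg_eq _ (by omega : 1 < 8)]
      simp only [wr_ne hN, ne_eq, not_false_eq_true, Nat.reduceLT, r0, r1,
        List.append_nil, OfNat.zero_ne_ofNat, OfNat.one_ne_ofNat, Nat.ofNat_pos, Nat.one_lt_ofNat]
      refine List.ext_getElem (by simp) fun j h1 h2 => ?_
      simp [out j h2, h2]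
    · simp
  | cons n y ih =>
    intro ys R M hB hy hb
    have hn : n < 2 ^ w := hy n (by simp)
    simp only [List.length_cons] at hb
    have hcode : (n :: y).flatMap wordCode =
        (n.bits.reverse.flatMap fun b => [true, b]) ++ false :: y.flatMap wordCode := by
      simp [wordCode]
    have hlen : ∀ bs : List Bool, (bs.flatMap fun b => [true, b]).length = 2 * bs.length := by
      intro bs
      induction bs with
      | nil => simp
      | cons b bs ih => simp only [List.flatMap_cons, List.length_append, ih,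
          List.length_cons, List.length_nil]; omega
    rw [hcode] at hB ⊢
    obtain ⟨bt, l', hl'⟩ : ∃ bt l', (n.bits.reverse.flatMap fun b => [true, b]) ++
        false :: y.flatMap wordCode = bt :: l' := List.exists_cons_of_ne_nil (by simp)
    have htop : M (R (rg N 8)) = 1 + bt.toNat := by
      have h1 := hB.r8
      have h2 := hB.stk
      rw [hl'] at h1 h2
      rw [h1]; exact h2.1
    apply Reach.mono (T := 9 * n.bits.reverse.length + 3 +
      (10 * (y.flatMap wordCode).length + 3 + 1 + 1 + 1 + 1) + 1 + 1 + 1)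
    · refine Reach.load c0 _ htop ?_
      refine Reach.jzN c1 (by rw [wr_same]; omega) ?_
      refine Reach.const c2 (by positivity) ?_
      refine (word_exec (base := base) (s := s) (ys := ys) (l := y.flatMap wordCode) hN hc
        n.bits.reverse 0 _ ?_ (wr_same _ _ _) (by rwa [val_bits])).bind ?_
      · obtain ⟨r2, r4, r8, stk, r1, r6, r0, out, hs⟩ := hB
        refine ⟨?_, ?_, ?_, stk, ?_, ?_, ?_, out, hs⟩ <;> simp only [wr_ne hN, ne_eq,
          Nat.reduceEqDiff, not_false_eq_true, Nat.reduceLT, OfNat.zero_ne_ofNat, OfNat.one_ne_ofNat,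
          Nat.ofNat_pos, Nat.one_lt_ofNat] <;> assumption
      rintro R1 M1 ⟨⟨r2, r4, r8, stk, r1, r6, r0, out, hs⟩, h5⟩
      rw [val_bits] at h5
      refine Reach.store c12 _ _ r6 h5 ?_
      refine Reach.add c13 (s + ys.length + 1) (by rw [r6, r4]) (by omega) ?_
      refine Reach.add c14 (ys.length + 1) (by simp [wr_ne hN, r0, r4]) (by omega) ?_
      refine Reach.jump c15 ?_
      have := ih (ys ++ [n]) (writeReg (writeReg R1 (rg N 6) (s + ys.length + 1)) (rg N 0)
        (ys.length + 1)) (writeMem M1 (s + ys.length) n) ?_ (fun a ha => hy a (by simp [ha]))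
        (by simp; omega)
      · simpa using this
      refine ⟨?_, ?_, ?_, stk.write (by omega), ?_, ?_, ?_, fun j hj => ?_, hs⟩
      · simp [wr_ne hN, r2]
      · simp [wr_ne hN, r4]
      · simp [wr_ne hN, r8]
      · simp [wr_ne hN, r1]
      · simp [wr_ne hN, wr_same, add_assoc]
      · simp [wr_same]
      · simp only [List.length_append, List.length_cons, List.length_nil] at hj
        by_cases hj' : j = ys.length
        · simp [writeMem, hj']
        · have hj2 : j < ys.length := by omega
          simp [writeMem, hj', out j hj2, List.getElem?_append_left hj2]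
    · simp only [List.length_append, hlen, List.length_cons, List.length_reverse]; omega

/-- the whole program -/
def mainC (N : ℕ) (p : Prog) : List (Instr (N + 8)) :=
  .const (rg N 2) N :: .const (rg N 4) 1 :: .const (rg N 7) 2 :: (iniC N N ++
    (.copy (rg N 5) (rg N 0) :: (natC N (3 + 2 * N + 1) ++ (.const (rg N 6) 0 ::
      (listC N (3 + 2 * N + 23) ++ (.rand (rg N 5) :: (natC N (3 + 2 * N + 49) ++
        (comp N p (3 + 2 * N + 70) ++ (.load (rg N 3) (rg N 8) :: .sub (rg N 8) (rg N 8) (rg N 2) ::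
          .jumpIfEq (rg N 3) (rg N 4) 0 :: .add (rg N 1) (rg N 8) (rg N 4) :: .copy (rg N 6) (rg N 1) ::
            .const (rg N 0) 0 :: parseC N (3 + 2 * N + 70 + clen p + 6))))))))))

/-- the state at the start of a round -/
def St (N : ℕ) (x : List ℕ) : (Fin (N + 8) → ℕ) → (ℕ → ℕ) → Prop := fun R M =>
  R (rg N 0) = x.length ∧ (∀ j < x.length, M j = x.getD j 0) ∧ ∀ k < N, M (x.length + k) = 0

theorem flatMap_len (y : List ℕ) : y.length ≤ (y.flatMap wordCode).length := by
  induction y with
  | nil => simp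
  | cons a y ih => simp only [List.flatMap_cons, List.length_append, List.length_cons, wordCode,
      List.length_nil] at ih ⊢; omega

theorem flatten_len (y : List ℕ) (hy : ∀ a ∈ y, a < 2 ^ w) :
    (y.map Crest.Enc.natCode).flatten.length ≤ y.length * (2 * w + 2) := by
  induction y with
  | nil => simp
  | cons a y ih =>
    have h1 := natCode_len (hy a (by simp))
    have h2 := ih fun b hb => hy b (by simp [hb])
    simp only [List.map_cons, List.flatten_cons, List.length_append, List.length_cons]
    nlinarith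

theorem round_exec {p : Prog} {n U t : ℕ} {g : Option (List ℕ)} (hN : 0 < N) (hp : p.bound ≤ N)
    (hn : n ≤ N) (hU : U < 2 ^ w)
    (hr : Runs p n (Crest.Enc.listCode x ++ Crest.Enc.natCode U).reverse (outCode g) t)
    (hx : ∀ a ∈ x, a < 2 ^ w) (hg : ∀ y, g = some y → ∀ a ∈ y, a < 2 ^ w)
    (hb : (3 * N + 60) * (t + (x.length + 2) * (w + 1)) < 2 ^ w) (hS : St N x R M) :
    Reach (mainC N p) w (fun ρ => ρ d % 2 ^ w = U) ⟨0, false, R, M, d⟩
      ((3 * N + 60) * (t + (x.length + 2) * (w + 1))) fun c' => c'.drawn = d + 1 ∧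
        (g = none → Is 0 (d + 1) (St N x) c') ∧ ∀ y, g = some y → c'.halted = true ∧ c'.output = y := by
  have hc := at_self (mainC N p)
  conv at hc => arg 3; unfold mainC
  generalize mainC N p = code at hc ⊢
  simp only [at_cons, at_append, length_iniC, length_natC, length_listC, length_comp, zero_add,
    Nat.reduceAdd] at hc
  obtain ⟨c0, c1, c2, c3, c4, c5, c6, c7, c8, c9, c10, c11, c12, c13, c14, c15, c16, c17⟩ := hc
  obtain ⟨s0, s1, s2⟩ := hS
  -- arithmetic
  obtain ⟨K, hK⟩ : ∃ K, K = (x.length + 2) * (w + 1) := ⟨_, rfl⟩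
  rw [← hK] at hb ⊢
  have hK1 : x.length + 2 ≤ K := by rw [hK]; nlinarith
  have hK2 : x.length * w + x.length + 2 * w + 2 = K := by rw [hK]; ring
  have hNK : N * 2 ≤ N * (t + K) := Nat.mul_le_mul_left N (by omega)
  have hb' : 3 * (N * (t + K)) + 60 * (t + K) < 2 ^ w := by
    rw [show 3 * (N * (t + K)) + 60 * (t + K) = (3 * N + 60) * (t + K) by ring]; exact hb
  have hw : 2 < 2 ^ w := by omega
  have hxl : x.length < 2 ^ w := by omega
  have hbd : ∀ L, L ≤ t + 2 * K → x.length + N + N * L + L + 1 < 2 ^ w := by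
    intro L hL
    have := Nat.mul_le_mul_left N (show L ≤ 2 * (t + K) by omega)
    rw [show N * (2 * (t + K)) = 2 * (N * (t + K)) by ring] at this
    omega
  have l1 := natCode_len hxl
  have l2 := flatten_len x hx
  have l3 := natCode_len hU
  have l2' : x.length * (2 * w + 2) = 2 * (x.length * w) + 2 * x.length := by ring
  set inp := (Crest.Enc.listCode x ++ Crest.Enc.natCode U).reverse with hinp
  have hinp' : (Crest.Enc.natCode U).reverse ++ ((x.map Crest.Enc.natCode).flatten.reverse ++
      ((Crest.Enc.natCode x.length).reverse ++ [])) = inp := by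
    simp [hinp, Crest.Enc.listCode]
  have l4 : inp.length ≤ 2 * K := by
    rw [← hinp']
    simp only [List.length_append, List.length_reverse, List.length_nil]
    omega
  have he : Exec p (st inp) (st (outCode g)) t := by
    have := hr (st inp) (by simp [st]) fun k hk _ => by simp [st, hk.ne']
    simpa [st] using this
  have l5 : (outCode g).length ≤ inp.length + t := by simpa [st] using he.length_le 0
  apply Reach.mono (T := 2 * N + (15 * w + 11 + (x.length * (15 * w + 15) + 1 + (15 * w + 11 +
    (5 * t + (10 * (outCode g).length + 3 + 1 + 1 + 1 + 1 + 1 + 1)) + 1) + 1) + 1) + 1 + 1 + 1)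
  swap
  · rw [show (3 * N + 60) * (t + K) = 3 * (N * (t + K)) + 60 * (t + K) by ring,
      show x.length * (15 * w + 15) = 15 * (x.length * w) + 15 * x.length by ring]
    omega
  refine Reach.const c0 (by omega) ?_
  refine Reach.const c1 (by omega) ?_
  refine Reach.const c2 hw ?_
  refine (ini_exec (base := x.length) (by omega) (by simp [wr_ne hN, s0]) N le_rfl c3).bind ?_
  rintro R1 M1 ⟨rfl, e1, e2⟩
  have hA1 : A N x R1 M1 (st []) := by
    have hst : ∀ k, st [] k = [] := fun k => by simp [st]
    refine ⟨⟨?_, ?_, fun k hk => ?_, s2, fun k hk i hi => ?_⟩, ?_, ?_, s1⟩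
    · simp [e1 2, wr_ne hN, wr_same]
    · simp [e1 4, wr_ne hN, wr_same]
    · simp [e2 k hk, hst]
    · simp [hst] at hi
    · simp [e1 0, wr_ne hN, s0]
    · simp [e1 7, wr_same]
  refine Reach.copy c4 hA1.r0 ?_
  refine (nat_exec' hN hw c5 hxl (wr_same _ _ _) (hA1.wr 5 (by omega) _)
    (by have := hbd ([] : List Bool).length.succ (by simp; omega)
        have := hbd (([] : List Bool).length + (2 * w + 2)) (by simp; omega); omega)).bind ?_
  rintro R2 M2 ⟨hA2, -⟩
  refine Reach.const c6 (by omega) ?_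
  refine (list_exec hN hw c7 hx x [] _ _ M2 rfl (wr_same _ _ _) (hA2.wr 6 (by omega) _)
    (by have := hbd (((Crest.Enc.natCode x.length).reverse ++ []).length + x.length * (2 * w + 2))
          (by simp only [List.length_append, List.length_reverse, List.length_nil]; omega)
        omega)).bind ?_
  intro R3 M3 hA3
  refine Reach.rand c8 (fun ρ h => h) ?_
  refine (nat_exec' hN hw c9 hU (wr_same _ _ _) (hA3.wr 5 (by omega) _)
    (by have := hbd (((x.map Crest.Enc.natCode).flatten.reverse ++
          ((Crest.Enc.natCode x.length).reverse ++ [])).length + (2 * w + 2))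
          (by simp only [List.length_append, List.length_reverse, List.length_nil]; omega)
        omega)).bind ?_
  rintro R4 M4 ⟨hA4, -⟩
  rw [hinp'] at hA4
  refine (hA4.comp c10 hw he hp fun k hk => ?_).bind ?_
  · have h1 : (st inp k).length ≤ inp.length := by
      by_cases hk0 : k = 0
      · simp [st, hk0]
      · simp [st, hk0]
    have := hbd ((st inp k).length + t) (by omega)
    omega
  rintro R5 M5 ⟨hA5, -, -⟩
  have r2 : R5 (rg N 2) = N := hA5.rep.r2
  have r4 : R5 (rg N 4) = 1 := hA5.rep.r4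
  have r8 : R5 (rg N 8) = x.length + N * (outCode g).length := by
    simpa [st] using hA5.rep.ptr 0 hN
  have stk : Stk N x.length M5 (outCode g) :=
    Stk.of_cell (hA5.rep.bot 0 hN) _ fun i hi => by
      simpa [st] using hA5.rep.cell 0 hN i (by simpa [st] using hi)
  cases g with
  | none =>
    simp only [outCode, List.length_cons, List.length_nil, Stk] at r8 stk ⊢
    apply Reach.mono (T := 0 + 1 + 1 + 1) _ (by omega)
    refine Reach.load c11 1 (by rw [r8, stk.1]; rfl) ?_
    refine Reach.sub c12 _ rfl ?_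
    refine Reach.jeY c13 (by simp [wr_ne hN, wr_same, r4]) ?_
    refine Reach.done ⟨rfl, fun _ => ⟨rfl, rfl, rfl, ?_, hA5.mem, hA5.rep.bot⟩, by simp⟩
    simp [wr_ne hN, hA5.r0]
  | some y =>
    simp only [outCode, List.length_cons, Stk] at r8 stk l5 ⊢
    have l6 := flatMap_len y
    have hb3 := hbd (y.flatMap wordCode).length (by omega)
    apply Reach.mono (T := 10 * (y.flatMap wordCode).length + 3 + 1 + 1 + 1 + 1 + 1 + 1) _ (by omega)
    refine Reach.load c11 2 (by rw [r8, stk.1]; rfl) ?_
    refine Reach.sub c12 (x.length + N * (y.flatMap wordCode).length) (by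
      simp only [wr_ne hN, ne_eq, Nat.reduceEqDiff, not_false_eq_true, Nat.reduceLT, r8, r2]
      rw [mul_add]; omega) ?_
    refine Reach.jeN c13 (by simp [wr_ne hN, wr_same, r4]) ?_
    refine Reach.add c14 (x.length + N * (y.flatMap wordCode).length + 1)
      (by simp [wr_ne hN, wr_same, r4]) (by omega) ?_
    refine Reach.copy c15 (wr_same _ _ _) ?_
    refine Reach.const c16 (by omega) ?_
    obtain ⟨T, hT, c', h1, h2, h3, h4⟩ := parse_exec (Q := fun ρ => ρ d % 2 ^ w = U) (d := d + 1)
      (base := x.length) (s := x.length + N * (y.flatMap wordCode).length + 1) hN c17 y []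
      (writeReg (writeReg (writeReg (writeReg (writeReg R5 (rg N 3) 2) (rg N 8)
        (x.length + N * (y.flatMap wordCode).length)) (rg N 1)
        (x.length + N * (y.flatMap wordCode).length + 1)) (rg N 6)
        (x.length + N * (y.flatMap wordCode).length + 1)) (rg N 0) 0) M5
      ⟨by simp [wr_ne hN, r2], by simp [wr_ne hN, r4], by simp [wr_ne hN, wr_same], stk.2,
        by simp [wr_ne hN, wr_same], by simp [wr_ne hN, wr_same], by simp [wr_same], by simp,
        by omega⟩ (hg y rfl) (by simp only [List.length_nil]; omega)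
    refine ⟨T, hT, c', h1, h2, by simp, ?_⟩
    rintro y' hy'
    obtain rfl : y = y' := by simpa using hy'
    exact ⟨h3, by simpa using h4⟩

end RamD

theorem exists_rounds (p : Prog) (n : ℕ) : ∃ (P : Program) (C : ℕ), ∀ (x : List ℕ) (w : ℕ)
    (G : ℕ → Option (List ℕ)) (t : ℕ → ℕ),
    (∀ U < 2 ^ w, Runs p n (Crest.Enc.listCode x ++ Crest.Enc.natCode U).reverse (outCode (G U)) (t U)) →
    (∀ a ∈ x, a < 2 ^ w) → (∀ U < 2 ^ w, ∀ y, G U = some y → ∀ a ∈ y, a < 2 ^ w) →
    (∀ U < 2 ^ w, C * (t U + (x.length + 2) * (w + 1)) < 2 ^ w) →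
    Rounds P w x G fun U => C * (t U + (x.length + 2) * (w + 1)) := by
  obtain ⟨N, hN, hp, hn⟩ : ∃ N, 0 < N ∧ p.bound ≤ N ∧ n ≤ N :=
    ⟨max n p.bound + 1, by omega, by omega, by omega⟩
  refine ⟨⟨N + 8, RamD.mainC N p⟩, 3 * N + 60, fun x w G t hr hx hG hb => ?_⟩
  refine ⟨fun c => RamD.Is 0 c.drawn (RamD.St N x) c, ?_, ?_⟩
  · have hxl : x.length < 2 ^ w := by
      have := hb 0 (by positivity)
      nlinarith [Nat.zero_le (t 0), Nat.zero_le N, Nat.zero_le w, Nat.zero_le x.length,
        Nat.zero_le (x.length * w), Nat.zero_le (N * (t 0 + (x.length + 2) * (w + 1)))]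
    refine ⟨rfl, rfl, rfl, ?_, fun j hj => ?_, fun k hk => ?_⟩
    · simp [init, rg, Nat.mod_eq_of_lt hxl]
    · simp [init, hj, Nat.mod_eq_of_lt (hx _ (List.getElem_mem hj))]
    · simp [init]
  · rintro ⟨pc, ha, R, M, d⟩ ⟨h1, h2, -, h4⟩
    simp only at h1 h2 h4
    subst h1 h2
    refine ⟨rfl, fun U hU => ?_⟩
    obtain ⟨T, hT, c', h1, h2, h3, h5⟩ := RamD.round_exec (d := d) hN hp hn hU (hr U hU) hx (hG U hU)
      (hb U hU) h4
    refine ⟨T, ?_, hT, c', h1, h2, fun hg => ?_, h5⟩
    · by_contra h0
      obtain rfl : T = 0 := by omega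
      have := h1 (fun _ => U) (Nat.mod_eq_of_lt hU)
      rw [← this] at h2
      simp at h2
    · show RamD.Is 0 c'.drawn (RamD.St N x) c'
      rw [h2]; exact h3 hg

end Crest.Agent.R309
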