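import Crest.Agent.R309.Bridge

/-!
# Row 309: Ratio
Consecutive stages are close; the first stage is explicit.  `Φ X = κ * bet i * ∑_{ty e ∈ {0,1}} |X e|`.
* `kF (i+1) X ≤ kF i X + m` on the box (virtual edges have `X e ∈ {0,1}`; `bet` decreases, floors are monotone), and
  `κ kF i X ≤ κ kF (i+1) X + Φ X / pQ + κ m`;  `κ kF (i+1) X ≥ Φ X (1 - 1/pQ) - κ m`, `κ kF i X ≥ Φ X - κ m`, `κ m ≤ 1/50`.
  Points with `Φ X > 34 s²` have total weight (at both stages) `≤ exp (3 s²) exp (1 - 17 s²) ≤ exp (1 - 3 s²) ZZ` (`card_box`, `ZZ_lb`); on the others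
  `Φ / pQ ≤ 0.034`.
* `ZZ0_le`: at stage `0`, `kF 0 X ≥ pL0 * ∑_{ty e ≠ 2} |X e|`.  A flow with given divergence is determined by its values off the tree: if `C` is supported on tree
  edges and `div C = 0` then `0 = ∑ C e • chiF e = C - ∑_v div C v • P v = C`.  Hence `ZZ ≤ ∏_{ty ≠ 2} ∑_t q ^ |t| ≤ (1 + 3 q) ^ m ≤ exp (3/8)`,
  `q = th ^ pL0 ≤ 1 / (8 s)`.
* `HW0`: `ZZ0_le`, `ZZ_ge`, `one_le_ZZ`, `exp_pL0_le`, `keyF_uv`, `keyF_zero`.
-/

set_option autoImplicit false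

noncomputable section

namespace Crest.Agent.R309

open Finset Crest.Agent.Lib.PolyTime

/-- the part of the potential that moves with the temperature -/
private def rph (d : Edge) (s i : ℕ) (t : ℤ) : ℝ :=
  if d.ty = 3 ∨ d.ty = 2 then 0 else bet s i * (t.natAbs : ℕ)

private theorem rat_Q {s : ℕ} (hs : 20 ≤ s) : (1000 : ℝ) * s ^ 2 = pQ s ∧ (2 : ℝ) ≤ pQ s := by
  have h : (20 : ℝ) ≤ s := by exact_mod_cast hs
  have e : (1000 : ℝ) * s ^ 2 = pQ s := by simp [pQ]
  exact ⟨e, by rw [← e]; nlinarith⟩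

private theorem rat_edge {s : ℕ} (hs : 20 ≤ s) (d : Edge) (i : ℕ) (t : ℤ) (h3 : d.ty = 3 → t.natAbs ≤ 1) :
    (d.ke s (i + 1) t : ℝ) ≤ d.ke s i t + 1 ∧
      (d.ke s i t : ℝ) ≤ d.ke s (i + 1) t + rph d s i t / pQ s + 1 ∧
      rph d s i t / 2 - 1 ≤ d.ke s i t ∧ rph d s i t / 2 - 1 ≤ d.ke s (i + 1) t := by
  unfold Edge.ke rph
  by_cases a3 : d.ty = 3
  · simp only [a3, if_true, true_or, zero_div, add_zero, zero_sub]
    have h1 : min (pL0 s + (i + 1)) (pLm s) * t.natAbs ≤ min (pL0 s + i) (pLm s) * t.natAbs + 1 := by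
      rcases Nat.le_one_iff_eq_zero_or_eq_one.1 (h3 a3) with h | h <;> rw [h] <;> omega
    have h2 : min (pL0 s + i) (pLm s) * t.natAbs ≤ min (pL0 s + (i + 1)) (pLm s) * t.natAbs + 1 := by
      rcases Nat.le_one_iff_eq_zero_or_eq_one.1 (h3 a3) with h | h <;> rw [h] <;> omega
    refine ⟨by exact_mod_cast h1, by exact_mod_cast h2, ?_, ?_⟩ <;>
      exact le_trans (by norm_num) (Nat.cast_nonneg _)
  by_cases a2 : d.ty = 2
  · simp only [a2, if_true, or_true, zero_div, add_zero, zero_sub, zero_add]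
    norm_num
    exact le_trans (by norm_num) (Nat.cast_nonneg _)
  simp only [a3, a2, if_false, or_self, bet_floor hs, Nat.cast_add]
  obtain ⟨-, hQ⟩ := rat_Q hs
  have hb := (bet_pos hs i).le
  set x : ℝ := bet s i * (t.natAbs : ℕ) with hx
  have hx0 : 0 ≤ x := by positivity
  have e : bet s (i + 1) * (t.natAbs : ℕ) = x - x / pQ s := by rw [bet_succ hs, hx]; ring
  rw [e]
  have hq0 : 0 ≤ x / pQ s := by positivity
  have hq2 : x / pQ s ≤ x / 2 := div_le_div_of_nonneg_left hx0 two_pos hQ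
  have f1 : (⌊x - x / pQ s⌋₊ : ℝ) ≤ ⌊x⌋₊ := Nat.cast_le.2 (Nat.floor_mono (by linarith))
  have f2 := Nat.floor_le hx0
  have f3 := (Nat.lt_floor_add_one x).le
  have f4 := (Nat.lt_floor_add_one (x - x / pQ s)).le
  have f5 : (0 : ℝ) ≤ ((if d.ty = 0 then 0 else pP s * d.out t / d.R : ℕ) : ℝ) := Nat.cast_nonneg _
  refine ⟨by linarith, by linarith, by linarith, by linarith⟩

private theorem rat_geom {q : ℝ} (h0 : 0 ≤ q) (h1 : q ≤ 1 / 3) (N : ℕ) :
    ∑ t ∈ Icc (-(N : ℤ)) N, q ^ t.natAbs + 3 * q ^ (N + 1) ≤ 1 + 3 * q := by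
  induction N with
  | zero => simp
  | succ N ih =>
    have e : Icc (-((N + 1 : ℕ) : ℤ)) ((N + 1 : ℕ) : ℤ) =
        insert ((N + 1 : ℕ) : ℤ) (insert (-((N + 1 : ℕ) : ℤ)) (Icc (-(N : ℤ)) N)) := by
      ext t
      simp only [mem_insert, mem_Icc]
      omega
    rw [e, sum_insert (by simp only [mem_insert, mem_Icc]; omega),
      sum_insert (by simp only [mem_Icc]; omega), Int.natAbs_neg, Int.natAbs_natCast]
    have h2 : 0 ≤ q ^ (N + 1) := by positivity
    rw [pow_succ q (N + 1)]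
    nlinarith

private theorem rat_geom' {q : ℝ} (h0 : 0 ≤ q) (h1 : q ≤ 1 / 3) (A B : ℕ) :
    ∑ t ∈ Icc (-(A : ℤ)) B, q ^ t.natAbs ≤ 1 + 3 * q := by
  have h2 := rat_geom h0 h1 (A + B)
  have h3 : ∑ t ∈ Icc (-(A : ℤ)) B, q ^ t.natAbs ≤
      ∑ t ∈ Icc (-((A + B : ℕ) : ℤ)) ((A + B : ℕ) : ℤ), q ^ t.natAbs :=
    sum_le_sum_of_subset_of_nonneg (Icc_subset_Icc (by omega) (by omega)) fun _ _ _ => by positivity
  have h4 : 0 ≤ q ^ (A + B + 1) := by positivity
  linarith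

private theorem rat_exp {x : ℝ} (h : x ≤ 27 / 500) : Real.exp x ≤ 53 / 50 := by
  have h1 := Real.add_one_le_exp (-x)
  rw [Real.exp_neg] at h1
  have h2 := Real.exp_pos x
  have h3 := mul_le_mul_of_nonneg_right h1 h2.le
  rw [inv_mul_cancel₀ h2.ne'] at h3
  nlinarith

private theorem rat_tail {s : ℕ} (hs : 20 ≤ s) : Real.exp (1 - 3 * (s : ℝ) ^ 2) ≤ 1 / 10 := by
  have h : (20 : ℝ) ≤ s := by exact_mod_cast hs
  have h1 := Real.add_one_le_exp (-(1 - 3 * (s : ℝ) ^ 2))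
  rw [Real.exp_neg] at h1
  have h2 := Real.exp_pos (1 - 3 * (s : ℝ) ^ 2)
  have h3 := mul_le_mul_of_nonneg_right h1 h2.le
  rw [inv_mul_cancel₀ h2.ne'] at h3
  nlinarith

namespace Inst

variable {I : Inst} {s k i : ℕ} {rt : ℕ → ℕ} {P : ℕ → Fin I.m → ℤ} {hs : List ℤ}

/-- pointwise comparison of two consecutive stages -/
private theorem Valid.rat_pt (h : I.Valid s k rt P) (i : ℕ) {X : Fin I.m → ℤ} (hX : X ∈ I.boxF s k) :
    ka s * I.kF s (i + 1) X ≤ ka s * I.kF s i X + 1 / 50 ∧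
      (ka s * I.kF s i X ≤ ka s * I.kF s (i + 1) X + 27 / 500 ∨
        (17 * (s : ℝ) ^ 2 - 1 ≤ ka s * I.kF s i X ∧ 17 * (s : ℝ) ^ 2 - 1 ≤ ka s * I.kF s (i + 1) X)) := by
  have hs := h.s_ge
  have he : ∀ e : Fin I.m, _ := fun e => rat_edge hs (I.ed e) i (X e) fun a3 => by
    have h1 := Fintype.mem_piFinset.1 hX e
    obtain ⟨h2, h3⟩ := h.virt e a3
    have h4 : (I.ed e).ext s k = 0 := by simp [Edge.ext, a3]
    rw [mem_Icc, h2, h3, h4] at h1
    omega
  have s1 := sum_le_sum (s := univ) fun e _ => (he e).1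
  have s2 := sum_le_sum (s := univ) fun e _ => (he e).2.1
  have s3 := sum_le_sum (s := univ) fun e _ => (he e).2.2.1
  have s4 := sum_le_sum (s := univ) fun e _ => (he e).2.2.2
  simp only [sum_add_distrib, sum_sub_distrib, ← sum_div, sum_const, card_univ, Fintype.card_fin,
    nsmul_eq_mul, mul_one, ← Nat.cast_sum] at s1 s2 s3 s4
  change (I.kF s (i + 1) X : ℝ) ≤ I.kF s i X + _ at s1
  change (I.kF s i X : ℝ) ≤ I.kF s (i + 1) X + _ + _ at s2
  change _ ≤ (I.kF s i X : ℝ) at s3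
  change _ ≤ (I.kF s (i + 1) X : ℝ) at s4
  have hκ := ka_pos s
  have hm : ka s * I.m ≤ 1 / 50 :=
    (mul_le_mul_of_nonneg_left (Nat.cast_le.2 h.m_le) hκ.le).trans (ka_mul_le hs)
  have t1 := mul_le_mul_of_nonneg_left s1 hκ.le
  have t2 := mul_le_mul_of_nonneg_left s2 hκ.le
  have t3 := mul_le_mul_of_nonneg_left s3 hκ.le
  have t4 := mul_le_mul_of_nonneg_left s4 hκ.le
  set Φ : ℝ := ∑ e : Fin I.m, rph (I.ed e) s i (X e)
  refine ⟨by linarith, ?_⟩
  rcases le_total (ka s * Φ) (34 * (s : ℝ) ^ 2) with hc | hc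
  · left
    obtain ⟨hQ, hQ2⟩ := rat_Q hs
    have : ka s * (Φ / pQ s) ≤ 17 / 500 := by
      rw [← mul_div_assoc, div_le_iff₀ (by linarith), ← hQ]
      linarith
    linarith
  · right
    exact ⟨by linarith, by linarith⟩

private theorem Valid.rat_sum (h : I.Valid s k rt P) (S : Finset (Fin I.m → ℤ)) (hS : S ⊆ I.boxF s k)
    {f g : (Fin I.m → ℤ) → ℝ}
    (hfg : ∀ X ∈ S, f X ≤ 53 / 50 * g X + Real.exp (1 - 17 * (s : ℝ) ^ 2)) :
    ∑ X ∈ S, f X ≤ 53 / 50 * ∑ X ∈ S, g X + 1 / 10 * Real.exp (-(11 * (s : ℝ) ^ 2)) := by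
  refine (sum_le_sum hfg).trans ?_
  rw [sum_add_distrib, ← mul_sum, sum_const, nsmul_eq_mul]
  have h1 : (S.card : ℝ) ≤ Real.exp (3 * s ^ 2) := (Nat.cast_le.2 (card_le_card hS)).trans h.card_box
  have h2 : (S.card : ℝ) * Real.exp (1 - 17 * (s : ℝ) ^ 2) ≤
      Real.exp (1 - 3 * (s : ℝ) ^ 2) * Real.exp (-(11 * (s : ℝ) ^ 2)) := by
    refine (mul_le_mul_of_nonneg_right h1 (Real.exp_pos _).le).trans (le_of_eq ?_)
    rw [← Real.exp_add, ← Real.exp_add]
    congr 1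
    ring
  have h3 := mul_le_mul_of_nonneg_right (rat_tail h.s_ge) (Real.exp_pos (-(11 * (s : ℝ) ^ 2))).le
  linarith

private theorem rat_le {a b : ℝ} (h : b ≤ a + 27 / 500) : Real.exp (-a) ≤ 53 / 50 * Real.exp (-b) := by
  have e : Real.exp (-a) = Real.exp (b - a) * Real.exp (-b) := by
    rw [← Real.exp_add]; congr 1; ring
  rw [e]
  exact mul_le_mul_of_nonneg_right (rat_exp (by linarith)) (Real.exp_pos _).le

/-- a circulation supported on the tree vanishes -/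
private theorem Valid.rat_tree (h : I.Valid s k rt P) {C : Fin I.m → ℤ} (hC : I.gr.div C = 0)
    (hs : ∀ e : Fin I.m, (I.ed e).ty ≠ 2 → C e = 0) : C = 0 := by
  have h1 : ∑ e, C e • I.chiF P e = 0 := sum_eq_zero fun e _ => by
    by_cases a2 : (I.ed e).ty = 2
    · rw [h.tree e a2, smul_zero]
    · rw [hs e a2, zero_smul]
  have h2 : ∑ v ∈ range I.n, I.gr.div C v • P v = 0 := by simp [hC]
  have h3 : ∑ v ∈ range I.n, I.gr.div C v • P v = ∑ e, C e • (P (I.ed e).src - P (I.ed e).tgt) := by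
    simp only [Gr.div, sum_smul]
    rw [sum_comm]
    refine sum_congr rfl fun e _ => ?_
    simp only [sub_smul, ite_smul, zero_smul, sum_sub_distrib, gr, sum_ite_eq, mem_range, h.src_lt e,
      h.tgt_lt e, if_true, smul_sub]
  have h4 : ∑ e, C e • one e = C := by
    ext t
    simp [Pi.single_apply]
  have h5 : ∑ e, C e • I.chiF P e = ∑ e, C e • one e - ∑ e, C e • (P (I.ed e).src - P (I.ed e).tgt) := by
    rw [← sum_sub_distrib]
    refine sum_congr rfl fun e _ => ?_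
    rw [← smul_sub, chiF]
    congr 1
    abel
  rw [h1, h4, ← h3, h2, sub_zero] at h5
  exact h5.symm

theorem Valid.ZZ_ratio (h : I.Valid s k rt P) (i : ℕ) {w v : ℕ} (hw : w < I.n) (hv : v < I.n) :
    4 / 5 * I.ZZ s k i (uv w v) ≤ I.ZZ s k (i + 1) (uv w v) ∧
      I.ZZ s k (i + 1) (uv w v) ≤ 5 / 4 * I.ZZ s k i (uv w v) := by
  classical
  have hlb := h.ZZ_lb i hw hv
  have hpos : 0 < I.ZZ s k i (uv w v) := (Real.exp_pos _).trans_le hlb
  constructor
  · have h1 : I.ZZ s k i (uv w v) ≤ 53 / 50 * I.ZZ s k (i + 1) (uv w v) := by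
      unfold ZZ
      rw [mul_sum]
      refine sum_le_sum fun X hX => ?_
      rw [th_pow, th_pow]
      exact rat_le (by linarith [(h.rat_pt i (mem_filter.1 hX).1).1])
    linarith
  · have h1 : I.ZZ s k (i + 1) (uv w v) ≤
        53 / 50 * I.ZZ s k i (uv w v) + 1 / 10 * Real.exp (-(11 * (s : ℝ) ^ 2)) := by
      unfold ZZ
      refine h.rat_sum _ (filter_subset _ _) fun X hX => ?_
      rw [th_pow, th_pow]
      rcases (h.rat_pt i (mem_filter.1 hX).1).2 with hc | hc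
      · linarith [rat_le hc, Real.exp_pos (1 - 17 * (s : ℝ) ^ 2)]
      · have h2 : Real.exp (-(ka s * I.kF s (i + 1) X)) ≤ Real.exp (1 - 17 * (s : ℝ) ^ 2) :=
          Real.exp_le_exp.2 (by linarith [hc.2])
        linarith [Real.exp_pos (-(ka s * I.kF s i X))]
    linarith

theorem Valid.Ov_ge (h : I.Valid s k rt P) (hi : i < pI s) :
    I.ZZ s k i 0 ≤ 2 * I.Ov s k (i + 1) ∧ I.ZZ s k (i + 1) 0 ≤ 2 * I.Ov s k (i + 1) := by
  classical
  have hs := h.s_ge
  have hs' : (20 : ℝ) ≤ s := by exact_mod_cast hs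
  have hκ := ka_pos s
  have hD : 27 / 500 ≤ ka s * pD s := by
    have h1 : (pJ s : ℝ) ≤ pD s := by
      have h2 : (pJ s : ℝ) ≤ 128 * s := by exact_mod_cast pJ_le hs
      have h3 : (pD s : ℝ) = 10 ^ 6 * s ^ 4 := by unfold pD; push_cast; ring
      have h4 : (s : ℝ) ≤ s ^ 4 := le_self_pow₀ (by linarith) (by norm_num)
      linarith
    linarith [ka_ge s, mul_le_mul_of_nonneg_left h1 hκ.le]
  have hOv : I.Ov s k (i + 1) = ∑ X ∈ (I.boxF s k).filter (fun X => I.gr.div X = 0),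
      if I.kF s i X ≤ I.kF s (i + 1) X + pD s ∧ I.kF s (i + 1) X ≤ I.kF s i X + pD s then
        th s ^ max (I.kF s i X) (I.kF s (i + 1) X) else 0 := by
    rw [Ov, if_neg hi.ne, ← sum_filter, filter_filter]
  have key : ∀ j : ℕ, j = i ∨ j = i + 1 → I.ZZ s k j 0 ≤ 2 * I.Ov s k (i + 1) := by
    intro j hj
    have h1 : I.ZZ s k j 0 ≤ 53 / 50 * I.Ov s k (i + 1) + 1 / 10 * Real.exp (-(11 * (s : ℝ) ^ 2)) := by
      rw [hOv]
      unfold ZZ
      refine h.rat_sum _ (filter_subset _ _) fun X hX => ?_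
      obtain ⟨p1, p2⟩ := h.rat_pt i (mem_filter.1 hX).1
      rw [th_pow]
      rcases p2 with hc | hc
      · have c1 : I.kF s i X ≤ I.kF s (i + 1) X + pD s := by
          have : (I.kF s i X : ℝ) ≤ I.kF s (i + 1) X + pD s := le_of_mul_le_mul_left (by linarith) hκ
          exact_mod_cast this
        have c2 : I.kF s (i + 1) X ≤ I.kF s i X + pD s := by
          have : (I.kF s (i + 1) X : ℝ) ≤ I.kF s i X + pD s := le_of_mul_le_mul_left (by linarith) hκ
          exact_mod_cast this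
        rw [if_pos ⟨c1, c2⟩, th_pow]
        have c3 : ka s * (max (I.kF s i X) (I.kF s (i + 1) X) : ℕ) ≤ ka s * I.kF s j X + 27 / 500 := by
          rcases max_choice (I.kF s i X) (I.kF s (i + 1) X) with e | e <;> rw [e] <;>
            rcases hj with rfl | rfl <;> linarith
        linarith [rat_le c3, Real.exp_pos (1 - 17 * (s : ℝ) ^ 2)]
      · have h2 : Real.exp (-(ka s * I.kF s j X)) ≤ Real.exp (1 - 17 * (s : ℝ) ^ 2) :=
          Real.exp_le_exp.2 (by rcases hj with rfl | rfl <;> linarith [hc.1, hc.2])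
        have h3 : 0 ≤ if I.kF s i X ≤ I.kF s (i + 1) X + pD s ∧ I.kF s (i + 1) X ≤ I.kF s i X + pD s then
            th s ^ max (I.kF s i X) (I.kF s (i + 1) X) else 0 := by
          have := th_pos s
          split_ifs <;> positivity
        linarith
    have h2 := one_le_ZZ (I := I) s k j
    have h3 : Real.exp (-(11 * (s : ℝ) ^ 2)) ≤ 1 := Real.exp_le_one_iff.2 (neg_nonpos.2 (by positivity))
    linarith
  exact ⟨key i (Or.inl rfl), key (i + 1) (Or.inr rfl)⟩

theorem Valid.ZZ0_le (h : I.Valid s k rt P) (γ : ℕ → ℤ) : I.ZZ s k 0 γ ≤ 2 := by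
  classical
  have hs := h.s_ge
  have hs' : (20 : ℝ) ≤ s := by exact_mod_cast hs
  have hth := th_pos s
  set q : ℝ := th s ^ pL0 s with hq
  have hq0 : 0 ≤ q := by positivity
  have hq1 : q ≤ 1 / (8 * s) := th_pL0_le hs
  have hq2 : q * s ≤ 1 / 8 := by
    rw [le_div_iff₀ (by positivity)] at hq1
    linarith
  have hq3 : q ≤ 1 / 3 := by nlinarith
  set pr : (Fin I.m → ℤ) → Fin I.m → ℤ := fun X e => if (I.ed e).ty = 2 then 0 else X e with hpr
  set S := (I.boxF s k).filter fun X => I.gr.div X = γ with hS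
  have hinj : Set.InjOn pr S := by
    intro X hX Y hY hXY
    rw [← sub_eq_zero]
    refine h.rat_tree ?_ fun e he => ?_
    · rw [Gr.div_sub, (mem_filter.1 hX).2, (mem_filter.1 hY).2, sub_self]
    · have := congrFun hXY e
      simp only [hpr, he, if_false] at this
      rw [Pi.sub_apply, this, sub_self]
  have hsub : S.image pr ⊆ I.boxF s k := by
    intro Y hY
    obtain ⟨X, hX, rfl⟩ := mem_image.1 hY
    refine Fintype.mem_piFinset.2 fun e => ?_
    simp only [hpr]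
    split_ifs
    · exact Fintype.mem_piFinset.1 (zero_mem_boxF s k) e
    · exact Fintype.mem_piFinset.1 (mem_filter.1 hX).1 e
  have hpt : ∀ X, th s ^ I.kF s 0 X ≤ ∏ e, q ^ (pr X e).natAbs := by
    intro X
    rw [kF, ← prod_pow_eq_pow_sum]
    refine prod_le_prod (fun e _ => by positivity) fun e _ => ?_
    rw [hq, ← pow_mul]
    refine pow_le_pow_of_le_one hth.le (th_lt_one s).le ?_
    simp only [hpr, Edge.ke]
    by_cases a2 : (I.ed e).ty = 2
    · simp [a2]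
    · by_cases a3 : (I.ed e).ty = 3
      · simp [a3, min_eq_left (pL0_le_pLm hs)]
      · simp [a2, a3]
  calc I.ZZ s k 0 γ ≤ ∑ X ∈ S, ∏ e, q ^ (pr X e).natAbs := sum_le_sum fun X _ => hpt X
    _ = ∑ Y ∈ S.image pr, ∏ e, q ^ (Y e).natAbs := (sum_image (f := fun Y => ∏ e, q ^ (Y e).natAbs) hinj).symm
    _ ≤ ∑ Y ∈ I.boxF s k, ∏ e, q ^ (Y e).natAbs :=
        sum_le_sum_of_subset_of_nonneg hsub fun _ _ _ => by positivity
    _ = ∏ e : Fin I.m, ∑ t ∈ Icc (-(((I.ed e).lo + (I.ed e).ext s k : ℕ) : ℤ))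
          (((I.ed e).hi + (I.ed e).ext s k : ℕ) : ℤ), q ^ t.natAbs :=
        (prod_univ_sum _ fun _ (t : ℤ) => q ^ t.natAbs).symm
    _ ≤ ∏ _e : Fin I.m, Real.exp (3 * q) :=
        prod_le_prod (fun e _ => sum_nonneg fun _ _ => by positivity) fun e _ =>
          (rat_geom' hq0 hq3 _ _).trans (by linarith [Real.add_one_le_exp (3 * q)])
    _ = Real.exp (I.m * (3 * q)) := by rw [prod_const, card_univ, Fintype.card_fin, Real.exp_nat_mul]
    _ ≤ Real.exp (3 / 8) := by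
        have : (I.m : ℝ) ≤ s := Nat.cast_le.2 h.m_le
        exact Real.exp_le_exp.2 (by nlinarith)
    _ ≤ 2 := by
        have h1 := Real.add_one_le_exp (-(3 / 8 : ℝ))
        rw [Real.exp_neg] at h1
        have h2 := Real.exp_pos (3 / 8 : ℝ)
        have h3 := mul_le_mul_of_nonneg_right h1 h2.le
        rw [inv_mul_cancel₀ h2.ne'] at h3
        linarith

theorem Valid.HW0 (h : I.Valid s k rt P) : I.HW s k 0 rt (I.hs0 s) := by
  have hs := h.s_ge
  have hs' : (20 : ℝ) ≤ s := by exact_mod_cast hs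
  have hget : ∀ q, (I.hs0 s).getD q 0 = if q < I.n * I.n ∧ q ≠ 0 then -(pL0 s : ℤ) else 0 := by
    intro q
    unfold hs0
    by_cases hq : q < I.n * I.n
    · rw [List.getD_eq_getElem _ _ (by simpa using hq)]
      by_cases h0 : q = 0 <;> simp [hq, h0]
    · rw [List.getD_eq_default _ _ (by simpa using hq)]
      simp [hq]
  have hA : (pA s : ℝ) = 10 ^ 4 * s ^ 3 := by unfold pA; push_cast; ring
  have hA1 : 512 * (s : ℝ) ^ 2 ≤ pA s := by rw [hA]; nlinarith [sq_nonneg (s : ℝ)]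
  have hA2 : (2 : ℝ) ≤ pA s := by nlinarith
  have h1 := one_le_ZZ (I := I) s k 0
  refine ⟨⟨by simp [hs0], by rw [hget]; simp, fun q => ?_⟩, fun w hw v hv _ _ => ?_⟩
  · rw [hget]
    split_ifs <;> simp
  · by_cases hwv : w = v
    · subst hwv
      rw [uv_self, keyF_zero, hget]
      simp only [ne_eq, not_true_eq_false, and_false, if_false, Int.cast_zero, mul_zero, neg_zero,
        Real.exp_zero, one_mul]
      constructor <;> nlinarith
    · have h2 : I.keyF (uv w v) ≠ 0 := by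
        rw [keyF_uv hw hv hwv]
        intro h0
        have h3 : w * I.n = 0 := by omega
        rcases Nat.mul_eq_zero.1 h3 with h4 | h4 <;> omega
      rw [hget, if_pos ⟨keyF_lt hw hv, h2⟩]
      simp only [Int.cast_neg, Int.cast_natCast, mul_neg, neg_neg]
      have h3 := h.ZZ_ge 0 hw hv
      rw [add_zero, min_eq_left (pL0_le_pLm hs), th_pow, Real.exp_neg] at h3
      have h4 := Real.exp_pos (ka s * pL0 s)
      have h5 := mul_le_mul_of_nonneg_left h3 h4.le
      rw [mul_inv_cancel₀ h4.ne'] at h5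
      have h6 := h.ZZ0_le 0
      have h7 := h.ZZ0_le (uv w v)
      have h8 := exp_pL0_le hs
      have h9 : Real.exp (ka s * pL0 s) * I.ZZ s k 0 (uv w v) ≤ 256 * (s : ℝ) ^ 2 * 2 :=
        (mul_le_mul_of_nonneg_left h7 h4.le).trans (mul_le_mul_of_nonneg_right h8 zero_le_two)
      constructor <;> nlinarith

end Inst

end Crest.Agent.R309
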