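import Crest.Agent.R309.SmB

/-!
# Row 309: Smooth
The weak Poincaré inequality.  `Z' = Zs G rad aa`, `c = (∑_{sec 0} W * Ft F) / Z' 0`, `|c| ≤ 1`, `F' = Ft F - c`.
* `Vv 0 (Ft F) = 2 Z' 0 * Ll 0 F'`, so `wp_top` (with `sc_a`) gives `Ll 0 F' / Z' 0 ≤ K m ∑ Gh (2η e) DirM e (Ft F)`; `ti_top` with `d = 0`, `d' = δ`
  gives `Ll δ F' / Z' δ ≤ 2 m K ∑ (Gh (2η e) + 1) DirM e ≤ 2 m K * 49 m Γ² * 4 (n²+1) c2 * Dh F` (`dirM_Ft`, `dirM_Ft_zero`, `Good.Gh_le`; `DirM F' = DirM (Ft F)`).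
* `term_two`: `pi_le`, `sum_Om`, `card_defs_le` (inner points of the box lie in the cube of radius `rad`).
* `weak_poincare`: `var_le` with `c`; outer points cost `4 ε`; `(F - c)² ≤ 2 (F - Ft F)² + 2 (Ft F - c)²`; `2 e⁶ (2 + 784) ≤ 10⁶` (`e⁶ < 404`).
-/

set_option autoImplicit false

noncomputable section

namespace Crest.Agent.R309

open Finset

variable {E V : Type} [Fintype E] [DecidableEq E] [DecidableEq V]

/-- the second moment about the mean of the sector `0`, on any admissible sector -/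
theorem sm_sector (G : Gr E V) {R : ℕ} {a : E → ℤ → ℝ} {η : E → ℝ} {K : ℝ} (h : LC a R) (hc : SC a η)
    (h0 : ∀ e, 0 < η e) (hK : KC a K) (hK0 : 0 ≤ K) {γ : V → ℤ} (hZ : 0 < Zs G R a 0)
    (hZ' : 0 < Zs G R a γ) (hγ : IsDef γ) (f : (E → ℤ) → ℝ) :
    Ll G R a γ (fun X => f X - (∑ X ∈ sec G R 0, W a X * f X) / Zs G R a 0) / Zs G R a γ ≤
      K * (2 * Fintype.card E) * ∑ e, (Gh (η e) + 1) * DirM G R a 0 e f := by
  set c := (∑ X ∈ sec G R 0, W a X * f X) / Zs G R a 0 with hcd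
  have h1 : ∑ X ∈ sec G R 0, W a X * (f X - c) = 0 := by
    simp only [mul_sub, sum_sub_distrib, ← sum_mul]
    rw [← Zs, hcd, mul_div_cancel₀ _ hZ.ne', sub_self]
  have h2 : Vv G R a 0 f = Zs G R a 0 * (2 * Ll G R a 0 fun X => f X - c) := by
    have : Vv G R a 0 f = ∑ X ∈ sec G R 0, ∑ Y ∈ sec G R 0, (W a X * (f X - c) ^ 2 * W a Y +
        W a X * (W a Y * (f Y - c) ^ 2) - 2 * (W a X * (f X - c) * (W a Y * (f Y - c)))) :=
      sum_congr rfl fun X _ => sum_congr rfl fun Y _ => by ring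
    rw [this]
    simp only [sum_add_distrib, sum_sub_distrib, ← mul_sum, ← sum_mul, h1, Ll, Zs]
    ring
  have h3 := wp_top G 0 f h hc h0 hK hK0
  rw [h2, sq, mul_assoc] at h3
  have h4 := mul_le_mul_of_nonneg_left (le_of_mul_le_mul_left h3 hZ) hZ'.le
  have h5 := ti_top G (d := 0) (d' := γ) (by rwa [sub_zero]) (fun X => f X - c) h hc h0 hK hK0
  simp only [DirM, sub_sub_sub_cancel_right] at h5
  simp only [add_mul, one_mul, sum_add_distrib]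
  rw [div_le_iff₀ hZ']
  refine le_of_mul_le_mul_left ?_ hZ
  simp only [DirM] at h4 ⊢
  linarith

theorem sm_const {m A Γ K N : ℝ} (hm : 0 ≤ m) (hA : 1 ≤ A) (hΓ : 1 ≤ Γ) (hK : 1 ≤ K) (hN : 1 ≤ N) :
    2 * (m * (A * Real.exp 2 * (2 * Real.exp 4 * A ^ 2 * N))) +
      2 * (A * Real.exp 2 * N * (2 * m * K * (49 * m * Γ ^ 2) *
        (4 * N * (2 * Real.exp 4 * A ^ 2 * N)))) ≤
      10 ^ 6 * A ^ 3 * N ^ 3 * K * (m + 1) ^ 2 * Γ ^ 2 := by
  have h1 : Real.exp 2 * Real.exp 4 ≤ 405 := by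
    rw [← Real.exp_add, show (2 + 4 : ℝ) = (6 : ℕ) * 1 by norm_num, Real.exp_nat_mul]
    exact (pow_le_pow_left₀ (Real.exp_pos _).le
      (Real.exp_one_lt_d9.le.trans (show _ ≤ (2.72 : ℝ) by norm_num)) 6).trans (by norm_num)
  have h2 : 1 ≤ N ^ 2 * K * Γ ^ 2 :=
    one_le_mul_of_one_le_of_one_le (one_le_mul_of_one_le_of_one_le (one_le_pow₀ hN) hK)
      (one_le_pow₀ hΓ)
  have h3 : 4 * m + 1568 * m ^ 2 * (N ^ 2 * K * Γ ^ 2) ≤
      1568 * (m + 1) ^ 2 * (N ^ 2 * K * Γ ^ 2) := by nlinarith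
  have h4 : 0 ≤ A ^ 3 * N := by positivity
  have h5 := mul_le_mul_of_nonneg_left (mul_le_mul h1 h3 (by positivity) (by norm_num)) h4
  have h6 : 0 ≤ A ^ 3 * N ^ 3 * K * (m + 1) ^ 2 * Γ ^ 2 := by positivity
  linarith

namespace St

variable {σ : St E V} {L A Γ K Λ ε : ℝ}

omit [DecidableEq V] in
theorem sm_box {X : E → ℤ} (hX : X ∈ σ.box) (e : E) : |X e| ≤ σ.rad := by
  have h1 := mem_Icc.1 (Fintype.mem_piFinset.1 hX e)
  have h2 : (σ.bl e).natAbs + (σ.bu e).natAbs ≤ σ.rad :=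
    single_le_sum (f := fun e => (σ.bl e).natAbs + (σ.bu e).natAbs) (fun _ _ => Nat.zero_le _)
      (mem_univ e)
  rw [abs_le]
  omega

theorem Good.sum_dirM (h : σ.Good L A Γ K Λ ε) (hE : 0 < Fintype.card E) (F : (E → ℤ) → ℝ) :
    ∑ e, (Gh (2 * σ.eta Γ e) + 1) * DirM σ.G σ.rad (σ.aa L Γ) 0 e (σ.Ft F) ≤
      49 * Fintype.card E * Γ ^ 2 * (4 * ((σ.vs.card : ℝ) ^ 2 + 1) * σ.c2 A * σ.Dh F) := by
  rw [Dh_eq, mul_sum, mul_sum]
  refine sum_le_sum fun e _ => ?_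
  have h0 : 0 ≤ 4 * ((σ.vs.card : ℝ) ^ 2 + 1) * σ.c2 A * σ.Dhe e F := by
    have := Dhe_nonneg h.forest e F
    unfold c2
    positivity
  by_cases he : σ.chi e = 0
  · rw [dirM_Ft_zero h.forest _ _ he, mul_zero]
    positivity
  · refine (mul_le_mul_of_nonneg_left (h.dirM_Ft hE e F) (by unfold Gh; positivity)).trans ?_
    rw [mul_div_left_comm, mul_comm]
    exact mul_le_mul_of_nonneg_right (h.Gh_le hE he) h0

open Classical in
theorem Good.term_two (h : σ.Good L A Γ K Λ ε) (hE : 0 < Fintype.card E) (F : (E → ℤ) → ℝ) :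
    ∑ Y ∈ σ.Om.filter (fun Y => ∀ e, σ.Inner L e (Y e)), σ.pi Y *
        (σ.Ft F Y - (∑ X ∈ sec σ.G σ.rad 0, W (σ.aa L Γ) X * σ.Ft F X) / Zs σ.G σ.rad (σ.aa L Γ) 0) ^ 2 ≤
      A * Real.exp 2 * ((σ.vs.card : ℝ) ^ 2 + 1) * (2 * Fintype.card E * K * (49 * Fintype.card E * Γ ^ 2) *
        (4 * ((σ.vs.card : ℝ) ^ 2 + 1) * σ.c2 A) * σ.Dh F) := by
  have hL := h.lc_a hE
  have hA : 0 ≤ A * Real.exp 2 := mul_nonneg (zero_le_one.trans h.one_le.1) (Real.exp_pos _).le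
  have hK : 0 ≤ K := zero_le_one.trans h.one_le.2.2.1
  set c := (∑ X ∈ sec σ.G σ.rad 0, W (σ.aa L Γ) X * σ.Ft F X) / Zs σ.G σ.rad (σ.aa L Γ) 0
  set B := 2 * Fintype.card E * K * (49 * Fintype.card E * Γ ^ 2) *
    (4 * ((σ.vs.card : ℝ) ^ 2 + 1) * σ.c2 A) * σ.Dh F
  have hB : ∀ γ ∈ σ.defs, Ll σ.G σ.rad (σ.aa L Γ) γ (fun X => σ.Ft F X - c) /
      Zs σ.G σ.rad (σ.aa L Γ) γ ≤ B := fun γ hγ => by
    have hR := σ.mem_defs.1 hγ
    refine (sm_sector σ.G hL (h.sc_a hE) (fun e => mul_pos two_pos (h.eta_pos hE e)) (h.kc_a hE) hK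
      (h.Zs_pos hE (σ.isR_zero h.forest)) (h.Zs_pos hE hR) ?_ _).trans ?_
    · obtain ⟨w, -, v, -, -, -, e⟩ := hR
      exact Or.inr ⟨w, v, e⟩
    · exact (mul_le_mul_of_nonneg_left (h.sum_dirM hE F) (by positivity)).trans_eq (by ring)
  have h0 : ∀ Y, 0 ≤ A * Real.exp 2 * (W (σ.aa L Γ) Y * (σ.Ft F Y - c) ^ 2 /
      Zs σ.G σ.rad (σ.aa L Γ) (σ.G.div Y)) := fun Y => mul_nonneg hA
    (div_nonneg (mul_nonneg (W_nonneg hL _) (sq_nonneg _)) (Zs_nonneg _ hL _))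
  have hB0 : 0 ≤ B := le_trans (div_nonneg (ti_Ll_nonneg _ hL _ _) (Zs_nonneg _ hL _))
    (hB 0 (σ.mem_defs.2 (σ.isR_zero h.forest)))
  calc _ ≤ ∑ Y ∈ σ.Om.filter (fun Y => ∀ e, σ.Inner L e (Y e)), A * Real.exp 2 *
        (W (σ.aa L Γ) Y * (σ.Ft F Y - c) ^ 2 / Zs σ.G σ.rad (σ.aa L Γ) (σ.G.div Y)) :=
        sum_le_sum fun Y hY => (mul_le_mul_of_nonneg_right
          (h.pi_le hE (mem_filter.1 hY).1 (mem_filter.1 hY).2) (sq_nonneg _)).trans_eq (by ring)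
    _ ≤ _ := sum_le_sum_of_subset_of_nonneg (filter_subset _ _) fun Y _ _ => h0 Y
    _ = _ := σ.sum_Om _
    _ ≤ ∑ γ ∈ σ.defs, A * Real.exp 2 * B := sum_le_sum fun γ hγ => by
        refine le_trans ?_ (mul_le_mul_of_nonneg_left (hB γ hγ) hA)
        rw [Ll, sum_div, mul_sum]
        exact (sum_le_sum_of_subset_of_nonneg (fun X hX =>
          mem_sec.2 ⟨sm_box (mem_filter.1 hX).1, (mem_filter.1 hX).2⟩) fun Y _ _ => h0 Y).trans_eq
          (sum_congr rfl fun X hX => by rw [(mem_sec.1 hX).2])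
    _ ≤ _ := by
        rw [sum_const, nsmul_eq_mul, mul_right_comm (A * _), mul_comm]
        exact mul_le_mul_of_nonneg_left (σ.card_defs_le.trans (by linarith)) (mul_nonneg hA hB0)

theorem Good.weak_poincare (h : σ.Good L A Γ K Λ ε) (hE : 0 < Fintype.card E) (F : (E → ℤ) → ℝ)
    (hF : ∀ X, |F X| ≤ 1) : σ.var F ≤ σ.CP A Γ K * σ.Dh F + 4 * ε := by
  classical
  have hL := h.lc_a hE
  have h1 := h.term_one hE F
  have h2 := h.term_two hE F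
  have hp := fun X => (σ.pi_pos h.forest X).le
  set c := (∑ X ∈ sec σ.G σ.rad 0, W (σ.aa L Γ) X * σ.Ft F X) / Zs σ.G σ.rad (σ.aa L Γ) 0
  have hc : |c| ≤ 1 := by
    rw [abs_div, abs_of_nonneg (Zs_nonneg _ hL _)]
    refine div_le_one_of_le₀ ((abs_sum_le_sum_abs _ _).trans (sum_le_sum fun X _ => ?_))
      (Zs_nonneg _ hL _)
    rw [abs_mul, abs_of_nonneg (W_nonneg hL _)]
    exact mul_le_of_le_one_right (W_nonneg hL _) (abs_Ft_le h.forest hF X)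
  refine (σ.var_le h.forest F c).trans ?_
  rw [← sum_filter_add_sum_filter_not _ fun Y => ∀ e, σ.Inner L e (Y e)]
  refine add_le_add ?_ ?_
  · refine (sum_le_sum (g := fun Y => 2 * (σ.pi Y * (F Y - σ.Ft F Y) ^ 2) +
      2 * (σ.pi Y * (σ.Ft F Y - c) ^ 2)) fun Y _ => ?_).trans ?_
    · have := mul_nonneg (hp Y) (sq_nonneg (F Y - 2 * σ.Ft F Y + c))
      linarith
    rw [sum_add_distrib, ← mul_sum, ← mul_sum]
    refine (add_le_add (mul_le_mul_of_nonneg_left h1 zero_le_two)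
      (mul_le_mul_of_nonneg_left h2 zero_le_two)).trans ?_
    have := mul_le_mul_of_nonneg_right (sm_const (N := (σ.vs.card : ℝ) ^ 2 + 1)
      (Nat.cast_nonneg (Fintype.card E)) h.one_le.1 h.one_le.2.1 h.one_le.2.2.1
      (le_add_of_nonneg_left (sq_nonneg _))) (σ.Dh_nonneg h.forest F)
    rw [CP, c2]
    linarith
  · refine le_trans ?_ (mul_le_mul_of_nonneg_left (h.outer_mass hE) zero_le_four)
    rw [mul_sum]
    refine sum_le_sum fun Y _ => ?_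
    rw [mul_comm]
    refine mul_le_mul_of_nonneg_right ?_ (hp Y)
    have h3 := abs_le.1 hc
    have h4 := abs_le.1 (hF Y)
    nlinarith

end St

end Crest.Agent.R309
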