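import Crest.Agent.R309.Kernel
import Crest.Agent.R309.GoodSt
import Crest.Agent.R309.Smooth

/-!
# Row 309: Sample
The law of one sample.  `σ = mkSt ..`, `N = 2 ^ pr s`.
* `fold_avg`: induction on `t` (generalising the start `X ∈ Om`; `kernel`, `mstep_mem`, `T_congr`, `Function.iterate_succ_apply'`).
* `Zh_le'`: `St.Zh_le`.  `fold_mix`: `St.mix` with `C = pC`, `ε' = 4 ε` (`weak_poincare`, `CP_le`, `Dh_nonneg`), `pi 0 = 1 / Zh ≥ exp (-4 s²)`, `4 pM2 ≤ 8 s`.
* `sample_mix`: `avgL_append` with `pb = pmix + 1`.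
* means: `St.sum_Om` or direct filtering; `pi X = th ^ kF X * exp (-hh (div X)) / Zh`; `coin_avg` (`th ^ a * th ^ (b - a) = th ^ max a b`).
-/

set_option autoImplicit false

noncomputable section

namespace Crest.Agent.R309

open Finset Crest.Agent.Lib.PolyTime

namespace St

variable {E V : Type} [Fintype E] [DecidableEq E] [DecidableEq V] (σ : St E V)

omit [DecidableEq E] in
theorem sa_exp_H (X : E → ℤ) : Real.exp (-σ.H X) = σ.w X * Real.exp (-σ.hh (σ.G.div X)) := by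
  unfold H w
  rw [← Real.exp_add, neg_add]

theorem sa_pi (X : E → ℤ) : σ.pi X = σ.w X * Real.exp (-σ.hh (σ.G.div X)) / σ.Zh := by
  unfold pi
  rw [sa_exp_H]

open Classical in
/-- the mean of a function supported on one sector -/
theorem sa_mean_sec {γ : V → ℤ} (hγ : σ.IsR γ) {F : (E → ℤ) → ℝ}
    (hF : ∀ X ∈ σ.Om, σ.G.div X ≠ γ → F X = 0) :
    σ.mean F = Real.exp (-σ.hh γ) *
      (∑ X ∈ σ.box.filter (fun X => σ.G.div X = γ), σ.w X * F X) / σ.Zh := by
  unfold mean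
  have hsub : σ.box.filter (fun X => σ.G.div X = γ) ⊆ σ.Om := fun X hX => by
    rw [mem_filter] at hX
    exact σ.mx_mem_Om.2 ⟨hX.1, hX.2 ▸ hγ⟩
  rw [← sum_subset hsub, mul_sum, sum_div]
  · refine sum_congr rfl fun X hX => ?_
    rw [sa_pi, (mem_filter.1 hX).2]
    ring
  · intro X hX hX'
    rw [hF X hX fun e => hX' (mem_filter.2 ⟨(σ.mx_mem_Om.1 hX).1, e⟩), mul_zero]

theorem sa_mean_single {D : E → ℤ} (hD : D ∈ σ.Om) : (σ.mean fun X => ind (X = D)) = σ.pi D := by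
  unfold mean
  beta_reduce
  rw [sum_eq_single_of_mem D hD fun X _ hX => by rw [ind_of_not hX, mul_zero], ind_of rfl, mul_one]

end St

theorem sa_ind_congr {p q : Prop} (h : p ↔ q) : ind p = ind q := by rw [propext h]

theorem sa_pC_pos {s : ℕ} (hs : 20 ≤ s) (k : ℕ) : 0 < pC s k := by
  have : 0 < s := by omega
  unfold pC pA pK pG
  positivity

namespace Inst

variable {I : Inst} {s k i : ℕ} {rt : ℕ → ℕ} {P : ℕ → Fin I.m → ℤ} {hs : List ℤ}

theorem Valid.fold_mem (h : I.Valid s k rt P) {X : Fin I.m → ℤ} (hX : X ∈ (I.mkSt s k i rt P hs).Om)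
    (us : List ℕ) :
    ∃ Y ∈ (I.mkSt s k i rt P hs).Om, us.foldl (I.mstep s k i hs) (List.ofFn X) = List.ofFn Y := by
  induction us generalizing X with
  | nil => exact ⟨X, hX, rfl⟩
  | cons u us ih =>
    obtain ⟨Y, hY, e⟩ := h.mstep_mem hX u
    rw [List.foldl_cons, e]
    exact ih hY

theorem Valid.sample_mem (h : I.Valid s k rt P) (i : ℕ) (hs : List ℤ) (us : List ℕ) :
    ∃ Y ∈ (I.mkSt s k i rt P hs).Om, (I.sample s k i hs us).1 = List.ofFn Y := by
  unfold sample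
  rw [zeros_eq]
  exact h.fold_mem (St.zero_mem_Om _ (h.forest i hs)) _

theorem Valid.fold_avg (h : I.Valid s k rt P) (hi : i ≤ pI s) (hB : I.HB s i hs) (t : ℕ) {X : Fin I.m → ℤ}
    (hX : X ∈ (I.mkSt s k i rt P hs).Om) (f : (Fin I.m → ℤ) → ℝ) :
    avgL (2 ^ pr s) t (fun us => f (I.toF (us.foldl (I.mstep s k i hs) (List.ofFn X)))) =
      ((I.mkSt s k i rt P hs).T (pM2 s))^[t] f X := by
  induction t generalizing X with
  | zero =>
    change f (I.toF (List.ofFn X)) = f X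
    rw [toF_ofFn]
  | succ t ih =>
    rw [Function.iterate_succ_apply', ← h.kernel hi hB hX]
    refine avgN_congr fun u _ => ?_
    obtain ⟨Y, hY, e⟩ := h.mstep_mem hX u
    simp only [List.foldl_cons]
    rw [e, ih hY, toF_ofFn]

theorem Valid.Zh_le' (h : I.Valid s k rt P) (hW : I.HW s k i rt hs) :
    I.ZZ s k i 0 ≤ (I.mkSt s k i rt P hs).Zh ∧
      (I.mkSt s k i rt P hs).Zh ≤ ((s : ℝ) ^ 2 + 1) * pA s * I.ZZ s k i 0 ∧
      (I.mkSt s k i rt P hs).Zh ≤ Real.exp (4 * s ^ 2) := by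
  have hZ0 : 0 ≤ I.ZZ s k i 0 := zero_le_one.trans (one_le_ZZ s k i)
  have hA : (0 : ℝ) ≤ pA s := Nat.cast_nonneg _
  have h1 := (I.mkSt s k i rt P hs).Z_le_Zh (h.forest i hs) (mkSt_hh_zero hW.1.2.1)
  have h2 := (I.mkSt s k i rt P hs).Zh_le hA fun γ hγ => by
    obtain ⟨w, hw, v, hv, hw', hv', rfl⟩ := mkSt_isR.1 hγ
    rw [mkSt_Z, mkSt_Z]
    exact (hW.2 w hw v hv hw' hv').2
  rw [mkSt_Z] at h1 h2
  have h3 : (((I.mkSt s k i rt P hs).vs.card : ℕ) : ℝ) ≤ s := by
    change (((range I.n).card : ℕ) : ℝ) ≤ s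
    rw [card_range]
    exact_mod_cast h.n_le
  have h4 : (I.mkSt s k i rt P hs).Zh ≤ ((s : ℝ) ^ 2 + 1) * pA s * I.ZZ s k i 0 :=
    h2.trans (by gcongr)
  refine ⟨h1, h4, h4.trans ?_⟩
  rw [show (4 * s ^ 2 : ℝ) = s ^ 2 + 3 * s ^ 2 by ring, Real.exp_add]
  exact mul_le_mul (pA_le h.s_ge) (h.ZZ_le i 0) hZ0 (Real.exp_pos _).le

theorem sa_pi_div_zero (h0 : hs.getD 0 0 = 0) {X : Fin I.m → ℤ} (hX : I.gr.div X = 0)
    (hk : I.kF s i X = 0) : (I.mkSt s k i rt P hs).pi X = 1 / (I.mkSt s k i rt P hs).Zh := by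
  have e : (I.mkSt s k i rt P hs).G.div X = 0 := hX
  rw [St.sa_pi, mkSt_w, e, mkSt_hh_zero h0, hk]
  simp

theorem Valid.fold_mix (h : I.Valid s k rt P) (hi : i ≤ pI s) (hW : I.HW s k i rt hs)
    {f : (Fin I.m → ℤ) → ℝ} (hf : ∀ X, |f X| ≤ 1) :
    |avgL (2 ^ pr s) (pmix s k) (fun us => f (I.toF (us.foldl (I.mstep s k i hs) I.zeros))) -
      (I.mkSt s k i rt P hs).mean f| ≤ Real.exp (-(k + 14 * s ^ 2)) := by
  have hF := h.forest i hs
  have hs20 : (20 : ℝ) ≤ s := by exact_mod_cast h.s_ge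
  have hC : (1 : ℝ) ≤ pC s k := by exact_mod_cast sa_pC_pos h.s_ge k
  have hM : Fintype.card (Fin I.m) ≤ pM2 s := by
    rw [Fintype.card_fin]
    exact h.m_le.trans (lt_pM2 s).le
  have hM0 : 0 < pM2 s := (Nat.zero_le s).trans_lt (lt_pM2 s)
  have hE : 0 < Fintype.card (Fin I.m) := by
    rw [Fintype.card_fin]
    exact h.m_pos
  have hmix := (I.mkSt s k i rt P hs).mix hF hM hM0 hC
    (ε := 4 * Real.exp (-(2 * k + 80 * s ^ 2))) (by positivity)
    (fun F hFb => ((h.good hW).weak_poincare hE F hFb).trans (by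
      have := mul_le_mul_of_nonneg_right (h.CP_le (i := i) (hs := hs))
        ((I.mkSt s k i rt P hs).Dh_nonneg hF F)
      linarith)) hf (pmix s k)
  rw [zeros_eq, h.fold_avg hi hW.1 _ (St.zero_mem_Om _ hF)]
  rw [sa_pi_div_zero hW.1.2.1 (Gr.div_zero _) (kF_zero s i)] at hmix
  set D := ((I.mkSt s k i rt P hs).T (pM2 s))^[pmix s k] f 0 - (I.mkSt s k i rt P hs).mean f
  have hZ := (I.mkSt s k i rt P hs).Zh_pos hF
  have hZ' := (h.Zh_le' hW).2.2
  have h1 : Real.exp (-(pmix s k : ℝ) / (4 * pM2 s * pC s k)) ≤ Real.exp (-(2 * k + 34 * s ^ 2)) := by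
    refine Real.exp_le_exp.2 ?_
    have hM1 : (0 : ℝ) < pM2 s := by exact_mod_cast hM0
    have hM2 : (pM2 s : ℝ) ≤ 2 * s := by exact_mod_cast pM2_le h.s_ge
    rw [neg_div, neg_le_neg_iff, le_div_iff₀ (by positivity)]
    unfold pmix
    push_cast
    have : (2 * k + 34 * s ^ 2 : ℝ) * (4 * pM2 s * pC s k) ≤
        (2 * k + 34 * s ^ 2 : ℝ) * (4 * (2 * s) * pC s k) := by gcongr
    linarith
  have h2 : Real.exp (-(2 * k + 80 * s ^ 2)) ≤ Real.exp (-(2 * k + 34 * (s : ℝ) ^ 2)) :=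
    Real.exp_le_exp.2 (by nlinarith)
  have h3 : D ^ 2 ≤ Real.exp (4 * s ^ 2) * (5 * Real.exp (-(2 * k + 34 * (s : ℝ) ^ 2))) := by
    rw [one_div, inv_mul_le_iff₀ hZ] at hmix
    refine hmix.trans (mul_le_mul hZ' (by linarith) (by positivity) (by positivity))
  have h4 : (5 : ℝ) ≤ Real.exp (2 * s ^ 2) := by
    have := Real.add_one_le_exp (2 * (s : ℝ) ^ 2)
    nlinarith
  have h5 : Real.exp (-(k + 14 * (s : ℝ) ^ 2)) ^ 2 =
      Real.exp (4 * s ^ 2) * (Real.exp (2 * s ^ 2) * Real.exp (-(2 * k + 34 * (s : ℝ) ^ 2))) := by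
    rw [sq, ← Real.exp_add, ← Real.exp_add, ← Real.exp_add]
    congr 1
    ring
  refine abs_le_of_sq_le_sq ?_ (Real.exp_pos _).le
  rw [h5]
  exact h3.trans (by gcongr)

theorem Valid.sample_mix (h : I.Valid s k rt P) (hi : i ≤ pI s) (hW : I.HW s k i rt hs)
    (g : List ℤ → ℕ → Prop) :
    |avgL (2 ^ pr s) (pb s k) (fun us => ind (g (I.sample s k i hs us).1 (I.sample s k i hs us).2)) -
      (I.mkSt s k i rt P hs).mean fun X => avgN (2 ^ pr s) fun u => ind (g (List.ofFn X) u)| ≤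
      Real.exp (-(k + 14 * s ^ 2)) := by
  have hN : 0 < 2 ^ pr s := by positivity
  have hm := h.fold_mix hi hW (f := fun X => avgN (2 ^ pr s) fun u => ind (g (List.ofFn X) u))
    fun X => _root_.abs_le.2 ⟨by
      have := avgN_mono (N := 2 ^ pr s) fun u _ => ind_nonneg (g (List.ofFn X) u)
      rw [avgN_const hN] at this
      linarith, (avgN_mono fun u _ => ind_le_one (g (List.ofFn X) u)).trans (avgN_const hN 1).le⟩
  have e : avgL (2 ^ pr s) (pb s k)
      (fun us => ind (g (I.sample s k i hs us).1 (I.sample s k i hs us).2)) =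
      avgL (2 ^ pr s) (pmix s k) fun us => avgN (2 ^ pr s) fun u =>
        ind (g (List.ofFn (I.toF (us.foldl (I.mstep s k i hs) I.zeros))) u) := by
    unfold pb
    rw [avgL_append]
    refine avgL_congr fun us hus => ?_
    rw [avgL_one]
    refine avgN_congr fun u _ => ?_
    obtain ⟨Y, -, eY⟩ := h.fold_mem (St.zero_mem_Om _ (h.forest i hs)) us
    rw [← zeros_eq] at eY
    have e1 : (I.sample s k i hs (us ++ [u])).1 = List.ofFn Y := by
      unfold sample
      rw [List.take_left' hus.1, eY]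
    have e2 : (I.sample s k i hs (us ++ [u])).2 = u := by
      unfold sample
      rw [← hus.1]
      simp
    rw [e1, e2, eY, toF_ofFn]
  rw [e]
  exact hm

theorem Valid.mean_key (h : I.Valid s k rt P) {w v : ℕ} (hw : w < I.n) (hv : v < I.n) (hw' : rt w = w)
    (hv' : rt v = v) :
    ((I.mkSt s k i rt P hs).mean fun X => avgN (2 ^ pr s) fun _ => ind (I.key (List.ofFn X) = I.keyF (uv w v))) =
      Real.exp (-(ka s * hs.getD (I.keyF (uv w v)) 0)) * I.ZZ s k i (uv w v) / (I.mkSt s k i rt P hs).Zh := by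
  classical
  have hN : 0 < 2 ^ pr s := by positivity
  have _ := h
  rw [St.sa_mean_sec _ (mkSt_isR.2 ⟨w, hw, v, hv, hw', hv', rfl⟩)]
  · rw [← mkSt_Z (rt := rt) (P := P) (hs := hs)]
    unfold St.Z
    congr 2
    refine sum_congr (by congr) fun X hX => ?_
    have e : I.gr.div X = uv w v := (mem_filter.1 hX).2
    rw [avgN_const hN, key_ofFn, e, ind_of rfl, mul_one]
  · intro X hX hne
    obtain ⟨w', hw1, v', hv1, -, -, e⟩ := mkSt_isR.1 ((St.mx_mem_Om _).1 hX).2
    have e' : I.gr.div X = uv w' v' := e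
    rw [avgN_const hN, key_ofFn, e']
    exact ind_of_not fun hk => hne (e.trans (keyF_inj hw1 hv1 hw hv hk))

open Classical in
theorem Valid.sa_ovl_avg (h : I.Valid s k rt P) (i i' : ℕ) (X : Fin I.m → ℤ) :
    avgN (2 ^ pr s) (fun u => ind (I.ovl s i i' (List.ofFn X) u = true)) =
      if I.gr.div X = 0 ∧ I.kF s i X ≤ I.kF s i' X + pD s ∧ I.kF s i' X ≤ I.kF s i X + pD s then
        th s ^ (I.kF s i' X - I.kF s i X) else 0 := by
  have hN : 0 < 2 ^ pr s := by positivity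
  have e : ∀ u, I.ovl s i i' (List.ofFn X) u = true ↔
      (I.gr.div X = 0 ∧ I.kF s i X ≤ I.kF s i' X + pD s ∧ I.kF s i' X ≤ I.kF s i X + pD s) ∧
        coin s (I.kF s i' X - I.kF s i X) u = true := fun u => by
    unfold ovl
    simp only [Bool.and_eq_true, decide_eq_true_eq, h.div_all, kTot_ofFn, and_assoc]
  split_ifs with hc
  · rw [← coin_avg s (by omega : I.kF s i' X - I.kF s i X ≤ pD s)]
    exact avgN_congr fun u _ => sa_ind_congr (by rw [e, and_iff_right hc])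
  · rw [← avgN_const hN 0]
    exact avgN_congr fun u _ => ind_of_not fun hu => hc ((e u).1 hu).1

open Classical in
theorem Valid.sa_mean_ovl (h : I.Valid s k rt P) (h0 : hs.getD 0 0 = 0) (i' : ℕ) :
    ((I.mkSt s k i rt P hs).mean fun X => avgN (2 ^ pr s) fun u =>
      ind (I.ovl s i i' (List.ofFn X) u = true)) =
      (∑ X ∈ (I.boxF s k).filter (fun X => I.gr.div X = 0 ∧ I.kF s i X ≤ I.kF s i' X + pD s ∧
        I.kF s i' X ≤ I.kF s i X + pD s), th s ^ max (I.kF s i X) (I.kF s i' X)) /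
        (I.mkSt s k i rt P hs).Zh := by
  rw [St.sa_mean_sec _ (St.isR_zero _ (h.forest i hs))]
  · rw [mkSt_hh_zero h0, neg_zero, Real.exp_zero, one_mul, mkSt_box, sum_filter, sum_filter]
    congr 1
    refine sum_congr rfl fun X _ => ?_
    rw [h.sa_ovl_avg, mkSt_w]
    by_cases hc : I.gr.div X = 0 ∧ I.kF s i X ≤ I.kF s i' X + pD s ∧ I.kF s i' X ≤ I.kF s i X + pD s
    · rw [if_pos hc, if_pos hc, if_pos (show (I.mkSt s k i rt P hs).G.div X = 0 from hc.1), ← pow_add]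
      congr 1
      omega
    · rw [if_neg hc, if_neg hc, mul_zero, ite_self]
  · intro X _ hne
    rw [h.sa_ovl_avg, if_neg fun hc => hne hc.1]

theorem Valid.mean_alpha (h : I.Valid s k rt P) (h0 : hs.getD 0 0 = 0) :
    ((I.mkSt s k i rt P hs).mean fun X => avgN (2 ^ pr s) fun u => ind (I.alpha s i (List.ofFn X) u = true)) =
      I.Ov s k (i + 1) / (I.mkSt s k i rt P hs).Zh := by
  classical
  have hN : 0 < 2 ^ pr s := by positivity
  unfold alpha Ov
  by_cases hi : i = pI s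
  · simp only [if_pos hi, h.goodL_ofFn, avgN_const hN]
    unfold St.mean
    beta_reduce
    rw [← sum_subset (h.GS_subset_Om i hs) fun X _ hX => by rw [ind_of_not hX, mul_zero],
      sum_congr rfl (g := fun _ => 1 / (I.mkSt s k i rt P hs).Zh) fun X hX => by
        rw [ind_of hX, mul_one, sa_pi_div_zero h0 (mem_GS.1 hX).1 (hi ▸ h.kF_final hX)],
      sum_const, nsmul_eq_mul, mul_one_div]
  · simp only [if_neg hi]
    rw [h.sa_mean_ovl h0]

theorem Valid.mean_beta (h : I.Valid s k rt P) (hi : i ≤ pI s) (h0 : hs.getD 0 0 = 0) :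
    ((I.mkSt s k i rt P hs).mean fun X => avgN (2 ^ pr s) fun u => ind (I.beta s i (List.ofFn X) u = true)) =
      I.Ov s k i / (I.mkSt s k i rt P hs).Zh := by
  classical
  have hN : 0 < 2 ^ pr s := by positivity
  unfold beta
  cases i with
  | zero =>
    simp only [if_true, all_zero_ofFn, avgN_const hN]
    rw [St.sa_mean_single _ (St.zero_mem_Om _ (h.forest 0 hs)),
      sa_pi_div_zero h0 (Gr.div_zero _) (kF_zero s 0)]
    rfl
  | succ j =>
    have hj : j ≠ pI s := by omega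
    simp only [if_neg (Nat.succ_ne_zero j), Nat.add_sub_cancel]
    rw [h.sa_mean_ovl h0]
    rw [Ov, if_neg hj]
    congr 1
    refine sum_congr (filter_congr fun X _ => by tauto) fun X _ => by rw [max_comm]

theorem Valid.mean_point (h : I.Valid s k rt P) (h0 : hs.getD 0 0 = 0) {D : Fin I.m → ℤ} (hD : D ∈ I.GS) :
    ((I.mkSt s k (pI s) rt P hs).mean fun X => avgN (2 ^ pr s) fun _ => ind (List.ofFn X = List.ofFn D)) =
      1 / (I.mkSt s k (pI s) rt P hs).Zh := by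
  have hN : 0 < 2 ^ pr s := by positivity
  simp only [avgN_const hN, List.ofFn_injective.eq_iff]
  rw [St.sa_mean_single _ (h.GS_subset_Om _ hs hD), sa_pi_div_zero h0 (mem_GS.1 hD).1 (h.kF_final hD)]

end Inst

end Crest.Agent.R309
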