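import Crest.Agent.R309.Load

/-!
# Row 309: TI
The transport inequality between the sector `d'` (one defect) and the perfect sector `d`.
For any `LC` system `sum_fib` gives `Z d * L d' = ∑_S L_S d'`, `Z d' * L d = ∑_S L_S d`, `Z d * Z d' = ∑_S Z_S d`
(`S` over `sec (2R) (d + d')`).
* `ti_grd`: induction on the number of odd `S e` as in `wp_grd` (see `WP.lean`): `Z d = Z d' = Z`; the fibre `S' = S` is the system
  itself, so `(Z - 1) L d' ≤ 2 (Z - 1) L d + 2 m (Z - 1) ∑ Dir` (`dir_fib`, `load_le`).  If `Z ≤ 1`: always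
  `L d' ≤ 2 L d + 2 m Z ∑ Dir` by `walk` from `X` to `S - X` and `sum_sym`.
* `ti_err`: induction on `k`, no loss per level.  `ti_sym`: `k → ∞`.  `ti_top`: `load_top`.
-/

set_option autoImplicit false
set_option linter.unusedSectionVars false

noncomputable section

namespace Crest.Agent.R309

open Finset

variable {E V : Type} [Fintype E] [DecidableEq E] [DecidableEq V]

theorem ti_Ll_nonneg (G : Gr E V) {a : E → ℤ → ℝ} {R : ℕ} (h : LC a R) (γ : V → ℤ)
    (F : (E → ℤ) → ℝ) : 0 ≤ Ll G R a γ F :=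
  sum_nonneg fun X _ => mul_nonneg (W_nonneg h X) (sq_nonneg _)

theorem ti_Dir_nonneg (G : Gr E V) (a : E → ℤ → ℝ) (R : ℕ) (d : V → ℤ) (F : (E → ℤ) → ℝ) :
    0 ≤ 2 * Fintype.card E * ∑ e, Dir G R a d e F :=
  mul_nonneg (by positivity) (sum_nonneg fun _ _ => sum_nonneg fun _ _ => by positivity)

theorem ti_fib_L (G : Gr E V) {a : E → ℤ → ℝ} {R : ℕ} (h : LC a R) (P P' : V → ℤ)
    (F : (E → ℤ) → ℝ) :
    ∑ S ∈ sec G (2 * R) (P + P'), Ll G R (fib a S) P F = Zs G R a P' * Ll G R a P F := by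
  have := sum_fib G h P P' fun X _ => F X ^ 2
  simp only [Ll, Zs]
  rw [← this, mul_comm, sum_mul_sum]
  exact sum_congr rfl fun X _ => sum_congr rfl fun Y _ => by ring

theorem ti_fib_Z (G : Gr E V) {a : E → ℤ → ℝ} {R : ℕ} (h : LC a R) (P P' : V → ℤ) :
    ∑ S ∈ sec G (2 * R) (P + P'), Zs G R (fib a S) P = Zs G R a P' * Zs G R a P := by
  simpa [Ll, Zs] using ti_fib_L G h P P' fun _ => 1

theorem ti_Z_eq (G : Gr E V) {a : E → ℤ → ℝ} {R : ℕ} {S : E → ℤ} (h : LC a R) (hs : Sym a S)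
    {d d' : V → ℤ} (hS : G.div S = d + d') : Zs G R a d' = Zs G R a d := by
  rw [← Zs_sym G h hs d, hS, add_sub_cancel_left]

theorem ti_fib_D (G : Gr E V) {a : E → ℤ → ℝ} {R : ℕ} {S : E → ℤ} (h : LC a R) (hs : Sym a S)
    {d d' : V → ℤ} (hS : G.div S = d + d') (hd : IsDef (d' - d)) (F : (E → ℤ) → ℝ) :
    ∑ S' ∈ sec G (2 * R) (d + d'), ∑ e, Dir G R (fib a S') d e F ≤
      Zs G R a d * ∑ e, Dir G R a d e F := by
  rw [sum_comm, mul_sum]
  refine sum_le_sum fun e _ => ?_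
  rw [dir_fib G h, Dir, mul_sum]
  refine sum_le_sum fun X _ => ?_
  rw [← mul_assoc, mul_comm (Zs G R a d)]
  exact mul_le_mul_of_nonneg_right (mul_le_mul_of_nonneg_left (load_le G h hs hS hd _ e)
    (Real.sqrt_nonneg _)) (sq_nonneg _)

theorem ti_W_grd {S X : E → ℤ} (h : ∀ e, |2 * X e - S e| ≤ 1) : W (grd S) X = 1 :=
  prod_eq_one fun e _ => if_pos (h e)

theorem ti_W_grd_ne {S X : E → ℤ} (h : W (grd S) X ≠ 0) (e : E) : |2 * X e - S e| ≤ 1 := by
  by_contra h1
  exact h (prod_eq_zero (mem_univ e) (if_neg h1))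

theorem ti_fib_grd {S S' X : E → ℤ} (h1 : ∀ e, |2 * X e - S e| ≤ 1)
    (h2 : ∀ e, |2 * (S' e - X e) - S e| ≤ 1) : fib (grd S) S' = grd S' := by
  funext e t
  have a1 := abs_le.1 (h1 e)
  have a2 := abs_le.1 (h2 e)
  simp only [fib, grd, abs_le]
  split_ifs <;> first | omega | simp

/-- the crude bound, useful when `Z ≤ 1` -/
theorem ti_crude (G : Gr E V) {R : ℕ} {S : E → ℤ} (hR : S ∈ cube E (2 * R)) {d d' : V → ℤ}
    (hd : IsDef (d' - d)) (hS : G.div S = d + d') (F : (E → ℤ) → ℝ) :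
    Ll G R (grd S) d' F ≤ 2 * Ll G R (grd S) d F +
      Zs G R (grd S) d' * (2 * Fintype.card E * ∑ e, Dir G R (grd S) d e F) := by
  have h := lc_grd hR
  have e1 := sum_sym G h (sym_grd S) d' fun X => F X ^ 2
  rw [hS, add_sub_cancel_right] at e1
  rw [Ll, Ll, e1, Zs, mul_sum, sum_mul, ← sum_add_distrib]
  refine sum_le_sum fun X hX => ?_
  rcases eq_or_ne (W (grd S) X) 0 with h0 | h0
  · simp [h0]
  have hc := ti_W_grd_ne h0
  obtain ⟨hX1, hX2⟩ := mem_sec.1 hX
  have hY : S - X ∈ cube E R := by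
    by_contra hY
    exact h0 (((sym_grd S).W X).symm.trans (W_eq_zero h hY))
  have hw := walk G (d := d) (X := X) (Y := S - X) (by rwa [hX2])
    (by rw [G.div_sub, hS, hX2, add_sub_cancel_right]) (mem_cube.2 hX1) hY F
  have b1 : ((∑ e, |X e - (S - X) e| : ℤ) : ℝ) ≤ Fintype.card E := by
    have : ∑ e, |X e - (S - X) e| ≤ ∑ _e : E, (1 : ℤ) := sum_le_sum fun e _ => by
      have := hc e
      rwa [show X e - (S - X) e = 2 * X e - S e by simp only [Pi.sub_apply]; ring]
    rw [sum_const, card_univ, nsmul_eq_mul, mul_one] at this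
    exact_mod_cast this
  have b2 : (F X - F (S - X)) ^ 2 ≤ Fintype.card E * ∑ e, Dir G R (grd S) d e F := by
    refine hw.trans (mul_le_mul b1 (sum_le_sum fun e _ => ?_)
      (sum_nonneg fun _ _ => sum_nonneg fun _ _ => sq_nonneg _) (Nat.cast_nonneg _))
    refine le_trans (le_of_eq (sum_congr rfl fun Z hZ => ?_))
      (sum_le_sum_of_subset_of_nonneg (filter_subset _ _) fun _ _ _ => by positivity)
    obtain ⟨hZ1, hZ2⟩ := (mem_filter.1 hZ).2
    rw [ti_W_grd (X := Z) fun e' => ?_, ti_W_grd (X := Z + one e) fun e' => ?_]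
    · simp
    · have a1 := abs_le.1 (hc e')
      have a2 := hZ1 e'
      simp only [Pi.sub_apply, Pi.add_apply] at a2 hZ2 ⊢
      rw [abs_le]
      rcases eq_or_ne e' e with rfl | he
      · rw [one, Pi.single_eq_same]; omega
      · rw [one, Pi.single_eq_of_ne he]; omega
    · have a1 := abs_le.1 (hc e')
      have a2 := hZ1 e'
      simp only [Pi.sub_apply] at a2
      rw [abs_le]
      omega
  rw [ti_W_grd hc]
  nlinarith [sq_nonneg (F X - 2 * F (S - X))]

theorem ti_grd (G : Gr E V) {R : ℕ} {S : E → ℤ} (hR : S ∈ cube E (2 * R)) {d d' : V → ℤ}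
    (hd : IsDef (d' - d)) (hS : G.div S = d + d') (F : (E → ℤ) → ℝ) :
    Ll G R (grd S) d' F ≤ 2 * Ll G R (grd S) d F +
      2 * Fintype.card E * ∑ e, Dir G R (grd S) d e F := by
  induction hn : (univ.filter fun e => S e % 2 = 1).card using Nat.strong_induction_on
    generalizing S with
  | _ n ih =>
  have h := lc_grd hR
  have hs := sym_grd S
  have hZ := ti_Z_eq G h hs hS
  rcases le_or_gt (Zs G R (grd S) d) 1 with h1 | h1
  · refine (ti_crude G hR hd hS F).trans (add_le_add le_rfl ?_)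
    exact mul_le_of_le_one_left (ti_Dir_nonneg G _ R d F) (hZ.trans_le h1)
  have hmem : S ∈ sec G (2 * R) (d + d') := mem_sec.2 ⟨mem_cube.1 hR, hS⟩
  have hself : fib (grd S) S = grd S := by
    funext e t
    simp only [fib, grd, abs_le]
    split_ifs <;> first | omega | simp
  have key : ∀ S' ∈ (sec G (2 * R) (d + d')).erase S, Ll G R (fib (grd S) S') d' F ≤
      2 * Ll G R (fib (grd S) S') d F +
        2 * Fintype.card E * ∑ e, Dir G R (fib (grd S) S') d e F := by
    intro S' hS'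
    obtain ⟨hne, hS'⟩ := mem_erase.1 hS'
    obtain ⟨c1, c2⟩ := mem_sec.1 hS'
    by_cases h0 : ∀ X, W (fib (grd S) S') X = 0
    · have : Ll G R (fib (grd S) S') d' F = 0 := by simp [Ll, h0]
      rw [this]
      exact add_nonneg (mul_nonneg zero_le_two (ti_Ll_nonneg G (h.fib S') d F))
        (ti_Dir_nonneg G _ R d F)
    obtain ⟨X, hX⟩ := not_forall.1 h0
    rw [W_fib] at hX
    have a1 := ti_W_grd_ne (left_ne_zero_of_mul hX)
    have a2 := ti_W_grd_ne (right_ne_zero_of_mul hX)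
    rw [ti_fib_grd a1 a2]
    refine ih _ ?_ (mem_cube.2 c1) c2 rfl
    rw [← hn]
    refine card_lt_card ⟨fun e he => ?_, fun hsub => hne (funext fun e => ?_)⟩
    · have b1 := abs_le.1 (a1 e)
      have b2 := abs_le.1 (a2 e)
      simp only [mem_filter, mem_univ, true_and, Pi.sub_apply] at he b2 ⊢
      omega
    · have b1 := abs_le.1 (a1 e)
      have b2 := abs_le.1 (a2 e)
      have b3 := @hsub e
      simp only [mem_filter, mem_univ, true_and, Pi.sub_apply] at b2 b3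
      omega
  have t := sum_le_sum key
  rw [sum_add_distrib, ← mul_sum, ← mul_sum, sum_erase_eq_sub hmem, sum_erase_eq_sub hmem,
    sum_erase_eq_sub hmem, hself, ti_fib_L G h, add_comm d d', ti_fib_L G h, add_comm d' d, hZ] at t
  have t2 := mul_le_mul_of_nonneg_left (ti_fib_D G h hs hS hd F)
    (show (0 : ℝ) ≤ 2 * Fintype.card E by positivity)
  refine le_of_mul_le_mul_left ?_ (sub_pos.2 h1)
  linarith

theorem ti_err' (G : Gr E V) {R : ℕ} {d d' : V → ℤ} (hd : IsDef (d' - d)) {F : (E → ℤ) → ℝ}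
    {B : ℝ} (hB : 0 ≤ B) (hF : ∀ X ∈ cube E R, F X ^ 2 ≤ B) (k : ℕ) {a : E → ℤ → ℝ} {S : E → ℤ}
    {η₀ : ℝ} (h : LC a R) (hs : Sym a S) (hc : SC a fun _ => η₀) (h0 : 0 < η₀)
    (hS : G.div S = d + d') :
    Ll G R a d' F ≤ 2 * Ll G R a d F + 2 * Fintype.card E * ∑ e, Dir G R a d e F +
      B * (cube E R).card * Real.exp (-(2 ^ k * η₀) / 2) * Zs G R a d := by
  have hL := ti_Ll_nonneg G h d F
  have hD := ti_Dir_nonneg G a R d F
  have hZ0 := Zs_nonneg G h d
  induction k generalizing a S η₀ with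
  | zero =>
    obtain ⟨X₀, hX₀, hcen⟩ := exists_center G hS (by simpa using hd.neg)
    have ex := excited_le h hs hc (fun _ => le_rfl) h0.le hcen
    have c0 := W_nonneg h X₀
    rw [pow_zero, one_mul]
    rcases eq_or_ne (W a X₀) 0 with hz | hz
    · have : Ll G R a d' F ≤ 0 := sum_nonpos fun X _ =>
        mul_nonpos_of_nonpos_of_nonneg (by simpa [hz] using (ex X).2) (sq_nonneg _)
      exact this.trans (by positivity)
    have m1 : X₀ ∈ cube E R := by_contra fun hY => hz (W_eq_zero h hY)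
    have m2 : S - X₀ ∈ cube E R := by_contra fun hY => hz ((hs.W X₀).symm.trans (W_eq_zero h hY))
    have hR : S ∈ cube E (2 * R) := mem_cube.2 fun e => by
      have a1 := abs_le.1 (mem_cube.1 m1 e)
      have a2 := abs_le.1 (mem_cube.1 m2 e)
      simp only [Pi.sub_apply] at a2
      rw [abs_le]; push_cast; omega
    have g := mul_le_mul_of_nonneg_left (ti_grd G hR hd hS F) c0
    have g0 := W_nonneg (lc_grd hR)
    have b1 : W a X₀ ≤ Zs G R a d :=
      single_le_sum (fun X _ => W_nonneg h X) (mem_sec.2 ⟨mem_cube.1 m1, hX₀⟩)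
    have b2 : W a X₀ * Ll G R (grd S) d F ≤ Ll G R a d F := by
      rw [Ll, mul_sum]
      exact sum_le_sum fun X _ => (mul_assoc _ _ _).symm.trans_le
        (mul_le_mul_of_nonneg_right (ex X).1 (sq_nonneg _))
    have b3 : W a X₀ * ∑ e, Dir G R (grd S) d e F ≤ ∑ e, Dir G R a d e F := by
      rw [mul_sum]
      refine sum_le_sum fun e _ => ?_
      rw [Dir, mul_sum]
      refine sum_le_sum fun X _ => (mul_assoc _ _ _).symm.trans_le
        (mul_le_mul_of_nonneg_right (Real.le_sqrt_of_sq_le ?_) (sq_nonneg _))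
      rw [mul_pow, Real.sq_sqrt (mul_nonneg (g0 _) (g0 _)), sq, mul_mul_mul_comm]
      exact mul_le_mul (ex X).1 (ex _).1 (mul_nonneg c0 (g0 _)) (W_nonneg h _)
    have b4 : Ll G R a d' F ≤ W a X₀ * Ll G R (grd S) d' F +
        B * (cube E R).card * Real.exp (-η₀ / 2) * W a X₀ := by
      have hsub : sec G R d' ⊆ cube E R := fun X hX => mem_cube.2 (mem_sec.1 hX).1
      have : Ll G R a d' F ≤ ∑ X ∈ sec G R d', (W a X₀ * (W (grd S) X * F X ^ 2) +
          B * (Real.exp (-η₀ / 2) * W a X₀)) := sum_le_sum fun X hX => by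
        have a1 := mul_le_mul_of_nonneg_right (ex X).2 (sq_nonneg (F X))
        have a2 := mul_le_mul_of_nonneg_right (hF X (hsub hX))
          (show 0 ≤ Real.exp (-η₀ / 2) * W a X₀ by positivity)
        linarith
      rw [sum_add_distrib, ← mul_sum, sum_const, nsmul_eq_mul] at this
      have a3 : ((sec G R d').card : ℝ) ≤ (cube E R).card := by exact_mod_cast card_le_card hsub
      have a4 := mul_le_mul_of_nonneg_right a3
        (show 0 ≤ B * (Real.exp (-η₀ / 2) * W a X₀) by positivity)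
      unfold Ll at this ⊢
      linarith
    have b5 := mul_le_mul_of_nonneg_left b1
      (show 0 ≤ B * (cube E R).card * Real.exp (-η₀ / 2) by positivity)
    have b6 := mul_le_mul_of_nonneg_left b3 (show (0 : ℝ) ≤ 2 * Fintype.card E by positivity)
    linarith
  | succ k ih =>
    have hZ := ti_Z_eq G h hs hS
    rcases hZ0.eq_or_lt with hz | hz
    · have a1 := (sum_eq_zero_iff_of_nonneg fun X _ => W_nonneg h X).1 (hZ.trans hz.symm)
      have : Ll G R a d' F = 0 := sum_eq_zero fun X hX => by rw [a1 X hX, zero_mul]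
      rw [this]; positivity
    have t := sum_le_sum fun S' (hS' : S' ∈ sec G (2 * R) (d + d')) =>
      ih (h.fib S') (sym_fib a S') (SC.fib h hc S') (by positivity) (mem_sec.1 hS').2
        (ti_Ll_nonneg G (h.fib S') d F) (ti_Dir_nonneg G _ R d F) (Zs_nonneg G (h.fib S') d)
    rw [sum_add_distrib, sum_add_distrib, ← mul_sum, ← mul_sum, ← mul_sum, ti_fib_L G h,
      ti_fib_Z G h, add_comm d d', ti_fib_L G h, add_comm d' d, hZ,
      show (2 : ℝ) ^ k * (2 * η₀) = 2 ^ (k + 1) * η₀ by ring] at t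
    have t2 := mul_le_mul_of_nonneg_left (ti_fib_D G h hs hS hd F)
      (show (0 : ℝ) ≤ 2 * Fintype.card E by positivity)
    refine le_of_mul_le_mul_left ?_ hz
    linarith

theorem ti_err (G : Gr E V) {R : ℕ} {d d' : V → ℤ} (hd : IsDef (d' - d)) {F : (E → ℤ) → ℝ}
    (hF : ∀ X, |F X| ≤ 1) (k : ℕ) {a : E → ℤ → ℝ} {S : E → ℤ} {η₀ : ℝ} (h : LC a R) (hs : Sym a S)
    (hc : SC a fun _ => η₀) (h0 : 0 < η₀) (hS : G.div S = d + d') :
    Ll G R a d' F ≤ 2 * Ll G R a d F + 2 * Fintype.card E * ∑ e, Dir G R a d e F +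
      (cube E R).card * Real.exp (-(2 ^ k * η₀) / 2) * Zs G R a d := by
  simpa only [one_mul] using ti_err' G hd zero_le_one
    (fun X _ => (sq_le_one_iff_abs_le_one _).2 (hF X)) k h hs hc h0 hS

theorem ti_sym (G : Gr E V) {R : ℕ} {d d' : V → ℤ} (hd : IsDef (d' - d)) (F : (E → ℤ) → ℝ)
    {a : E → ℤ → ℝ} {S : E → ℤ} {η : E → ℝ} (h : LC a R) (hs : Sym a S) (hc : SC a η)
    (h0 : ∀ e, 0 < η e) (hS : G.div S = d + d') :
    Ll G R a d' F ≤ 2 * Ll G R a d F + 2 * Fintype.card E * ∑ e, Dir G R a d e F := by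
  obtain ⟨η₀, h1, h2⟩ : ∃ η₀ : ℝ, 0 < η₀ ∧ ∀ e, η₀ ≤ η e := by
    rcases isEmpty_or_nonempty E with hE | hE
    · exact ⟨1, one_pos, fun e => isEmptyElim e⟩
    · obtain ⟨e₀, he⟩ := Finite.exists_min η
      exact ⟨η e₀, h0 e₀, he⟩
  have hc' : SC a fun _ => η₀ := fun e t => (hc e t).trans
    (mul_le_mul_of_nonneg_right (Real.exp_le_exp.2 (neg_le_neg (h2 e))) (sq_nonneg _))
  have l1 : Filter.Tendsto (fun k : ℕ => Real.exp (-(2 ^ k * η₀) / 2)) Filter.atTop (nhds 0) :=
    Real.tendsto_exp_atBot.comp ((Filter.tendsto_neg_atTop_atBot.comp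
      ((tendsto_pow_atTop_atTop_of_one_lt one_lt_two).atTop_mul_const h1)).atBot_div_const two_pos)
  have l2 := ((l1.const_mul ((∑ X ∈ cube E R, F X ^ 2) * (cube E R).card)).mul_const
    (Zs G R a d)).const_add (2 * Ll G R a d F + 2 * Fintype.card E * ∑ e, Dir G R a d e F)
  rw [mul_zero, zero_mul, add_zero] at l2
  exact ge_of_tendsto' l2 fun k => ti_err' G hd (sum_nonneg fun _ _ => sq_nonneg _)
    (fun X hX => single_le_sum (f := fun X => F X ^ 2) (fun _ _ => sq_nonneg _) hX) k h hs hc' h1 hS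

theorem ti_top (G : Gr E V) {R : ℕ} {d d' : V → ℤ} (hd : IsDef (d' - d)) (F : (E → ℤ) → ℝ)
    {a : E → ℤ → ℝ} {η : E → ℝ} {K : ℝ} (h : LC a R) (hc : SC a η) (h0 : ∀ e, 0 < η e) (hK : KC a K)
    (hK0 : 0 ≤ K) :
    Zs G R a d * Ll G R a d' F ≤ 2 * (Zs G R a d' * Ll G R a d F) +
      Zs G R a d * Zs G R a d' * (K * (2 * Fintype.card E) * ∑ e, DirM G R a d e F) := by
  have t := sum_le_sum fun S (hS : S ∈ sec G (2 * R) (d + d')) =>
    ti_sym G hd F (h.fib S) (sym_fib a S) (SC.fib h hc S) (fun e => mul_pos two_pos (h0 e))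
      (mem_sec.1 hS).2
  rw [sum_add_distrib, ← mul_sum, ← mul_sum, ti_fib_L G h, add_comm d d', ti_fib_L G h,
    add_comm d' d] at t
  have t2 : ∑ S ∈ sec G (2 * R) (d + d'), ∑ e, Dir G R (fib a S) d e F ≤
      K * (Zs G R a d * Zs G R a d') * ∑ e, DirM G R a d e F := by
    rw [sum_comm, mul_sum]
    refine sum_le_sum fun e _ => ?_
    rw [dir_fib G h, DirM, mul_sum]
    refine sum_le_sum fun X hX => ?_
    rw [← mul_assoc]
    classical
    exact mul_le_mul_of_nonneg_right (load_top G h hK hK0 hd X (mem_filter.1 hX).1 e) (sq_nonneg _)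
  have t3 := mul_le_mul_of_nonneg_left t2 (show (0 : ℝ) ≤ 2 * Fintype.card E by positivity)
  linarith

end Crest.Agent.R309
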