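import Crest.Agent.R309.Load

/-!
# Row 309: WP
The weighted Poincaré inequality.  `m = card E`.
* `Vv_fib`: `sum_fib`.   `Zs_mul_Aa_le`: `2 V - Z A = Z ∑ W (F + F̄)² - (∑ W (F + F̄))² ≥ 0` (`F̄ X = F (S - X)`, `sum_sym`).
* `wp_grd` by strong induction on the number of odd `S e`.  `fib (grd S) S'` is `grd S'` when `|S' e - S e| ≤ [S e odd]` for all `e`, and has
  `W = 0` everywhere otherwise; for `S' ≠ S` of the first kind there are fewer odd edges.  `V = A_S + ∑_{S' ≠ S} A_{S'}`,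
  `∑_{S' ≠ S} Dir (fib _ S') ≤ (Z/2 - 1) Dir` (`dir_fib`, `load_grd`, the term `S' = S` is `Dir` itself), so `(Z - 2) A ≤ 2 m (Z - 2) ∑ Dir`.
  If `Z ≤ 2` use `walk`: always `A ≤ Z * m * ∑ Dir`.
* `wp_err` by induction on `k` (generalising `a S η η₀`): `k = 0` from `exists_center`, `excited_le`, `wp_grd` (if `W a X₀ = 0` everything
  vanishes; otherwise `S ∈ cube (2R)`); step: `Z A ≤ 2 V = 2 ∑_{S'} A_{S'}`, `dir_fib`, `load_le`/`load_strong`, `Gh_small`/`Gh_large`.
* `wp_sym`: `k → ∞`, and scale `F` (only finitely many values matter: replace `F` by a bounded function agreeing with it on the cube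
  of radius `R + 1`... or note that all terms with `W ≠ 0` only see the cube).   `wp_top`: `Vv_fib`, `wp_sym`, `dir_fib`, `load_top`.
-/

set_option autoImplicit false

noncomputable section

namespace Crest.Agent.R309

open Finset

variable {E V : Type} [Fintype E] [DecidableEq E] [DecidableEq V]

theorem Vv_fib (G : Gr E V) {a : E → ℤ → ℝ} {R : ℕ} (h : LC a R) (d : V → ℤ) (F : (E → ℤ) → ℝ) :
    Vv G R a d F = ∑ S ∈ sec G (2 * R) (d + d), Aa G R (fib a S) d S F :=
  sum_fib G h d d (fun X Y => (F X - F Y) ^ 2)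

private theorem Vv_eq (G : Gr E V) (R : ℕ) (a : E → ℤ → ℝ) (d : V → ℤ) (F : (E → ℤ) → ℝ) :
    Vv G R a d F = 2 * Zs G R a d * (∑ X ∈ sec G R d, W a X * F X ^ 2) -
      2 * (∑ X ∈ sec G R d, W a X * F X) ^ 2 := by
  have h1 : Zs G R a d * (∑ X ∈ sec G R d, W a X * F X ^ 2) =
      ∑ X ∈ sec G R d, ∑ Y ∈ sec G R d, W a X * (W a Y * F Y ^ 2) := by
    rw [Zs, sum_mul_sum]
  have h2 : Zs G R a d * (∑ X ∈ sec G R d, W a X * F X ^ 2) =
      ∑ X ∈ sec G R d, ∑ Y ∈ sec G R d, W a X * F X ^ 2 * W a Y := by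
    rw [mul_comm, Zs, sum_mul_sum]
  have h3 : (∑ X ∈ sec G R d, W a X * F X) ^ 2 =
      ∑ X ∈ sec G R d, ∑ Y ∈ sec G R d, W a X * F X * (W a Y * F Y) := by
    rw [sq, sum_mul_sum]
  have h4 : Vv G R a d F = (∑ X ∈ sec G R d, ∑ Y ∈ sec G R d, W a X * (W a Y * F Y ^ 2)) +
      (∑ X ∈ sec G R d, ∑ Y ∈ sec G R d, W a X * F X ^ 2 * W a Y) -
      2 * ∑ X ∈ sec G R d, ∑ Y ∈ sec G R d, W a X * F X * (W a Y * F Y) := by
    simp only [Vv, mul_sum, ← sum_add_distrib, ← sum_sub_distrib]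
    exact sum_congr rfl fun X _ => sum_congr rfl fun Y _ => by ring
  rw [h4, ← h1, ← h2, ← h3]; ring

private theorem Vv_nonneg (G : Gr E V) {a : E → ℤ → ℝ} {R : ℕ} (h : LC a R) (d : V → ℤ)
    (F : (E → ℤ) → ℝ) : 0 ≤ Vv G R a d F :=
  sum_nonneg fun X _ => sum_nonneg fun Y _ =>
    mul_nonneg (mul_nonneg (W_nonneg h X) (W_nonneg h Y)) (sq_nonneg _)

private theorem Dir_nonneg (G : Gr E V) (R : ℕ) (a : E → ℤ → ℝ) (d : V → ℤ) (e : E)
    (F : (E → ℤ) → ℝ) : 0 ≤ Dir G R a d e F :=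
  sum_nonneg fun _ _ => mul_nonneg (Real.sqrt_nonneg _) (sq_nonneg _)

private theorem isDef_self (d : V → ℤ) : IsDef (d - d) := Or.inl (sub_self d)

theorem Zs_mul_Aa_le (G : Gr E V) {a : E → ℤ → ℝ} {R : ℕ} {S : E → ℤ} (h : LC a R) (hs : Sym a S)
    {d : V → ℤ} (hS : G.div S = d + d) (F : (E → ℤ) → ℝ) :
    Zs G R a d * Aa G R a d S F ≤ 2 * Vv G R a d F := by
  have hd : G.div S - d = d := by rw [hS, add_sub_cancel_right]
  have s1 := sum_sym G h hs d F
  have s2 := sum_sym G h hs d (fun X => F X ^ 2)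
  rw [hd] at s1 s2
  have h0 := Vv_nonneg G h d (fun X => F X + F (S - X))
  rw [Vv_eq] at h0
  have e1 : ∑ X ∈ sec G R d, W a X * (F X + F (S - X)) = 2 * ∑ X ∈ sec G R d, W a X * F X := by
    simp only [mul_add, sum_add_distrib]; rw [← s1]; ring
  have e2 : ∑ X ∈ sec G R d, W a X * (F X + F (S - X)) ^ 2 + Aa G R a d S F =
      4 * ∑ X ∈ sec G R d, W a X * F X ^ 2 := by
    have : ∑ X ∈ sec G R d, W a X * (F X + F (S - X)) ^ 2 + Aa G R a d S F =
        2 * ∑ X ∈ sec G R d, W a X * F X ^ 2 + 2 * ∑ X ∈ sec G R d, W a X * F (S - X) ^ 2 := by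
      simp only [Aa, mul_sum, ← sum_add_distrib]
      exact sum_congr rfl fun X _ => by ring
    rw [this, ← s2]; ring
  rw [e1, eq_sub_of_add_eq e2] at h0
  rw [Vv_eq]
  linarith

private theorem W_grd_one {S X : E → ℤ} (h : ∀ e, |2 * X e - S e| ≤ 1) : W (grd S) X = 1 :=
  prod_eq_one fun e _ => if_pos (h e)

private theorem W_grd_ne {S X : E → ℤ} (h : W (grd S) X ≠ 0) (e : E) : |2 * X e - S e| ≤ 1 := by
  by_contra hc
  exact h (prod_eq_zero (mem_univ e) (if_neg hc))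

private theorem fib_grd_eq {S S' : E → ℤ}
    (h : ∀ e, S' e = S e ∨ (S e % 2 = 1 ∧ (S' e = S e + 1 ∨ S' e = S e - 1))) :
    fib (grd S) S' = grd S' := by
  funext e t
  have := h e
  simp only [fib, grd, abs_le]
  split_ifs <;> first | omega | simp

private theorem W_fib_grd_zero {S S' : E → ℤ}
    (h : ¬ ∀ e, S' e = S e ∨ (S e % 2 = 1 ∧ (S' e = S e + 1 ∨ S' e = S e - 1))) (X : E → ℤ) :
    W (fib (grd S) S') X = 0 := by
  obtain ⟨e, he⟩ := not_forall.1 h
  refine prod_eq_zero (mem_univ e) ?_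
  simp only [fib, grd, abs_le]
  split_ifs <;> first | omega | simp

/-- the crude bound from the walk lemma -/
private theorem Aa_grd_le (G : Gr E V) {R : ℕ} {S : E → ℤ} (hR : S ∈ cube E (2 * R)) {d : V → ℤ}
    (hS : G.div S = d + d) (F : (E → ℤ) → ℝ) :
    Aa G R (grd S) d S F ≤
      Zs G R (grd S) d * (Fintype.card E * ∑ e, Dir G R (grd S) d e F) := by
  classical
  have hL := lc_grd hR
  rw [Aa, Zs, sum_mul]
  refine sum_le_sum fun X hX => ?_
  by_cases hW : W (grd S) X = 0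
  · rw [hW, zero_mul, zero_mul]
  refine mul_le_mul_of_nonneg_left ?_ (W_nonneg hL X)
  have hXc := W_grd_ne hW
  obtain ⟨hX1, hX2⟩ := mem_sec.1 hX
  have hY : S - X ∈ cube E R := by
    by_contra hc
    exact hW (((sym_grd S).W X).symm.trans (W_eq_zero hL hc))
  have hdY : G.div (S - X) = d := by rw [G.div_sub, hS, hX2, add_sub_cancel_right]
  have hw := walk G (R := R) (d := d) (X := X) (Y := S - X) (by rw [hX2]; exact isDef_self d) hdY
    (mem_cube.2 hX1) hY F
  refine hw.trans (mul_le_mul ?_ (sum_le_sum fun e _ => ?_)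
    (sum_nonneg fun e _ => sum_nonneg fun _ _ => sq_nonneg _) (Nat.cast_nonneg _))
  · have : (∑ e, |X e - (S - X) e| : ℤ) ≤ ∑ _e : E, (1 : ℤ) := sum_le_sum fun e _ => by
      have := hXc e
      rw [Pi.sub_apply]
      rw [abs_le] at this ⊢
      omega
    rw [sum_const, card_univ, nsmul_eq_mul, mul_one] at this
    exact_mod_cast this
  · refine le_trans (le_of_eq (sum_congr rfl fun Z hZ => ?_))
      (sum_le_sum_of_subset_of_nonneg (filter_subset _ _)
        fun _ _ _ => mul_nonneg (Real.sqrt_nonneg _) (sq_nonneg _))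
    obtain ⟨-, hZ1, hZ2⟩ := mem_filter.1 hZ
    have w1 : W (grd S) Z = 1 := W_grd_one fun e' => by
      have h1 := hXc e'
      have h2 := hZ1 e'
      rw [Pi.sub_apply] at h2
      rw [abs_le] at h1 ⊢
      omega
    have w2 : W (grd S) (Z + one e) = 1 := W_grd_one fun e' => by
      have h1 := hXc e'
      have h2 := hZ1 e'
      rw [Pi.sub_apply] at h2 hZ2
      rw [abs_le] at h1 ⊢
      by_cases he : e' = e
      · subst he
        simp only [Pi.add_apply, one, Pi.single_eq_same]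
        omega
      · simp only [Pi.add_apply, one, Pi.single_eq_of_ne he]
        omega
    rw [w1, w2, mul_one, Real.sqrt_one, one_mul]

/-- a bound for the loads bounds the sum of the Dirichlet forms of the fibres -/
private theorem sum_dir_fib_le (G : Gr E V) {a : E → ℤ → ℝ} {R : ℕ} (h : LC a R) (D d : V → ℤ) (e : E)
    (F : (E → ℤ) → ℝ) {c B : ℝ}
    (hB : ∀ γ, c * ∑ C ∈ sec G R γ, √(W a C * W a (C - one e)) ≤ B) :
    c * ∑ S ∈ sec G (2 * R) D, Dir G R (fib a S) d e F ≤ B * Dir G R a d e F := by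
  rw [dir_fib G h, Dir, mul_sum, mul_sum]
  refine sum_le_sum fun X _ => ?_
  have := mul_le_mul_of_nonneg_left (hB (D - G.div X))
    (mul_nonneg (Real.sqrt_nonneg (W a X * W a (X + one e))) (sq_nonneg (F (X + one e) - F X)))
  linarith

theorem wp_grd (G : Gr E V) {R : ℕ} {S : E → ℤ} (hR : S ∈ cube E (2 * R)) {d : V → ℤ}
    (hS : G.div S = d + d) (F : (E → ℤ) → ℝ) :
    Aa G R (grd S) d S F ≤ 2 * Fintype.card E * ∑ e, Dir G R (grd S) d e F := by
  classical
  induction hn : (univ.filter fun e => S e % 2 = 1).card using Nat.strong_induction_on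
    generalizing S with
  | _ n ih =>
  have hL := lc_grd hR
  have hD : 0 ≤ (Fintype.card E : ℝ) * ∑ e, Dir G R (grd S) d e F :=
    mul_nonneg (Nat.cast_nonneg _) (sum_nonneg fun e _ => Dir_nonneg G R _ d e F)
  rcases le_or_gt (Zs G R (grd S) d) 2 with hZ | hZ
  · refine (Aa_grd_le G hR hS F).trans ?_
    rw [mul_assoc]
    exact mul_le_mul_of_nonneg_right hZ hD
  have hSm : S ∈ sec G (2 * R) (d + d) := mem_sec.2 ⟨mem_cube.1 hR, hS⟩
  have hff : fib (grd S) S = grd S := fib_grd_eq fun e => Or.inl rfl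
  have h1 : ∀ S' ∈ (sec G (2 * R) (d + d)).erase S, Aa G R (fib (grd S) S') d S' F ≤
      2 * Fintype.card E * ∑ e, Dir G R (fib (grd S) S') d e F := by
    intro S' hS'
    obtain ⟨hne, hS'⟩ := mem_erase.1 hS'
    obtain ⟨h2, h3⟩ := mem_sec.1 hS'
    by_cases hc : ∀ e, S' e = S e ∨ (S e % 2 = 1 ∧ (S' e = S e + 1 ∨ S' e = S e - 1))
    · rw [fib_grd_eq hc]
      refine ih _ ?_ (mem_cube.2 h2) h3 rfl
      rw [← hn]
      refine card_lt_card ⟨fun e he => ?_, fun hsub => hne (funext fun e => ?_)⟩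
      · have h4 := (mem_filter.1 he).2
        have h5 := hc e
        exact mem_filter.2 ⟨mem_univ _, by omega⟩
      · have h5 := hc e
        by_cases h6 : S e % 2 = 1
        · have h7 := (mem_filter.1 (hsub (mem_filter.2 ⟨mem_univ e, h6⟩))).2
          omega
        · omega
    · have : Aa G R (fib (grd S) S') d S' F = 0 :=
        sum_eq_zero fun X _ => by rw [W_fib_grd_zero hc, zero_mul]
      rw [this]
      exact mul_nonneg (by positivity) (sum_nonneg fun e _ => Dir_nonneg G R _ d e F)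
  have h2 := Zs_mul_Aa_le G hL (sym_grd S) hS F
  rw [Vv_fib G hL, ← add_sum_erase _ _ hSm, hff] at h2
  have h3 := sum_le_sum h1
  rw [← mul_sum, sum_comm] at h3
  have h4 : ∀ e, 2 * ∑ S' ∈ (sec G (2 * R) (d + d)).erase S, Dir G R (fib (grd S) S') d e F ≤
      (Zs G R (grd S) d - 2) * Dir G R (grd S) d e F := fun e => by
    have h5 := sum_dir_fib_le G hL (d + d) d e F (fun γ => load_grd G hR hS γ e)
    rw [← add_sum_erase _ _ hSm, hff] at h5
    linarith
  have h5 := sum_le_sum fun e (_ : e ∈ univ) => h4 e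
  rw [← mul_sum, ← mul_sum] at h5
  have h6 := mul_le_mul_of_nonneg_left h5 (show (0 : ℝ) ≤ 2 * Fintype.card E by positivity)
  refine le_of_mul_le_mul_left ?_ (sub_pos.2 hZ)
  linarith

private theorem Aa_le_four (G : Gr E V) {a : E → ℤ → ℝ} {R : ℕ} (h : LC a R) (d : V → ℤ) (S : E → ℤ)
    {F : (E → ℤ) → ℝ} (hF : ∀ X, |F X| ≤ 1) : Aa G R a d S F ≤ 4 * Zs G R a d := by
  rw [Aa, Zs, mul_sum]
  refine sum_le_sum fun X _ => ?_
  have h1 := abs_le.1 (hF X)
  have h2 := abs_le.1 (hF (S - X))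
  have h3 : (F X - F (S - X)) ^ 2 ≤ 4 := by nlinarith
  have := mul_le_mul_of_nonneg_left h3 (W_nonneg h X)
  linarith

private theorem wp_err_zero (G : Gr E V) {R : ℕ} {d : V → ℤ} {F : (E → ℤ) → ℝ} (hF : ∀ X, |F X| ≤ 1)
    {a : E → ℤ → ℝ} {S : E → ℤ} {η : E → ℝ} {η₀ : ℝ} (h : LC a R) (hs : Sym a S) (hc : SC a η)
    (h0 : ∀ e, η₀ ≤ η e) (h0' : 0 < η₀) (hS : G.div S = d + d) :
    Aa G R a d S F ≤ 2 * Fintype.card E * ∑ e, Gh (η e) * Dir G R a d e F +
      (4 * (cube E R).card) * Real.exp (-η₀ / 2) * Zs G R a d := by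
  classical
  obtain ⟨X₀, hX₀, hX₁⟩ := exists_center G hS (isDef_self d)
  have hex := excited_le h hs hc h0 h0'.le hX₁
  have hD : 0 ≤ 2 * (Fintype.card E : ℝ) * ∑ e, Gh (η e) * Dir G R a d e F :=
    mul_nonneg (by positivity) (sum_nonneg fun e _ =>
      mul_nonneg (zero_le_one.trans one_le_Gh) (Dir_nonneg G R _ d e F))
  have hZ := Zs_nonneg G h d
  by_cases hw : W a X₀ = 0
  · have : Aa G R a d S F = 0 := sum_eq_zero fun X _ => by
      have h1 := (hex X).2
      rw [hw, zero_mul, mul_zero, add_zero] at h1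
      rw [le_antisymm h1 (W_nonneg h X), zero_mul]
    rw [this]; positivity
  have hw0 := W_nonneg h X₀
  have c1 : X₀ ∈ cube E R := by
    by_contra hc; exact hw (W_eq_zero h hc)
  have c2 : S - X₀ ∈ cube E R := by
    by_contra hc; exact hw ((hs.W X₀).symm.trans (W_eq_zero h hc))
  have hR : S ∈ cube E (2 * R) := mem_cube.2 fun e => by
    have h1 := mem_cube.1 c1 e
    have h2 := mem_cube.1 c2 e
    rw [Pi.sub_apply] at h2
    rw [abs_le] at h1 h2 ⊢
    push_cast
    omega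
  have hwZ : W a X₀ ≤ Zs G R a d :=
    single_le_sum (f := W a) (fun X _ => W_nonneg h X) (mem_sec.2 ⟨mem_cube.1 c1, hX₀⟩)
  have h1 : Aa G R a d S F ≤ W a X₀ * Aa G R (grd S) d S F +
      (sec G R d).card * (4 * (Real.exp (-η₀ / 2) * W a X₀)) := by
    rw [Aa, Aa, mul_sum, ← nsmul_eq_mul, ← sum_const, ← sum_add_distrib]
    refine sum_le_sum fun X _ => ?_
    have h1 := abs_le.1 (hF X)
    have h2 := abs_le.1 (hF (S - X))
    have h3 : (F X - F (S - X)) ^ 2 ≤ 4 := by nlinarith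
    have h4 := mul_le_mul_of_nonneg_right (hex X).2 (sq_nonneg (F X - F (S - X)))
    have h5 := mul_le_mul_of_nonneg_left h3 (mul_nonneg (Real.exp_pos (-η₀ / 2)).le hw0)
    linarith
  have h2 : ∀ e, W a X₀ * Dir G R (grd S) d e F ≤ Gh (η e) * Dir G R a d e F := fun e => by
    refine le_trans ?_ (le_mul_of_one_le_left (Dir_nonneg G R _ d e F) one_le_Gh)
    rw [Dir, Dir, mul_sum]
    refine sum_le_sum fun X _ => ?_
    rw [← mul_assoc]
    refine mul_le_mul_of_nonneg_right ?_ (sq_nonneg _)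
    have hg := W_nonneg (lc_grd hR)
    rw [← Real.sqrt_sq hw0, ← Real.sqrt_mul (sq_nonneg _)]
    refine Real.sqrt_le_sqrt ?_
    have := mul_le_mul (hex X).1 (hex (X + one e)).1 (mul_nonneg hw0 (hg _)) (W_nonneg h X)
    linarith
  have h3 := mul_le_mul_of_nonneg_left (wp_grd G hR hS F) hw0
  have h4 := sum_le_sum fun e (_ : e ∈ univ) => h2 e
  rw [← mul_sum] at h4
  have h5 := mul_le_mul_of_nonneg_left h4 (show (0 : ℝ) ≤ 2 * Fintype.card E by positivity)
  have h6 : ((sec G R d).card : ℝ) ≤ (cube E R).card := by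
    exact_mod_cast card_le_card (filter_subset _ _)
  have h7 : ((sec G R d).card : ℝ) * (4 * (Real.exp (-η₀ / 2) * W a X₀)) ≤
      (cube E R).card * (4 * (Real.exp (-η₀ / 2) * Zs G R a d)) := by gcongr
  linarith

theorem wp_err (G : Gr E V) {R : ℕ} {d : V → ℤ} {F : (E → ℤ) → ℝ} (hF : ∀ X, |F X| ≤ 1) (k : ℕ)
    {a : E → ℤ → ℝ} {S : E → ℤ} {η : E → ℝ} {η₀ : ℝ} (h : LC a R) (hs : Sym a S) (hc : SC a η)
    (h0 : ∀ e, η₀ ≤ η e) (h0' : 0 < η₀) (hS : G.div S = d + d) :
    Aa G R a d S F ≤ 2 * Fintype.card E * ∑ e, Gh (η e) * Dir G R a d e F +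
      2 ^ k * (4 * (cube E R).card) * Real.exp (-(2 ^ k * η₀) / 2) * Zs G R a d := by
  induction k generalizing a S η η₀ with
  | zero => simpa only [pow_zero, one_mul] using wp_err_zero G hF h hs hc h0 h0' hS
  | succ k ih =>
    have hZ := Zs_nonneg G h d
    have hD : 0 ≤ 2 * (Fintype.card E : ℝ) * ∑ e, Gh (η e) * Dir G R a d e F :=
      mul_nonneg (by positivity) (sum_nonneg fun e _ =>
        mul_nonneg (zero_le_one.trans one_le_Gh) (Dir_nonneg G R _ d e F))
    rcases hZ.eq_or_lt with hZ0 | hZ0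
    · have := Aa_le_four G h d S hF
      rw [← hZ0] at this ⊢
      linarith
    have h1 := Zs_mul_Aa_le G h hs hS F
    rw [Vv_fib G h] at h1
    have h2 := sum_le_sum fun S' (hS' : S' ∈ sec G (2 * R) (d + d)) =>
      ih (h.fib S') (sym_fib a S') (SC.fib h hc S') (η₀ := 2 * η₀)
        (fun e => by linarith [h0 e]) (by positivity) (mem_sec.1 hS').2
    rw [sum_add_distrib, ← mul_sum, ← mul_sum, sum_comm] at h2
    have h3 : ∑ S' ∈ sec G (2 * R) (d + d), Zs G R (fib a S') d = Zs G R a d * Zs G R a d := by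
      have := sum_fib G h d d (fun _ _ => 1)
      simp only [mul_one] at this
      rw [Zs, sum_mul_sum, this]
      rfl
    have h4 : ∀ e, 2 * ∑ S' ∈ sec G (2 * R) (d + d), Gh (2 * η e) * Dir G R (fib a S') d e F ≤
        Zs G R a d * (Gh (η e) * Dir G R a d e F) := fun e => by
      rw [← mul_sum, ← mul_assoc, ← mul_assoc]
      refine sum_dir_fib_le G h (d + d) d e F fun γ => ?_
      have hG : 0 ≤ Gh (2 * η e) := zero_le_one.trans one_le_Gh
      rcases lt_or_ge (η e) 7 with h7 | h7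
      · have h5 := load_le G h hs hS (isDef_self d) γ e
        have h6 := Gh_small (h0'.trans_le (h0 e)) h7
        have h8 := mul_le_mul_of_nonneg_left h5 (show 0 ≤ 2 * Gh (2 * η e) by positivity)
        have h9 := mul_le_mul_of_nonneg_right h6 hZ
        linarith
      · have h5 := load_strong G h hs hc hS γ e h7
        have h6 := Gh_large h7
        have h8 := mul_le_mul_of_nonneg_left h5 hG
        have h9 := mul_le_mul_of_nonneg_right h6 hZ
        linarith
    have h5 := sum_le_sum fun e (_ : e ∈ univ) => h4 e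
    rw [← mul_sum, ← mul_sum] at h5
    have h6 := mul_le_mul_of_nonneg_left h5 (show (0 : ℝ) ≤ 2 * Fintype.card E by positivity)
    rw [h3, show (2 : ℝ) ^ k * (2 * η₀) = 2 ^ (k + 1) * η₀ by ring] at h2
    refine le_of_mul_le_mul_left ?_ hZ0
    rw [pow_succ (2 : ℝ) k] at h2 ⊢
    linarith

private theorem wp_bdd (G : Gr E V) {R : ℕ} {d : V → ℤ} {F : (E → ℤ) → ℝ} (hF : ∀ X, |F X| ≤ 1)
    {a : E → ℤ → ℝ} {S : E → ℤ} {η : E → ℝ} (h : LC a R) (hs : Sym a S) (hc : SC a η)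
    (h0 : ∀ e, 0 < η e) (hS : G.div S = d + d) :
    Aa G R a d S F ≤ 2 * Fintype.card E * ∑ e, Gh (η e) * Dir G R a d e F := by
  obtain ⟨η₀, h1, h2⟩ : ∃ η₀ : ℝ, (∀ e, η₀ ≤ η e) ∧ 0 < η₀ := by
    have h1 : ∀ᶠ x in nhdsWithin (0 : ℝ) (Set.Ioi 0), ∀ e, x ≤ η e :=
      Filter.eventually_all.2 fun e =>
        Filter.mem_of_superset (Ioc_mem_nhdsGT (h0 e)) fun x hx => hx.2
    exact (h1.and self_mem_nhdsWithin).exists
  have t1 : Filter.Tendsto (fun k : ℕ => (2 : ℝ) ^ k * (η₀ / 2)) Filter.atTop Filter.atTop :=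
    (tendsto_pow_atTop_atTop_of_one_lt one_lt_two).atTop_mul_const (by positivity)
  have t2 := ((Real.tendsto_pow_mul_exp_neg_atTop_nhds_zero 1).comp t1).mul_const
    (2 / η₀ * (4 * ((cube E R).card : ℝ)) * Zs G R a d)
  have t3 := t2.const_add (2 * Fintype.card E * ∑ e, Gh (η e) * Dir G R a d e F)
  rw [zero_mul, add_zero] at t3
  refine ge_of_tendsto' t3 fun k => (wp_err G hF k h hs hc h1 h2 hS).trans (le_of_eq ?_)
  rw [show -((2 : ℝ) ^ k * η₀) / 2 = -(2 ^ k * (η₀ / 2)) by ring]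
  simp only [Function.comp_apply, pow_one]
  field_simp

theorem wp_sym (G : Gr E V) {R : ℕ} {d : V → ℤ} (F : (E → ℤ) → ℝ)
    {a : E → ℤ → ℝ} {S : E → ℤ} {η : E → ℝ} (h : LC a R) (hs : Sym a S) (hc : SC a η)
    (h0 : ∀ e, 0 < η e) (hS : G.div S = d + d) :
    Aa G R a d S F ≤ 2 * Fintype.card E * ∑ e, Gh (η e) * Dir G R a d e F := by
  classical
  set B : ℝ := 1 + ∑ X ∈ cube E R, |F X| with hB
  have hs0 : 0 ≤ ∑ X ∈ cube E R, |F X| := sum_nonneg fun _ _ => abs_nonneg _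
  have hB0 : 0 < B := by linarith
  let F' : (E → ℤ) → ℝ := fun X => if X ∈ cube E R then F X / B else 0
  have hF' : ∀ X, |F' X| ≤ 1 := fun X => by
    simp only [F']
    split_ifs with hX
    · rw [abs_div, abs_of_pos hB0, div_le_one hB0]
      have := single_le_sum (f := fun X => |F X|) (fun _ _ => abs_nonneg _) hX
      linarith
    · simp
  have hFF : ∀ X ∈ cube E R, F X = B * F' X := fun X hX => by
    simp only [F', if_pos hX]; field_simp
  have h1 : Aa G R a d S F = B ^ 2 * Aa G R a d S F' := by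
    rw [Aa, Aa, mul_sum]
    refine sum_congr rfl fun X hX => ?_
    by_cases hY : S - X ∈ cube E R
    · rw [hFF X (mem_cube.2 (mem_sec.1 hX).1), hFF _ hY]; ring
    · rw [← hs.W X, W_eq_zero h hY]; ring
  have h2 : ∀ e, Dir G R a d e F = B ^ 2 * Dir G R a d e F' := fun e => by
    rw [Dir, Dir, mul_sum]
    refine sum_congr rfl fun X hX => ?_
    by_cases hY : X + one e ∈ cube E R
    · rw [hFF X (mem_filter.1 hX).1, hFF _ hY]; ring
    · rw [W_eq_zero h hY, mul_zero, Real.sqrt_zero]; ring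
  have h3 : ∑ e, Gh (η e) * Dir G R a d e F = B ^ 2 * ∑ e, Gh (η e) * Dir G R a d e F' := by
    rw [mul_sum]
    exact sum_congr rfl fun e _ => by rw [h2]; ring
  have h4 := mul_le_mul_of_nonneg_left (wp_bdd G hF' h hs hc h0 hS) (sq_nonneg B)
  rw [h1, h3]
  linarith

theorem wp_top (G : Gr E V) {R : ℕ} (d : V → ℤ) (F : (E → ℤ) → ℝ) {a : E → ℤ → ℝ} {η : E → ℝ} {K : ℝ}
    (h : LC a R) (hc : SC a η) (h0 : ∀ e, 0 < η e) (hK : KC a K) (hK0 : 0 ≤ K) :
    Vv G R a d F ≤ Zs G R a d ^ 2 * (K * (2 * Fintype.card E) * ∑ e, Gh (η e) * DirM G R a d e F) := by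
  classical
  rw [Vv_fib G h]
  have h1 := sum_le_sum fun S (hS : S ∈ sec G (2 * R) (d + d)) =>
    wp_sym G F (h.fib S) (sym_fib a S) (SC.fib h hc S) (fun e => by linarith [h0 e])
      (mem_sec.1 hS).2
  rw [← mul_sum, sum_comm] at h1
  have h2 : ∀ e, ∑ S ∈ sec G (2 * R) (d + d), Gh (2 * η e) * Dir G R (fib a S) d e F ≤
      Zs G R a d ^ 2 * K * (Gh (η e) * DirM G R a d e F) := fun e => by
    rw [← mul_sum]
    have h3 : ∑ S ∈ sec G (2 * R) (d + d), Dir G R (fib a S) d e F ≤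
        Zs G R a d ^ 2 * K * DirM G R a d e F := by
      rw [dir_fib G h, DirM, mul_sum]
      refine sum_le_sum fun X hX => ?_
      have := mul_le_mul_of_nonneg_right
        (load_top G h hK hK0 (isDef_self d) X (mem_filter.1 hX).1 e)
        (sq_nonneg (F (X + one e) - F X))
      linarith
    have h4 : 0 ≤ ∑ S ∈ sec G (2 * R) (d + d), Dir G R (fib a S) d e F :=
      sum_nonneg fun S _ => Dir_nonneg G R _ d e F
    have h5 := mul_le_mul (Gh_two_mul_le (h0 e)) h3 h4 (zero_le_one.trans one_le_Gh)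
    linarith
  have h3 := sum_le_sum fun e (_ : e ∈ univ) => h2 e
  rw [← mul_sum] at h3
  have h4 := mul_le_mul_of_nonneg_left h3 (show (0 : ℝ) ≤ 2 * Fintype.card E by positivity)
  linarith

end Crest.Agent.R309
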