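import Crest.Agent.R309.Mix
import Crest.Agent.R309.WP
import Crest.Agent.R309.TI

/-!
# Row 309: SmA
Smoothing, part A: the inner weights `a e t = exp (-ψ e t - η e t²)` on `{t ∈ box, ψ e t ≤ L + 1}` and their comparison with the chain.
`m = card E > 0`.  Inner `t` have `|t| ≤ rho e` (`Good.range`, or the box), so `∑ η e (X e)² ≤ 1` for inner `X`; also
`exp (-∑ψ) ≤ w X ≤ exp (1 - ∑ψ)` (`φ_le`, `le_φ`).
* `lc_a`: first quasi-convexity (`ψ z ≤ max (ψ x) (ψ y)` for `x ≤ z ≤ y` in the box; from `conv`: increments are monotone).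
* `kc_a`: if `bu - bl ≤ 1` the left side is `0` or equal to `a x * a y`; otherwise `a (x+1) ≤ K a x`, `a (y-1) ≤ K a y` when all are inner
  (`η |2x+1| ≤ 2 / rho ≤ 2`).
* `outer_le`: an `X` in the box with some `ψ e (X e) > L` has `w X ≤ exp (1 - L)`; `tail`, `lb`.
* `Z_le_Zs`: the map `Y ↦ Y + P w - P v` (`smooth` with `h = 0`) on the `Y` with all `ψ e (Y e) ≤ L`, which carry at least half of `Z`.
* `push_cmp`: write `div X = uv w v` with `w, v ∈ vs` (`Gr.div_eq_zero`, `vs_ne`), `push X = X + P v - P w`; `div (chi e) = 0` when `h e ≠ 0`;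
  `Zh_le`, `hw`, `Z_le_Zs`.    `pi_le`: `Z 0 ≤ Zh`, `hw`, `Zs ≤ Z`.    `outer_mass`: `sum_Om`, `outer_le`, `Zh_eq`.
-/

set_option autoImplicit false
set_option linter.unusedSectionVars false
set_option linter.unusedVariables false

noncomputable section

namespace Crest.Agent.R309

open Finset

variable {E V : Type} [Fintype E] [DecidableEq E] [DecidableEq V]

namespace St

variable (σ : St E V)

/-- range of the inner values -/
def rho (Γ : ℝ) (e : E) : ℝ := if σ.chi e = 0 then |(σ.bl e : ℝ)| + |(σ.bu e : ℝ)| + 1 else Γ * σ.s e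

def eta (Γ : ℝ) (e : E) : ℝ := 1 / (Fintype.card E * σ.rho Γ e ^ 2)

def Inner (L : ℝ) (e : E) (t : ℤ) : Prop := σ.bl e ≤ t ∧ t ≤ σ.bu e ∧ σ.ψ e t ≤ L + 1

open Classical in
/-- inner weights -/
def aa (L Γ : ℝ) (e : E) (t : ℤ) : ℝ :=
  if σ.Inner L e t then Real.exp (-σ.ψ e t - σ.eta Γ e * (t : ℝ) ^ 2) else 0

/-- radius of a cube containing the box -/
def rad : ℕ := ∑ e, ((σ.bl e).natAbs + (σ.bu e).natAbs)

/-- move the defect to the roots -/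
def push (X : E → ℤ) : E → ℤ := X - ∑ v ∈ σ.vs, σ.G.div X v • σ.P v

/-- shift -/
def shf (h : E → ℕ) : E → ℤ := ∑ e, (h e : ℤ) • σ.chi e

/-- the comparison constant -/
def c2 (A : ℝ) : ℝ := 2 * Real.exp 4 * A ^ 2 * ((σ.vs.card : ℝ) ^ 2 + 1)

variable {σ} {L A Γ K Λ ε : ℝ}

theorem SmA_sum_uv {w v : V} (hw : w ∈ σ.vs) (hv : v ∈ σ.vs) :
    ∑ u ∈ σ.vs, uv w v u • σ.P u = σ.P w - σ.P v := by
  simp only [uv_apply, sub_smul, sum_sub_distrib, ite_smul, one_smul, zero_smul]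
  rw [sum_ite_eq, sum_ite_eq, if_pos hw, if_pos hv]

theorem SmA_push_uv {X : E → ℤ} {w v : V} (hw : w ∈ σ.vs) (hv : v ∈ σ.vs)
    (h : σ.G.div X = uv w v) : σ.push X = X - (σ.P w - σ.P v) := by
  unfold push
  rw [h, SmA_sum_uv hw hv]

theorem SmA_mem_box {X : E → ℤ} : X ∈ σ.box ↔ ∀ e, σ.bl e ≤ X e ∧ X e ≤ σ.bu e := by
  simp only [box, Fintype.mem_piFinset, mem_Icc]

theorem SmA_mem_Om {X : E → ℤ} : X ∈ σ.Om ↔ X ∈ σ.box ∧ σ.IsR (σ.G.div X) := by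
  simp only [Om, mem_filter]

theorem SmA_mono {f : ℤ → ℝ} {a b : ℤ} (hab : a ≤ b)
    (h : ∀ z, a ≤ z → z + 1 ≤ b → f z ≤ f (z + 1)) : f a ≤ f b := by
  induction b, hab using Int.leInduction with
  | base => exact le_rfl
  | succ n hn ih => exact (ih fun z h1 h2 => h z h1 (by omega)).trans (h n hn le_rfl)

theorem Good.one_le_rho (h : σ.Good L A Γ K Λ ε) (e : E) : 1 ≤ σ.rho Γ e := by
  unfold rho
  split_ifs
  · have := abs_nonneg (σ.bl e : ℝ)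
    have := abs_nonneg (σ.bu e : ℝ)
    linarith
  · have h1 : (1 : ℝ) ≤ σ.s e := by exact_mod_cast h.forest.s_pos e
    have h2 := h.one_le.2.1
    nlinarith

theorem Good.abs_le_rho (h : σ.Good L A Γ K Λ ε) {e : E} {t : ℤ} (ht : σ.Inner L e t) :
    |(t : ℝ)| ≤ σ.rho Γ e := by
  unfold rho
  split_ifs with he
  · have h1 : (σ.bl e : ℝ) ≤ t := by exact_mod_cast ht.1
    have h2 : (t : ℝ) ≤ σ.bu e := by exact_mod_cast ht.2.1
    have h3 := abs_nonneg (σ.bl e : ℝ)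
    have h4 := abs_nonneg (σ.bu e : ℝ)
    have h5 := neg_abs_le (σ.bl e : ℝ)
    have h6 := le_abs_self (σ.bu e : ℝ)
    rw [abs_le]
    constructor <;> linarith
  · exact h.range e he t ht.1 ht.2.1 ht.2.2

theorem Good.eta_sq_le (h : σ.Good L A Γ K Λ ε) (hE : 0 < Fintype.card E) {e : E} {t : ℤ}
    (ht : σ.Inner L e t) : σ.eta Γ e * (t : ℝ) ^ 2 ≤ 1 / (Fintype.card E : ℝ) := by
  have h1 := h.one_le_rho e
  have h2 := h.abs_le_rho ht
  have hm : (0 : ℝ) < Fintype.card E := by exact_mod_cast hE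
  have h3 : (t : ℝ) ^ 2 ≤ σ.rho Γ e ^ 2 := by
    rw [← sq_abs]
    exact pow_le_pow_left₀ (abs_nonneg _) h2 2
  unfold eta
  calc 1 / (Fintype.card E * σ.rho Γ e ^ 2) * (t : ℝ) ^ 2
      ≤ 1 / (Fintype.card E * σ.rho Γ e ^ 2) * σ.rho Γ e ^ 2 := by gcongr
    _ = 1 / (Fintype.card E : ℝ) := by field_simp

theorem SmA_inv_le (hE : 0 < Fintype.card E) : 1 / (Fintype.card E : ℝ) ≤ 1 := by
  have hm : (1 : ℝ) ≤ Fintype.card E := by exact_mod_cast hE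
  rw [div_le_one (by linarith)]
  exact hm

theorem SmA_sum_inv (hE : 0 < Fintype.card E) : ∑ _e : E, 1 / (Fintype.card E : ℝ) = 1 := by
  have hm : (0 : ℝ) < Fintype.card E := by exact_mod_cast hE
  rw [sum_const, card_univ, nsmul_eq_mul]
  field_simp

theorem SmA_aa_nonneg (e : E) (t : ℤ) : 0 ≤ σ.aa L Γ e t := by
  unfold aa
  split_ifs
  · exact (Real.exp_pos _).le
  · exact le_rfl

theorem SmA_aa_of_inner {e : E} {t : ℤ} (ht : σ.Inner L e t) :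
    σ.aa L Γ e t = Real.exp (-σ.ψ e t - σ.eta Γ e * (t : ℝ) ^ 2) := by
  unfold aa
  rw [if_pos ht]

theorem SmA_inner_of_ne {e : E} {t : ℤ} (ht : σ.aa L Γ e t ≠ 0) : σ.Inner L e t := by
  by_contra hc
  apply ht
  unfold aa
  rw [if_neg hc]

theorem SmA_abs_le_rad {e : E} {t : ℤ} (ht : σ.Inner L e t) : |t| ≤ (σ.rad : ℤ) := by
  have h1 : (σ.bl e).natAbs + (σ.bu e).natAbs ≤ σ.rad :=
    single_le_sum (f := fun e => (σ.bl e).natAbs + (σ.bu e).natAbs) (fun _ _ => Nat.zero_le _)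
      (mem_univ e)
  have h2 := ht.1
  have h3 := ht.2.1
  rw [abs_le]
  omega

theorem Good.inner_succ (h : σ.Good L A Γ K Λ ε) {e : E} {x y : ℤ} (hxy : x < y)
    (hx : σ.Inner L e x) (hy : σ.Inner L e y) : σ.Inner L e (x + 1) := by
  refine ⟨by have := hx.1; omega, by have := hy.2.1; omega, ?_⟩
  by_cases hc : σ.ψ e (x + 1) ≤ σ.ψ e x
  · exact hc.trans hx.2.2
  · refine (SmA_mono (f := σ.ψ e) (show x + 1 ≤ y by omega) fun z h1 h2 => ?_).trans hy.2.2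
    have := h.conv e x (z + 1) hx.1 (by omega) (by have := hy.2.1; omega)
    rw [add_sub_cancel_right] at this
    linarith [not_le.1 hc]

theorem Good.inner_pred (h : σ.Good L A Γ K Λ ε) {e : E} {x y : ℤ} (hxy : x < y)
    (hx : σ.Inner L e x) (hy : σ.Inner L e y) : σ.Inner L e (y - 1) := by
  refine ⟨by have := hx.1; omega, by have := hy.2.1; omega, ?_⟩
  by_cases hc : σ.ψ e (y - 1) ≤ σ.ψ e y
  · exact hc.trans hy.2.2
  · have := SmA_mono (f := fun z => -σ.ψ e z) (show x ≤ y - 1 by omega) fun z h1 h2 => by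
      have := h.conv e z y (by have := hx.1; omega) (by omega) hy.2.1
      linarith [not_le.1 hc]
    have h3 := hx.2.2
    linarith

theorem Good.w_le (h : σ.Good L A Γ K Λ ε) (hE : 0 < Fintype.card E) (X : E → ℤ) :
    σ.w X ≤ Real.exp (1 - ∑ e, σ.ψ e (X e)) := by
  unfold w
  refine Real.exp_le_exp.2 ?_
  have h1 : ∑ e, (σ.ψ e (X e) - 1 / (Fintype.card E : ℝ)) ≤ ∑ e, σ.φ e (X e) :=
    sum_le_sum fun e _ => h.le_φ e (X e)
  rw [sum_sub_distrib, SmA_sum_inv hE] at h1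
  linarith

theorem Good.le_w (h : σ.Good L A Γ K Λ ε) (X : E → ℤ) :
    Real.exp (-∑ e, σ.ψ e (X e)) ≤ σ.w X := by
  unfold w
  refine Real.exp_le_exp.2 (neg_le_neg ?_)
  exact sum_le_sum fun e _ => h.φ_le e (X e)

theorem SmA_w_pos (X : E → ℤ) : 0 < σ.w X := Real.exp_pos _

theorem SmA_W_nonneg (X : E → ℤ) : 0 ≤ W (σ.aa L Γ) X := prod_nonneg fun e _ => SmA_aa_nonneg e _

theorem Good.Z_pos (h : σ.Good L A Γ K Λ ε) {γ : V → ℤ} (hγ : σ.IsR γ) : 0 < σ.Z γ :=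
  (Real.exp_pos _).trans_le (h.lb γ hγ)

theorem Good.eps_nonneg (h : σ.Good L A Γ K Λ ε) : 0 ≤ ε :=
  le_trans (by positivity) h.tail

theorem SmA_isR_rt (hF : σ.Forest) {w v : V} (hw : w ∈ σ.vs) (hv : v ∈ σ.vs) :
    σ.IsR (uv (σ.rt w) (σ.rt v)) :=
  ⟨_, hF.rt_mem w hw, _, hF.rt_mem v hv, hF.rt_rt w hw, hF.rt_rt v hv, rfl⟩

theorem SmA_pi_eq (X : E → ℤ) : σ.pi X = σ.w X * Real.exp (-σ.hh (σ.G.div X)) / σ.Zh := by
  unfold pi H w
  rw [← Real.exp_add, neg_add]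

theorem SmA_div_shf (hF : σ.Forest) {g : E → ℕ} (hg : σ.Adm g) : σ.G.div (σ.shf g) = 0 := by
  unfold shf
  rw [Gr.div_sum]
  refine sum_eq_zero fun e _ => ?_
  rw [Gr.div_smul]
  by_cases h0 : g e = 0
  · simp [h0]
  · have h1 : σ.s e ≠ 1 := fun h => h0 ((hg e).2 h)
    have h2 := hF.s_pos e
    rw [σ.div_chi hF, hF.s_big e (by omega), uv_self, smul_zero]

theorem SmA_exists_uv (hF : σ.Forest) {X : E → ℤ} (hd : IsDef (σ.G.div X)) :
    ∃ w ∈ σ.vs, ∃ v ∈ σ.vs, σ.G.div X = uv w v := by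
  have key : ∀ u, σ.G.div X u ≠ 0 → u ∈ σ.vs := by
    intro u hu
    by_contra hc
    exact hu (σ.G.div_eq_zero X (fun e he => hc (he ▸ hF.src_mem e))
      (fun e he => hc (he ▸ hF.tgt_mem e)))
  obtain ⟨u, hu⟩ := hF.vs_ne
  rcases hd with h0 | ⟨w, v, hwv⟩
  · exact ⟨u, hu, u, hu, by rw [h0, uv_self]⟩
  · by_cases he : w = v
    · exact ⟨u, hu, u, hu, by rw [hwv, he, uv_self, uv_self]⟩
    · refine ⟨w, key w ?_, v, key v ?_, hwv⟩
      · rw [hwv, uv_apply, if_pos rfl, if_neg (Ne.symm he)]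
        norm_num
      · rw [hwv, uv_apply, if_pos rfl, if_neg he]
        norm_num

/-- the shift lemma -/
theorem Good.shift (h : σ.Good L A Γ K Λ ε) (hE : 0 < Fintype.card E) {w v : V} (hw : w ∈ σ.vs)
    (hv : v ∈ σ.vs) {g : E → ℕ} (hg : σ.Adm g) {X : E → ℤ} (hX : ∀ e, σ.Inner L e (X e)) (e : E) :
    σ.bl e ≤ (X + (σ.P v - σ.P w + σ.shf g)) e ∧ (X + (σ.P v - σ.P w + σ.shf g)) e ≤ σ.bu e ∧
      σ.ψ e ((X + (σ.P v - σ.P w + σ.shf g)) e) ≤ σ.ψ e (X e) + 1 / (Fintype.card E : ℝ) := by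
  obtain ⟨sh, h1, h2⟩ := h.smooth
  exact h2 e (X e) _ (hX e).1 (hX e).2.1 (hX e).2.2 (h1 w hw v hv g hg e)

theorem SmA_sum_shift (hE : 0 < Fintype.card E) {X Y : E → ℤ}
    (h : ∀ e, σ.ψ e (Y e) ≤ σ.ψ e (X e) + 1 / (Fintype.card E : ℝ)) :
    ∑ e, σ.ψ e (Y e) ≤ ∑ e, σ.ψ e (X e) + 1 := by
  have h1 : ∑ e, σ.ψ e (Y e) ≤ ∑ e, (σ.ψ e (X e) + 1 / (Fintype.card E : ℝ)) :=
    sum_le_sum fun e _ => h e
  rwa [sum_add_distrib, SmA_sum_inv hE] at h1

theorem push_add_one (hF : σ.Forest) (X : E → ℤ) (e : E) : σ.push (X + one e) = σ.push X + σ.chi e := by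
  unfold push chi
  rw [Gr.div_add, Gr.div_one]
  simp only [Pi.add_apply, add_smul, sum_add_distrib]
  rw [SmA_sum_uv (hF.src_mem e) (hF.tgt_mem e)]
  abel

theorem push_of_mem (hF : σ.Forest) {X : E → ℤ} (hX : X ∈ σ.Om) : σ.push X = X := by
  obtain ⟨w, hw, v, hv, h1, h2, h3⟩ := (SmA_mem_Om.1 hX).2
  have h4 := hF.P_rt w hw
  have h5 := hF.P_rt v hv
  rw [h1] at h4
  rw [h2] at h5
  rw [SmA_push_uv hw hv h3, h4, h5, sub_self, sub_zero]

theorem Good.eta_pos (h : σ.Good L A Γ K Λ ε) (hE : 0 < Fintype.card E) (e : E) : 0 < σ.eta Γ e := by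
  have h1 := h.one_le_rho e
  have hm : (0 : ℝ) < Fintype.card E := by exact_mod_cast hE
  unfold eta
  positivity

theorem Good.lc_a (h : σ.Good L A Γ K Λ ε) (hE : 0 < Fintype.card E) : LC (σ.aa L Γ) σ.rad := by
  refine ⟨SmA_aa_nonneg, fun e t ht => SmA_abs_le_rad (SmA_inner_of_ne ht), fun e x y hxy => ?_⟩
  by_cases h0 : σ.aa L Γ e x * σ.aa L Γ e y = 0
  · rw [h0]
    exact mul_nonneg (SmA_aa_nonneg _ _) (SmA_aa_nonneg _ _)
  have hx := SmA_inner_of_ne (left_ne_zero_of_mul h0)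
  have hy := SmA_inner_of_ne (right_ne_zero_of_mul h0)
  rw [SmA_aa_of_inner hx, SmA_aa_of_inner hy, SmA_aa_of_inner (h.inner_succ hxy hx hy),
    SmA_aa_of_inner (h.inner_pred hxy hx hy), ← Real.exp_add, ← Real.exp_add]
  refine Real.exp_le_exp.2 ?_
  have h1 := h.conv e x y hx.1 hxy hy.2.1
  have h2 := h.eta_pos hE e
  have h3 : (x : ℝ) + 1 ≤ y := by exact_mod_cast hxy
  push_cast
  nlinarith [mul_nonneg h2.le (sub_nonneg.2 h3)]

theorem Good.sc_a (h : σ.Good L A Γ K Λ ε) (hE : 0 < Fintype.card E) :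
    SC (σ.aa L Γ) fun e => 2 * σ.eta Γ e := by
  intro e t
  by_cases h0 : σ.aa L Γ e (t - 1) * σ.aa L Γ e (t + 1) = 0
  · rw [h0]
    positivity
  have hx := SmA_inner_of_ne (left_ne_zero_of_mul h0)
  have hy := SmA_inner_of_ne (right_ne_zero_of_mul h0)
  have ht : σ.Inner L e t := by
    have := h.inner_succ (show t - 1 < t + 1 by omega) hx hy
    rwa [sub_add_cancel] at this
  rw [SmA_aa_of_inner hx, SmA_aa_of_inner hy, SmA_aa_of_inner ht, sq (Real.exp _), ← Real.exp_add,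
    ← Real.exp_add, ← Real.exp_add]
  refine Real.exp_le_exp.2 ?_
  have h1 := h.conv e (t - 1) (t + 1) hx.1 (by omega) hy.2.1
  rw [sub_add_cancel, add_sub_cancel_right] at h1
  push_cast
  nlinarith

theorem Good.kc_a (h : σ.Good L A Γ K Λ ε) (hE : 0 < Fintype.card E) : KC (σ.aa L Γ) K := by
  intro e x y hpos
  have hK := h.one_le.2.2.1
  by_cases h0 : σ.aa L Γ e (x + 1) * σ.aa L Γ e (y - 1) = 0
  · rw [h0]
    positivity
  have hx := SmA_inner_of_ne (left_ne_zero_of_mul hpos.ne')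
  have hy := SmA_inner_of_ne (right_ne_zero_of_mul hpos.ne')
  have hx' := SmA_inner_of_ne (left_ne_zero_of_mul h0)
  have hy' := SmA_inner_of_ne (right_ne_zero_of_mul h0)
  rcases h.kink e with hk | hk
  · have e1 : x + 1 = y := by
      have := hx.1; have := hx'.2.1; have := hy.2.1; have := hy'.1; omega
    have e2 : y - 1 = x := by omega
    rw [e1, e2, mul_comm (σ.aa L Γ e y)]
    have : (1 : ℝ) ≤ K ^ 2 := one_le_pow₀ hK
    nlinarith
  · have step : ∀ a b : ℤ, σ.Inner L e a → σ.Inner L e b →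
        Real.exp (|σ.ψ e a - σ.ψ e b| + 3) ≤ K → σ.aa L Γ e b ≤ K * σ.aa L Γ e a := by
      intro a b ha hb hab
      rw [SmA_aa_of_inner ha, SmA_aa_of_inner hb]
      refine le_trans ?_ (mul_le_mul_of_nonneg_right hab (Real.exp_pos _).le)
      rw [← Real.exp_add]
      refine Real.exp_le_exp.2 ?_
      have h1 := (h.eta_sq_le hE ha).trans (SmA_inv_le hE)
      have h2 : 0 ≤ σ.eta Γ e * (b : ℝ) ^ 2 := mul_nonneg (h.eta_pos hE e).le (sq_nonneg _)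
      have h3 := le_abs_self (σ.ψ e a - σ.ψ e b)
      linarith
    have h1 := step x (x + 1) hx hx' (by rw [abs_sub_comm]; exact hk x hx.1 hx'.2.1)
    have h2 := step y (y - 1) hy hy' (by
      have := hk (y - 1) hy'.1 (by rw [sub_add_cancel]; exact hy.2.1)
      rwa [sub_add_cancel] at this)
    calc σ.aa L Γ e (x + 1) * σ.aa L Γ e (y - 1) ≤ (K * σ.aa L Γ e x) * (K * σ.aa L Γ e y) :=
          mul_le_mul h1 h2 (SmA_aa_nonneg _ _) (mul_nonneg (by linarith) (SmA_aa_nonneg _ _))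
      _ = K ^ 2 * (σ.aa L Γ e x * σ.aa L Γ e y) := by ring

theorem Good.Gh_le (h : σ.Good L A Γ K Λ ε) (hE : 0 < Fintype.card E) {e : E} (he : σ.chi e ≠ 0) :
    (Gh (2 * σ.eta Γ e) + 1) / (σ.s e : ℝ) ^ 2 ≤ 49 * Fintype.card E * Γ ^ 2 := by
  have hm : (1 : ℝ) ≤ Fintype.card E := by exact_mod_cast hE
  have hs : (1 : ℝ) ≤ σ.s e := by exact_mod_cast h.forest.s_pos e
  have hΓ := h.one_le.2.1
  have hη := h.eta_pos hE e
  have hr : σ.rho Γ e = Γ * σ.s e := by unfold rho; rw [if_neg he]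
  have h1 : 14 / (2 * σ.eta Γ e) = 7 * (Fintype.card E * (Γ * σ.s e) ^ 2) := by
    unfold eta
    rw [hr]
    field_simp
    norm_num
  have h2 : (1 : ℝ) ≤ Fintype.card E * (Γ * σ.s e) ^ 2 :=
    one_le_mul_of_one_le_of_one_le hm (one_le_pow₀ (one_le_mul_of_one_le_of_one_le hΓ hs))
  have h3 : Real.exp (-(2 * σ.eta Γ e) / 4) ≤ 1 := Real.exp_le_one_iff.2 (by linarith)
  have h4 : Gh (2 * σ.eta Γ e) ≤ 6 * (7 * (Fintype.card E * (Γ * σ.s e) ^ 2)) := by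
    unfold Gh
    rw [h1, max_eq_right (by linarith)]
    exact mul_le_mul_of_nonneg_right (by linarith) (by linarith)
  rw [div_le_iff₀ (by positivity)]
  nlinarith

theorem inner_of_W_ne {X : E → ℤ} (hX : W (σ.aa L Γ) X ≠ 0) (e : E) : σ.Inner L e (X e) :=
  SmA_inner_of_ne (prod_ne_zero_iff.1 hX e (mem_univ e))

theorem Good.W_le (h : σ.Good L A Γ K Λ ε) (hE : 0 < Fintype.card E) (X : E → ℤ) :
    W (σ.aa L Γ) X ≤ Real.exp (-∑ e, σ.ψ e (X e)) := by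
  rw [← sum_neg_distrib, Real.exp_sum]
  refine prod_le_prod (fun e _ => SmA_aa_nonneg _ _) fun e _ => ?_
  unfold aa
  split_ifs
  · refine Real.exp_le_exp.2 ?_
    have : 0 ≤ σ.eta Γ e * (X e : ℝ) ^ 2 := mul_nonneg (h.eta_pos hE e).le (sq_nonneg _)
    linarith
  · exact (Real.exp_pos _).le

theorem Good.le_W (h : σ.Good L A Γ K Λ ε) (hE : 0 < Fintype.card E) {X : E → ℤ}
    (hX : ∀ e, σ.Inner L e (X e)) : Real.exp (-∑ e, σ.ψ e (X e) - 1) ≤ W (σ.aa L Γ) X := by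
  unfold W
  rw [prod_congr rfl fun e _ => SmA_aa_of_inner (hX e), ← Real.exp_sum]
  refine Real.exp_le_exp.2 ?_
  have h1 : ∑ e, σ.eta Γ e * (X e : ℝ) ^ 2 ≤ ∑ _e : E, 1 / (Fintype.card E : ℝ) :=
    sum_le_sum fun e _ => h.eta_sq_le hE (hX e)
  rw [SmA_sum_inv hE] at h1
  rw [sum_sub_distrib, sum_neg_distrib]
  linarith


open Classical in
theorem Good.outer_le (h : σ.Good L A Γ K Λ ε) (hE : 0 < Fintype.card E) {γ : V → ℤ} (hγ : σ.IsR γ) :
    ∑ X ∈ σ.box.filter (fun X => σ.G.div X = γ ∧ ∃ e, L < σ.ψ e (X e)), σ.w X ≤ ε * σ.Z γ := by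
  have h1 : ∀ X ∈ σ.box.filter (fun X => σ.G.div X = γ ∧ ∃ e, L < σ.ψ e (X e)),
      σ.w X ≤ Real.exp (1 - L) := by
    intro X hX
    obtain ⟨e, he⟩ := (mem_filter.1 hX).2.2
    refine (h.w_le hE X).trans (Real.exp_le_exp.2 ?_)
    have : σ.ψ e (X e) ≤ ∑ e, σ.ψ e (X e) :=
      single_le_sum (f := fun e => σ.ψ e (X e)) (fun e _ => h.ψ_nonneg e _) (mem_univ e)
    linarith
  refine (sum_le_card_nsmul _ _ _ h1).trans ?_
  rw [nsmul_eq_mul]
  have h2 : (((σ.box.filter (fun X => σ.G.div X = γ ∧ ∃ e, L < σ.ψ e (X e))).card : ℕ) : ℝ) ≤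
      σ.box.card := by exact_mod_cast card_filter_le _ _
  calc _ ≤ (σ.box.card : ℝ) * Real.exp (1 - L) := by gcongr
    _ = (σ.box.card : ℝ) * Real.exp (1 - L + Λ) * Real.exp (-Λ) := by
        rw [mul_assoc, ← Real.exp_add, add_neg_cancel_right]
    _ ≤ ε * σ.Z γ := mul_le_mul h.tail (h.lb γ hγ) (Real.exp_pos _).le h.eps_nonneg

theorem Good.Zs_le_Z (h : σ.Good L A Γ K Λ ε) (hE : 0 < Fintype.card E) (γ : V → ℤ) :
    Zs σ.G σ.rad (σ.aa L Γ) γ ≤ σ.Z γ := by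
  classical
  unfold Zs Z
  rw [← sum_filter_ne_zero]
  refine (sum_le_sum fun X _ => (h.W_le hE X).trans (h.le_w X)).trans ?_
  refine sum_le_sum_of_subset_of_nonneg (fun X hX => ?_) fun X _ _ => (SmA_w_pos X).le
  obtain ⟨h1, h2⟩ := mem_filter.1 hX
  exact mem_filter.2 ⟨SmA_mem_box.2 fun e => ⟨(inner_of_W_ne h2 e).1, (inner_of_W_ne h2 e).2.1⟩,
    (mem_sec.1 h1).2⟩

theorem Good.Z_le_Zs (h : σ.Good L A Γ K Λ ε) (hE : 0 < Fintype.card E) {w v : V} (hw : w ∈ σ.vs)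
    (hv : v ∈ σ.vs) :
    σ.Z (uv (σ.rt w) (σ.rt v)) ≤ 2 * Real.exp 3 * Zs σ.G σ.rad (σ.aa L Γ) (uv w v) := by
  classical
  have hF := h.forest
  have hγ := SmA_isR_rt hF hw hv
  set γ := uv (σ.rt w) (σ.rt v) with hγd
  have hadm : σ.Adm 0 := fun e => ⟨Nat.zero_le _, fun _ => rfl⟩
  set r : E → ℤ := σ.P w - σ.P v + σ.shf 0 with hr
  set S := σ.box.filter (fun X => σ.G.div X = γ ∧ ¬ ∃ e, L < σ.ψ e (X e)) with hS
  have h1 : σ.Z γ = ∑ X ∈ σ.box.filter (fun X => σ.G.div X = γ ∧ ∃ e, L < σ.ψ e (X e)), σ.w X +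
      ∑ X ∈ S, σ.w X := by
    unfold Z
    rw [← sum_filter_add_sum_filter_not _ (fun X => ∃ e, L < σ.ψ e (X e)), filter_filter,
      filter_filter]
  have h2 := h.outer_le hE hγ
  have h3 : ε * σ.Z γ ≤ 1 / 2 * σ.Z γ := mul_le_mul_of_nonneg_right h.ε_le (h.Z_pos hγ).le
  have h4 : ∀ Y ∈ S, Y + r ∈ sec σ.G σ.rad (uv w v) ∧
      σ.w Y ≤ Real.exp 3 * W (σ.aa L Γ) (Y + r) := by
    intro Y hY
    obtain ⟨hb, hd, hL⟩ := mem_filter.1 hY
    have hL' : ∀ e, σ.ψ e (Y e) ≤ L := fun e => not_lt.1 fun hc => hL ⟨e, hc⟩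
    have hI : ∀ e, σ.Inner L e (Y e) := fun e =>
      ⟨(SmA_mem_box.1 hb e).1, (SmA_mem_box.1 hb e).2, by linarith [hL' e]⟩
    have hs := h.shift hE hv hw hadm hI
    have hI' : ∀ e, σ.Inner L e ((Y + r) e) := fun e =>
      ⟨(hs e).1, (hs e).2.1, by linarith [(hs e).2.2, hL' e, SmA_inv_le hE]⟩
    refine ⟨mem_sec.2 ⟨fun e => SmA_abs_le_rad (hI' e), ?_⟩, ?_⟩
    · rw [hr, Gr.div_add, Gr.div_add, Gr.div_sub, SmA_div_shf hF hadm, hd, hF.div_P w hw,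
        hF.div_P v hv, hγd]
      unfold uv
      abel
    · refine (h.w_le hE Y).trans (le_trans ?_
        (mul_le_mul_of_nonneg_left (h.le_W hE hI') (Real.exp_pos _).le))
      rw [← Real.exp_add]
      refine Real.exp_le_exp.2 ?_
      have := SmA_sum_shift hE fun e => (hs e).2.2
      linarith
  have h5 : ∑ X ∈ S, σ.w X ≤ Real.exp 3 * Zs σ.G σ.rad (σ.aa L Γ) (uv w v) := by
    refine (sum_le_sum fun Y hY => (h4 Y hY).2).trans ?_
    rw [← mul_sum]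
    refine mul_le_mul_of_nonneg_left ?_ (Real.exp_pos _).le
    rw [← sum_image (g := fun Y => Y + r) (f := W (σ.aa L Γ))
      (fun a _ b _ hab => add_right_cancel hab)]
    refine sum_le_sum_of_subset_of_nonneg (fun X hX => ?_) fun X _ _ => SmA_W_nonneg X
    obtain ⟨Y, hY, rfl⟩ := mem_image.1 hX
    exact (h4 Y hY).1
  linarith

theorem Good.Zs_pos (h : σ.Good L A Γ K Λ ε) (hE : 0 < Fintype.card E) {γ : V → ℤ} (hγ : σ.IsR γ) :
    0 < Zs σ.G σ.rad (σ.aa L Γ) γ := by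
  have h0 := h.Z_pos hγ
  obtain ⟨w, hw, v, hv, h1, h2, rfl⟩ := hγ
  have h3 := h.Z_le_Zs hE hw hv
  rw [h1, h2] at h3
  exact pos_of_mul_pos_right (h0.trans_le h3) (by positivity)


theorem Good.push_cmp (h : σ.Good L A Γ K Λ ε) (hE : 0 < Fintype.card E) {X : E → ℤ}
    (hX : ∀ e, σ.Inner L e (X e)) (hd : IsDef (σ.G.div X)) {g : E → ℕ} (hg : σ.Adm g) :
    σ.push X + σ.shf g ∈ σ.Om ∧
      W (σ.aa L Γ) X / Zs σ.G σ.rad (σ.aa L Γ) (σ.G.div X) ≤ σ.c2 A * σ.pi (σ.push X + σ.shf g) := by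
  have hF := h.forest
  obtain ⟨w, hw, v, hv, hwv⟩ := SmA_exists_uv hF hd
  have hγ := SmA_isR_rt hF hw hv
  have hY : σ.push X + σ.shf g = X + (σ.P v - σ.P w + σ.shf g) := by
    rw [SmA_push_uv hw hv hwv]
    abel
  rw [hY]
  have hs := h.shift hE hw hv hg hX
  set Y := X + (σ.P v - σ.P w + σ.shf g) with hYd
  have hdiv : σ.G.div Y = uv (σ.rt w) (σ.rt v) := by
    rw [hYd, Gr.div_add, Gr.div_add, Gr.div_sub, SmA_div_shf hF hg, hwv, hF.div_P w hw,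
      hF.div_P v hv]
    unfold uv
    abel
  refine ⟨SmA_mem_Om.2 ⟨SmA_mem_box.2 fun e => ⟨(hs e).1, (hs e).2.1⟩, hdiv ▸ hγ⟩, ?_⟩
  have hA := h.one_le.1
  have h1 : W (σ.aa L Γ) X ≤ Real.exp 1 * σ.w Y := by
    refine (h.W_le hE X).trans (le_trans ?_
      (mul_le_mul_of_nonneg_left (h.le_w Y) (Real.exp_pos _).le))
    rw [← Real.exp_add]
    refine Real.exp_le_exp.2 ?_
    have := SmA_sum_shift hE fun e => (hs e).2.2
    linarith
  have h2 := h.Z_le_Zs hE hw hv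
  have h3 := σ.Zh_le (by linarith : 0 ≤ A) fun γ hγ => (h.hw γ hγ).2
  have h4 := (h.hw _ hγ).1
  have h5 := h.Z_pos hγ
  have h6 := σ.Zh_pos hF
  have h7 : 0 < Zs σ.G σ.rad (σ.aa L Γ) (uv w v) :=
    pos_of_mul_pos_right (h5.trans_le h2) (by positivity)
  rw [SmA_pi_eq, hdiv, hwv, ← mul_div_assoc, div_le_div_iff₀ h7 h6]
  set Z1 := σ.Z (uv (σ.rt w) (σ.rt v))
  set Z2 := Zs σ.G σ.rad (σ.aa L Γ) (uv w v)
  set q := Real.exp (-σ.hh (uv (σ.rt w) (σ.rt v))) with hq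
  have hq0 : 0 < q := Real.exp_pos _
  have hw0 := SmA_w_pos (σ := σ) Y
  have h8 : σ.Zh ≤ ((σ.vs.card : ℝ) ^ 2 + 1) * A * (A * (q * (2 * Real.exp 3 * Z2))) := by
    refine h3.trans (mul_le_mul_of_nonneg_left (h4.trans ?_) (by positivity))
    gcongr
  have h9 : Real.exp 4 = Real.exp 1 * Real.exp 3 := by rw [← Real.exp_add]; norm_num
  calc W (σ.aa L Γ) X * σ.Zh
      ≤ (Real.exp 1 * σ.w Y) * (((σ.vs.card : ℝ) ^ 2 + 1) * A * (A * (q * (2 * Real.exp 3 * Z2)))) :=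
        mul_le_mul h1 h8 h6.le (by positivity)
    _ = σ.c2 A * (σ.w Y * q) * Z2 := by
        unfold c2
        rw [h9]
        ring

theorem Good.pi_le (h : σ.Good L A Γ K Λ ε) (hE : 0 < Fintype.card E) {Y : E → ℤ} (hY : Y ∈ σ.Om)
    (hI : ∀ e, σ.Inner L e (Y e)) :
    σ.pi Y ≤ A * Real.exp 2 * (W (σ.aa L Γ) Y / Zs σ.G σ.rad (σ.aa L Γ) (σ.G.div Y)) := by
  have hF := h.forest
  have hγ := (SmA_mem_Om.1 hY).2
  have hA := h.one_le.1
  have h1 : σ.w Y ≤ Real.exp 2 * W (σ.aa L Γ) Y := by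
    refine (h.w_le hE Y).trans (le_trans ?_
      (mul_le_mul_of_nonneg_left (h.le_W hE hI) (Real.exp_pos _).le))
    rw [← Real.exp_add]
    refine Real.exp_le_exp.2 ?_
    linarith
  have h2 := h.Zs_le_Z hE (σ.G.div Y)
  have h3 := σ.Z_le_Zh hF h.hh_zero
  have h4 := (h.hw _ hγ).2
  have h6 := σ.Zh_pos hF
  have h7 := h.Zs_pos hE hγ
  rw [SmA_pi_eq, ← mul_div_assoc, div_le_div_iff₀ h6 h7]
  set Z2 := Zs σ.G σ.rad (σ.aa L Γ) (σ.G.div Y)
  set q := Real.exp (-σ.hh (σ.G.div Y)) with hq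
  have hq0 : 0 < q := Real.exp_pos _
  have hW := SmA_W_nonneg (σ := σ) (L := L) (Γ := Γ) Y
  have h8 : q * Z2 ≤ A * σ.Zh := by
    refine le_trans (mul_le_mul_of_nonneg_left h2 hq0.le) (h4.trans ?_)
    gcongr
  calc σ.w Y * q * Z2 = σ.w Y * (q * Z2) := by ring
    _ ≤ (Real.exp 2 * W (σ.aa L Γ) Y) * (A * σ.Zh) :=
        mul_le_mul h1 h8 (by positivity) (by positivity)
    _ = A * Real.exp 2 * W (σ.aa L Γ) Y * σ.Zh := by ring

open Classical in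
theorem Good.outer_mass (h : σ.Good L A Γ K Λ ε) (hE : 0 < Fintype.card E) :
    ∑ Y ∈ σ.Om.filter (fun Y => ¬ ∀ e, σ.Inner L e (Y e)), σ.pi Y ≤ ε := by
  have hF := h.forest
  have h6 := σ.Zh_pos hF
  rw [sum_filter, σ.sum_Om]
  have h1 : ∀ γ ∈ σ.defs, ∑ X ∈ σ.box.filter (fun X => σ.G.div X = γ),
      (if ¬ ∀ e, σ.Inner L e (X e) then σ.pi X else 0) ≤
        ε / σ.Zh * (Real.exp (-σ.hh γ) * σ.Z γ) := by
    intro γ hγ
    have h2 := h.outer_le hE (σ.mem_defs.1 hγ)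
    rw [← filter_filter, sum_filter] at h2
    have h3 : ∀ X ∈ σ.box.filter (fun X => σ.G.div X = γ),
        (if ¬ ∀ e, σ.Inner L e (X e) then σ.pi X else 0) ≤
          Real.exp (-σ.hh γ) / σ.Zh * (if ∃ e, L < σ.ψ e (X e) then σ.w X else 0) := by
      intro X hX
      obtain ⟨hb, hd⟩ := mem_filter.1 hX
      have hw0 := SmA_w_pos (σ := σ) X
      by_cases hI : ∀ e, σ.Inner L e (X e)
      · rw [if_neg (not_not.2 hI)]
        split_ifs <;> positivity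
      · obtain ⟨e, he⟩ := not_forall.1 hI
        have : L < σ.ψ e (X e) := by
          by_contra hc
          exact he ⟨(SmA_mem_box.1 hb e).1, (SmA_mem_box.1 hb e).2, by linarith [not_lt.1 hc]⟩
        rw [if_pos hI, if_pos ⟨e, this⟩, SmA_pi_eq, hd]
        exact le_of_eq (by ring)
    refine (sum_le_sum h3).trans ?_
    rw [← mul_sum]
    calc _ ≤ Real.exp (-σ.hh γ) / σ.Zh * (ε * σ.Z γ) :=
          mul_le_mul_of_nonneg_left h2 (by positivity)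
      _ = _ := by ring
  refine (sum_le_sum h1).trans ?_
  rw [← mul_sum, ← σ.Zh_eq, div_mul_cancel₀ _ h6.ne']


end St

end Crest.Agent.R309
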