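import Crest.Agent.R309.SmA

/-!
# Row 309: SmB
Smoothing, part B: the smoothed function `Ft F Z = avg_{h e < s e} F (push Z + shf h)` and its Dirichlet forms.
* `dirM_Ft`: `push (X + one e) = push X + chi e`.  Averaging over `h e < s e` telescopes:
  `Ft (X + one e) - Ft X = (1/s) avg_{h', h' e = 0} (F (Y + s • chi e) - F Y)`, `Y = push X + shf h'`.
  If `mu X ≠ 0` both `X`, `X + one e` are inner.  `s e = 1`: `push_cmp` for `X` and for `X + one e` gives
  `mu X ≤ c2 * min (pi Y) (pi (Y + chi e))`.  `s e > 1`: `mu X ≤ c2 * pi (Y + j • chi e)` for all `0 ≤ j ≤ s e` (admissible shifts of `push X`); use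
  `(F (Y + s χ) - F Y)² ≤ 2 (F (Y + j χ) - F Y)² + 2 (F (Y + s χ) - F (Y + j χ))²` averaged over `j ∈ Icc 1 s` (also fine for `s = 1`).
  For fixed `h'`, `j` the map `X ↦ Y (+ j χ)` has fibres of size `≤ card vs ^ 2` (`X` is determined by `push X` and `div X = uv w v`, `w v ∈ vs`).
* `term_one`: Jensen over `h`; add the shifts edge by edge (order `E` by `Fintype.equivFin`, or induct on a finset of edges), Cauchy–Schwarz
  gives the factor `card E`; `pi Y ≤ A e² c2 * pi (Y + shf g)` for every admissible `g` (`pi_le`, `push_cmp`, `push_of_mem`); for fixed `h` the maps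
  `Y ↦ Y + shf g` are injective; averaging over `h e` gives `(1/s) ∑_{j < s} De e j ≤ Dhe e` (`De e 0 = 0`).
-/

set_option autoImplicit false

noncomputable section

namespace Crest.Agent.R309

open Finset

variable {E V : Type} [Fintype E] [DecidableEq E] [DecidableEq V]

namespace St

variable (σ : St E V)

/-- the shifts averaged over -/
def Hs : Finset (E → ℕ) := Fintype.piFinset fun e => range (σ.s e)

/-- the smoothed function -/
def Ft (F : (E → ℤ) → ℝ) (Z : E → ℤ) : ℝ := (∑ h ∈ σ.Hs, F (σ.push Z + σ.shf h)) / σ.Hs.card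

open Classical in
def De (e : E) (j : ℕ) (f : (E → ℤ) → ℝ) : ℝ :=
  ∑ X ∈ σ.Om.filter (fun X => X + (j : ℤ) • σ.chi e ∈ σ.Om),
    min (σ.pi X) (σ.pi (X + (j : ℤ) • σ.chi e)) * (f (X + (j : ℤ) • σ.chi e) - f X) ^ 2

def Dhe (e : E) (f : (E → ℤ) → ℝ) : ℝ := (1 / (σ.s e : ℝ)) * ∑ j ∈ Finset.Icc 1 (σ.s e), σ.De e j f

theorem Dh_eq (f : (E → ℤ) → ℝ) : σ.Dh f = ∑ e, σ.Dhe e f := rfl

variable {σ} {L A Γ K Λ ε : ℝ}

private theorem De_nonneg (hF : σ.Forest) (e : E) (j : ℕ) (f : (E → ℤ) → ℝ) : 0 ≤ σ.De e j f :=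
  sum_nonneg fun _ _ => mul_nonneg (le_min (σ.pi_pos hF _).le (σ.pi_pos hF _).le) (sq_nonneg _)

private theorem De_zero (e : E) (f : (E → ℤ) → ℝ) : σ.De e 0 f = 0 :=
  sum_eq_zero fun X _ => by simp

private theorem sum_De_range_le (hF : σ.Forest) (e : E) (n : ℕ) (f : (E → ℤ) → ℝ) :
    ∑ j ∈ range n, σ.De e j f ≤ ∑ j ∈ Icc 1 n, σ.De e j f := by
  classical
  rw [← sum_erase (range n) (De_zero e f)]
  refine sum_le_sum_of_subset_of_nonneg (fun j hj => ?_) fun j _ _ => De_nonneg hF e j f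
  have h1 := (mem_erase.1 hj).1
  have h2 := mem_range.1 (mem_erase.1 hj).2
  exact mem_Icc.2 ⟨by omega, h2.le⟩

theorem Dhe_nonneg (hF : σ.Forest) (e : E) (f : (E → ℤ) → ℝ) : 0 ≤ σ.Dhe e f :=
  mul_nonneg (by positivity) (sum_nonneg fun j _ => De_nonneg hF e j f)

private theorem mem_Hs {h : E → ℕ} : h ∈ σ.Hs ↔ ∀ e, h e < σ.s e := by
  simp only [Hs, Fintype.mem_piFinset, mem_range]

private theorem card_Hs_pos (hF : σ.Forest) : (0 : ℝ) < σ.Hs.card := by
  have : (fun _ => 0) ∈ σ.Hs := mem_Hs.2 fun e => hF.s_pos e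
  exact_mod_cast card_pos.2 ⟨_, this⟩

private theorem adm_of_lt {h : E → ℕ} (hh : ∀ e, h e < σ.s e) : σ.Adm h := fun e =>
  ⟨(hh e).le, fun h1 => by have := hh e; omega⟩

theorem abs_Ft_le (hF : σ.Forest) {F : (E → ℤ) → ℝ} (hf : ∀ X, |F X| ≤ 1) (Z : E → ℤ) :
    |σ.Ft F Z| ≤ 1 := by
  have hN := card_Hs_pos hF
  rw [Ft, abs_div, abs_of_pos hN, div_le_one hN]
  refine (abs_sum_le_sum_abs _ _).trans ((sum_le_sum fun h _ => hf _).trans ?_)
  simp

theorem dirM_Ft_zero (hF : σ.Forest) (a : E → ℤ → ℝ) (R : ℕ) {e : E} (he : σ.chi e = 0)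
    (F : (E → ℤ) → ℝ) : DirM σ.G R a 0 e (σ.Ft F) = 0 :=
  sum_eq_zero fun X _ => by simp [Ft, push_add_one hF, he]

private theorem shf_update {g : E → ℕ} {e : E} (hg : g e = 0) (j : ℕ) :
    σ.shf (Function.update g e j) = σ.shf g + (j : ℤ) • σ.chi e := by
  rw [shf, shf, ← add_sum_erase _ _ (mem_univ e), ← add_sum_erase _ _ (mem_univ e),
    Function.update_self, hg, Nat.cast_zero, zero_smul, zero_add, add_comm]
  congr 1
  exact sum_congr rfl fun e' he' => by rw [Function.update_of_ne (mem_erase.1 he').1]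

private theorem update_lt {g : E → ℕ} (hg : g ∈ σ.Hs) {e : E} {j : ℕ} (hj : j < σ.s e) (e' : E) :
    Function.update g e j e' < σ.s e' := by
  by_cases h : e' = e
  · subst h; rwa [Function.update_self]
  · rw [Function.update_of_ne h]; exact mem_Hs.1 hg e'

private theorem sum_Hs (hF : σ.Forest) (e : E) (G : (E → ℕ) → ℝ) :
    ∑ h ∈ σ.Hs, G h =
      ∑ g ∈ σ.Hs.filter (fun g => g e = 0), ∑ j ∈ range (σ.s e), G (Function.update g e j) := by
  rw [← sum_product']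
  refine sum_nbij' (fun h => (Function.update h e 0, h e)) (fun p => Function.update p.1 e p.2)
    (fun h hh => ?_) (fun p hp => ?_) (fun h _ => ?_) (fun p hp => ?_) (fun h _ => ?_)
  · exact mem_product.2 ⟨mem_filter.2 ⟨mem_Hs.2 (update_lt hh (hF.s_pos e)), by simp⟩,
      mem_range.2 (mem_Hs.1 hh e)⟩
  · obtain ⟨h1, h2⟩ := mem_product.1 hp
    exact mem_Hs.2 (update_lt (mem_filter.1 h1).1 (mem_range.1 h2))
  · simp
  · have h1 := (mem_filter.1 (mem_product.1 hp).1).2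
    refine Prod.ext ?_ (by simp)
    simp only [Function.update_idem]
    rw [← h1, Function.update_eq_self]
  · simp

private theorem card_Hs (hF : σ.Forest) (e : E) :
    (σ.Hs.card : ℝ) = (σ.Hs.filter (fun g => g e = 0)).card * σ.s e := by
  simpa using sum_Hs hF e fun _ => 1

omit [Fintype E] [DecidableEq E] in
private theorem sum_fibre_le {α β : Type} [DecidableEq β] (T : Finset α) (B : Finset β) (φ : α → β)
    (t : β → ℝ) {m : ℝ} (hB : ∀ x ∈ T, φ x ∈ B) (ht : ∀ y ∈ B, 0 ≤ t y)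
    (hm : ∀ y, ((T.filter fun x => φ x = y).card : ℝ) ≤ m) :
    ∑ x ∈ T, t (φ x) ≤ m * ∑ y ∈ B, t y := by
  rw [← sum_fiberwise_of_maps_to hB, mul_sum]
  refine sum_le_sum fun y hy => ?_
  rw [sum_congr rfl fun x hx => by rw [(mem_filter.1 hx).2], sum_const, nsmul_eq_mul]
  exact mul_le_mul_of_nonneg_right (hm y) (ht y hy)

private theorem card_fibre_push (hF : σ.Forest) (T : Finset (E → ℤ))
    (hT : ∀ X ∈ T, IsDef (σ.G.div X)) (c y : E → ℤ) :
    ((T.filter fun X => σ.push X + c = y).card : ℝ) ≤ (σ.vs.card : ℝ) ^ 2 + 1 := by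
  classical
  have hv : ∀ (X : E → ℤ) (u : V), σ.G.div X u ≠ 0 → u ∈ σ.vs := fun X u hu => by
    by_contra hc
    exact hu (σ.G.div_eq_zero X (fun e h => hc (h ▸ hF.src_mem e)) fun e h => hc (h ▸ hF.tgt_mem e))
  have h1 : (T.filter fun X => σ.push X + c = y).card ≤
      (insert 0 ((σ.vs ×ˢ σ.vs).image fun p => uv p.1 p.2)).card := by
    refine card_le_card_of_injOn σ.G.div (fun X hX => ?_) fun X hX X' hX' hd => ?_
    · have hX' := (mem_filter.1 (mem_coe.1 hX)).1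
      rcases hT X hX' with h0 | ⟨w, v, h0⟩
      · exact mem_coe.2 (mem_insert.2 (Or.inl h0))
      · by_cases hwv : w = v
        · exact mem_coe.2 (mem_insert.2 (Or.inl (by rw [h0, hwv, uv_self])))
        · refine mem_coe.2 (mem_insert.2 (Or.inr (mem_image.2
            ⟨(w, v), mem_product.2 ⟨hv X w ?_, hv X v ?_⟩, h0.symm⟩)))
          · rw [h0, uv_apply]; simp [Ne.symm hwv]
          · rw [h0, uv_apply]; simp [hwv]
    · have e1 := (mem_filter.1 (mem_coe.1 hX)).2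
      have e2 := (mem_filter.1 (mem_coe.1 hX')).2
      have e3 : σ.push X = σ.push X' := add_right_cancel (e1.trans e2.symm)
      rw [push, push, hd] at e3
      exact sub_left_injective e3
  have h2 := h1.trans ((card_insert_le _ _).trans (Nat.add_le_add_right card_image_le 1))
  rw [card_product] at h2
  rw [sq]
  exact_mod_cast h2

private theorem c2_nonneg (A : ℝ) : 0 ≤ σ.c2 A := by unfold c2; positivity

private theorem Ft_diff (hF : σ.Forest) (e : E) (F : (E → ℤ) → ℝ) (X : E → ℤ) :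
    (σ.Ft F (X + one e) - σ.Ft F X) ^ 2 ≤ (∑ g ∈ σ.Hs.filter (fun g => g e = 0),
      (F (σ.push X + σ.shf g + (σ.s e : ℤ) • σ.chi e) - F (σ.push X + σ.shf g)) ^ 2) /
        ((σ.Hs.filter (fun g => g e = 0)).card * (σ.s e : ℝ) ^ 2) := by
  have hN := card_Hs_pos hF
  have hs : (0 : ℝ) < σ.s e := by exact_mod_cast hF.s_pos e
  have h1 : σ.Ft F (X + one e) - σ.Ft F X = (∑ g ∈ σ.Hs.filter (fun g => g e = 0),
      (F (σ.push X + σ.shf g + (σ.s e : ℤ) • σ.chi e) - F (σ.push X + σ.shf g))) / σ.Hs.card := by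
    rw [Ft, Ft, ← sub_div, ← sum_sub_distrib, sum_Hs hF e, push_add_one hF]
    congr 1
    refine sum_congr rfl fun g hg => ?_
    have := sum_range_sub (fun j : ℕ => F (σ.push X + σ.shf g + (j : ℤ) • σ.chi e)) (σ.s e)
    rw [Nat.cast_zero, zero_smul, add_zero] at this
    rw [← this]
    refine sum_congr rfl fun j _ => ?_
    rw [shf_update (mem_filter.1 hg).2, Nat.cast_succ, add_smul, one_smul]
    congr 2 <;> abel
  rw [card_Hs hF e] at hN h1
  have hH : (0 : ℝ) < (σ.Hs.filter (fun g => g e = 0)).card := (mul_pos_iff_of_pos_right hs).1 hN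
  rw [h1, div_pow, div_le_div_iff₀ (by positivity) (by positivity)]
  have h2 := mul_le_mul_of_nonneg_right (sq_sum_le_card_mul_sum_sq (s := σ.Hs.filter (fun g => g e = 0))
    (f := fun g => F (σ.push X + σ.shf g + (σ.s e : ℤ) • σ.chi e) - F (σ.push X + σ.shf g)))
    (show (0 : ℝ) ≤ (σ.Hs.filter (fun g => g e = 0)).card * (σ.s e : ℝ) ^ 2 by positivity)
  linarith

private theorem mu_nonneg {G : Gr E V} {a : E → ℤ → ℝ} {R : ℕ} (h : LC a R) (e : E) (X : E → ℤ) :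
    0 ≤ mu G R a e X :=
  le_min (div_nonneg (W_nonneg h _) (Zs_nonneg G h _)) (div_nonneg (W_nonneg h _) (Zs_nonneg G h _))

private theorem Good.mu_le (h : σ.Good L A Γ K Λ ε) (hE : 0 < Fintype.card E) {e : E} {X : E → ℤ}
    (hX : X ∈ mvs σ.G σ.rad 0 e) (hmu : mu σ.G σ.rad (σ.aa L Γ) e X ≠ 0) {g : E → ℕ} (hg : g ∈ σ.Hs)
    (hge : g e = 0) {j : ℕ} (hj : j ≤ σ.s e) :
    σ.push X + σ.shf g + (j : ℤ) • σ.chi e ∈ σ.Om ∧
      mu σ.G σ.rad (σ.aa L Γ) e X ≤ σ.c2 A * σ.pi (σ.push X + σ.shf g + (j : ℤ) • σ.chi e) := by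
  classical
  have hL := h.lc_a hE
  have hpos := lt_of_le_of_ne (mu_nonneg (G := σ.G) hL e X) hmu.symm
  obtain ⟨p1, p2⟩ := lt_min_iff.1 hpos
  obtain ⟨-, d1, d2⟩ := mem_filter.1 hX
  rw [sub_zero] at d1 d2
  rcases hj.lt_or_eq with hj | rfl
  · have hW : W (σ.aa L Γ) X ≠ 0 := fun h0 => by simp [h0] at p1
    have := h.push_cmp hE (inner_of_W_ne hW) d1 (adm_of_lt (update_lt hg hj))
    rw [shf_update hge, ← add_assoc] at this
    exact ⟨this.1, (min_le_left _ _).trans this.2⟩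
  · have hW : W (σ.aa L Γ) (X + one e) ≠ 0 := fun h0 => by simp [h0] at p2
    have hs := h.forest.s_pos e
    have := h.push_cmp hE (inner_of_W_ne hW) d2
      (adm_of_lt (update_lt hg (show σ.s e - 1 < σ.s e by omega)))
    have e1 : σ.push (X + one e) + σ.shf (Function.update g e (σ.s e - 1)) =
        σ.push X + σ.shf g + (σ.s e : ℤ) • σ.chi e := by
      rw [shf_update hge, push_add_one h.forest, Nat.cast_sub hs, sub_smul, Nat.cast_one, one_smul]
      abel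
    rw [e1] at this
    exact ⟨this.1, (min_le_right _ _).trans this.2⟩

/-- a jump of length `j` starting at offset `i` -/
private theorem Good.sum_mu_le (h : σ.Good L A Γ K Λ ε) (hE : 0 < Fintype.card E) (e : E)
    (F : (E → ℤ) → ℝ) {g : E → ℕ} (hg : g ∈ σ.Hs) (hge : g e = 0) {i j : ℕ} (hij : i + j ≤ σ.s e) :
    ∑ X ∈ mvs σ.G σ.rad 0 e, mu σ.G σ.rad (σ.aa L Γ) e X *
      (F (σ.push X + σ.shf g + ((i + j : ℕ) : ℤ) • σ.chi e) -
        F (σ.push X + σ.shf g + (i : ℤ) • σ.chi e)) ^ 2 ≤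
      σ.c2 A * (((σ.vs.card : ℝ) ^ 2 + 1) * σ.De e j F) := by
  classical
  have hF := h.forest
  rw [← sum_filter_of_ne (p := fun X => mu σ.G σ.rad (σ.aa L Γ) e X ≠ 0)
    fun X _ hX => left_ne_zero_of_mul hX]
  have e1 : ∀ X, σ.push X + σ.shf g + ((i + j : ℕ) : ℤ) • σ.chi e =
      σ.push X + (σ.shf g + (i : ℤ) • σ.chi e) + (j : ℤ) • σ.chi e := fun X => by
    rw [Nat.cast_add, add_smul]; abel
  have h1 := sum_fibre_le ((mvs σ.G σ.rad 0 e).filter fun X => mu σ.G σ.rad (σ.aa L Γ) e X ≠ 0)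
    (σ.Om.filter fun Y => Y + (j : ℤ) • σ.chi e ∈ σ.Om)
    (fun X => σ.push X + (σ.shf g + (i : ℤ) • σ.chi e))
    (fun Y => min (σ.pi Y) (σ.pi (Y + (j : ℤ) • σ.chi e)) * (F (Y + (j : ℤ) • σ.chi e) - F Y) ^ 2)
    (fun X hX => by
      obtain ⟨h1, h2⟩ := mem_filter.1 hX
      refine mem_filter.2 ⟨?_, ?_⟩
      · rw [← add_assoc]; exact (h.mu_le hE h1 h2 hg hge (by omega)).1
      · rw [← e1]; exact (h.mu_le hE h1 h2 hg hge hij).1)
    (fun Y _ => mul_nonneg (le_min (σ.pi_pos hF _).le (σ.pi_pos hF _).le) (sq_nonneg _))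
    (card_fibre_push hF _ (fun X hX => by
      have := (mem_filter.1 (mem_filter.1 hX).1).2.1
      rwa [sub_zero] at this) _)
  refine le_trans ?_ (mul_le_mul_of_nonneg_left h1 (c2_nonneg A))
  rw [mul_sum]
  refine sum_le_sum fun X hX => ?_
  obtain ⟨h1, h2⟩ := mem_filter.1 hX
  rw [← e1, ← add_assoc, ← mul_assoc, mul_min_of_nonneg _ _ (c2_nonneg A)]
  exact mul_le_mul_of_nonneg_right (le_min (h.mu_le hE h1 h2 hg hge (by omega)).2
    (h.mu_le hE h1 h2 hg hge hij).2) (sq_nonneg _)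

private theorem Good.sum_mu_full (h : σ.Good L A Γ K Λ ε) (hE : 0 < Fintype.card E) (e : E)
    (F : (E → ℤ) → ℝ) {g : E → ℕ} (hg : g ∈ σ.Hs) (hge : g e = 0) :
    ∑ X ∈ mvs σ.G σ.rad 0 e, mu σ.G σ.rad (σ.aa L Γ) e X *
      (F (σ.push X + σ.shf g + (σ.s e : ℤ) • σ.chi e) - F (σ.push X + σ.shf g)) ^ 2 ≤
      4 * ((σ.vs.card : ℝ) ^ 2 + 1) * σ.c2 A * σ.Dhe e F := by
  have hF := h.forest
  have hs : (0 : ℝ) < σ.s e := by exact_mod_cast hF.s_pos e
  have h1 : ∀ j ∈ Icc 1 (σ.s e), ∑ X ∈ mvs σ.G σ.rad 0 e, mu σ.G σ.rad (σ.aa L Γ) e X *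
      (F (σ.push X + σ.shf g + (σ.s e : ℤ) • σ.chi e) - F (σ.push X + σ.shf g)) ^ 2 ≤
      2 * (σ.c2 A * ((σ.vs.card : ℝ) ^ 2 + 1)) * (σ.De e j F + σ.De e (σ.s e - j) F) := by
    intro j hj
    have hj' := (mem_Icc.1 hj).2
    have a1 := h.sum_mu_le hE e F hg hge (i := 0) (j := j) (by omega)
    have a2 := h.sum_mu_le hE e F hg hge (i := j) (j := σ.s e - j) (by omega)
    rw [Nat.add_sub_cancel' hj'] at a2
    simp only [zero_add, Nat.cast_zero, zero_smul, add_zero] at a1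
    refine le_trans (le_trans ?_ (add_le_add (mul_le_mul_of_nonneg_left a1 zero_le_two)
      (mul_le_mul_of_nonneg_left a2 zero_le_two))) (le_of_eq (by ring))
    rw [mul_sum, mul_sum, ← sum_add_distrib]
    refine sum_le_sum fun X _ => ?_
    have a3 := mu_nonneg (G := σ.G) (h.lc_a hE) e X
    generalize F (σ.push X + σ.shf g + (σ.s e : ℤ) • σ.chi e) = x
    generalize F (σ.push X + σ.shf g + (j : ℤ) • σ.chi e) = y
    generalize F (σ.push X + σ.shf g) = z
    nlinarith [mul_nonneg a3 (sq_nonneg (x - 2 * y + z))]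
  have h2 := sum_le_sum h1
  rw [sum_const, Nat.card_Icc, Nat.add_sub_cancel, nsmul_eq_mul, ← mul_sum, sum_add_distrib] at h2
  have h3 : ∑ j ∈ Icc 1 (σ.s e), σ.De e (σ.s e - j) F ≤ ∑ j ∈ Icc 1 (σ.s e), σ.De e j F := by
    refine le_trans (le_of_eq ?_) (sum_De_range_le hF e (σ.s e) F)
    refine sum_nbij' (fun j => σ.s e - j) (fun j => σ.s e - j) (fun j hj => ?_) (fun j hj => ?_)
      (fun j hj => ?_) (fun j hj => ?_) fun _ _ => rfl
    · have := mem_Icc.1 hj; exact mem_range.2 (by omega)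
    · have := mem_range.1 hj; exact mem_Icc.2 (by omega)
    · have := mem_Icc.1 hj; omega
    · have := mem_range.1 hj; omega
  have h4 := mul_le_mul_of_nonneg_left h3
    (show 0 ≤ 2 * (σ.c2 A * ((σ.vs.card : ℝ) ^ 2 + 1)) from by have := c2_nonneg (σ := σ) A; positivity)
  refine le_of_mul_le_mul_left ?_ hs
  have h5 : (σ.s e : ℝ) * (4 * ((σ.vs.card : ℝ) ^ 2 + 1) * σ.c2 A * σ.Dhe e F) =
      4 * ((σ.vs.card : ℝ) ^ 2 + 1) * σ.c2 A * ∑ j ∈ Icc 1 (σ.s e), σ.De e j F := by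
    rw [Dhe]; field_simp
  rw [h5]
  linarith

theorem Good.dirM_Ft (h : σ.Good L A Γ K Λ ε) (hE : 0 < Fintype.card E) (e : E) (F : (E → ℤ) → ℝ) :
    DirM σ.G σ.rad (σ.aa L Γ) 0 e (σ.Ft F) ≤
      4 * ((σ.vs.card : ℝ) ^ 2 + 1) * σ.c2 A * σ.Dhe e F / (σ.s e : ℝ) ^ 2 := by
  have hF := h.forest
  have hN := card_Hs_pos hF
  have hs : (0 : ℝ) < σ.s e := by exact_mod_cast hF.s_pos e
  rw [card_Hs hF e] at hN
  have hH : (0 : ℝ) < (σ.Hs.filter (fun g => g e = 0)).card := (mul_pos_iff_of_pos_right hs).1 hN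
  refine (sum_le_sum fun X _ => mul_le_mul_of_nonneg_left (Ft_diff hF e F X)
    (mu_nonneg (h.lc_a hE) e X)).trans ?_
  simp only [← mul_div_assoc, mul_sum]
  rw [← sum_div, sum_comm, div_le_div_iff₀ (by positivity) (by positivity)]
  have h1 := sum_le_sum fun g (hg : g ∈ σ.Hs.filter (fun g => g e = 0)) =>
    h.sum_mu_full hE e F (mem_filter.1 hg).1 (mem_filter.1 hg).2
  rw [sum_const, nsmul_eq_mul] at h1
  have h2 := mul_le_mul_of_nonneg_right h1 (sq_nonneg (σ.s e : ℝ))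
  linarith

/-- the shifts of the edges of index `< k` -/
private def cut (g : E → ℕ) (k : ℕ) : E → ℕ :=
  fun e => if (Fintype.equivFin E e : ℕ) < k then g e else 0

private theorem telescope (F : (E → ℤ) → ℝ) (Y : E → ℤ) (g : E → ℕ) :
    F (Y + σ.shf g) - F Y = ∑ e, (F (Y + σ.shf (cut g (Fintype.equivFin E e)) + (g e : ℤ) • σ.chi e) -
      F (Y + σ.shf (cut g (Fintype.equivFin E e)))) := by
  have h1 := sum_range_sub (fun k => F (Y + σ.shf (cut g k))) (Fintype.card E)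
  have h2 : cut g (Fintype.card E) = g := funext fun e => if_pos (Fintype.equivFin E e).2
  have h3 : σ.shf (cut g 0) = 0 := by simp [shf, cut]
  rw [h2, h3, add_zero] at h1
  rw [← h1, ← Fin.sum_univ_eq_sum_range
    (fun k => F (Y + σ.shf (cut g (k + 1))) - F (Y + σ.shf (cut g k))), ← (Fintype.equivFin E).sum_comp]
  refine sum_congr rfl fun e _ => ?_
  have h4 : cut g (Fintype.equivFin E e + 1) =
      Function.update (cut g (Fintype.equivFin E e)) e (g e) := by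
    funext e'
    by_cases he : e' = e
    · subst he; simp [cut]
    · have : (Fintype.equivFin E e' : ℕ) ≠ Fintype.equivFin E e := fun h =>
        he ((Fintype.equivFin E).injective (Fin.ext h))
      rw [Function.update_of_ne he]
      exact if_congr (by omega) rfl rfl
  rw [h4, shf_update (by simp [cut]), add_assoc]

open Classical in
theorem Good.term_one (h : σ.Good L A Γ K Λ ε) (hE : 0 < Fintype.card E) (F : (E → ℤ) → ℝ) :
    ∑ Y ∈ σ.Om.filter (fun Y => ∀ e, σ.Inner L e (Y e)), σ.pi Y * (F Y - σ.Ft F Y) ^ 2 ≤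
      Fintype.card E * (A * Real.exp 2 * σ.c2 A) * σ.Dh F := by
  have hF := h.forest
  have hN := card_Hs_pos hF
  set T := σ.Om.filter (fun Y => ∀ e, σ.Inner L e (Y e)) with hT
  set C := A * Real.exp 2 * σ.c2 A with hC
  have hA : 0 ≤ A := zero_le_one.trans h.one_le.1
  have hC0 : 0 ≤ C := by have := c2_nonneg (σ := σ) A; positivity
  have hcmp : ∀ Y ∈ T, ∀ g : E → ℕ, (∀ e, g e < σ.s e) →
      Y + σ.shf g ∈ σ.Om ∧ σ.pi Y ≤ C * σ.pi (Y + σ.shf g) := fun Y hY g hg => by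
    obtain ⟨h1, h2⟩ := mem_filter.1 hY
    obtain ⟨w, -, v, -, -, -, h3⟩ := (mem_filter.1 h1).2
    have h4 := h.push_cmp hE h2 (Or.inr ⟨w, v, h3⟩) (adm_of_lt hg)
    rw [push_of_mem hF h1] at h4
    refine ⟨h4.1, (h.pi_le hE h1 h2).trans ?_⟩
    rw [hC, mul_assoc _ (σ.c2 A)]
    exact mul_le_mul_of_nonneg_left h4.2 (by positivity)
  have h1 : ∀ g ∈ σ.Hs, ∀ e, ∑ Y ∈ T, σ.pi Y *
      (F (Y + σ.shf (cut g (Fintype.equivFin E e)) + (g e : ℤ) • σ.chi e) -
        F (Y + σ.shf (cut g (Fintype.equivFin E e)))) ^ 2 ≤ C * σ.De e (g e) F := by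
    intro g hg e
    have hc : cut g (Fintype.equivFin E e) ∈ σ.Hs := mem_Hs.2 fun e' => by
      unfold cut; split_ifs
      exacts [mem_Hs.1 hg e', hF.s_pos e']
    have a1 := fun Y hY => hcmp Y hY _ (mem_Hs.1 hc)
    have a2 := fun Y hY => hcmp Y hY _ (update_lt hc (mem_Hs.1 hg e))
    simp only [shf_update (show cut g (Fintype.equivFin E e) e = 0 by simp [cut]),
      ← add_assoc] at a2
    have a3 := sum_fibre_le T (σ.Om.filter fun Y => Y + (g e : ℤ) • σ.chi e ∈ σ.Om)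
      (fun Y => Y + σ.shf (cut g (Fintype.equivFin E e)))
      (fun Y => min (σ.pi Y) (σ.pi (Y + (g e : ℤ) • σ.chi e)) *
        (F (Y + (g e : ℤ) • σ.chi e) - F Y) ^ 2) (m := 1)
      (fun Y hY => mem_filter.2 ⟨(a1 Y hY).1, (a2 Y hY).1⟩)
      (fun Y _ => mul_nonneg (le_min (σ.pi_pos hF _).le (σ.pi_pos hF _).le) (sq_nonneg _))
      (fun y => by
        refine Nat.cast_le_one.2 (card_le_one.2 fun a ha b hb => ?_)
        rw [mem_filter] at ha hb
        exact add_right_cancel (ha.2.trans hb.2.symm))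
    rw [one_mul] at a3
    refine le_trans ?_ (mul_le_mul_of_nonneg_left a3 hC0)
    rw [mul_sum]
    refine sum_le_sum fun Y hY => ?_
    rw [← mul_assoc, mul_min_of_nonneg _ _ hC0]
    exact mul_le_mul_of_nonneg_right (le_min (a1 Y hY).2 (a2 Y hY).2) (sq_nonneg _)
  have h2 : ∀ g ∈ σ.Hs, ∑ Y ∈ T, σ.pi Y * (F (Y + σ.shf g) - F Y) ^ 2 ≤
      Fintype.card E * C * ∑ e, σ.De e (g e) F := by
    intro g hg
    have a0 : ∀ Y, (F (Y + σ.shf g) - F Y) ^ 2 ≤ Fintype.card E * ∑ e,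
        (F (Y + σ.shf (cut g (Fintype.equivFin E e)) + (g e : ℤ) • σ.chi e) -
          F (Y + σ.shf (cut g (Fintype.equivFin E e)))) ^ 2 := fun Y => by
      rw [telescope F Y g]; exact sq_sum_le_card_mul_sum_sq
    refine le_trans (sum_le_sum fun Y _ => mul_le_mul_of_nonneg_left (a0 Y) (σ.pi_pos hF Y).le) ?_
    have a1 := sum_le_sum fun e (_ : e ∈ univ) => h1 g hg e
    rw [sum_comm, ← mul_sum] at a1
    simp only [← mul_sum] at a1
    simp only [mul_left_comm (σ.pi _), ← mul_sum]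
    rw [mul_assoc]
    exact mul_le_mul_of_nonneg_left a1 (Nat.cast_nonneg _)
  have h3 : ∀ Y ∈ T, σ.pi Y * (F Y - σ.Ft F Y) ^ 2 ≤
      (∑ g ∈ σ.Hs, σ.pi Y * (F (Y + σ.shf g) - F Y) ^ 2) / σ.Hs.card := fun Y hY => by
    rw [← mul_sum, mul_div_assoc]
    refine mul_le_mul_of_nonneg_left ?_ (σ.pi_pos hF Y).le
    have a1 : F Y - σ.Ft F Y = -((∑ g ∈ σ.Hs, (F (Y + σ.shf g) - F Y)) / σ.Hs.card) := by
      rw [Ft, push_of_mem hF (mem_filter.1 hY).1, sum_sub_distrib, sum_const, nsmul_eq_mul]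
      field_simp; ring
    rw [a1, neg_sq, div_pow, div_le_div_iff₀ (by positivity) hN]
    have a2 := mul_le_mul_of_nonneg_right (sq_sum_le_card_mul_sum_sq (s := σ.Hs)
      (f := fun g => F (Y + σ.shf g) - F Y)) hN.le
    linarith
  have h4 : ∀ e, ∑ g ∈ σ.Hs, σ.De e (g e) F ≤ σ.Dhe e F * σ.Hs.card := fun e => by
    have hs : (0 : ℝ) < σ.s e := by exact_mod_cast hF.s_pos e
    rw [sum_Hs hF e, card_Hs hF e]
    simp only [Function.update_self]
    rw [sum_const, nsmul_eq_mul]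
    refine (mul_le_mul_of_nonneg_left (sum_De_range_le hF e _ F) (Nat.cast_nonneg _)).trans
      (le_of_eq ?_)
    rw [Dhe]; field_simp
  refine (sum_le_sum h3).trans ?_
  rw [← sum_div, sum_comm, div_le_iff₀ hN]
  refine (sum_le_sum h2).trans ?_
  rw [← mul_sum, sum_comm, Dh_eq, mul_assoc _ _ (σ.Hs.card : ℝ), sum_mul]
  exact mul_le_mul_of_nonneg_left (sum_le_sum fun e _ => h4 e) (by positivity)

end St

end Crest.Agent.R309
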