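import Crest.Agent.R309.Sample
import Crest.Agent.R309.Ratio
import Crest.Agent.R309.Final
import Crest.Agent.R309.Flat

/-!
# Row 309: Stage
One stage.  `δ = 1 / pDn s`, `η = exp (-(k + 14 s²)) ≤ δ`, `p₀ = 1 / ((s² + 1) pA) ≤ ZZ 0 / Zh`, `2 δ = p₀ / (32 s (pI + 1))`.
* `hoeff` (`exp (-pKs δ² / 4) = exp (-(2 k + 20 s²))`) and `sample_mix` for each of the events `key = q` (`q < n * n`), `alpha`, `beta`: outside an event of probability
  `≤ 2 (n² + 2) exp (-(2k + 20 s²))` every count is within `2 δ pKs` of `pKs * mean` (`countP` over `List.range` = sum of indicators).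
* then: `mean alpha, mean beta ≥ p₀ / 2` (`Ov_ge`, `final_le`, `ZZ0_le`) give relative errors `x = 1 / (16 s (pI + 1))`.
  Holes: `ρ = exp (-κ h) ZZ γ / ZZ 0`.  If `cnt 0 ≤ cnt q` then `ρ > 1/2` and `h` grows by `pJ / 2` (`κ pJ / 2 ∈ [0.5, 0.505]`): new `ρ ∈ [0.19, pA]` since
  `exp (-1/2) * 25/16 ≤ 1` (`ZZ_ratio` for `γ` and for `0 = uv w w`).  Otherwise `ρ < 2` and new `ρ ∈ [1 / pA, 5.2]` since `exp (1/2) * 16/25 ≥ 1`.
* `stage_first`: `first_le` with `p = 1 / Zh + η`, `q = |GS| / Zh - η`, `η Zh ≤ exp (-(k + 10 s²))`.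
-/

set_option autoImplicit false

noncomputable section

namespace Crest.Agent.R309

open Finset Crest.Agent.Lib.PolyTime

theorem stage_count {α : Type} (F : ℕ → α) (p : α → Bool) (K : ℕ) :
    ((((List.range K).map F).countP p : ℕ) : ℝ) = ∑ j ∈ range K, ind (p (F j) = true) := by
  induction K with
  | zero => simp
  | succ K ih =>
    rw [List.range_succ, List.map_append, List.countP_append, Nat.cast_add, ih, sum_range_succ]
    congr 1
    by_cases h : p (F K) = true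
    · rw [ind_of h]; simp [h]
    · rw [ind_of_not h]; simp [h]

theorem stage_rel {a b T x cA cB : ℝ} (ha : 0 < a) (hb : 0 < b) (hT : 0 < T) (hx0 : 0 ≤ x) (hx : x ≤ 1 / 3)
    (hA : |cA - T * a| ≤ x * (T * a)) (hB : |cB - T * b| ≤ x * (T * b)) :
    0 < cA ∧ 0 < cB ∧ (1 - 3 * x) * (a * cB) ≤ cA * b ∧ cA * b ≤ (1 + 3 * x) * (a * cB) := by
  obtain ⟨a1, a2⟩ := _root_.abs_le.1 hA
  obtain ⟨b1, b2⟩ := _root_.abs_le.1 hB
  have hTa := mul_pos hT ha
  have hTb := mul_pos hT hb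
  have hM : 0 < T * a * b := mul_pos hTa hb
  have c1 : (1 - x) * (T * a * b) ≤ cA * b := by nlinarith
  have c2 : cA * b ≤ (1 + x) * (T * a * b) := by nlinarith
  have c3 : (1 - x) * (T * a * b) ≤ a * cB := by nlinarith
  have c4 : a * cB ≤ (1 + x) * (T * a * b) := by nlinarith
  refine ⟨by nlinarith, by nlinarith, ?_, ?_⟩
  · calc (1 - 3 * x) * (a * cB) ≤ (1 - 3 * x) * ((1 + x) * (T * a * b)) :=
          mul_le_mul_of_nonneg_left c4 (by linarith)
      _ ≤ (1 - x) * (T * a * b) := by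
          rw [← mul_assoc]; exact mul_le_mul_of_nonneg_right (by nlinarith) hM.le
      _ ≤ _ := c1
  · calc cA * b ≤ (1 + x) * (T * a * b) := c2
      _ ≤ (1 + 3 * x) * ((1 - x) * (T * a * b)) := by
          rw [← mul_assoc (1 + 3 * x)]; exact mul_le_mul_of_nonneg_right (by nlinarith) hM.le
      _ ≤ _ := mul_le_mul_of_nonneg_left c3 (by linarith)

theorem stage_hole {Z Z' G G' A τ : ℝ} (hZ : 0 ≤ Z) (hA : 10 ≤ A) (h1 : 25 / 16 ≤ τ) (h2 : τ ≤ 3)
    (z1 : 4 / 5 * Z ≤ Z') (z2 : Z' ≤ 5 / 4 * Z) (g1 : 4 / 5 * G ≤ G') (g2 : G' ≤ 5 / 4 * G)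
    (a1 : Z ≤ A * G) (a2 : G ≤ A * Z) :
    (Z ≤ 2 * G → Z' ≤ A * (G' / τ) ∧ G' / τ ≤ A * Z') ∧
      (G ≤ 2 * Z → Z' ≤ A * (G' * τ) ∧ G' * τ ≤ A * Z') := by
  have hτ : 0 < τ := by linarith
  have hG : 0 ≤ G := by nlinarith
  have hG' : 0 ≤ G' := by linarith
  have hZ' : 0 ≤ Z' := by linarith
  have b1 : A * G ≤ A * (5 / 4 * G') := mul_le_mul_of_nonneg_left (by linarith) (by linarith)
  have b2 : A * Z ≤ A * (5 / 4 * Z') := mul_le_mul_of_nonneg_left (by linarith) (by linarith)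
  have hAG : 0 ≤ A * G' := by positivity
  have hAZ : 0 ≤ A * Z' := by positivity
  refine ⟨fun h => ⟨?_, ?_⟩, fun h => ⟨?_, ?_⟩⟩
  · rw [← mul_div_assoc, le_div_iff₀ hτ]
    calc Z' * τ ≤ Z' * 3 := mul_le_mul_of_nonneg_left h2 hZ'
      _ ≤ 10 * G' := by linarith
      _ ≤ _ := mul_le_mul_of_nonneg_right hA hG'
  · rw [div_le_iff₀ hτ]
    calc G' ≤ A * Z' * (25 / 16) := by linarith
      _ ≤ _ := mul_le_mul_of_nonneg_left h1 hAZ
  · calc Z' ≤ A * G' * (25 / 16) := by linarith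
      _ ≤ A * G' * τ := mul_le_mul_of_nonneg_left h1 hAG
      _ = _ := mul_assoc _ _ _
  · calc G' * τ ≤ G' * 3 := mul_le_mul_of_nonneg_left h2 hG'
      _ ≤ 10 * Z' := by linarith
      _ ≤ _ := mul_le_mul_of_nonneg_right hA hZ'

theorem stage_cmp {c0 cq K Zh Z G d x : ℝ} (hK : 0 < K) (hZh : 0 < Zh) (hZ : 0 ≤ Z) (hx : x ≤ 1 / 3)
    (hd : d ≤ x * (Z / 2 / Zh)) (h0 : |c0 - K * (Z / Zh)| ≤ d * K) (hq : |cq - K * (G / Zh)| ≤ d * K) :
    (c0 ≤ cq → Z ≤ 2 * G) ∧ (cq ≤ c0 → G ≤ 2 * Z) := by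
  have hT : 0 < K / Zh := by positivity
  have hδ := mul_le_mul_of_nonneg_right
    (hd.trans (mul_le_mul_of_nonneg_right hx (by positivity))) hK.le
  rw [show K * (Z / Zh) = K / Zh * Z by ring] at h0
  rw [show K * (G / Zh) = K / Zh * G by ring] at hq
  rw [show 1 / 3 * (Z / 2 / Zh) * K = 1 / 6 * (K / Zh * Z) by ring] at hδ
  obtain ⟨c1, c2⟩ := abs_le.1 h0
  obtain ⟨c3, c4⟩ := abs_le.1 hq
  have hTZ : 0 ≤ K / Zh * Z := by positivity
  constructor <;> intro hc <;> refine le_of_mul_le_mul_left ?_ hT <;> linarith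

theorem stage_tau (s : ℕ) : 25 / 16 ≤ Real.exp (ka s * (pJ s / 2 : ℕ)) ∧
    Real.exp (ka s * (pJ s / 2 : ℕ)) ≤ 3 := by
  have e : ((pJ s / 2 : ℕ) : ℝ) = pJ s / 2 := by
    rw [Nat.cast_div (two_dvd_pJ s) (by norm_num)]; norm_num
  have h1 := ka_ge s
  have h2 := ka_le s
  rw [e]
  constructor
  · have := Real.quadratic_le_exp_of_nonneg (x := 1 / 2) (by norm_num)
    refine le_trans (by linarith) (this.trans (Real.exp_le_exp.2 (by linarith)))
  · exact (Real.exp_le_exp.2 (by linarith)).trans Real.exp_one_lt_three.le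

namespace Inst

variable {I : Inst} {s k i : ℕ} {rt : ℕ → ℕ} {P : ℕ → Fin I.m → ℤ} {hs : List ℤ}

/-- the stage went well -/
def StageOK (I : Inst) (s k i : ℕ) (rt : ℕ → ℕ) (hs : List ℤ) (us : List ℕ) : Prop :=
  (i < pI s → I.HW s k (i + 1) rt (I.newHs s k i hs us)) ∧ 0 < I.cntA s k i hs us ∧ 0 < I.cntB s k i hs us ∧
    (1 - 3 / (16 * s * (pI s + 1) : ℝ)) * (I.Ov s k (i + 1) * I.cntB s k i hs us) ≤ I.cntA s k i hs us * I.Ov s k i ∧
    I.cntA s k i hs us * I.Ov s k i ≤ (1 + 3 / (16 * s * (pI s + 1) : ℝ)) * (I.Ov s k (i + 1) * I.cntB s k i hs us)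

theorem Valid.Ov_pos (h : I.Valid s k rt P) (hi : i ≤ pI s + 1) : 0 < I.Ov s k i := by
  cases i with
  | zero => exact one_pos
  | succ j =>
    rcases (show j = pI s ∨ j < pI s by omega) with rfl | hj
    · simp only [Ov, if_true]
      exact_mod_cast card_pos.2 ⟨_, zero_mem_GS⟩
    · linarith [(h.Ov_ge hj).1, one_le_ZZ (I := I) s k j]

theorem Valid.Ov_ge' (h : I.Valid s k rt P) (hi : i ≤ pI s) :
    I.ZZ s k i 0 ≤ 2 * I.Ov s k (i + 1) ∧ I.ZZ s k i 0 ≤ 2 * I.Ov s k i := by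
  constructor
  · rcases hi.eq_or_lt with rfl | hi
    · simp only [Ov, if_true]
      exact h.final_le
    · exact (h.Ov_ge hi).1
  · cases i with
    | zero => simpa only [Ov, mul_one] using h.ZZ0_le 0
    | succ j => exact (h.Ov_ge hi).2

/-- deviation of one count -/
theorem Valid.dev (h : I.Valid s k rt P) (hi : i ≤ pI s) (hW : I.HW s k i rt hs) (p : List ℤ × ℕ → Bool) :
    avgL (2 ^ pr s) (pS s k) (fun us => ind (2 / (pDn s : ℝ) * pKs s k <
      |((I.samples s k i hs us).countP p : ℕ) - pKs s k * (I.mkSt s k i rt P hs).mean fun X =>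
        avgN (2 ^ pr s) fun u => ind (p (List.ofFn X, u) = true)|)) ≤
      2 * Real.exp (-(2 * k + 20 * s ^ 2)) := by
  have hD : (1 : ℝ) ≤ pDn s := by exact_mod_cast pDn_pos h.s_ge
  have hm := h.sample_mix hi hW fun Z u => p (Z, u) = true
  have hη : Real.exp (-(k + 14 * s ^ 2)) ≤ 1 / (pDn s : ℝ) := by
    rw [Real.exp_neg, one_div]
    refine inv_anti₀ (by linarith) ((pDn_le h.s_ge).trans (Real.exp_le_exp.2 ?_))
    nlinarith [sq_nonneg (s : ℝ), Nat.cast_nonneg (α := ℝ) k]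
  have hh := hoeff (N := 2 ^ pr s) (by positivity) (pKs s k) (pb s k)
    (fun us => ind (p (I.sample s k i hs us) = true)) (fun us => ⟨ind_nonneg _, ind_le_one _⟩)
    (δ := 1 / (pDn s : ℝ)) (by positivity) ((div_le_one (by linarith)).2 hD)
  have e : -((pKs s k : ℝ) * (1 / (pDn s : ℝ)) ^ 2) / 4 = -(2 * k + 20 * s ^ 2) := by
    rw [pKs]; push_cast; field_simp; ring
  rw [e] at hh
  refine le_trans (avgL_mono fun us _ => ind_mono fun hlt => ?_) hh
  rw [samples, stage_count] at hlt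
  replace hm := _root_.abs_le.1 (hm.trans hη)
  have hK : (0 : ℝ) ≤ pKs s k := Nat.cast_nonneg _
  have a1 := mul_le_mul_of_nonneg_left hm.1 hK
  have a2 := mul_le_mul_of_nonneg_left hm.2 hK
  rw [show 2 / (pDn s : ℝ) = 2 * (1 / (pDn s : ℝ)) by ring] at hlt
  rw [lt_abs] at hlt ⊢
  rcases hlt with hlt | hlt
  · left; linarith
  · right; linarith

theorem cntOf_getD (l : List (List ℤ × ℕ)) {q : ℕ} (hq : q < I.n * I.n) :
    (I.cntOf l).getD q 0 = l.countP fun p => I.key p.1 == q := by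
  simp [cntOf, List.getD_eq_getElem?_getD, hq]

theorem upd_getD (cnt : List ℕ) {q : ℕ} (hq : q < I.n * I.n) (h0 : q ≠ 0) :
    (I.upd s hs cnt).getD q 0 =
      hs.getD q 0 + (if cnt.getD 0 0 ≤ cnt.getD q 0 then 1 else -1) * ((pJ s / 2 : ℕ) : ℤ) := by
  rw [upd, List.getD_eq_getElem?_getD, List.getElem?_map, List.getElem?_range hq, Option.map_some,
    Option.getD_some, if_neg h0]

theorem Valid.two_delta (h : I.Valid s k rt P) (hW : I.HW s k i rt hs) :
    2 / (pDn s : ℝ) ≤ 1 / (16 * s * (pI s + 1) : ℝ) *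
      (I.ZZ s k i 0 / 2 / (I.mkSt s k i rt P hs).Zh) := by
  obtain ⟨z1, z2, -⟩ := h.Zh_le' hW
  have z0 := one_le_ZZ (I := I) s k i
  have hs0 : (0 : ℝ) < s := by have := h.s_ge; positivity
  have hD : (0 : ℝ) < pDn s := by exact_mod_cast pDn_pos h.s_ge
  have hZ : 0 < (I.mkSt s k i rt P hs).Zh := by linarith
  rw [div_div, div_mul_div_comm, div_le_div_iff₀ hD (by positivity), pDn]
  push_cast
  have : (0 : ℝ) ≤ 64 * s * (pI s + 1) := by positivity
  nlinarith [mul_le_mul_of_nonneg_left z2 this]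

theorem stage_x_le (hs : 20 ≤ s) : 1 / (16 * s * (pI s + 1) : ℝ) ≤ 1 / 3 := by
  have h1 : (20 : ℝ) ≤ s := by exact_mod_cast hs
  have h2 : (0 : ℝ) ≤ pI s := Nat.cast_nonneg _
  exact one_div_le_one_div_of_le (by norm_num) (by nlinarith)

/-- the hole update -/
theorem Valid.hole_ok (h : I.Valid s k rt P) (hW : I.HW s k i rt hs) (l : List (List ℤ × ℕ))
    (hl : ∀ q < I.n * I.n, |((l.countP fun p => I.key p.1 == q : ℕ) : ℝ) -
      pKs s k * (I.mkSt s k i rt P hs).mean fun X => avgN (2 ^ pr s) fun _ =>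
        ind (I.key (List.ofFn X) = q)| ≤ 2 / (pDn s : ℝ) * pKs s k) :
    I.HW s k (i + 1) rt (I.upd s hs (I.cntOf l)) := by
  have hB := hW.1.upd h.n_pos (I.cntOf l)
  refine ⟨hB, fun w hw v hv hw' hv' => ?_⟩
  have hs20 : (20 : ℝ) ≤ s := by exact_mod_cast h.s_ge
  have hA : (10 : ℝ) ≤ pA s := by
    rw [pA]; push_cast
    nlinarith [one_le_pow₀ (n := 3) (show (1 : ℝ) ≤ s by linarith)]
  have hww : uv w w = (0 : ℕ → ℤ) := sub_self _
  by_cases hwv : w = v
  · subst hwv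
    rw [hww, keyF_zero, hB.2.1]
    have := one_le_ZZ (I := I) s k (i + 1)
    simp only [Int.cast_zero, mul_zero, neg_zero, Real.exp_zero, one_mul]
    constructor <;> nlinarith
  have hq := keyF_lt hw hv
  have hq0 : I.keyF (uv w v) ≠ 0 := by
    rw [keyF_uv hw hv hwv]
    intro e
    have e1 : v = 0 := by omega
    have e2 : w * I.n = 0 := by omega
    rcases Nat.mul_eq_zero.1 e2 with e2 | e2 <;> omega
  have h00 : 0 < I.n * I.n := Nat.mul_pos h.n_pos h.n_pos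
  have c0 := hl 0 h00
  have cq := hl _ hq
  have m0 := h.mean_key (i := i) (hs := hs) hw hw hw' hw'
  rw [hww, keyF_zero, hW.1.2.1] at m0
  simp only [Int.cast_zero, mul_zero, neg_zero, Real.exp_zero, one_mul] at m0
  rw [m0] at c0
  rw [h.mean_key hw hv hw' hv'] at cq
  obtain ⟨r1, r2⟩ := h.ZZ_ratio i hw hw
  rw [hww] at r1 r2
  obtain ⟨r3, r4⟩ := h.ZZ_ratio i hw hv
  obtain ⟨w1, w2⟩ := hW.2 w hw v hv hw' hv'
  obtain ⟨E, hE⟩ : ∃ E, E = Real.exp (-(ka s * hs.getD (I.keyF (uv w v)) 0)) := ⟨_, rfl⟩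
  have hE0 : 0 < E := hE ▸ Real.exp_pos _
  rw [← hE] at cq w1 w2
  have z0 := one_le_ZZ (I := I) s k i
  have hZ : 0 < (I.mkSt s k i rt P hs).Zh := by linarith [(h.Zh_le' (P := P) hW).1]
  have hK : (0 : ℝ) < pKs s k := by exact_mod_cast pKs_pos h.s_ge
  have cmp := stage_cmp hK hZ (zero_le_one.trans z0) (stage_x_le h.s_ge) (h.two_delta hW) c0 cq
  have key := stage_hole (Z := I.ZZ s k i 0) (Z' := I.ZZ s k (i + 1) 0) (G := E * I.ZZ s k i (uv w v))
    (G' := E * I.ZZ s k (i + 1) (uv w v)) (zero_le_one.trans z0) hA (stage_tau s).1 (stage_tau s).2 r1 r2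
    (by linarith [mul_le_mul_of_nonneg_left r3 hE0.le])
    (by linarith [mul_le_mul_of_nonneg_left r4 hE0.le]) w1 w2
  rw [upd_getD _ hq hq0, cntOf_getD _ hq, cntOf_getD _ h00]
  split_ifs with hc
  · have hc' := (Nat.cast_le (α := ℝ)).2 hc
    have e : Real.exp (-(ka s * ((hs.getD (I.keyF (uv w v)) 0 + 1 * ((pJ s / 2 : ℕ) : ℤ) : ℤ) : ℝ))) *
        I.ZZ s k (i + 1) (uv w v) =
        E * I.ZZ s k (i + 1) (uv w v) / Real.exp (ka s * (pJ s / 2 : ℕ)) := by
      rw [hE, mul_div_right_comm, ← Real.exp_sub, Int.cast_add, Int.cast_mul, Int.cast_natCast]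
      congr 2; push_cast; ring
    rw [e]
    exact key.1 (cmp.1 hc')
  · have hc' := (Nat.cast_le (α := ℝ)).2 (not_le.1 hc).le
    have e : Real.exp (-(ka s * ((hs.getD (I.keyF (uv w v)) 0 + -1 * ((pJ s / 2 : ℕ) : ℤ) : ℤ) : ℝ))) *
        I.ZZ s k (i + 1) (uv w v) =
        E * I.ZZ s k (i + 1) (uv w v) * Real.exp (ka s * (pJ s / 2 : ℕ)) := by
      rw [hE, mul_right_comm, ← Real.exp_add, Int.cast_add, Int.cast_mul, Int.cast_natCast]
      congr 2; push_cast; ring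
    rw [e]
    exact key.2 (cmp.2 hc')

/-- the ratio update -/
theorem Valid.ratio_ok (h : I.Valid s k rt P) (hi : i ≤ pI s) (hW : I.HW s k i rt hs) {cA cB : ℝ}
    (hA : |cA - pKs s k * (I.Ov s k (i + 1) / (I.mkSt s k i rt P hs).Zh)| ≤ 2 / (pDn s : ℝ) * pKs s k)
    (hB : |cB - pKs s k * (I.Ov s k i / (I.mkSt s k i rt P hs).Zh)| ≤ 2 / (pDn s : ℝ) * pKs s k) :
    0 < cA ∧ 0 < cB ∧
      (1 - 3 / (16 * s * (pI s + 1) : ℝ)) * (I.Ov s k (i + 1) * cB) ≤ cA * I.Ov s k i ∧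
      cA * I.Ov s k i ≤ (1 + 3 / (16 * s * (pI s + 1) : ℝ)) * (I.Ov s k (i + 1) * cB) := by
  have z0 := one_le_ZZ (I := I) s k i
  have hZ : 0 < (I.mkSt s k i rt P hs).Zh := by linarith [(h.Zh_le' (P := P) hW).1]
  have hK : (0 : ℝ) < pKs s k := by exact_mod_cast pKs_pos h.s_ge
  obtain ⟨o1, o2⟩ := h.Ov_ge' hi
  have hδ := h.two_delta hW
  have hx : (0 : ℝ) ≤ 1 / (16 * s * (pI s + 1) : ℝ) := by positivity
  have aux : ∀ {c a : ℝ}, I.ZZ s k i 0 ≤ 2 * a →
      |c - pKs s k * (a / (I.mkSt s k i rt P hs).Zh)| ≤ 2 / (pDn s : ℝ) * pKs s k →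
      |c - pKs s k / (I.mkSt s k i rt P hs).Zh * a| ≤
        1 / (16 * s * (pI s + 1) : ℝ) * (pKs s k / (I.mkSt s k i rt P hs).Zh * a) := by
    intro c a ha hc
    rw [show pKs s k / (I.mkSt s k i rt P hs).Zh * a = pKs s k * (a / (I.mkSt s k i rt P hs).Zh) by ring]
    refine hc.trans ?_
    rw [mul_comm (pKs s k : ℝ), ← mul_assoc]
    refine mul_le_mul_of_nonneg_right (hδ.trans (mul_le_mul_of_nonneg_left ?_ hx)) hK.le
    exact div_le_div_of_nonneg_right (by linarith) hZ.le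
  have := stage_rel (by linarith) (by linarith) (div_pos hK hZ) hx (stage_x_le h.s_ge) (aux o1 hA)
    (aux o2 hB)
  rwa [mul_one_div] at this

theorem Valid.stage_ok (h : I.Valid s k rt P) (hi : i ≤ pI s) (hW : I.HW s k i rt hs) :
    avgL (2 ^ pr s) (pS s k) (fun us => ind (¬ I.StageOK s k i rt hs us)) ≤
      Real.exp (-(2 * k + 19 * s ^ 2)) := by
  obtain ⟨bad, hbad⟩ : ∃ bad : (List ℤ × ℕ → Bool) → List ℕ → Prop, bad = fun p us =>
      2 / (pDn s : ℝ) * pKs s k <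
        |((I.samples s k i hs us).countP p : ℕ) - pKs s k * (I.mkSt s k i rt P hs).mean fun X =>
          avgN (2 ^ pr s) fun u => ind (p (List.ofFn X, u) = true)| := ⟨_, rfl⟩
  have hdev : ∀ p, avgL (2 ^ pr s) (pS s k) (fun us => ind (bad p us)) ≤
      2 * Real.exp (-(2 * k + 20 * s ^ 2)) := fun p => hbad ▸ h.dev hi hW p
  calc _ ≤ avgL (2 ^ pr s) (pS s k) fun us =>
        ∑ q ∈ range (I.n * I.n), ind (bad (fun p => I.key p.1 == q) us) +
          (ind (bad (fun p => I.alpha s i p.1 p.2) us) + ind (bad (fun p => I.beta s i p.1 p.2) us)) := by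
        refine avgL_mono fun us _ => ?_
        have n1 : 0 ≤ ∑ q ∈ range (I.n * I.n), ind (bad (fun p => I.key p.1 == q) us) :=
          sum_nonneg fun _ _ => ind_nonneg _
        have n2 := ind_nonneg (bad (fun p => I.alpha s i p.1 p.2) us)
        have n3 := ind_nonneg (bad (fun p => I.beta s i p.1 p.2) us)
        have n4 := ind_le_one (¬ I.StageOK s k i rt hs us)
        by_cases b2 : bad (fun p => I.alpha s i p.1 p.2) us
        · rw [ind_of b2]; linarith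
        by_cases b3 : bad (fun p => I.beta s i p.1 p.2) us
        · rw [ind_of b3]; linarith
        by_cases b1 : ∃ q < I.n * I.n, bad (fun p => I.key p.1 == q) us
        · obtain ⟨q, hq, b1⟩ := b1
          have := single_le_sum (f := fun q => ind (bad (fun p => I.key p.1 == q) us))
            (fun _ _ => ind_nonneg _) (mem_range.2 hq)
          simp only [ind_of b1] at this
          linarith
        rw [ind_of_not (p := ¬ I.StageOK s k i rt hs us) (not_not.2 ?_)]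
        · linarith
        subst hbad
        simp only [not_lt, not_exists, not_and, beq_iff_eq] at b1 b2 b3
        rw [h.mean_alpha hW.1.2.1] at b2
        rw [h.mean_beta hi hW.1.2.1] at b3
        obtain ⟨r1, r2, r3, r4⟩ := h.ratio_ok hi hW b2 b3
        exact ⟨fun _ => h.hole_ok hW _ b1, by exact_mod_cast r1, by exact_mod_cast r2, r3, r4⟩
    _ ≤ (I.n * I.n : ℕ) * (2 * Real.exp (-(2 * k + 20 * s ^ 2))) +
        (2 * Real.exp (-(2 * k + 20 * s ^ 2)) + 2 * Real.exp (-(2 * k + 20 * s ^ 2))) := by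
        rw [avgL_add, avgL_add, avgL_sum]
        refine add_le_add ((sum_le_sum fun q _ => hdev _).trans ?_) (add_le_add (hdev _) (hdev _))
        rw [sum_const, card_range, nsmul_eq_mul]
    _ ≤ _ := by
        have h1 : ((I.n * I.n : ℕ) : ℝ) ≤ s := by exact_mod_cast h.nn_le.trans h.m_le
        have h2 : (20 : ℝ) ≤ s := by exact_mod_cast h.s_ge
        have h3 := Real.add_one_le_exp ((s : ℝ) ^ 2)
        rw [show -(2 * (k : ℝ) + 19 * s ^ 2) = s ^ 2 + -(2 * k + 20 * s ^ 2) by ring, Real.exp_add]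
        nlinarith [Real.exp_pos (-(2 * (k : ℝ) + 20 * s ^ 2)),
          mul_le_mul_of_nonneg_right (show 2 * ((I.n * I.n : ℕ) : ℝ) + 4 ≤ Real.exp (s ^ 2) by nlinarith)
            (Real.exp_pos (-(2 * (k : ℝ) + 20 * s ^ 2))).le]

theorem Valid.first_mem (h : I.Valid s k rt P) (i : ℕ) (hs : List ℤ) (us : List ℕ) {Z : List ℤ}
    (hZ : I.first s k i hs us = some Z) : ∃ D ∈ I.GS, Z = List.ofFn D := by
  have h1 := List.find?_some hZ
  obtain ⟨j, -, rfl⟩ := List.mem_map.1 (List.mem_of_find?_eq_some hZ)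
  obtain ⟨Y, -, hY⟩ := h.sample_mem i hs (blk (pb s k) j us)
  rw [hY] at h1
  exact ⟨Y, (h.goodL_ofFn Y).1 h1, hY⟩

theorem first_ne_none {us : List ℕ} (h : 0 < I.cntA s k (pI s) hs us) : I.first s k (pI s) hs us ≠ none := by
  intro e
  obtain ⟨p, hp, hp'⟩ := List.countP_pos_iff.1 h
  obtain ⟨j, hj, rfl⟩ := List.mem_map.1 hp
  simp only [alpha, if_true] at hp'
  exact List.find?_eq_none.1 e _ (List.mem_map.2 ⟨j, hj, rfl⟩) hp'

theorem Valid.stage_first (h : I.Valid s k rt P) (hW : I.HW s k (pI s) rt hs) {D : Fin I.m → ℤ}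
    (hD : D ∈ I.GS) :
    avgL (2 ^ pr s) (pS s k) (fun us => ind (I.first s k (pI s) hs us = some (List.ofFn D))) ≤
      (1 + 3 * Real.exp (-(k + 10 * s ^ 2))) / I.GS.card := by
  obtain ⟨z1, -, z3⟩ := h.Zh_le' hW
  have hZ : 0 < (I.mkSt s k (pI s) rt P hs).Zh := by linarith [one_le_ZZ (I := I) s k (pI s)]
  have hG : (1 : ℝ) ≤ I.GS.card := by exact_mod_cast card_pos.2 ⟨_, hD⟩
  obtain ⟨ε, hε⟩ : ∃ ε, ε = Real.exp (-(k + 10 * s ^ 2)) := ⟨_, rfl⟩
  have hε0 : 0 < ε := hε ▸ Real.exp_pos _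
  have hε1 : ε ≤ 1 / 3 := by
    have h2 : (20 : ℝ) ≤ s := by exact_mod_cast h.s_ge
    rw [hε, Real.exp_neg, one_div]
    refine inv_anti₀ (by norm_num) (le_trans ?_ (Real.add_one_le_exp _))
    nlinarith [Nat.cast_nonneg (α := ℝ) k]
  have hη : Real.exp (-(k + 14 * s ^ 2)) ≤ ε / (I.mkSt s k (pI s) rt P hs).Zh := by
    rw [le_div_iff₀ hZ, hε, show -((k : ℝ) + 10 * s ^ 2) = -(k + 14 * s ^ 2) + 4 * s ^ 2 by ring,
      Real.exp_add]
    exact mul_le_mul_of_nonneg_left z3 (Real.exp_pos _).le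
  have m1 := h.sample_mix le_rfl hW fun Z _ => Z = List.ofFn D
  have m2 := h.sample_mix le_rfl hW fun Z u => I.alpha s (pI s) Z u = true
  rw [h.mean_point hW.1.2.1 hD] at m1
  rw [h.mean_alpha hW.1.2.1] at m2
  simp only [alpha, Ov, if_true] at m2
  replace m1 := (_root_.abs_le.1 (m1.trans hη)).2
  replace m2 := (_root_.abs_le.1 (m2.trans hη)).1
  have h1 : 0 < 1 - ε := by linarith
  refine (first_le (N := 2 ^ pr s) (by positivity) (pKs s k) (pb s k)
    (fun us => (I.sample s k (pI s) hs us).1) I.goodL (List.ofFn D)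
    (p := (1 + ε) / (I.mkSt s k (pI s) rt P hs).Zh)
    (q := I.GS.card * (1 - ε) / (I.mkSt s k (pI s) rt P hs).Zh) (by positivity) ?_ ?_).trans ?_
  · rw [add_div]; linarith
  · have : ε / (I.mkSt s k (pI s) rt P hs).Zh ≤ I.GS.card * ε / (I.mkSt s k (pI s) rt P hs).Zh :=
      div_le_div_of_nonneg_right (by nlinarith) hZ.le
    rw [mul_sub, mul_one, sub_div]; linarith
  · rw [← hε, div_div_div_cancel_right₀ hZ.ne', div_le_div_iff₀ (by positivity) (by positivity)]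
    nlinarith [mul_le_mul_of_nonneg_left (show 1 + ε ≤ (1 + 3 * ε) * (1 - ε) by nlinarith)
      (show (0 : ℝ) ≤ I.GS.card by linarith)]

end Inst

end Crest.Agent.R309
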